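import Vale.Agent.P371.G.Iface
import Vale.Agent.P371.FE.TraceFun

/-!
# P371: elementary facts on the functional calculus of matrices
-/

open MeasureTheory Matrix Set
open scoped ENNReal ComplexOrder

namespace Vale.Agent.P371.G

variable {N : ℕ}

namespace FEm

theorem cfc_affine {W : Mat N} (hW : W.IsHermitian) (c t : ℝ) :
    cfc (fun x : ℝ => c * x + t) W = (c : ℂ) • W + (t : ℂ) • 1 := by
  rw [FE.cfc_spec hW]
  conv_rhs => rw [FE.spec hW]
  set U : Mat N := (hW.eigenvectorUnitary : Mat N) with hU
  have hUU : U * star U = 1 := Unitary.coe_mul_star_self _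
  have h1 : (diagonal fun i => ((c * hW.eigenvalues i + t : ℝ) : ℂ)) =
      (c : ℂ) • (diagonal fun i => (hW.eigenvalues i : ℂ)) + (t : ℂ) • (1 : Mat N) := by
    ext i j
    by_cases h : i = j
    · subst h
      simp
    · simp [h]
  rw [h1, Matrix.mul_add, Matrix.add_mul, Matrix.mul_smul, Matrix.mul_smul, Matrix.mul_one,
    Matrix.smul_mul, Matrix.smul_mul, hUU]

/-- the functional calculus may be computed in any orthonormal eigenbasis -/
theorem cfc_of_spec {V : Mat N} (hV : V * star V = 1) (d : Fin N → ℝ) (f : ℝ → ℝ) :
    cfc f (V * dg d * star V) = V * dg (fun i => f (d i)) * star V := by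
  have hVV : star V * V = 1 := by rw [mul_eq_one_comm]; exact hV
  have hds : ∀ d : Fin N → ℝ, star (dg d) = dg d := by
    intro d
    rw [dg, star_eq_conjTranspose, diagonal_conjTranspose]
    congr 1
    ext i
    simp
  have hA : (V * dg d * star V).IsHermitian := by
    change star (V * dg d * star V) = V * dg d * star V
    rw [star_mul, star_mul, star_star, hds, Matrix.mul_assoc]
  set A : Mat N := V * dg d * star V with hAdef
  set U : Mat N := (hA.eigenvectorUnitary : Mat N) with hU
  have hUU : star U * U = 1 := Unitary.coe_star_mul_self _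
  have hUU' : U * star U = 1 := Unitary.coe_mul_star_self _
  have h1 : star U * A * V = (diagonal fun i => (hA.eigenvalues i : ℂ)) * (star U * V) := by
    conv_lhs => rw [FE.spec hA]
    rw [← hU]
    have : star U * (U * (diagonal fun i => (hA.eigenvalues i : ℂ)) * star U) * V =
        (star U * U) * ((diagonal fun i => (hA.eigenvalues i : ℂ)) * (star U * V)) := by
      simp only [Matrix.mul_assoc]
    rw [this, hUU, Matrix.one_mul]
  have h2 : star U * A * V = (star U * V) * dg d := by
    have : star U * (V * dg d * star V) * V = (star U * V) * (dg d * (star V * V)) := by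
      simp only [Matrix.mul_assoc]
    rw [hAdef, this, hVV, Matrix.mul_one]
  have h3 : ∀ k l, (hA.eigenvalues k : ℂ) * (star U * V) k l = (star U * V) k l * (d l : ℂ) := by
    intro k l
    have h4 := congrFun (congrFun (h1.symm.trans h2) k) l
    rw [diagonal_mul, dg, mul_diagonal] at h4
    exact h4
  have h5 : (diagonal fun i => (f (hA.eigenvalues i) : ℂ)) * (star U * V) =
      (star U * V) * dg (fun i => f (d i)) := by
    ext k l
    rw [diagonal_mul, dg, mul_diagonal]
    by_cases hz : (star U * V) k l = 0
    · rw [hz]
      simp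
    · have h6 := h3 k l
      rw [mul_comm] at h6
      have h7 := mul_left_cancel₀ hz h6
      have h8 : hA.eigenvalues k = d l := by exact_mod_cast h7
      rw [h8, mul_comm]
  rw [FE.cfc_spec hA, ← hU]
  have e1 : U * (diagonal fun i => (f (hA.eigenvalues i) : ℂ)) * star U =
      U * ((diagonal fun i => (f (hA.eigenvalues i) : ℂ)) * (star U * V)) * star V := by
    simp only [Matrix.mul_assoc]
    rw [hV, Matrix.mul_one]
  rw [e1, h5]
  have e2 : U * (star U * V * dg (fun i => f (d i))) * star V =
      (U * star U) * (V * dg (fun i => f (d i)) * star V) := by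
    simp only [Matrix.mul_assoc]
  rw [e2, hUU', Matrix.one_mul]

theorem cfc_dg (d : Fin N → ℝ) (f : ℝ → ℝ) : cfc f (dg d) = dg (fun i => f (d i)) := by
  have h := cfc_of_spec (V := (1 : Mat N)) (by simp) d f
  simpa using h

/-- unitary covariance of the functional calculus -/
theorem cfc_conj {V A : Mat N} (hV : V * star V = 1) (hA : A.IsHermitian) (f : ℝ → ℝ) :
    cfc f (V * A * star V) = V * cfc f A * star V := by
  set U : Mat N := (hA.eigenvectorUnitary : Mat N) with hU
  have hUU' : U * star U = 1 := Unitary.coe_mul_star_self _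
  have hVU : (V * U) * star (V * U) = 1 := by
    rw [star_mul]
    have : V * U * (star U * star V) = V * (U * star U) * star V := by
      simp only [Matrix.mul_assoc]
    rw [this, hUU', Matrix.mul_one, hV]
  have h1 := cfc_of_spec hVU hA.eigenvalues f
  have h2 : V * U * dg hA.eigenvalues * star (V * U) = V * A * star V := by
    conv_rhs => rw [FE.spec hA]
    rw [← hU, star_mul]
    simp only [Matrix.mul_assoc]
    rfl
  have h3 : V * U * dg (fun i => f (hA.eigenvalues i)) * star (V * U) =
      V * cfc f A * star V := by
    rw [FE.cfc_spec hA, ← hU, star_mul]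
    simp only [Matrix.mul_assoc]
    rfl
  rw [h2, h3] at h1
  exact h1

theorem trPow_eq {A : Mat N} (hA : A.IsHermitian) (p : ℝ) :
    trPow A p = (cfc (fun x : ℝ => x ^ p) A).trace.re := by
  rw [trPow, dif_pos hA, FE.trace_cfc hA, Complex.ofReal_re]

theorem trPow_conj {V A : Mat N} (hV : V * star V = 1) (hA : A.IsHermitian) (p : ℝ) :
    trPow (V * A * star V) p = trPow A p := by
  have hVV : star V * V = 1 := by rw [mul_eq_one_comm]; exact hV
  have hB : (V * A * star V).IsHermitian := by
    change star (V * A * star V) = V * A * star V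
    rw [star_mul, star_mul, star_star, Matrix.mul_assoc]
    have : star A = A := hA
    rw [this]
  rw [trPow_eq hB, trPow_eq hA, cfc_conj hV hA, trace_mul_comm, ← Matrix.mul_assoc, hVV,
    Matrix.one_mul]

theorem trPow_dg (d : Fin N → ℝ) (p : ℝ) : trPow (dg d) p = ∑ j, d j ^ p := by
  have hds : (dg d).IsHermitian := by
    change star (dg d) = dg d
    rw [dg, star_eq_conjTranspose, diagonal_conjTranspose]
    congr 1
    ext i
    simp
  rw [trPow_eq hds, cfc_dg, dg, trace_diagonal, Complex.re_sum]
  rfl

theorem cfc_cfc {W : Mat N} (hW : W.IsHermitian) (f g : ℝ → ℝ) :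
    cfc f (cfc g W) = cfc (fun x => f (g x)) W := by
  have hfin : (spectrum ℝ W).Finite := by
    rw [hW.spectrum_real_eq_range_eigenvalues]
    exact Set.finite_range _
  exact (cfc_comp' f g W ((hfin.image g).continuousOn f) (hfin.continuousOn g) hW).symm

end FEm

end Vale.Agent.P371.G
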