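import Vale.Agent.P371.G.Iface

/-!
# P371: the constant `B_s = ∫_{-1}^1 (1 - z²)^s dz` in terms of the Gamma function
-/

open MeasureTheory Matrix Set
open scoped ENNReal ComplexOrder

namespace Vale.Agent.P371.G

lemma beta_int {s : ℝ} (hs : 0 < s) :
    ∫ t in (0 : ℝ)..1, (t * (1 - t)) ^ s =
      Real.Gamma (s + 1) * Real.Gamma (s + 1) / Real.Gamma (s + 1 + (s + 1)) := by
  have h := ProbabilityTheory.beta_eq_betaIntegralReal (s + 1) (s + 1) (by linarith) (by linarith)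
  unfold ProbabilityTheory.beta at h
  rw [h]
  unfold Complex.betaIntegral
  have h1 : ∀ t ∈ uIcc (0 : ℝ) 1, ((t : ℂ) ^ (((s + 1 : ℝ) : ℂ) - 1) *
      (1 - (t : ℂ)) ^ (((s + 1 : ℝ) : ℂ) - 1)) = (((t * (1 - t)) ^ s : ℝ) : ℂ) := by
    intro t ht
    rw [uIcc_of_le (by norm_num), mem_Icc] at ht
    have e : (((s + 1 : ℝ) : ℂ) - 1) = (s : ℂ) := by push_cast; ring
    rw [e, Real.mul_rpow ht.1 (by linarith [ht.2]), Complex.ofReal_mul,
      Complex.ofReal_cpow ht.1, Complex.ofReal_cpow (by linarith [ht.2])]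
    push_cast
    rfl
  rw [intervalIntegral.integral_congr h1, intervalIntegral.integral_ofReal, Complex.ofReal_re]

lemma Bs_gamma {s : ℝ} (hs : 0 < s) :
    Bs s = √Real.pi * Real.Gamma (s + 1) / Real.Gamma (s + 3 / 2) := by
  have h1 : Bs s = 2 * 4 ^ s * ∫ t in (0 : ℝ)..1, (t * (1 - t)) ^ s := by
    unfold Bs
    have h := intervalIntegral.mul_integral_comp_mul_add (a := (0 : ℝ)) (b := 1)
      (f := fun z : ℝ => (1 - z ^ 2) ^ s) 2 (-1)
    rw [show (2 : ℝ) * 0 + -1 = -1 by norm_num, show (2 : ℝ) * 1 + -1 = 1 by norm_num] at h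
    have h2 : ∀ c : ℝ, c * ∫ t in (0 : ℝ)..1, (t * (1 - t)) ^ s =
        ∫ t in (0 : ℝ)..1, c * (t * (1 - t)) ^ s := fun c =>
      (intervalIntegral.integral_const_mul c _).symm
    rw [← h, mul_assoc, h2]
    congr 1
    apply intervalIntegral.integral_congr
    intro t ht
    rw [uIcc_of_le (by norm_num), mem_Icc] at ht
    simp only
    rw [show 1 - (2 * t + -1) ^ 2 = 4 * (t * (1 - t)) by ring,
      Real.mul_rpow (by norm_num) (mul_nonneg ht.1 (by linarith [ht.2]))]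
  rw [h1, beta_int hs]
  have hd := Real.Gamma_mul_Gamma_add_half (s + 1)
  have hG1 : 0 < Real.Gamma (s + 1) := Real.Gamma_pos_of_pos (by linarith)
  have hG2 : 0 < Real.Gamma (s + 3 / 2) := Real.Gamma_pos_of_pos (by linarith)
  have hG3 : 0 < Real.Gamma (s + 1 + (s + 1)) := Real.Gamma_pos_of_pos (by linarith)
  rw [show s + 1 + 1 / 2 = s + 3 / 2 by ring, show 2 * (s + 1) = s + 1 + (s + 1) by ring] at hd
  have h4 : (4 : ℝ) ^ s * 2 ^ (1 - (s + 1 + (s + 1))) = 1 / 2 := by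
    rw [show (4 : ℝ) = 2 ^ (2 : ℝ) by norm_num, ← Real.rpow_mul (by norm_num),
      ← Real.rpow_add (by norm_num),
      show 2 * s + (1 - (s + 1 + (s + 1))) = -1 by ring, Real.rpow_neg_one]
    norm_num
  rw [mul_div_assoc', div_eq_div_iff hG3.ne' hG2.ne']
  calc 2 * 4 ^ s * (Real.Gamma (s + 1) * Real.Gamma (s + 1)) * Real.Gamma (s + 3 / 2)
      = 2 * 4 ^ s * Real.Gamma (s + 1) * (Real.Gamma (s + 1) * Real.Gamma (s + 3 / 2)) := by ring
    _ = 2 * (4 ^ s * 2 ^ (1 - (s + 1 + (s + 1)))) * √Real.pi * Real.Gamma (s + 1)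
        * Real.Gamma (s + 1 + (s + 1)) := by rw [hd]; ring
    _ = _ := by rw [h4]; ring

/-- Module M12. -/
theorem constFact : ConstFact := by
  intro s hs _
  have hG1 : 0 < Real.Gamma (s + 1) := Real.Gamma_pos_of_pos (by linarith)
  have hG2 : 0 < Real.Gamma (s + 3 / 2) := Real.Gamma_pos_of_pos (by linarith)
  unfold Cs Lcl
  rw [Bs_gamma hs, show s + 1 / 2 - 1 / 2 = s by ring, show s + 1 / 2 + 1 / 2 = 1 + s by ring,
    show s + 1 / 2 + 1 = s + 3 / 2 by ring, show s + 1 / 2 + 3 / 2 = s + 1 + 1 by ring,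
    Real.Gamma_add_one (s := s + 1) (by linarith), Real.div_rpow hs.le (by linarith),
    Real.rpow_add (by linarith : (0 : ℝ) < 1 + s), Real.rpow_one]
  have h1 : 0 < s ^ s := Real.rpow_pos_of_pos hs s
  have h2 : 0 < (1 + s) ^ s := Real.rpow_pos_of_pos (by linarith) s
  have h3 : 0 < √Real.pi := Real.sqrt_pos.2 Real.pi_pos
  have h5 : (0 : ℝ) < 1 + s := by linarith
  have h6 : (s + 1 : ℝ) ≠ 0 := by linarith
  field_simp
  ring

end Vale.Agent.P371.G
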