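import Mathlib
import Vale.Agent.P371.Defs
import Vale.Agent.P371.FE.Gibbs

/-!
# P371, general exponent: Klein inequalities and the contraction trace inequality
-/

open MeasureTheory Matrix
open scoped ENNReal ComplexOrder ComplexConjugate

namespace Vale.Agent.P371.G

open Vale.Agent.P371 Vale.Agent.P371.FE

variable {m N : ℕ}

/-- trace of a function of a Hermitian matrix -/
theorem trace_cfc {A : Matrix (Fin N) (Fin N) ℂ} (hA : A.IsHermitian) (f : ℝ → ℝ) :
    (cfc f A).trace = ((∑ i, f (hA.eigenvalues i) : ℝ) : ℂ) := by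
  have hWW : star (hA.eigenvectorUnitary : Matrix (Fin N) (Fin N) ℂ) *
      (hA.eigenvectorUnitary : Matrix (Fin N) (Fin N) ℂ) = 1 := Unitary.coe_star_mul_self _
  rw [cfc_spec hA, trace_mul_comm, ← Matrix.mul_assoc, hWW, Matrix.one_mul, trace_diagonal]
  push_cast
  rfl

/-- `trPow` is the trace of the functional calculus. -/
theorem trPow_eq_trace {A : Matrix (Fin N) (Fin N) ℂ} (hA : A.IsHermitian) (p : ℝ) :
    trPow A p = (cfc (fun x : ℝ => x ^ p) A).trace.re := by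
  rw [trace_cfc hA, Complex.ofReal_re, trPow, dif_pos hA]

/-- the overlaps `|⟨a_k, b_l⟩|²` of two eigenbases -/
noncomputable def ov {A B : Matrix (Fin N) (Fin N) ℂ} (hA : A.IsHermitian) (hB : B.IsHermitian)
    (k l : Fin N) : ℝ :=
  ‖(star (hA.eigenvectorUnitary : Matrix (Fin N) (Fin N) ℂ) *
    (hB.eigenvectorUnitary : Matrix (Fin N) (Fin N) ℂ)) k l‖ ^ 2

theorem ov_nonneg {A B : Matrix (Fin N) (Fin N) ℂ} (hA : A.IsHermitian) (hB : B.IsHermitian)
    (k l : Fin N) : 0 ≤ ov hA hB k l := by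
  unfold ov; positivity

theorem ov_symm {A B : Matrix (Fin N) (Fin N) ℂ} (hA : A.IsHermitian) (hB : B.IsHermitian)
    (k l : Fin N) : ov hA hB k l = ov hB hA l k := by
  unfold ov
  have : (star (hA.eigenvectorUnitary : Matrix (Fin N) (Fin N) ℂ) *
    (hB.eigenvectorUnitary : Matrix (Fin N) (Fin N) ℂ)) k l =
    star ((star (hB.eigenvectorUnitary : Matrix (Fin N) (Fin N) ℂ) *
    (hA.eigenvectorUnitary : Matrix (Fin N) (Fin N) ℂ)) l k) := by
    rw [← star_apply, star_mul, star_star]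
  rw [this, norm_star]

theorem ov_sum_left {A B : Matrix (Fin N) (Fin N) ℂ} (hA : A.IsHermitian) (hB : B.IsHermitian)
    (l : Fin N) : ∑ k, ov hA hB k l = 1 := by
  have hU := Unitary.coe_mul_star_self hA.eigenvectorUnitary
  have hV := Unitary.coe_mul_star_self hB.eigenvectorUnitary
  exact sum_norm_unitary (star_mul_unitary hU hV) l

theorem ov_sum_right {A B : Matrix (Fin N) (Fin N) ℂ} (hA : A.IsHermitian) (hB : B.IsHermitian)
    (k : Fin N) : ∑ l, ov hA hB k l = 1 := by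
  simp_rw [ov_symm hA hB]
  exact ov_sum_left hB hA k

/-- double spectral sum -/
theorem trace_cfc_mul {A B : Matrix (Fin N) (Fin N) ℂ} (hA : A.IsHermitian) (hB : B.IsHermitian)
    (f g : ℝ → ℝ) :
    (cfc f A * cfc g B).trace =
      ((∑ k, ∑ l, ov hA hB k l * (f (hA.eigenvalues k) * g (hB.eigenvalues l)) : ℝ) : ℂ) := by
  rw [cfc_spec hA, cfc_spec hB, trace_two]
  congr 1
  refine Finset.sum_congr rfl fun k _ => Finset.sum_congr rfl fun l _ => ?_
  rw [ov]
  ring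

/-- **Klein's inequality**, general form. -/
theorem klein {A B : Matrix (Fin N) (Fin N) ℂ} (hA : A.IsHermitian) (hB : B.IsHermitian)
    {f g : ℝ → ℝ}
    (h : ∀ k l, 0 ≤ f (hA.eigenvalues k) - f (hB.eigenvalues l) -
      (hA.eigenvalues k - hB.eigenvalues l) * g (hB.eigenvalues l)) :
    ((A - B) * cfc g B).trace.re ≤ (cfc f A).trace.re - (cfc f B).trace.re := by
  have e1 : (cfc f A).trace.re = ∑ k, ∑ l, ov hA hB k l * f (hA.eigenvalues k) := by
    rw [trace_cfc hA, Complex.ofReal_re]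
    refine Finset.sum_congr rfl fun k _ => ?_
    rw [← Finset.sum_mul, ov_sum_right, one_mul]
  have e2 : (cfc f B).trace.re = ∑ k, ∑ l, ov hA hB k l * f (hB.eigenvalues l) := by
    rw [trace_cfc hB, Complex.ofReal_re, Finset.sum_comm]
    refine Finset.sum_congr rfl fun l _ => ?_
    rw [← Finset.sum_mul, ov_sum_left, one_mul]
  have e3 : (A * cfc g B).trace.re =
      ∑ k, ∑ l, ov hA hB k l * (hA.eigenvalues k * g (hB.eigenvalues l)) := by
    have := trace_cfc_mul hA hB id g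
    rw [cfc_id ℝ A hA.isSelfAdjoint] at this
    rw [this, Complex.ofReal_re]
    rfl
  have e4 : (B * cfc g B).trace.re =
      ∑ k, ∑ l, ov hA hB k l * (hB.eigenvalues l * g (hB.eigenvalues l)) := by
    have h1 : B * cfc g B = cfc (fun x => x * g x) B := by
      rw [cfc_mul (fun x => x) g B (by fun_prop) (by
        rw [continuousOn_iff_continuous_domRestrict]
        exact continuous_of_discreteTopology), cfc_id' ℝ B hB.isSelfAdjoint]
    rw [h1, trace_cfc hB, Complex.ofReal_re, Finset.sum_comm]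
    refine Finset.sum_congr rfl fun l _ => ?_
    rw [← Finset.sum_mul, ov_sum_left, one_mul]
  rw [Matrix.sub_mul, trace_sub, Complex.sub_re, e1, e2, e3, e4]
  rw [← Finset.sum_sub_distrib, ← Finset.sum_sub_distrib]
  refine Finset.sum_le_sum fun k _ => ?_
  rw [← Finset.sum_sub_distrib, ← Finset.sum_sub_distrib]
  refine Finset.sum_le_sum fun l _ => ?_
  have := mul_nonneg (ov_nonneg hA hB k l) (h k l)
  linarith [this, mul_sub (ov hA hB k l) (f (hA.eigenvalues k)) (f (hB.eigenvalues l))]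

theorem bern_ge {a b γ : ℝ} (ha : 0 ≤ a) (hb : 0 ≤ b) (hγ : 1 ≤ γ) :
    0 ≤ a ^ γ - b ^ γ - (a - b) * (γ * b ^ (γ - 1)) := by
  rcases hb.eq_or_lt with rfl | hb
  · rcases hγ.eq_or_lt with rfl | hγ
    · simp
    · rw [Real.zero_rpow (by linarith), Real.zero_rpow (by linarith)]
      have := Real.rpow_nonneg ha γ
      linarith
  · have h := one_add_mul_self_le_rpow_one_add (s := a / b - 1) (by
      have := div_nonneg ha hb.le
      linarith) hγ
    have h1 : (1 + (a / b - 1)) = a / b := by ring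
    rw [h1, Real.div_rpow ha hb.le] at h
    have h2 : 0 < b ^ γ := Real.rpow_pos_of_pos hb γ
    rw [le_div_iff₀ h2] at h
    have h3 : b ^ γ = b ^ (γ - 1) * b := by
      rw [← Real.rpow_add_one hb.ne']
      congr 1
      ring
    have h4 : (1 + γ * (a / b - 1)) * b ^ γ = b ^ γ + (a - b) * (γ * b ^ (γ - 1)) := by
      rw [h3]
      field_simp
    rw [h4] at h
    linarith

theorem bern_le {a b γ : ℝ} (ha : 0 ≤ a) (hb : 0 < b) (hγ0 : 0 ≤ γ) (hγ : γ ≤ 1) :
    0 ≤ -a ^ γ - -b ^ γ - (a - b) * (-(γ * b ^ (γ - 1))) := by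
  have h := rpow_one_add_le_one_add_mul_self (s := a / b - 1) (by
      have := div_nonneg ha hb.le
      linarith) hγ0 hγ
  have h1 : (1 + (a / b - 1)) = a / b := by ring
  rw [h1, Real.div_rpow ha hb.le] at h
  have h2 : 0 < b ^ γ := Real.rpow_pos_of_pos hb γ
  rw [div_le_iff₀ h2] at h
  have h3 : b ^ γ = b ^ (γ - 1) * b := by
    rw [← Real.rpow_add_one hb.ne']
    congr 1
    ring
  have h4 : (1 + γ * (a / b - 1)) * b ^ γ = b ^ γ + (a - b) * (γ * b ^ (γ - 1)) := by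
    rw [h3]
    field_simp
  rw [h4] at h
  linarith

/-- Klein's inequality for the convex function `x ^ γ`, `γ ≥ 1`:
`tr B^γ + γ tr ((A - B) B^(γ-1)) ≤ tr A^γ`. -/
theorem klein_ge {A B : Matrix (Fin N) (Fin N) ℂ} (hA : A.PosSemidef) (hB : B.PosSemidef)
    {γ : ℝ} (hγ : 1 ≤ γ) :
    trPow B γ + γ * ((A - B) * cfc (fun x : ℝ => x ^ (γ - 1)) B).trace.re ≤ trPow A γ := by
  have h := klein hA.1 hB.1 (f := fun x => x ^ γ) (g := fun x => γ * x ^ (γ - 1))
    (fun k l => bern_ge (hA.eigenvalues_nonneg k) (hB.eigenvalues_nonneg l) hγ)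
  rw [← trPow_eq_trace hA.1, ← trPow_eq_trace hB.1] at h
  have h1 : cfc (fun x : ℝ => γ * x ^ (γ - 1)) B =
      (γ : ℂ) • cfc (fun x : ℝ => x ^ (γ - 1)) B := by
    have h2 := cfc_const_mul γ (fun x : ℝ => x ^ (γ - 1)) B (by
      rw [continuousOn_iff_continuous_domRestrict]
      exact continuous_of_discreteTopology)
    rw [h2]
    ext i j
    simp
  rw [h1, Matrix.mul_smul, trace_smul, smul_eq_mul, Complex.re_ofReal_mul] at h
  linarith

/-- Klein's inequality for the concave function `x ^ γ`, `0 ≤ γ ≤ 1`: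
`tr A^γ ≤ tr B^γ + γ tr ((A - B) B^(γ-1))`. -/
theorem klein_le {A B : Matrix (Fin N) (Fin N) ℂ} (hA : A.PosSemidef) (hB : B.PosDef)
    {γ : ℝ} (hγ0 : 0 ≤ γ) (hγ : γ ≤ 1) :
    trPow A γ ≤ trPow B γ + γ * ((A - B) * cfc (fun x : ℝ => x ^ (γ - 1)) B).trace.re := by
  have h := klein hA.1 hB.1 (f := fun x => -x ^ γ) (g := fun x => -(γ * x ^ (γ - 1)))
    (fun k l => bern_le (hA.eigenvalues_nonneg k) (hB.eigenvalues_pos l) hγ0 hγ)
  have hc : ∀ f : ℝ → ℝ, ∀ A : Matrix (Fin N) (Fin N) ℂ, ContinuousOn f (spectrum ℝ A) := by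
    intro f A
    rw [continuousOn_iff_continuous_domRestrict]
    exact continuous_of_discreteTopology
  rw [cfc_neg, cfc_neg, cfc_neg] at h
  have h1 : cfc (fun x : ℝ => γ * x ^ (γ - 1)) B =
      (γ : ℂ) • cfc (fun x : ℝ => x ^ (γ - 1)) B := by
    have h2 := cfc_const_mul γ (fun x : ℝ => x ^ (γ - 1)) B (hc _ _)
    rw [h2]
    ext i j
    simp
  rw [h1, Matrix.mul_neg, Matrix.mul_smul, trace_neg, trace_neg, trace_neg, trace_smul,
    smul_eq_mul, Complex.neg_re, Complex.neg_re, Complex.neg_re, Complex.re_ofReal_mul,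
    ← trPow_eq_trace hA.1, ← trPow_eq_trace hB.1] at h
  linarith

/-- power of a sub-convex combination -/
theorem jensen_sub {ι : Type*} (s : Finset ι) {r w : ι → ℝ} (hr : ∀ i, 0 ≤ r i)
    (hw : ∀ i, 0 ≤ w i) (h1 : ∑ i ∈ s, r i ≤ 1) {p : ℝ} (hp : 1 ≤ p) :
    (∑ i ∈ s, r i * w i) ^ p ≤ ∑ i ∈ s, r i * w i ^ p := by
  have h := Real.inner_le_weight_mul_Lp_of_nonneg s hp r w hr hw
  have hp0 : 0 < p := by linarith
  have hR : 0 ≤ ∑ i ∈ s, r i := Finset.sum_nonneg fun i _ => hr i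
  have hS : 0 ≤ ∑ i ∈ s, r i * w i ^ p :=
    Finset.sum_nonneg fun i _ => mul_nonneg (hr i) (Real.rpow_nonneg (hw i) p)
  have hT : 0 ≤ ∑ i ∈ s, r i * w i := Finset.sum_nonneg fun i _ => mul_nonneg (hr i) (hw i)
  have h2 : (∑ i ∈ s, r i) ^ (1 - p⁻¹) ≤ 1 :=
    Real.rpow_le_one hR h1 (by
      have := inv_le_one_of_one_le₀ hp
      linarith)
  have h3 : ∑ i ∈ s, r i * w i ≤ (∑ i ∈ s, r i * w i ^ p) ^ p⁻¹ :=
    h.trans (by
      have := mul_le_mul_of_nonneg_right h2 (Real.rpow_nonneg hS p⁻¹)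
      linarith)
  calc (∑ i ∈ s, r i * w i) ^ p ≤ ((∑ i ∈ s, r i * w i ^ p) ^ p⁻¹) ^ p :=
        Real.rpow_le_rpow hT h3 hp0.le
    _ = ∑ i ∈ s, r i * w i ^ p := by
        rw [← Real.rpow_mul hS, inv_mul_cancel₀ hp0.ne', Real.rpow_one]

/-- If `Q Q* ≤ 1` then `Q* Q ≤ 1`. -/
theorem contraction_symm {Q : Matrix (Fin m) (Fin N) ℂ} (hQ : (1 - Q * Qᴴ).PosSemidef) :
    (1 - Qᴴ * Q).PosSemidef := by
  have h1 : (1 - Qᴴ * Q) * (1 - Qᴴ * Q) + Qᴴ * (1 - Q * Qᴴ) * Q = 1 - Qᴴ * Q := by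
    simp only [Matrix.mul_sub, Matrix.sub_mul, Matrix.mul_one, Matrix.one_mul, Matrix.mul_assoc]
    abel
  rw [← h1]
  refine PosSemidef.add ?_ (hQ.conjTranspose_mul_mul_same Q)
  have h2 : (1 - Qᴴ * Q)ᴴ = 1 - Qᴴ * Q := by
    rw [conjTranspose_sub, conjTranspose_one, conjTranspose_mul, conjTranspose_conjTranspose]
  have h3 := posSemidef_conjTranspose_mul_self (1 - Qᴴ * Q)
  rwa [h2] at h3

theorem diag_le_one {n : ℕ} {M V : Matrix (Fin n) (Fin n) ℂ} (hM : (1 - M).PosSemidef)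
    (hV : Vᴴ * V = 1) (k : Fin n) : ((Vᴴ * M * V) k k).re ≤ 1 := by
  have h1 := hM.conjTranspose_mul_mul_same V
  have h2 := (Complex.le_def.1 (h1.diag_nonneg (i := k))).1
  rw [Matrix.mul_sub, Matrix.mul_one, Matrix.sub_mul, hV, Matrix.sub_apply, Matrix.one_apply_eq,
    Complex.sub_re, Complex.one_re, Complex.zero_re] at h2
  linarith

theorem normsq_row {m N : ℕ} (R : Matrix (Fin m) (Fin N) ℂ) (i : Fin m) :
    ∑ k, ‖R i k‖ ^ 2 = ((R * Rᴴ) i i).re := by
  rw [Matrix.mul_apply, Complex.re_sum]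
  refine Finset.sum_congr rfl fun k _ => ?_
  rw [conjTranspose_apply, ← Complex.normSq_eq_norm_sq, RCLike.star_def, Complex.mul_conj,
    Complex.ofReal_re]

theorem normsq_col {m N : ℕ} (R : Matrix (Fin m) (Fin N) ℂ) (k : Fin N) :
    ∑ i, ‖R i k‖ ^ 2 = ((Rᴴ * R) k k).re := by
  rw [Matrix.mul_apply, Complex.re_sum]
  refine Finset.sum_congr rfl fun i _ => ?_
  rw [conjTranspose_apply, ← Complex.normSq_eq_norm_sq, RCLike.star_def, mul_comm,
    Complex.mul_conj, Complex.ofReal_re]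

/-- **Contraction trace inequality** (Jensen): `tr (Q* W Q)^p ≤ tr W^p` for `p ≥ 1` and a
rectangular contraction `Q`. -/
theorem trPow_contraction {W : Matrix (Fin m) (Fin m) ℂ} (hW : W.PosSemidef)
    {Q : Matrix (Fin m) (Fin N) ℂ} (hQ : (1 - Q * Qᴴ).PosSemidef) {p : ℝ} (hp : 1 ≤ p) :
    trPow (Qᴴ * W * Q) p ≤ trPow W p := by
  have hA : (Qᴴ * W * Q).PosSemidef := hW.conjTranspose_mul_mul_same Q
  rw [trPow, dif_pos hA.1, trPow, dif_pos hW.1]
  set V : Matrix (Fin N) (Fin N) ℂ := (hA.1.eigenvectorUnitary : Matrix (Fin N) (Fin N) ℂ)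
    with hV
  set U : Matrix (Fin m) (Fin m) ℂ := (hW.1.eigenvectorUnitary : Matrix (Fin m) (Fin m) ℂ)
    with hU
  have hVV : Vᴴ * V = 1 := Unitary.coe_star_mul_self hA.1.eigenvectorUnitary
  have hUU : Uᴴ * U = 1 := Unitary.coe_star_mul_self hW.1.eigenvectorUnitary
  have hVV' : V * Vᴴ = 1 := Unitary.coe_mul_star_self hA.1.eigenvectorUnitary
  have hUU' : U * Uᴴ = 1 := Unitary.coe_mul_star_self hW.1.eigenvectorUnitary
  have sA := spec hA.1
  have sW := spec hW.1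
  rw [← hV, star_eq_conjTranspose] at sA
  rw [← hU, star_eq_conjTranspose] at sW
  set R : Matrix (Fin m) (Fin N) ℂ := Uᴴ * Q * V with hR
  have e1 : ∀ k, hA.1.eigenvalues k = ∑ i, ‖R i k‖ ^ 2 * hW.1.eigenvalues i := by
    intro k
    have h1 : Vᴴ * (Qᴴ * W * Q) * V = diagonal (fun i => (hA.1.eigenvalues i : ℂ)) := by
      conv_lhs => rw [sA]
      calc Vᴴ * (V * diagonal (fun i => (hA.1.eigenvalues i : ℂ)) * Vᴴ) * V
          = (Vᴴ * V) * diagonal (fun i => (hA.1.eigenvalues i : ℂ)) * (Vᴴ * V) := by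
            simp only [Matrix.mul_assoc]
        _ = _ := by rw [hVV, Matrix.one_mul, Matrix.mul_one]
    have h2 : Vᴴ * (Qᴴ * W * Q) * V =
        Rᴴ * diagonal (fun i => (hW.1.eigenvalues i : ℂ)) * R := by
      conv_lhs => rw [sW]
      rw [hR, conjTranspose_mul, conjTranspose_mul, conjTranspose_conjTranspose]
      simp only [Matrix.mul_assoc]
    rw [h1] at h2
    have h3 := congrFun (congrFun h2 k) k
    rw [diagonal_apply_eq, Matrix.mul_apply] at h3
    have h4 := congrArg Complex.re h3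
    rw [Complex.ofReal_re, Complex.re_sum] at h4
    rw [h4]
    refine Finset.sum_congr rfl fun i _ => ?_
    rw [mul_diagonal, conjTranspose_apply, ← Complex.normSq_eq_norm_sq]
    have : star (R i k) * (hW.1.eigenvalues i : ℂ) * R i k =
        ((Complex.normSq (R i k) * hW.1.eigenvalues i : ℝ) : ℂ) := by
      push_cast
      rw [← Complex.mul_conj]
      simp only [RCLike.star_def]
      ring
    rw [this, Complex.ofReal_re]
  have e2 : ∀ k, ∑ i, ‖R i k‖ ^ 2 ≤ 1 := by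
    intro k
    rw [normsq_col]
    have h1 : Rᴴ * R = Vᴴ * (Qᴴ * Q) * V := by
      rw [hR, conjTranspose_mul, conjTranspose_mul, conjTranspose_conjTranspose]
      calc Vᴴ * (Qᴴ * U) * (Uᴴ * Q * V) = Vᴴ * (Qᴴ * (U * Uᴴ) * Q) * V := by
            simp only [Matrix.mul_assoc]
        _ = _ := by rw [hUU', Matrix.mul_one]
    rw [h1]
    exact diag_le_one (contraction_symm hQ) hVV k
  have e3 : ∀ i, ∑ k, ‖R i k‖ ^ 2 ≤ 1 := by
    intro i
    rw [normsq_row]
    have h1 : R * Rᴴ = Uᴴ * (Q * Qᴴ) * U := by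
      rw [hR, conjTranspose_mul, conjTranspose_mul, conjTranspose_conjTranspose]
      calc Uᴴ * Q * V * (Vᴴ * (Qᴴ * U)) = Uᴴ * (Q * (V * Vᴴ) * Qᴴ) * U := by
            simp only [Matrix.mul_assoc]
        _ = _ := by rw [hVV', Matrix.mul_one]
    rw [h1]
    exact diag_le_one hQ hUU i
  calc ∑ k, hA.1.eigenvalues k ^ p
      = ∑ k, (∑ i, ‖R i k‖ ^ 2 * hW.1.eigenvalues i) ^ p := by
        refine Finset.sum_congr rfl fun k _ => ?_
        rw [← e1 k]
    _ ≤ ∑ k, ∑ i, ‖R i k‖ ^ 2 * hW.1.eigenvalues i ^ p := by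
        refine Finset.sum_le_sum fun k _ => ?_
        exact jensen_sub _ (fun i => by positivity) (fun i => hW.eigenvalues_nonneg i) (e2 k) hp
    _ = ∑ i, (∑ k, ‖R i k‖ ^ 2) * hW.1.eigenvalues i ^ p := by
        rw [Finset.sum_comm]
        refine Finset.sum_congr rfl fun i _ => ?_
        rw [Finset.sum_mul]
    _ ≤ ∑ i, 1 * hW.1.eigenvalues i ^ p := by
        refine Finset.sum_le_sum fun i _ => ?_
        exact mul_le_mul_of_nonneg_right (e3 i) (Real.rpow_nonneg (hW.eigenvalues_nonneg i) p)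
    _ = ∑ i, hW.1.eigenvalues i ^ p := by simp

end Vale.Agent.P371.G
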