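import Vale.Agent.P371.G.Iface
import Vale.Agent.P371.G.Klein

/-!
# P371, general exponent: matrix inequalities for module M9
-/

open MeasureTheory Matrix Set
open scoped ENNReal ComplexOrder ComplexConjugate

namespace Vale.Agent.P371.G

open Vale.Agent.P371 Vale.Agent.P371.FE

variable {m N : ℕ}

/-! ## Functional calculus -/

theorem cfc_cont (f : ℝ → ℝ) (A : Mat N) : ContinuousOn f (spectrum ℝ A) := by
  rw [continuousOn_iff_continuous_domRestrict]
  exact continuous_of_discreteTopology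

theorem cfc_herm {A : Mat N} (f : ℝ → ℝ) : (cfc f A).IsHermitian :=
  cfc_predicate f A

theorem spec_nonneg {A : Mat N} (hA : A.PosSemidef) {x : ℝ} (hx : x ∈ spectrum ℝ A) : 0 ≤ x := by
  obtain ⟨i, rfl⟩ := (hA.1.spectrum_real_eq_range_eigenvalues ▸ hx : x ∈ range hA.1.eigenvalues)
  exact hA.eigenvalues_nonneg i

theorem spec_pos {A : Mat N} (hA : A.PosDef) {x : ℝ} (hx : x ∈ spectrum ℝ A) : 0 < x := by
  obtain ⟨i, rfl⟩ := (hA.1.spectrum_real_eq_range_eigenvalues ▸ hx : x ∈ range hA.1.eigenvalues)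
  exact hA.eigenvalues_pos i

theorem cfc_psd {A : Mat N} (hA : A.IsHermitian) {f : ℝ → ℝ} (hf : ∀ x ∈ spectrum ℝ A, 0 ≤ f x) :
    (cfc f A).PosSemidef := by
  rw [cfc_spec hA]
  have h1 : (diagonal (fun i => (f (hA.eigenvalues i) : ℂ))).PosSemidef := by
    rw [posSemidef_diagonal_iff]
    intro i
    rw [Complex.zero_le_real]
    exact hf _ (hA.spectrum_real_eq_range_eigenvalues ▸ mem_range_self i)
  exact h1.mul_mul_conjTranspose_same _

theorem cfc_pd {A : Mat N} (hA : A.IsHermitian) {f : ℝ → ℝ} (hf : ∀ x ∈ spectrum ℝ A, 0 < f x) :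
    (cfc f A).PosDef := by
  rw [cfc_spec hA]
  have h1 : (diagonal (fun i => (f (hA.eigenvalues i) : ℂ))).PosDef := by
    rw [posDef_diagonal_iff]
    intro i
    rw [Complex.zero_lt_real]
    exact hf _ (hA.spectrum_real_eq_range_eigenvalues ▸ mem_range_self i)
  have hU : IsUnit (hA.eigenvectorUnitary : Mat N) := by
    rw [isUnit_iff_exists]
    exact ⟨star (hA.eigenvectorUnitary : Mat N), Unitary.coe_mul_star_self _,
      Unitary.coe_star_mul_self _⟩
  rw [star_eq_conjTranspose]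
  exact (IsUnit.posDef_star_right_conjugate_iff hU).2 h1

/-- the trace of a product of positive semidefinite matrices is nonnegative -/
theorem trace_mul_nonneg {A B : Mat N} (hA : A.PosSemidef) (hB : B.PosSemidef) :
    0 ≤ (A * B).trace.re := by
  have h := trace_cfc_mul hA.1 hB.1 id id
  rw [cfc_id ℝ A hA.1.isSelfAdjoint, cfc_id ℝ B hB.1.isSelfAdjoint] at h
  rw [h, Complex.ofReal_re]
  refine Finset.sum_nonneg fun k _ => Finset.sum_nonneg fun l _ => ?_
  exact mul_nonneg (ov_nonneg _ _ _ _)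
    (mul_nonneg (hA.eigenvalues_nonneg k) (hB.eigenvalues_nonneg l))

theorem trace_mul_mono {A B C : Mat N} (hC : C.PosSemidef) (h : (B - A).PosSemidef) :
    (C * A).trace.re ≤ (C * B).trace.re := by
  have h1 := trace_mul_nonneg hC h
  rw [Matrix.mul_sub, trace_sub, Complex.sub_re] at h1
  linarith

/-! ## The regularised polar factor -/

/-- `(ε + |x|)^{-1/2}` -/
noncomputable def fe (ε x : ℝ) : ℝ := (√(ε + |x|))⁻¹

theorem fe_continuous {ε : ℝ} (hε : 0 < ε) : Continuous (fe ε) := by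
  unfold fe
  refine Continuous.inv₀ (by fun_prop) fun x => ?_
  have : 0 < ε + |x| := by positivity
  exact (Real.sqrt_pos.2 this).ne'

theorem fe_sq {ε x : ℝ} (hε : 0 < ε) (hx : 0 ≤ x) : fe ε x * fe ε x = (ε + x)⁻¹ := by
  unfold fe
  rw [abs_of_nonneg hx, ← mul_inv, Real.mul_self_sqrt (by linarith)]

/-- `Q = (ε + T T*)^{-1/2} T` -/
noncomputable def Qe (ε : ℝ) (T : Matrix (Fin m) (Fin N) ℂ) : Matrix (Fin m) (Fin N) ℂ :=
  cfc (fe ε) (T * Tᴴ) * T

theorem Qe_mul_conj (ε : ℝ) (T : Matrix (Fin m) (Fin N) ℂ) :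
    Qe ε T * (Qe ε T)ᴴ = cfc (fun x => fe ε x * x * fe ε x) (T * Tᴴ) := by
  have hM : (T * Tᴴ).PosSemidef := posSemidef_self_mul_conjTranspose T
  have h1 : cfc (fun x => fe ε x * x * fe ε x) (T * Tᴴ) =
      cfc (fe ε) (T * Tᴴ) * (T * Tᴴ) * cfc (fe ε) (T * Tᴴ) := by
    rw [cfc_mul (fun x => fe ε x * x) (fe ε) _ (cfc_cont _ _) (cfc_cont _ _),
      cfc_mul (fe ε) (fun x => x) _ (cfc_cont _ _) (cfc_cont _ _), cfc_id' ℝ _ hM.1.isSelfAdjoint]
  rw [h1, Qe, conjTranspose_mul, (cfc_herm (A := T * Tᴴ) (fe ε)).eq]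
  simp only [Matrix.mul_assoc]

/-- (a) `Q Q* ≤ 1` -/
theorem Qe_contraction {ε : ℝ} (hε : 0 < ε) (T : Matrix (Fin m) (Fin N) ℂ) :
    (1 - Qe ε T * (Qe ε T)ᴴ).PosSemidef := by
  have hM : (T * Tᴴ).PosSemidef := posSemidef_self_mul_conjTranspose T
  have h1 : (1 : Mat m) - Qe ε T * (Qe ε T)ᴴ =
      cfc (fun x => 1 - fe ε x * x * fe ε x) (T * Tᴴ) := by
    rw [Qe_mul_conj, cfc_sub (fun _ => (1 : ℝ)) (fun x => fe ε x * x * fe ε x) _
      (cfc_cont _ _) (cfc_cont _ _), cfc_const_one ℝ _ hM.1.isSelfAdjoint]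
  rw [h1]
  refine cfc_psd hM.1 fun x hx => ?_
  have hx0 := spec_nonneg hM hx
  have h2 : fe ε x * x * fe ε x = x / (ε + x) := by
    rw [mul_right_comm, fe_sq hε hx0]
    ring
  rw [h2, sub_nonneg, div_le_one (by linarith)]
  linarith

/-- (b) `Q` is a continuous function of `T` -/
theorem Qe_continuous (hfc : FcContFact) {ε : ℝ} (hε : 0 < ε) :
    Continuous (fun T : Matrix (Fin m) (Fin N) ℂ => Qe ε T) := by
  have h1 := hfc.2 m (fe ε) (fe_continuous hε)
  have h2 : Continuous fun T : Matrix (Fin m) (Fin N) ℂ => T * Tᴴ := by fun_prop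
  have h3 : Continuous fun T : Matrix (Fin m) (Fin N) ℂ => cfc (fe ε) (T * Tᴴ) := by
    have := h1.comp_continuous h2 (fun T => (posSemidef_self_mul_conjTranspose T).1)
    exact this
  unfold Qe
  exact h3.matrix_mul continuous_id

/-- `Q` and the mass: `tr (Q* W Q T* T) ≥ tr (W T T*) - ε tr W`. -/
theorem Qe_trace {ε : ℝ} (hε : 0 < ε) (T : Matrix (Fin m) (Fin N) ℂ) {W : Mat m}
    (hW : W.PosSemidef) :
    (W * (T * Tᴴ)).trace.re - ε * W.trace.re ≤
      (((Qe ε T)ᴴ * W * Qe ε T) * (Tᴴ * T)).trace.re := by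
  have hM : (T * Tᴴ).PosSemidef := posSemidef_self_mul_conjTranspose T
  set F : Mat m := cfc (fe ε) (T * Tᴴ) with hF
  have hFh : Fᴴ = F := (cfc_herm (A := T * Tᴴ) (fe ε)).eq
  have h1 : (((Qe ε T)ᴴ * W * Qe ε T) * (Tᴴ * T)).trace =
      (W * (F * (T * Tᴴ) * (T * Tᴴ) * F)).trace := by
    rw [Qe, ← hF, conjTranspose_mul, hFh]
    calc (Tᴴ * F * W * (F * T) * (Tᴴ * T)).trace
        = (Tᴴ * (F * W * (F * T) * (Tᴴ * T))).trace := by simp only [Matrix.mul_assoc]
      _ = (F * W * (F * T) * (Tᴴ * T) * Tᴴ).trace := by rw [trace_mul_comm]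
      _ = (F * (W * (F * T) * (Tᴴ * T) * Tᴴ)).trace := by simp only [Matrix.mul_assoc]
      _ = (W * (F * T) * (Tᴴ * T) * Tᴴ * F).trace := by rw [trace_mul_comm]
      _ = _ := by simp only [Matrix.mul_assoc]
  have h2 : F * (T * Tᴴ) * (T * Tᴴ) * F =
      cfc (fun x => fe ε x * x * x * fe ε x) (T * Tᴴ) := by
    rw [cfc_mul (fun x => fe ε x * x * x) (fe ε) _ (cfc_cont _ _) (cfc_cont _ _),
      cfc_mul (fun x => fe ε x * x) (fun x => x) _ (cfc_cont _ _) (cfc_cont _ _),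
      cfc_mul (fe ε) (fun x => x) _ (cfc_cont _ _) (cfc_cont _ _), cfc_id' ℝ _ hM.1.isSelfAdjoint]
  have h3 : T * Tᴴ - (ε : ℂ) • (1 : Mat m) = cfc (fun x => x - ε) (T * Tᴴ) := by
    rw [cfc_sub (fun x : ℝ => x) (fun _ => ε) _ (cfc_cont _ _) (cfc_cont _ _),
      cfc_id' ℝ _ hM.1.isSelfAdjoint, cfc_const ε _ hM.1.isSelfAdjoint]
    congr 1
    ext i j
    rw [Matrix.algebraMap_matrix_apply]
    by_cases hij : i = j
    · simp [hij]
    · simp [hij]
  have h4 : (F * (T * Tᴴ) * (T * Tᴴ) * F - (T * Tᴴ - (ε : ℂ) • (1 : Mat m))).PosSemidef := by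
    rw [h2, h3, ← cfc_sub _ _ _ (cfc_cont _ _) (cfc_cont _ _)]
    refine cfc_psd hM.1 fun x hx => ?_
    have hx0 := spec_nonneg hM hx
    have h5 : fe ε x * x * x * fe ε x = x * x / (ε + x) := by
      rw [show fe ε x * x * x * fe ε x = (fe ε x * fe ε x) * (x * x) by ring, fe_sq hε hx0]
      ring
    rw [h5, sub_nonneg, le_div_iff₀ (by linarith)]
    nlinarith
  have h6 := trace_mul_mono hW h4
  rw [h1]
  refine le_trans (le_of_eq ?_) h6
  rw [Matrix.mul_sub, trace_sub, Complex.sub_re, Matrix.mul_smul, Matrix.mul_one, trace_smul,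
    smul_eq_mul, Complex.re_ofReal_mul]

theorem Qe_psd (ε : ℝ) (T : Matrix (Fin m) (Fin N) ℂ) {W : Mat m} (hW : W.PosSemidef) :
    ((Qe ε T)ᴴ * W * Qe ε T).PosSemidef := hW.conjTranspose_mul_mul_same _

/-- (d) norm bound -/
theorem Qe_bound {ε : ℝ} (hε : 0 < ε) (T : Matrix (Fin m) (Fin N) ℂ) {W : Mat m} {M : ℝ}
    (hM : 0 ≤ M) (hW : ((M : ℂ) • (1 : Mat m) - W).PosSemidef) :
    ((M : ℂ) • (1 : Mat N) - (Qe ε T)ᴴ * W * Qe ε T).PosSemidef := by
  have h1 := hW.conjTranspose_mul_mul_same (Qe ε T)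
  have h2 := (contraction_symm (Qe_contraction hε T)).smul (a := (M : ℂ)) (by
    rw [Complex.zero_le_real]; exact hM)
  have h3 := h1.add h2
  convert h3 using 1
  simp only [Matrix.mul_sub, Matrix.sub_mul, Matrix.mul_smul, Matrix.smul_mul, Matrix.mul_one,
    smul_sub]
  abel

/-! ## Powers of sums -/

theorem rpow_add_le {a b η p : ℝ} (ha : 0 ≤ a) (hb : 0 ≤ b) (hη : 0 < η) (hp : 1 ≤ p) :
    (a + b) ^ p ≤ (1 + η) ^ (p - 1) * a ^ p + (1 + 1 / η) ^ (p - 1) * b ^ p := by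
  have h1 : 0 < 1 + η := by linarith
  have hx : (1 + η) * a ∈ Ici (0 : ℝ) := mem_Ici.2 (by positivity)
  have hy : (1 + 1 / η) * b ∈ Ici (0 : ℝ) := mem_Ici.2 (by positivity)
  have hq1 : 0 ≤ 1 / (1 + η) := by positivity
  have hq2 : 0 ≤ η / (1 + η) := by positivity
  have hq3 : 1 / (1 + η) + η / (1 + η) = 1 := by field_simp
  have hc := (convexOn_rpow hp).2 hx hy hq1 hq2 hq3
  simp only [smul_eq_mul] at hc
  have e1 : 1 / (1 + η) * ((1 + η) * a) + η / (1 + η) * ((1 + 1 / η) * b) = a + b := by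
    field_simp
    ring
  rw [e1, Real.mul_rpow h1.le ha, Real.mul_rpow (by positivity) hb] at hc
  have e2 : (1 + η) ^ p = (1 + η) ^ (p - 1) * (1 + η) := by
    rw [← Real.rpow_add_one h1.ne']
    congr 1
    ring
  have e3 : (1 + 1 / η) ^ p = (1 + 1 / η) ^ (p - 1) * (1 + 1 / η) := by
    rw [← Real.rpow_add_one (by positivity)]
    congr 1
    ring
  rw [e2, e3] at hc
  refine hc.trans (le_of_eq ?_)
  have e4 : η / (1 + η) * (1 + 1 / η) = 1 := by field_simp; ring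
  have e5 : 1 / (1 + η) * (1 + η) = 1 := by field_simp
  calc 1 / (1 + η) * ((1 + η) ^ (p - 1) * (1 + η) * a ^ p) +
        η / (1 + η) * ((1 + 1 / η) ^ (p - 1) * (1 + 1 / η) * b ^ p)
      = (1 / (1 + η) * (1 + η)) * ((1 + η) ^ (p - 1) * a ^ p) +
        (η / (1 + η) * (1 + 1 / η)) * ((1 + 1 / η) ^ (p - 1) * b ^ p) := by ring
    _ = _ := by rw [e4, e5, one_mul, one_mul]

/-- **Peierls**: the diagonal in any orthonormal basis. -/
theorem peierls {W V : Mat N} (hW : W.PosSemidef) (hV : Vᴴ * V = 1) {p : ℝ} (hp : 1 ≤ p) :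
    ∑ k, ((Vᴴ * W * V) k k).re ^ p ≤ trPow W p := by
  rw [trPow, dif_pos hW.1]
  have hV' : V * Vᴴ = 1 := mul_eq_one_comm.1 hV
  set U : Mat N := (hW.1.eigenvectorUnitary : Mat N) with hU
  have hUU : Uᴴ * U = 1 := Unitary.coe_star_mul_self hW.1.eigenvectorUnitary
  have hUU' : U * Uᴴ = 1 := Unitary.coe_mul_star_self hW.1.eigenvectorUnitary
  have sW := spec hW.1
  rw [← hU, star_eq_conjTranspose] at sW
  set R : Mat N := Uᴴ * V with hR
  have e1 : ∀ k, ((Vᴴ * W * V) k k).re = ∑ i, ‖R i k‖ ^ 2 * hW.1.eigenvalues i := by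
    intro k
    have h2 : Vᴴ * W * V = Rᴴ * diagonal (fun i => (hW.1.eigenvalues i : ℂ)) * R := by
      conv_lhs => rw [sW]
      rw [hR, conjTranspose_mul, conjTranspose_conjTranspose]
      simp only [Matrix.mul_assoc]
    rw [h2, Matrix.mul_apply, Complex.re_sum]
    refine Finset.sum_congr rfl fun i _ => ?_
    rw [mul_diagonal, conjTranspose_apply, ← Complex.normSq_eq_norm_sq]
    have : star (R i k) * (hW.1.eigenvalues i : ℂ) * R i k =
        ((Complex.normSq (R i k) * hW.1.eigenvalues i : ℝ) : ℂ) := by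
      push_cast
      rw [← Complex.mul_conj]
      simp only [RCLike.star_def]
      ring
    rw [this, Complex.ofReal_re]
  have e2 : ∀ k, ∑ i, ‖R i k‖ ^ 2 = 1 := by
    intro k
    have h1 : Rᴴ * R = 1 := by
      rw [hR, conjTranspose_mul, conjTranspose_conjTranspose]
      calc Vᴴ * U * (Uᴴ * V) = Vᴴ * (U * Uᴴ) * V := by simp only [Matrix.mul_assoc]
        _ = _ := by rw [hUU', Matrix.mul_one, hV]
    rw [normsq_col, h1, Matrix.one_apply_eq, Complex.one_re]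
  have e3 : ∀ i, ∑ k, ‖R i k‖ ^ 2 = 1 := by
    intro i
    have h1 : R * Rᴴ = 1 := by
      rw [hR, conjTranspose_mul, conjTranspose_conjTranspose]
      calc Uᴴ * V * (Vᴴ * U) = Uᴴ * (V * Vᴴ) * U := by simp only [Matrix.mul_assoc]
        _ = _ := by rw [hV', Matrix.mul_one, hUU]
    rw [normsq_row, h1, Matrix.one_apply_eq, Complex.one_re]
  calc ∑ k, ((Vᴴ * W * V) k k).re ^ p
      = ∑ k, (∑ i, ‖R i k‖ ^ 2 * hW.1.eigenvalues i) ^ p := by
        refine Finset.sum_congr rfl fun k _ => ?_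
        rw [e1 k]
    _ ≤ ∑ k, ∑ i, ‖R i k‖ ^ 2 * hW.1.eigenvalues i ^ p := by
        refine Finset.sum_le_sum fun k _ => ?_
        exact jensen_sub _ (fun i => by positivity) (fun i => hW.eigenvalues_nonneg i) (e2 k).le hp
    _ = ∑ i, (∑ k, ‖R i k‖ ^ 2) * hW.1.eigenvalues i ^ p := by
        rw [Finset.sum_comm]
        refine Finset.sum_congr rfl fun i _ => ?_
        rw [Finset.sum_mul]
    _ = ∑ i, hW.1.eigenvalues i ^ p := by
        refine Finset.sum_congr rfl fun i _ => ?_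
        rw [e3 i, one_mul]

theorem trPow_eq_diag {W : Mat N} (hW : W.IsHermitian) (p : ℝ) :
    trPow W p = ∑ k, (((hW.eigenvectorUnitary : Mat N)ᴴ * W *
      (hW.eigenvectorUnitary : Mat N)) k k).re ^ p := by
  rw [trPow, dif_pos hW]
  refine Finset.sum_congr rfl fun k _ => ?_
  set V : Mat N := (hW.eigenvectorUnitary : Mat N) with hV
  have hVV : Vᴴ * V = 1 := Unitary.coe_star_mul_self hW.eigenvectorUnitary
  have sA := spec hW
  rw [← hV, star_eq_conjTranspose] at sA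
  have h1 : Vᴴ * W * V = diagonal (fun i => (hW.eigenvalues i : ℂ)) := by
    conv_lhs => rw [sA]
    calc Vᴴ * (V * diagonal (fun i => (hW.eigenvalues i : ℂ)) * Vᴴ) * V
        = (Vᴴ * V) * diagonal (fun i => (hW.eigenvalues i : ℂ)) * (Vᴴ * V) := by
          simp only [Matrix.mul_assoc]
      _ = _ := by rw [hVV, Matrix.one_mul, Matrix.mul_one]
  rw [h1, diagonal_apply_eq, Complex.ofReal_re]

theorem diag_re_nonneg {A V : Mat N} (hA : A.PosSemidef) (k : Fin N) :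
    0 ≤ ((Vᴴ * A * V) k k).re :=
  (Complex.le_def.1 ((hA.conjTranspose_mul_mul_same V).diag_nonneg (i := k))).1

/-- `tr (A + B)^p ≤ (1 + η)^{p-1} tr A^p + (1 + 1/η)^{p-1} tr B^p` -/
theorem trPow_add_le {A B : Mat N} (hA : A.PosSemidef) (hB : B.PosSemidef) {η p : ℝ}
    (hη : 0 < η) (hp : 1 ≤ p) :
    trPow (A + B) p ≤ (1 + η) ^ (p - 1) * trPow A p + (1 + 1 / η) ^ (p - 1) * trPow B p := by
  have hAB : (A + B).PosSemidef := hA.add hB
  set V : Mat N := (hAB.1.eigenvectorUnitary : Mat N) with hV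
  have hVV : Vᴴ * V = 1 := Unitary.coe_star_mul_self hAB.1.eigenvectorUnitary
  have h1 := peierls hA hVV hp
  have h2 := peierls hB hVV hp
  have c1 : 0 ≤ (1 + η) ^ (p - 1) := by positivity
  have c2 : 0 ≤ (1 + 1 / η) ^ (p - 1) := by positivity
  calc trPow (A + B) p
      = ∑ k, (((Vᴴ * A * V) k k).re + ((Vᴴ * B * V) k k).re) ^ p := by
        rw [trPow_eq_diag hAB.1]
        refine Finset.sum_congr rfl fun k _ => ?_
        rw [← hV, Matrix.mul_add, Matrix.add_mul, Matrix.add_apply, Complex.add_re]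
    _ ≤ ∑ k, ((1 + η) ^ (p - 1) * ((Vᴴ * A * V) k k).re ^ p +
          (1 + 1 / η) ^ (p - 1) * ((Vᴴ * B * V) k k).re ^ p) := by
        refine Finset.sum_le_sum fun k _ => ?_
        exact rpow_add_le (diag_re_nonneg hA k) (diag_re_nonneg hB k) hη hp
    _ = (1 + η) ^ (p - 1) * ∑ k, ((Vᴴ * A * V) k k).re ^ p +
          (1 + 1 / η) ^ (p - 1) * ∑ k, ((Vᴴ * B * V) k k).re ^ p := by
        rw [Finset.sum_add_distrib, ← Finset.mul_sum, ← Finset.mul_sum]
    _ ≤ _ := add_le_add (mul_le_mul_of_nonneg_left h1 c1) (mul_le_mul_of_nonneg_left h2 c2)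

/-- trace of a power of a function of a matrix -/
theorem trPow_cfc {A : Mat N} (hA : A.IsHermitian) (f : ℝ → ℝ) (p : ℝ) :
    trPow (cfc f A) p = (cfc (fun x => f x ^ p) A).trace.re := by
  rw [trPow_eq_trace (cfc_herm f)]
  congr 2
  have hfin : (f '' spectrum ℝ A).Finite := (Matrix.finite_real_spectrum (A := A)).image f
  have : ContinuousOn (fun x : ℝ => x ^ p) (f '' spectrum ℝ A) := by
    rw [continuousOn_iff_continuous_domRestrict]
    have : Finite (f '' spectrum ℝ A) := hfin.to_subtype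
    exact continuous_of_discreteTopology
  rw [← cfc_comp' (fun x : ℝ => x ^ p) f A this (cfc_cont _ _) hA.isSelfAdjoint]

theorem cfc_congr_spec {A : Mat N} {f g : ℝ → ℝ} (h : ∀ x ∈ spectrum ℝ A, f x = g x) :
    cfc f A = cfc g A := cfc_congr h

/-- trace of the power of a scalar matrix -/
theorem trPow_smul_one {v p : ℝ} : trPow ((v : ℂ) • (1 : Mat N)) p = N * v ^ p := by
  have h1 : (v : ℂ) • (1 : Mat N) = cfc (fun _ => v) (1 : Mat N) := by
    rw [cfc_const v _ (isHermitian_one (n := Fin N) (α := ℂ)).isSelfAdjoint]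
    ext i j
    rw [Matrix.algebraMap_matrix_apply]
    by_cases hij : i = j
    · simp [hij]
    · simp [hij]
  rw [h1, trPow_cfc isHermitian_one, trace_cfc isHermitian_one, Complex.ofReal_re]
  simp

theorem trPow_add_smul_le {A : Mat N} (hA : A.PosSemidef) {v η p : ℝ} (hv : 0 ≤ v)
    (hη : 0 < η) (hp : 1 ≤ p) :
    trPow (A + (v : ℂ) • (1 : Mat N)) p ≤
      (1 + η) ^ (p - 1) * trPow A p + (1 + 1 / η) ^ (p - 1) * (N * v ^ p) := by
  have hB : ((v : ℂ) • (1 : Mat N)).PosSemidef :=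
    PosSemidef.one.smul (by rw [Complex.zero_le_real]; exact hv)
  have h := trPow_add_le hA hB hη hp
  rwa [trPow_smul_one] at h

theorem mul_self_eq_cfc {K : Mat N} (hK : K.IsHermitian) : K * K = cfc (fun x : ℝ => x * x) K := by
  rw [cfc_mul (fun x : ℝ => x) (fun x : ℝ => x) _ (cfc_cont _ _) (cfc_cont _ _),
    cfc_id' ℝ _ hK.isSelfAdjoint]

theorem trPow_mul_self {K : Mat N} (hK : K.PosSemidef) (q : ℝ) :
    trPow (K * K) q = trPow K (2 * q) := by
  rw [mul_self_eq_cfc hK.1, trPow_cfc hK.1, trPow_eq_trace hK.1]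
  congr 2
  refine cfc_congr fun x hx => ?_
  have hx0 := spec_nonneg hK hx
  show (x * x) ^ q = x ^ (2 * q)
  rw [Real.rpow_mul hx0, Real.rpow_two, sq]

/-- `S = A^{(γ-1)/2}` -/
theorem rpow_half_mul {A : Mat N} (hA : A.PosDef) (r : ℝ) :
    cfc (fun x : ℝ => x ^ (r / 2)) A * cfc (fun x : ℝ => x ^ (r / 2)) A =
      cfc (fun x : ℝ => x ^ r) A := by
  rw [← cfc_mul _ _ _ (cfc_cont _ _) (cfc_cont _ _)]
  refine cfc_congr fun x hx => ?_
  have hx0 := spec_pos hA hx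
  show x ^ (r / 2) * x ^ (r / 2) = x ^ r
  rw [← Real.rpow_add hx0]
  congr 1
  ring

theorem cfc_rpow_posDef {A : Mat N} (hA : A.PosDef) (r : ℝ) :
    (cfc (fun x : ℝ => x ^ r) A).PosDef :=
  cfc_pd hA.1 fun x hx => Real.rpow_pos_of_pos (spec_pos hA hx) r

theorem cfc_rpow_contOn (hfc : FcContFact) (N : ℕ) (r : ℝ) :
    ContinuousOn (fun A : Mat N => cfc (fun x : ℝ => x ^ r) A) {A | A.PosDef} :=
  hfc.1 N _ fun x hx =>
    (Real.continuousAt_rpow_const x r (Or.inl (ne_of_gt hx))).continuousWithinAt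

/-- final Klein step, `γ ≤ 1` -/
theorem klein_final_le {E D : Mat N} (hE : E.PosDef) (hD : D.PosSemidef) {γ δ : ℝ}
    (hγ0 : 0 ≤ γ) (hγ : γ ≤ 1)
    (h : -δ ≤ ((E - D) * cfc (fun x : ℝ => x ^ (γ - 1)) E).trace.re) :
    trPow D γ - γ * δ ≤ trPow E γ := by
  have h1 := klein_le hD hE hγ0 hγ
  have h2 : ((D - E) * cfc (fun x : ℝ => x ^ (γ - 1)) E).trace.re =
      -((E - D) * cfc (fun x : ℝ => x ^ (γ - 1)) E).trace.re := by
    rw [← Complex.neg_re, ← trace_neg, ← Matrix.neg_mul, neg_sub]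
  rw [h2] at h1
  nlinarith

/-- final Klein step, `γ ≥ 1` -/
theorem klein_final_ge {E D : Mat N} (hE : E.PosSemidef) (hD : D.PosSemidef) {γ δ : ℝ}
    (hγ : 1 ≤ γ)
    (h : -δ ≤ ((E - D) * cfc (fun x : ℝ => x ^ (γ - 1)) D).trace.re) :
    trPow D γ - γ * δ ≤ trPow E γ := by
  have h1 := klein_ge hE hD hγ
  nlinarith

/-! ## The list of helper79 -/

/-- Klein's inequality with two functions -/
theorem klein2 {A B : Mat N} (hA : A.IsHermitian) (hB : B.IsHermitian) {f₁ f₂ g : ℝ → ℝ}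
    (h : ∀ k l, f₁ (hA.eigenvalues k) ≤ f₂ (hB.eigenvalues l) +
      (hA.eigenvalues k - hB.eigenvalues l) * g (hB.eigenvalues l)) :
    (cfc f₁ A).trace.re ≤ (cfc f₂ B).trace.re + ((A - B) * cfc g B).trace.re := by
  have e1 : (cfc f₁ A).trace.re = ∑ k, ∑ l, ov hA hB k l * f₁ (hA.eigenvalues k) := by
    rw [trace_cfc hA, Complex.ofReal_re]
    refine Finset.sum_congr rfl fun k _ => ?_
    rw [← Finset.sum_mul, ov_sum_right, one_mul]
  have e2 : (cfc f₂ B).trace.re = ∑ k, ∑ l, ov hA hB k l * f₂ (hB.eigenvalues l) := by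
    rw [trace_cfc hB, Complex.ofReal_re, Finset.sum_comm]
    refine Finset.sum_congr rfl fun l _ => ?_
    rw [← Finset.sum_mul, ov_sum_left, one_mul]
  have e3 : (A * cfc g B).trace.re =
      ∑ k, ∑ l, ov hA hB k l * (hA.eigenvalues k * g (hB.eigenvalues l)) := by
    have := trace_cfc_mul hA hB id g
    rw [cfc_id ℝ A hA.isSelfAdjoint] at this
    rw [this, Complex.ofReal_re]
    rfl
  have e4 : (B * cfc g B).trace.re =
      ∑ k, ∑ l, ov hA hB k l * (hB.eigenvalues l * g (hB.eigenvalues l)) := by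
    have h1 : B * cfc g B = cfc (fun x => x * g x) B := by
      rw [cfc_mul (fun x => x) g B (cfc_cont _ _) (cfc_cont _ _), cfc_id' ℝ B hB.isSelfAdjoint]
    rw [h1, trace_cfc hB, Complex.ofReal_re, Finset.sum_comm]
    refine Finset.sum_congr rfl fun l _ => ?_
    rw [← Finset.sum_mul, ov_sum_left, one_mul]
  rw [Matrix.sub_mul, trace_sub, Complex.sub_re, e1, e2, e3, e4]
  rw [← Finset.sum_sub_distrib, ← Finset.sum_add_distrib]
  refine Finset.sum_le_sum fun k _ => ?_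
  rw [← Finset.sum_sub_distrib, ← Finset.sum_add_distrib]
  refine Finset.sum_le_sum fun l _ => ?_
  have := mul_le_mul_of_nonneg_left (h k l) (ov_nonneg hA hB k l)
  linarith [this, mul_add (ov hA hB k l) (f₂ (hB.eigenvalues l))
    ((hA.eigenvalues k - hB.eigenvalues l) * g (hB.eigenvalues l))]

/-- (P1) -/
theorem rpow_psd {P : Mat N} (hP : P.PosSemidef) (r : ℝ) :
    (cfc (fun x : ℝ => x ^ r) P).PosSemidef :=
  cfc_psd hP.1 fun _ hx => Real.rpow_nonneg (spec_nonneg hP hx) r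

theorem eig_le {P : Mat N} (hP : P.IsHermitian) {b : ℝ}
    (h : ((b : ℂ) • (1 : Mat N) - P).PosSemidef) {x : ℝ} (hx : x ∈ spectrum ℝ P) : x ≤ b := by
  obtain ⟨i, rfl⟩ := (hP.spectrum_real_eq_range_eigenvalues ▸ hx : x ∈ range hP.eigenvalues)
  set V : Mat N := (hP.eigenvectorUnitary : Mat N) with hV
  have hVV : Vᴴ * V = 1 := Unitary.coe_star_mul_self hP.eigenvectorUnitary
  have sA := spec hP
  rw [← hV, star_eq_conjTranspose] at sA
  have h1 : Vᴴ * P * V = diagonal (fun i => (hP.eigenvalues i : ℂ)) := by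
    conv_lhs => rw [sA]
    calc Vᴴ * (V * diagonal (fun i => (hP.eigenvalues i : ℂ)) * Vᴴ) * V
        = (Vᴴ * V) * diagonal (fun i => (hP.eigenvalues i : ℂ)) * (Vᴴ * V) := by
          simp only [Matrix.mul_assoc]
      _ = _ := by rw [hVV, Matrix.one_mul, Matrix.mul_one]
  have h2 := (Complex.le_def.1 ((h.conjTranspose_mul_mul_same V).diag_nonneg (i := i))).1
  rw [Matrix.mul_sub, Matrix.sub_mul, h1, Matrix.mul_smul, Matrix.smul_mul, Matrix.mul_one, hVV,
    Matrix.sub_apply, Matrix.smul_apply, Matrix.one_apply_eq, diagonal_apply_eq, Complex.sub_re,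
    smul_eq_mul, mul_one, Complex.ofReal_re, Complex.ofReal_re, Complex.zero_re] at h2
  linarith

theorem smul_one_eq_cfc {P : Mat N} (hP : P.IsHermitian) (b : ℝ) :
    (b : ℂ) • (1 : Mat N) = cfc (fun _ : ℝ => b) P := by
  rw [cfc_const b _ hP.isSelfAdjoint]
  ext i j
  rw [Matrix.algebraMap_matrix_apply]
  by_cases hij : i = j
  · simp [hij]
  · simp [hij]

/-- upper bound of a function of a matrix -/
theorem cfc_le_smul {P : Mat N} (hP : P.IsHermitian) {f : ℝ → ℝ} {b : ℝ}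
    (hf : ∀ x ∈ spectrum ℝ P, f x ≤ b) : ((b : ℂ) • (1 : Mat N) - cfc f P).PosSemidef := by
  rw [smul_one_eq_cfc hP, ← cfc_sub _ _ _ (cfc_cont _ _) (cfc_cont _ _)]
  exact cfc_psd hP fun x hx => sub_nonneg.2 (hf x hx)

/-- (P2) -/
theorem rpow_le_smul {P : Mat N} (hP : P.PosSemidef) {b r : ℝ}
    (h : ((b : ℂ) • (1 : Mat N) - P).PosSemidef) (hr : 0 ≤ r) :
    (((b ^ r : ℝ) : ℂ) • (1 : Mat N) - cfc (fun x : ℝ => x ^ r) P).PosSemidef :=
  cfc_le_smul hP.1 fun _ hx =>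
    Real.rpow_le_rpow (spec_nonneg hP hx) (eig_le hP.1 h hx) hr

/-- (P3), first half -/
theorem trPow_rpow {P : Mat N} (hP : P.PosSemidef) {s : ℝ} (hs : 0 < s) :
    trPow (cfc (fun x : ℝ => x ^ (1 / s)) P) (1 + s) = trPow P (1 + 1 / s) := by
  rw [trPow_cfc hP.1, trPow_eq_trace hP.1]
  congr 2
  refine cfc_congr fun x hx => ?_
  have hx0 := spec_nonneg hP hx
  show (x ^ (1 / s)) ^ (1 + s) = x ^ (1 + 1 / s)
  rw [← Real.rpow_mul hx0]
  congr 1
  field_simp
  ring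

/-- (P3), second half -/
theorem trace_mul_rpow {P : Mat N} (hP : P.PosSemidef) {s : ℝ} (hs : 0 < s) :
    (P * cfc (fun x : ℝ => x ^ (1 / s)) P).trace.re = trPow P (1 + 1 / s) := by
  have h1 : P * cfc (fun x : ℝ => x ^ (1 / s)) P = cfc (fun x : ℝ => x * x ^ (1 / s)) P := by
    rw [cfc_mul (fun x : ℝ => x) (fun x : ℝ => x ^ (1 / s)) P (cfc_cont _ _) (cfc_cont _ _),
      cfc_id' ℝ P hP.1.isSelfAdjoint]
  rw [h1, trPow_eq_trace hP.1]
  congr 2
  refine cfc_congr fun x hx => ?_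
  have hx0 := spec_nonneg hP hx
  show x * x ^ (1 / s) = x ^ (1 + 1 / s)
  rcases hx0.eq_or_lt with h0 | h0
  · rw [← h0, zero_mul, Real.zero_rpow (by positivity)]
  · rw [Real.rpow_add h0, Real.rpow_one]

theorem psd_le_trace {P : Mat N} (hP : P.PosSemidef) :
    (((P.trace.re : ℝ) : ℂ) • (1 : Mat N) - P).PosSemidef := by
  have h0 := cfc_le_smul (f := fun x => x) (b := P.trace.re) hP.1 (fun x hx => by
    obtain ⟨i, rfl⟩ := (hP.1.spectrum_real_eq_range_eigenvalues ▸ hx : x ∈ range hP.1.eigenvalues)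
    have h1 : P.trace.re = ∑ j, hP.1.eigenvalues j := by
      have := trace_cfc hP.1 (fun x => x)
      rw [cfc_id' ℝ P hP.1.isSelfAdjoint] at this
      rw [this, Complex.ofReal_re]
    rw [h1]
    exact Finset.single_le_sum (fun j _ => hP.eigenvalues_nonneg j) (Finset.mem_univ i))
  rwa [cfc_id' ℝ P hP.1.isSelfAdjoint] at h0

/-- (P5), general form -/
theorem sandwich_le {P S : Mat N} (hP : P.PosSemidef) {b : ℝ}
    (hS : (((b ^ 2 : ℝ) : ℂ) • (1 : Mat N) - Sᴴ * S).PosSemidef) :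
    (((b ^ 2 * P.trace.re : ℝ) : ℂ) • (1 : Mat N) - Sᴴ * P * S).PosSemidef := by
  have h1 := (psd_le_trace hP).conjTranspose_mul_mul_same S
  have ht : 0 ≤ P.trace.re := (Complex.le_def.1 hP.trace_nonneg).1
  have h2 := hS.smul (a := ((P.trace.re : ℝ) : ℂ)) (by
    rw [Complex.zero_le_real]; exact ht)
  have h3 := h1.add h2
  convert h3 using 1
  simp only [Matrix.mul_sub, Matrix.sub_mul, Matrix.mul_smul, Matrix.smul_mul, Matrix.mul_one,
    smul_sub, smul_smul]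
  have h4 : ((b ^ 2 * P.trace.re : ℝ) : ℂ) = ((P.trace.re : ℝ) : ℂ) * ((b ^ 2 : ℝ) : ℂ) := by
    push_cast; ring
  rw [h4]
  abel

theorem cfc_sq_le {E : Mat N} (hE : E.IsHermitian) {h : ℝ → ℝ} {b : ℝ} (h0 : ∀ x, 0 ≤ h x)
    (hb : ∀ x, h x ≤ b) :
    (((b ^ 2 : ℝ) : ℂ) • (1 : Mat N) - (cfc h E)ᴴ * cfc h E).PosSemidef := by
  rw [(cfc_herm (A := E) h).eq, ← cfc_mul _ _ _ (cfc_cont _ _) (cfc_cont _ _)]
  refine cfc_le_smul hE fun x _ => ?_
  have := mul_le_mul (hb x) (hb x) (h0 x) ((h0 x).trans (hb x))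
  nlinarith

/-- (P5) -/
theorem sandwich_cfc_le {P E : Mat N} (hP : P.PosSemidef) (hE : E.IsHermitian) {h : ℝ → ℝ} {b : ℝ}
    (h0 : ∀ x, 0 ≤ h x) (hb : ∀ x, h x ≤ b) :
    (((b ^ 2 * P.trace.re : ℝ) : ℂ) • (1 : Mat N) - (cfc h E)ᴴ * P * cfc h E).PosSemidef :=
  sandwich_le hP (cfc_sq_le hE h0 hb)

/-- trace of a power from an upper bound -/
theorem trPow_le_of_le {P : Mat N} (hP : P.PosSemidef) {b q : ℝ}
    (h : ((b : ℂ) • (1 : Mat N) - P).PosSemidef) (hq : 0 ≤ q) : trPow P q ≤ N * b ^ q := by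
  rw [trPow, dif_pos hP.1]
  calc ∑ i, hP.1.eigenvalues i ^ q ≤ ∑ _i : Fin N, b ^ q := by
        refine Finset.sum_le_sum fun i _ => ?_
        exact Real.rpow_le_rpow (hP.eigenvalues_nonneg i)
          (eig_le hP.1 h (hP.1.spectrum_real_eq_range_eigenvalues ▸ mem_range_self i)) hq
    _ = N * b ^ q := by simp

/-- (P5), power form -/
theorem trPow_sandwich_le {P S : Mat N} (hP : P.PosSemidef) {b q : ℝ}
    (hS : (((b ^ 2 : ℝ) : ℂ) • (1 : Mat N) - Sᴴ * S).PosSemidef) (hq : 0 ≤ q) :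
    trPow (Sᴴ * P * S) q ≤ N * (b ^ 2 * P.trace.re) ^ q :=
  trPow_le_of_le (hP.conjTranspose_mul_mul_same S) (sandwich_le hP hS) hq

theorem trunc_klein_scalar {d e e0 g : ℝ} (hd : 0 ≤ d) (he : 0 ≤ e) (he0 : 0 < e0) (hg0 : 0 ≤ g)
    (hg : g ≤ 1) : d ^ g ≤ (e ^ g + e0 ^ g) + (d - e) * (g * max e e0 ^ (g - 1)) := by
  have hM : 0 < max e e0 := lt_max_of_lt_right he0
  have h1 := bern_le hd hM hg0 hg
  rcases le_total e0 e with h | h
  · rw [max_eq_left h] at h1 ⊢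
    have := Real.rpow_nonneg he0.le g
    linarith
  · rw [max_eq_right h] at h1 ⊢
    have h2 := Real.rpow_nonneg he g
    have h3 : 0 ≤ (e0 - e) * (g * e0 ^ (g - 1)) := by
      have := Real.rpow_nonneg he0.le (g - 1)
      exact mul_nonneg (sub_nonneg.2 h) (mul_nonneg hg0 this)
    linarith

/-- (P6) truncated Klein inequality -/
theorem klein_trunc {D E : Mat N} (hD : D.PosSemidef) (hE : E.PosSemidef) {g e0 : ℝ}
    (hg0 : 0 ≤ g) (hg : g ≤ 1) (he0 : 0 < e0) :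
    trPow D g ≤ trPow E g + N * e0 ^ g +
      ((D - E) * cfc (fun x : ℝ => g * max x e0 ^ (g - 1)) E).trace.re := by
  have h := klein2 hD.1 hE.1 (f₁ := fun x => x ^ g) (f₂ := fun x => x ^ g + e0 ^ g)
    (g := fun x => g * max x e0 ^ (g - 1))
    (fun k l => trunc_klein_scalar (hD.eigenvalues_nonneg k) (hE.eigenvalues_nonneg l) he0 hg0 hg)
  rw [← trPow_eq_trace hD.1] at h
  have h1 : (cfc (fun x : ℝ => x ^ g + e0 ^ g) E).trace.re = trPow E g + N * e0 ^ g := by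
    rw [trace_cfc hE.1, Complex.ofReal_re, trPow, dif_pos hE.1, Finset.sum_add_distrib]
    simp
  rwa [h1] at h

/-- (P7) -/
theorem sqrt_cfc_mul {E : Mat N} {h : ℝ → ℝ} (h0 : ∀ x, 0 ≤ h x) :
    cfc (fun x => √(h x)) E * cfc (fun x => √(h x)) E = cfc h E := by
  rw [← cfc_mul _ _ _ (cfc_cont _ _) (cfc_cont _ _)]
  exact cfc_congr fun x _ => Real.mul_self_sqrt (h0 x)

/-- (P8) -/
theorem trPow_dg (d : Fin N → ℝ) (g : ℝ) : trPow (dg d) g = ∑ j, d j ^ g := by
  have hA : (dg d).IsHermitian := by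
    rw [dg, Matrix.isHermitian_diagonal_iff]
    intro i
    simp [isSelfAdjoint_iff]
  have h1 := hA.roots_charpoly_eq_eigenvalues
  have h0 : (∏ i, (Polynomial.X - Polynomial.C ((d i : ℝ) : ℂ))).roots
      = Multiset.map (fun i => ((d i : ℝ) : ℂ)) Finset.univ.val := by
    have h2 : (∏ i, (Polynomial.X - Polynomial.C ((d i : ℝ) : ℂ)))
        = ((Finset.univ.val.map fun i => ((d i : ℝ) : ℂ)).map
            fun a => Polynomial.X - Polynomial.C a).prod := by
      rw [Multiset.map_map]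
      rfl
    rw [h2, Polynomial.roots_multiset_prod_X_sub_C]
  have hch : (dg d).charpoly = ∏ i, (Polynomial.X - Polynomial.C ((d i : ℝ) : ℂ)) := by
    rw [dg, Matrix.charpoly_diagonal]
  rw [hch, h0] at h1
  have h3 := congrArg (fun s : Multiset ℂ => (s.map fun z => z.re ^ g).sum) h1
  simp only [Multiset.map_map, Function.comp_def] at h3
  unfold trPow
  rw [dif_pos hA]
  change (Multiset.map (fun i => hA.eigenvalues i ^ g) Finset.univ.val).sum
    = (Multiset.map (fun i => d i ^ g) Finset.univ.val).sum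
  simpa using h3.symm

theorem dg_posDef {d : Fin N → ℝ} (hd : ∀ j, 0 < d j) : (dg d).PosDef := by
  rw [dg, posDef_diagonal_iff]
  intro i
  rw [Complex.zero_lt_real]
  exact hd i

/-- (P8), second half -/
theorem trPow_two_mul {K : Mat N} (hK : K.PosSemidef) (s : ℝ) :
    trPow K (2 * s + 1) = trPow (K * K) (s + 1 / 2) := by
  rw [trPow_mul_self hK]
  congr 1
  ring

/-- the Klein inequality with `D` diagonal, `γ ≥ 1` -/
theorem klein_dg {d : Fin N → ℝ} (hd : ∀ j, 0 < d j) {E : Mat N} (hE : E.PosSemidef) {g : ℝ}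
    (hg : 1 ≤ g) :
    ∑ j, d j ^ g + g * ((E - dg d) * cfc (fun x : ℝ => x ^ (g - 1)) (dg d)).trace.re ≤
      trPow E g := by
  rw [← trPow_dg]
  exact klein_ge hE (dg_posDef hd).posSemidef hg

/-- power sums of the roots -/
theorem trPow_eq_roots {W : Mat N} (hW : W.IsHermitian) (q : ℝ) :
    trPow W q = ((W.charpoly.roots).map fun z => z.re ^ q).sum := by
  rw [hW.roots_charpoly_eq_eigenvalues, trPow, dif_pos hW, Multiset.map_map]
  change (Multiset.map (fun i => hW.eigenvalues i ^ q) Finset.univ.val).sum = _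
  congr 1

/-- the nonzero eigenvalues of `T T*` and `T* T` agree -/
theorem trPow_swap (T : Matrix (Fin m) (Fin N) ℂ) {q : ℝ} (hq : 0 < q) :
    trPow (T * Tᴴ) q = trPow (Tᴴ * T) q := by
  have h1 := Matrix.charpoly_mul_comm' T Tᴴ
  have h2 := congrArg Polynomial.roots h1
  have n1 : (Polynomial.X : Polynomial ℂ) ^ Fintype.card (Fin N) * (T * Tᴴ).charpoly ≠ 0 :=
    mul_ne_zero (pow_ne_zero _ Polynomial.X_ne_zero) (Matrix.charpoly_monic _).ne_zero
  have n2 : (Polynomial.X : Polynomial ℂ) ^ Fintype.card (Fin m) * (Tᴴ * T).charpoly ≠ 0 :=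
    mul_ne_zero (pow_ne_zero _ Polynomial.X_ne_zero) (Matrix.charpoly_monic _).ne_zero
  rw [Polynomial.roots_mul n1, Polynomial.roots_mul n2, Polynomial.roots_X_pow,
    Polynomial.roots_X_pow] at h2
  have h3 := congrArg (fun s : Multiset ℂ => (s.map fun z => z.re ^ q).sum) h2
  simp only [Multiset.map_add, Multiset.sum_add, Multiset.map_nsmul, Multiset.sum_nsmul,
    Multiset.map_singleton, Multiset.sum_singleton, Complex.zero_re, Real.zero_rpow hq.ne',
    smul_zero, zero_add] at h3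
  rw [trPow_eq_roots (posSemidef_self_mul_conjTranspose T).1,
    trPow_eq_roots (posSemidef_conjTranspose_mul_self T).1]
  exact h3

end Vale.Agent.P371.G
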