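import Vale.Agent.P371.G.Iface

/-!
# P371, all `1/2 < γ < 3/2`: the interface between the kinetic inequality and the upper bound
-/

open MeasureTheory Matrix Set
open scoped ENNReal ComplexOrder

namespace Vale.Agent.P371.G

/-- the linear combinations `v_j = ∑_k S_kj u_k`, that is `V = U S` -/
noncomputable def comb {m N : ℕ} (S : Mat N) (u : Fin N → ℝ → Fin m → ℂ) (j : Fin N) (x : ℝ) :
    Fin m → ℂ :=
  ∑ k, S k j • u k x

/-- the Gram matrix `V(x)^* V(x)` -/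
noncomputable def gramM {m N : ℕ} (v : Fin N → ℝ → Fin m → ℂ) (x : ℝ) : Mat N :=
  of fun j l => star (v j x) ⬝ᵥ v l x

/-- M9: the kinetic inequality in dual form, `C = S S^*`, `P_C = S^* U^* U S`. -/
def KinCFact : Prop :=
  ∀ (m N : ℕ) (s : ℝ) (u u' : Fin N → ℝ → Fin m → ℂ) (d : Fin N → ℝ), 0 < s → s < 1 →
    (∀ j, IsH1 (u j) (u' j)) → (∀ j k, ip (u j) (u k) = if j = k then 1 else 0) →
    (∀ j, 0 < d j) → ∀ ε > 0, ∃ S : Mat N,
      Cs s / (1 + s) * ∑ j, d j ^ (s + 1 / 2) - ε ≤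
        (∑ j, ∑ k, ‖S k j‖ ^ 2 * d k) + (∑ j, (ip (comb S u' j) (comb S u' j)).re) -
          s / (1 + s) * ∫ x, trPow (gramM (comb S u) x) (1 + 1 / s)

end Vale.Agent.P371.G
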