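import Vale.Agent.P371.G.Test
import Vale.Agent.P371.G.KinC
import Vale.Agent.P371.G.CoreMat

/-!
# P371, general exponent: from the functions `u_j` to the matrix valued function `U`
-/

open MeasureTheory Matrix Filter Topology Set
open scoped ENNReal ComplexOrder

namespace Vale.Agent.P371.G

open Vale.Agent.P371 Vale.Agent.P371.Kin

variable {m N : ℕ}

/-- the matrix with the columns `u_j(x)` -/
def Um (u : Fin N → ℝ → Fin m → ℂ) (x : ℝ) : Matrix (Fin m) (Fin N) ℂ := of fun i j => u j x i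

theorem glue_prod {f g : ℝ → ℂ} (hf : MemLp f 2) (hg : MemLp g 2) :
    Integrable fun x => star (f x) * g x :=
  MemLp.integrable_mul (p := 2) (q := 2) hf.star hg

theorem glue_dot {f g : ℝ → Fin m → ℂ} (hf : MemLp f 2) (hg : MemLp g 2) :
    Integrable fun x => star (f x) ⬝ᵥ g x := by
  simp only [dotProduct, Pi.star_apply]
  exact integrable_finsetSum _ fun i _ => glue_prod (hf.eval i) (hg.eval i)

theorem glue_HM {u u' : Fin N → ℝ → Fin m → ℂ} (hu : ∀ j, IsH1 (u j) (u' j)) :
    HM (Um u) (Um u') := by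
  have hloc : ∀ j, LocallyIntegrable (u' j) := fun j =>
    (hu j).memLp_deriv.locallyIntegrable (by norm_num)
  have hii : ∀ j a b, IntervalIntegrable (u' j) volume a b := fun j a b =>
    intervalIntegrable_iff.mpr
      (((hloc j).integrableOn_isCompact isCompact_uIcc).mono_set Set.uIoc_subset_uIcc)
  refine ⟨?_, ?_, ?_, ?_⟩
  · intro i j
    exact ((hu j).memLp_deriv.eval i).locallyIntegrable (by norm_num)
  · simp only [trace, diag_apply]
    exact (integrable_finsetSum _ fun k _ =>
      (glue_dot (hu k).memLp_deriv (hu k).memLp_deriv)).re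
  · intro i j x y
    have h1 := congrFun ((hu j).sub_eq x y) i
    have h2 := (ContinuousLinearMap.proj (R := ℝ) (φ := fun _ : Fin m => ℂ)
      i).intervalIntegral_comp_comm (hii j x y)
    simp only [ContinuousLinearMap.proj_apply] at h2
    rw [Pi.sub_apply] at h1
    change u j y i - u j x i = ∫ t in x..y, u' j t i
    rw [h1, h2]
  · intro j k
    exact glue_dot (hu j).memLp (hu k).memLp

theorem glue_VV {u u' : Fin N → ℝ → Fin m → ℂ} (hu : ∀ j, IsH1 (u j) (u' j)) :
    ∀ j k, Integrable (fun x => ((Um u' x)ᴴ * Um u' x) j k) :=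
  fun j k => glue_dot (hu j).memLp_deriv (hu k).memLp_deriv

theorem glue_G {u : Fin N → ℝ → Fin m → ℂ}
    (hort : ∀ j k, ip (u j) (u k) = if j = k then 1 else 0) :
    ∀ j k, ∫ x, Pm (Um u) x j k = if j = k then 1 else 0 :=
  fun j k => hort j k

theorem Um_comb (S : Mat N) (u : Fin N → ℝ → Fin m → ℂ) (x : ℝ) :
    Um (comb S u) x = Um u x * S := by
  ext i j
  rw [Um, of_apply, comb, Finset.sum_apply, mul_apply]
  refine Finset.sum_congr rfl fun k _ => ?_
  rw [Pi.smul_apply, smul_eq_mul, Um, of_apply]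
  ring

theorem gramM_eq (v : Fin N → ℝ → Fin m → ℂ) (x : ℝ) : gramM v x = (Um v x)ᴴ * Um v x := by
  ext j k
  rfl

theorem glue_gram (S : Mat N) (u : Fin N → ℝ → Fin m → ℂ) (x : ℝ) :
    gramM (comb S u) x = Pm (fun y => Um u y * S) x := by
  rw [gramM_eq, Um_comb]
  rfl

theorem glue_kin {u u' : Fin N → ℝ → Fin m → ℂ} (hu : ∀ j, IsH1 (u j) (u' j)) (S : Mat N) :
    ∑ j, (ip (comb S u' j) (comb S u' j)).re =
      ∫ x, ((Um u' x * S)ᴴ * (Um u' x * S)).trace.re := by
  have hmem : ∀ j, MemLp (comb S u' j) 2 := by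
    intro j
    have : comb S u' j = fun x => ∑ k, S k j • u' k x := by
      ext x
      rfl
    rw [this]
    exact memLp_finsetSum _ fun k _ => (hu k).memLp_deriv.const_smul (S k j)
  have hQ : ∀ j, Integrable fun x => star (comb S u' j x) ⬝ᵥ comb S u' j x :=
    fun j => glue_dot (hmem j) (hmem j)
  have h1 : ∀ x, ((Um u' x * S)ᴴ * (Um u' x * S)).trace.re =
      ∑ j, (star (comb S u' j x) ⬝ᵥ comb S u' j x).re := by
    intro x
    rw [← Um_comb, ← gramM_eq, trace, Complex.re_sum]
    rfl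
  simp_rw [h1]
  have hQr : ∀ k, Integrable fun x => (star (comb S u' k x) ⬝ᵥ comb S u' k x).re :=
    fun k => (hQ k).re
  rw [integral_finsetSum _ fun k _ => hQr k]
  refine Finset.sum_congr rfl fun k _ => ?_
  exact (integral_re (hQ k)).symm

theorem glue_pot (S : Mat N) (d : Fin N → ℝ) :
    ∑ j, ∑ k, ‖S k j‖ ^ 2 * d k = (S * Sᴴ * dg d).trace.re := by
  rw [Finset.sum_comm, trace, Complex.re_sum]
  refine Finset.sum_congr rfl fun k _ => ?_
  rw [diag_apply, dg, mul_diagonal, mul_apply, Finset.sum_mul, Complex.re_sum]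
  refine Finset.sum_congr rfl fun j _ => ?_
  rw [conjTranspose_apply, ← Complex.normSq_eq_norm_sq, Complex.star_def, Complex.mul_conj,
    ← Complex.ofReal_mul, Complex.ofReal_re]

end Vale.Agent.P371.G
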