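import Vale.Agent.P371.G.CoreA
import Vale.Agent.P371.G.CoreGlue
import Vale.Agent.P371.G.KinC

/-!
# P371, general exponent: module M9, the kinetic inequality
-/

open MeasureTheory Matrix Filter Topology Set
open scoped ENNReal ComplexOrder

namespace Vale.Agent.P371.G

open Vale.Agent.P371 Vale.Agent.P371.Kin

variable {m N : ℕ}

theorem Cs_nonneg {s : ℝ} (hs : 0 < s) : 0 ≤ Cs s := by
  have h1 : 0 ≤ Bs s := by
    refine intervalIntegral.integral_nonneg (by norm_num) fun z hz => Real.rpow_nonneg ?_ _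
    nlinarith [hz.1, hz.2]
  exact mul_nonneg (div_nonneg (Real.rpow_nonneg (by linarith) _) (Real.rpow_nonneg hs.le _)) h1

theorem kin_of_family (hFE : FEFact) (hTop : Top2Fact) (hfc : FcContFact) {s : ℝ} (hs : 0 < s)
    (hs1 : s < 1) {u u' : Fin N → ℝ → Fin m → ℂ} {d : Fin N → ℝ}
    (hu : ∀ j, IsH1 (u j) (u' j)) (hort : ∀ j k, ip (u j) (u k) = if j = k then 1 else 0)
    {b : ℝ} (S : Mat N → Mat N) (hSc : ContinuousOn S {E | E.PosDef})
    (hSb : ∀ E : Mat N, E.PosDef → (((b ^ 2 : ℝ) : ℂ) • (1 : Mat N) - (S E)ᴴ * S E).PosSemidef)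
    (hSh : ∀ E : Mat N, E.PosDef → (S E)ᴴ = S E) {ε : ℝ} (hε : 0 < ε)
    (hK : ∀ E : Mat N, E.PosDef → Cs s / (1 + s) * ∑ j, d j ^ (s + 1 / 2) ≤
      Cs s / (1 + s) * trPow E (s + 1 / 2) + ε / 2 + ((dg d - E) * (S E * S E)).trace.re) :
    ∃ S : Mat N,
      Cs s / (1 + s) * ∑ j, d j ^ (s + 1 / 2) - ε ≤
        (∑ j, ∑ k, ‖S k j‖ ^ 2 * d k) + (∑ j, (ip (comb S u' j) (comb S u' j)).re) -
          s / (1 + s) * ∫ x, trPow (gramM (comb S u) x) (1 + 1 / s) := by
  obtain ⟨E, hE, h1⟩ := core_ineq hFE hTop hfc hs hs1 (glue_HM hu) (glue_VV hu) (glue_G hort) S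
    hSc hSb (show 0 < ε / 2 by positivity)
  refine ⟨S E, ?_⟩
  rw [glue_pot, glue_kin hu]
  simp only [glue_gram]
  have h2 := hK E hE
  have h3 : ((dg d - E) * (S E * S E)).trace.re =
      (S E * (S E)ᴴ * dg d).trace.re - ((S E)ᴴ * S E * E).trace.re := by
    rw [hSh E hE, Matrix.sub_mul, trace_sub, Complex.sub_re, trace_mul_comm (dg d),
      trace_mul_comm E]
  rw [h3] at h2
  linarith

/-- **M9** -/
theorem kinCFact (hFE : FEFact) (hTop : Top2Fact) (hfc : FcContFact) : KinCFact := by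
  intro m N s u u' d hs hs1 hu hort hd ε hε
  have hc : 0 ≤ Cs s / (1 + s) := div_nonneg (Cs_nonneg hs) (by linarith)
  set c := Cs s / (1 + s) with hcdef
  rcases le_total s (1 / 2) with hs2 | hs2
  · -- `γ ≤ 1`
    obtain ⟨e0, he0, he⟩ : ∃ e0 : ℝ, 0 < e0 ∧ c * (N * e0 ^ (s + 1 / 2)) < ε / 2 := by
      have h1 : Continuous fun e0 : ℝ => c * (N * e0 ^ (s + 1 / 2)) :=
        continuous_const.mul (continuous_const.mul
          (Real.continuous_rpow_const (by positivity)))
      have h2 : Tendsto (fun e0 : ℝ => c * (N * e0 ^ (s + 1 / 2))) (𝓝[>] 0) (𝓝 0) := by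
        have := (h1.tendsto 0).mono_left (nhdsWithin_le_nhds (s := Ioi 0))
        rw [Real.zero_rpow (by positivity)] at this
        simpa using this
      obtain ⟨e0, h3, h4⟩ := ((h2.eventually (gt_mem_nhds (show 0 < ε / 2 by positivity))).and
        self_mem_nhdsWithin).exists
      exact ⟨e0, h4, h3⟩
    set h : ℝ → ℝ := fun x => c * ((s + 1 / 2) * max x e0 ^ (s + 1 / 2 - 1)) with hh
    have hmax : ∀ x : ℝ, 0 < max x e0 := fun x => lt_max_of_lt_right he0
    have h0 : ∀ x, 0 ≤ h x := fun x => mul_nonneg hc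
      (mul_nonneg (by positivity) (Real.rpow_nonneg (hmax x).le _))
    have hhc : Continuous h :=
      continuous_const.mul (continuous_const.mul
        ((continuous_id.max continuous_const).rpow_const fun x => Or.inl (hmax x).ne'))
    have hhb : ∀ x, √(h x) ≤ √(c * ((s + 1 / 2) * e0 ^ (s + 1 / 2 - 1))) := by
      intro x
      apply Real.sqrt_le_sqrt
      refine mul_le_mul_of_nonneg_left (mul_le_mul_of_nonneg_left ?_ (by positivity)) hc
      exact Real.rpow_le_rpow_of_nonpos he0 (le_max_right _ _) (by linarith)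
    refine kin_of_family hFE hTop hfc hs hs1 hu hort (fun E => cfc (fun x => √(h x)) E)
      (b := √(c * ((s + 1 / 2) * e0 ^ (s + 1 / 2 - 1)))) ?_ ?_ ?_ hε ?_
    · exact (hfc.2 N _ (Real.continuous_sqrt.comp hhc)).mono fun E hE => hE.1
    · intro E hE
      exact cfc_sq_le hE.1 (fun x => Real.sqrt_nonneg _) hhb
    · intro E hE
      exact (cfc_herm (A := E) _).eq
    · intro E hE
      have h1 := klein_trunc (dg_posDef hd).posSemidef hE.posSemidef
        (show 0 ≤ s + 1 / 2 by positivity) (by linarith) he0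
      rw [trPow_dg] at h1
      have h2 : cfc (fun x => √(h x)) E * cfc (fun x => √(h x)) E =
          (c : ℂ) • cfc (fun x : ℝ => (s + 1 / 2) * max x e0 ^ (s + 1 / 2 - 1)) E := by
        rw [sqrt_cfc_mul h0, hh, cfc_const_mul _ _ _ (cfc_cont _ _)]
        ext i j
        simp
      rw [h2, Matrix.mul_smul, trace_smul, smul_eq_mul, Complex.re_ofReal_mul]
      have h3 := mul_le_mul_of_nonneg_left h1 hc
      linarith
  · -- `γ ≥ 1`
    set D : Mat N := dg d with hD
    have hDd : D.PosDef := dg_posDef hd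
    set h : ℝ → ℝ := fun x => c * ((s + 1 / 2) * |x| ^ (s + 1 / 2 - 1)) with hh
    have h0 : ∀ x, 0 ≤ h x := fun x => mul_nonneg hc
      (mul_nonneg (by positivity) (Real.rpow_nonneg (abs_nonneg x) _))
    set S : Mat N := cfc (fun x => √(h x)) D with hS
    have hSh : Sᴴ = S := (cfc_herm (A := D) _).eq
    have h2 : S * S = (c : ℂ) • ((s + 1 / 2 : ℝ) : ℂ) • cfc (fun x : ℝ => x ^ (s + 1 / 2 - 1)) D := by
      rw [hS, sqrt_cfc_mul h0, hh, cfc_const_mul _ _ _ (cfc_cont _ _),
        cfc_const_mul _ _ _ (cfc_cont _ _)]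
      have h3 : cfc (fun x : ℝ => |x| ^ (s + 1 / 2 - 1)) D =
          cfc (fun x : ℝ => x ^ (s + 1 / 2 - 1)) D :=
        cfc_congr_spec fun x hx => by rw [abs_of_pos (spec_pos hDd hx)]
      rw [h3]
      ext i j
      simp
    refine kin_of_family hFE hTop hfc hs hs1 hu hort (fun _ => S)
      (b := √((Sᴴ * S).trace.re)) continuousOn_const ?_ (fun _ _ => hSh) hε ?_
    · intro E hE
      have hp : (Sᴴ * S).PosSemidef := posSemidef_conjTranspose_mul_self S
      rw [Real.sq_sqrt (trace_nonneg hp)]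
      exact psd_le_trace hp
    · intro E hE
      have h1 := klein_dg hd hE.posSemidef (show 1 ≤ s + 1 / 2 by linarith)
      have h3 : ((D - E) * (S * S)).trace.re =
          -(c * ((s + 1 / 2) * ((E - D) * cfc (fun x : ℝ => x ^ (s + 1 / 2 - 1)) D).trace.re)) := by
        rw [h2, Matrix.mul_smul, Matrix.mul_smul, trace_smul, trace_smul, smul_eq_mul, smul_eq_mul,
          Complex.re_ofReal_mul, Complex.re_ofReal_mul, ← neg_sub E D, Matrix.neg_mul, trace_neg,
          Complex.neg_re]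
        ring
      rw [h3]
      have h4 := mul_le_mul_of_nonneg_left h1 hc
      linarith

end Vale.Agent.P371.G
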