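import Vale.Agent.P371.G.Iface

/-!
# P371, all `1/2 < γ < 3/2`: the final form of the topological step and of the kinetic inequality
-/

open MeasureTheory Matrix Set
open scoped ENNReal ComplexOrder

namespace Vale.Agent.P371.G

/-- M8: the topological step (constant extra potential `δ`). -/
def Top2Fact : Prop :=
  ∀ (N : ℕ) (x₀ x₁ ω δ : ℝ), x₀ < x₁ → 0 < δ → ∀ Wf : Mat N → ℝ → Mat N,
    ContinuousOn (fun q : Mat N × ℝ => Wf q.1 q.2) ({E | E.PosDef} ×ˢ Icc x₀ x₁) →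
    (∀ E : Mat N, E.PosDef → ∀ x ∈ Icc x₀ x₁,
      (Wf E x).PosSemidef ∧ ((ω : ℂ) • 1 - Wf E x).PosSemidef) →
    ∃ (K : Mat N) (Z : ℝ → Mat N), Ric x₀ x₁ K (fun x => Wf (K * K) x + (δ : ℂ) • 1) Z

/-- `ρ_C(x) = U(x) C U(x)^*`, `U(x)` with the columns `u_j(x)`. -/
noncomputable def rhoC {m N : ℕ} (C : Mat N) (u : Fin N → ℝ → Fin m → ℂ) (x : ℝ) : Mat m :=
  of fun a b => ∑ j, ∑ k, u j x a * C j k * star (u k x b)

/-- `T_C = ∫ tr (U' C U'^*)` -/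
noncomputable def kinC {m N : ℕ} (C : Mat N) (u' : Fin N → ℝ → Fin m → ℂ) : ℝ :=
  (∑ j, ∑ k, C j k * ip (u' k) (u' j)).re

/-- M9: the kinetic inequality, in dual form. -/
def KinGFact : Prop :=
  ∀ (m N : ℕ) (s ε : ℝ) (d : Fin N → ℝ) (u u' : Fin N → ℝ → Fin m → ℂ), 0 < s → s < 1 → 0 < ε →
    (∀ j, 0 < d j) → (∀ j, IsH1 (u j) (u' j)) →
    (∀ j k, ip (u j) (u k) = if j = k then 1 else 0) →
    ∃ C : Mat N, C.PosSemidef ∧
      Cs s / (1 + s) * ∑ j, d j ^ (s + 1 / 2) - ε ≤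
        ∑ j, (C j j).re * d j + kinC C u' -
          s / (1 + s) * ∫ x, trPow (rhoC C u x) (1 + 1 / s)

end Vale.Agent.P371.G
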