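import Vale.Agent.P371.G.Test
import Vale.Agent.P371.G.Iface2
import Vale.Agent.P371.G.CoreMat

/-!
# P371, general exponent: the kinetic inequality for a given family `E ↦ S_E`
-/

open MeasureTheory Matrix Filter Topology Set
open scoped ENNReal ComplexOrder

namespace Vale.Agent.P371.G

open Vale.Agent.P371 Vale.Agent.P371.Kin

variable {m N : ℕ}

theorem trPow_nonneg {P : Mat N} (hP : P.PosSemidef) (q : ℝ) : 0 ≤ trPow P q := by
  rw [trPow, dif_pos hP.1]
  exact Finset.sum_nonneg fun i _ => Real.rpow_nonneg (hP.eigenvalues_nonneg i) q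

/-- sup bound for `H¹` -/
theorem HM.sup_bound {F V : ℝ → Matrix (Fin m) (Fin N) ℂ} (h : HM F V) :
    ∃ B : ℝ, 0 < B ∧ ∀ x, (Pm F x).trace.re ≤ B := by
  have hP0 : ∀ x, 0 ≤ (Pm F x).trace.re := fun x => trace_nonneg (Pm_psd x)
  have hV0 : ∀ x, 0 ≤ ((V x)ᴴ * V x).trace.re := fun x =>
    trace_nonneg (posSemidef_conjTranspose_mul_self (V x))
  refine ⟨1 + (∫ x, ((V x)ᴴ * V x).trace.re) + ∫ x, (Pm F x).trace.re, ?_, fun x => ?_⟩
  · have h1 : 0 ≤ ∫ x, (Pm F x).trace.re := integral_nonneg (fun x => hP0 x)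
    have h2 : 0 ≤ ∫ x, ((V x)ᴴ * V x).trace.re := integral_nonneg (fun x => hV0 x)
    linarith
  · obtain ⟨a, ha, hPa⟩ := (h.exists_small one_pos x).2
    have i1 := interval_test h (K := (0 : Mat N)) (Z := fun _ => (1 : Mat N))
      (W := fun _ => (-1 : Mat N)) ha
      (fun _ _ => isHermitian_one) (fun y _ i j => by
        have : ((0 : Mat N) * 0 - 1 * 1 - (-1)) i j = 0 := by simp
        rw [this]
        exact hasDerivWithinAt_const _ _ _) (fun i j => continuousOn_const)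
    simp only [Matrix.mul_zero, trace_zero, Complex.zero_re, intervalIntegral.integral_zero,
      Matrix.mul_neg, trace_neg, Complex.neg_re, Matrix.mul_one, add_zero,
      intervalIntegral.integral_neg] at i1
    have k1 : ∫ x in a..x, ((V x)ᴴ * V x).trace.re ≤ ∫ x, ((V x)ᴴ * V x).trace.re := by
      rw [intervalIntegral.integral_of_le ha]
      exact setIntegral_le_integral h.hV2 (Eventually.of_forall hV0)
    have k2 : ∫ x in a..x, (Pm F x).trace.re ≤ ∫ x, (Pm F x).trace.re := by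
      rw [intervalIntegral.integral_of_le ha]
      exact setIntegral_le_integral h.trP_int (Eventually.of_forall hP0)
    linarith

theorem Pm_mul (F : ℝ → Matrix (Fin m) (Fin N) ℂ) (S : Mat N) (x : ℝ) :
    Pm (fun y => F y * S) x = Sᴴ * Pm F x * S := by
  rw [Pm, conjTranspose_mul, Pm]
  simp only [Matrix.mul_assoc]

theorem integrable_sandwich {P : ℝ → Mat N} (hG : ∀ j k, Integrable (fun x => P x j k))
    (A B : Mat N) : ∀ j k, Integrable (fun x => (A * P x * B) j k) := by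
  intro j k
  have : ∀ x, (A * P x * B) j k = ∑ a, (∑ b, A j b * P x b a) * B a k := by
    intro x
    rw [mul_apply]
    refine Finset.sum_congr rfl fun a _ => ?_
    rw [mul_apply]
  simp only [this]
  exact integrable_finsetSum _ fun a _ => (integrable_finsetSum _ fun b _ =>
    (hG b a).const_mul _).mul_const _

/-- `F S` for a constant matrix `S` -/
theorem HM.mul_const {F V : ℝ → Matrix (Fin m) (Fin N) ℂ} (h : HM F V)
    (hVV : ∀ j k, Integrable (fun x => ((V x)ᴴ * V x) j k)) (S : Mat N) :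
    HM (fun x => F x * S) (fun x => V x * S) := by
  have e : ∀ G : ℝ → Matrix (Fin m) (Fin N) ℂ, ∀ x, (G x * S)ᴴ * (G x * S) =
      Sᴴ * ((G x)ᴴ * G x) * S := by
    intro G x
    rw [conjTranspose_mul]
    simp only [Matrix.mul_assoc]
  refine ⟨?_, ?_, ?_, ?_⟩
  · intro i j
    rw [locallyIntegrable_iff]
    intro k hk
    simp only [mul_apply]
    exact integrable_finsetSum _ fun a _ =>
      ((locallyIntegrable_iff.mp (h.hV i a)) k hk).mul_const _
  · simp only [trace, diag_apply, e]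
    exact (integrable_finsetSum _ fun k _ => integrable_sandwich hVV Sᴴ S k k).re
  · intro i j x y
    simp only [mul_apply]
    rw [intervalIntegral.integral_finsetSum fun k _ => (h.ii i k x y).mul_const _,
      ← Finset.sum_sub_distrib]
    refine Finset.sum_congr rfl fun k _ => ?_
    rw [intervalIntegral.integral_mul_const, ← h.hUV i k x y, sub_mul]
  · intro j k
    simp only [e]
    exact integrable_sandwich h.hP Sᴴ S j k

/-- the integral of `tr (P M)` for an orthonormal system -/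
theorem integral_tr {F V : ℝ → Matrix (Fin m) (Fin N) ℂ} (h : HM F V)
    (hG : ∀ j k, ∫ x, Pm F x j k = if j = k then 1 else 0) (M : Mat N) :
    ∫ x, (Pm F x * M).trace.re = M.trace.re := by
  have h1 : ∀ j k, Integrable fun x => Pm F x j k * M k j := fun j k =>
    (h.intP j k).mul_const _
  have h2 : ∫ x, (Pm F x * M).trace = M.trace := by
    simp only [trace, diag_apply, mul_apply]
    rw [integral_finsetSum _ fun j _ => integrable_finsetSum _ fun k _ => h1 j k]
    refine Finset.sum_congr rfl fun j _ => ?_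
    rw [integral_finsetSum _ fun k _ => h1 j k]
    simp only [integral_mul_const, hG]
    simp
  have h3 := integral_re (f := fun x => (Pm F x * M).trace) (μ := volume) (by
    simp only [trace, diag_apply, mul_apply]
    exact integrable_finsetSum _ fun j _ => integrable_finsetSum _ fun k _ => h1 j k)
  rw [h2] at h3
  exact h3

theorem trPow_cont (hfc : FcContFact) {X : Type*} [TopologicalSpace X] {A : X → Mat N} {T : Set X}
    (hA : ContinuousOn A T) (hh : ∀ x ∈ T, (A x).IsHermitian) {q : ℝ} (hq : 0 ≤ q) :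
    ContinuousOn (fun x => trPow (A x) q) T := by
  have h1 : ContinuousOn (fun x => cfc (fun y : ℝ => y ^ q) (A x)) T :=
    (hfc.2 N (fun y : ℝ => y ^ q) (Real.continuous_rpow_const hq)).comp hA hh
  have h2 : ContinuousOn (fun x => (cfc (fun y : ℝ => y ^ q) (A x)).trace.re) T := by
    have h3 : Continuous fun M : Mat N => M.trace.re :=
      Complex.continuous_re.comp (continuous_id.matrix_trace)
    exact h3.comp_continuousOn h1
  refine h2.congr fun x hx => ?_
  exact trPow_eq_trace (hh x hx) q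

/-- the power density potential -/
noncomputable def Wp (s : ℝ) (T : ℝ → Matrix (Fin m) (Fin N) ℂ) (x : ℝ) : Mat N :=
  cfc (fun y : ℝ => y ^ (1 / s)) (Pm T x)

theorem Wp_psd (s : ℝ) (T : ℝ → Matrix (Fin m) (Fin N) ℂ) (x : ℝ) : (Wp s T x).PosSemidef :=
  rpow_psd (Pm_psd x) _

theorem smul_one_psd {δ : ℝ} (hδ : 0 ≤ δ) : ((δ : ℂ) • (1 : Mat N)).PosSemidef :=
  PosSemidef.smul PosSemidef.one (by rw [Complex.zero_le_real]; exact hδ)

theorem Wp_contOn (hfc : FcContFact) {s : ℝ} (hs : 0 < s) {T V' : ℝ → Matrix (Fin m) (Fin N) ℂ}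
    (hT : HM T V') (A : Set ℝ) : ContinuousOn (Wp s T) A :=
  (hfc.2 N (fun y : ℝ => y ^ (1 / s)) (Real.continuous_rpow_const (by positivity))).comp
    hT.contPM.continuousOn fun x _ => (Pm_psd x).1

theorem Wp_cont' (hfc : FcContFact) {s : ℝ} (hs : 0 < s) {T V' : ℝ → Matrix (Fin m) (Fin N) ℂ}
    (hT : HM T V') (δ : ℝ) (A : Set ℝ) (i j) :
    ContinuousOn (fun x => (Wp s T x + (δ : ℂ) • (1 : Mat N)) i j) A := by
  have h0 := (Wp_contOn hfc hs hT A).add (continuousOn_const (c := (δ : ℂ) • (1 : Mat N)))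
  have h1 : Continuous fun M : Mat N => M i j := continuous_id.matrix_elem i j
  exact h1.comp_continuousOn h0

/-- the dominating function of the density power -/
theorem dom_facts {F V : ℝ → Matrix (Fin m) (Fin N) ℂ} (h : HM F V) (b : ℝ) {s : ℝ} (hs : 0 < s) :
    (∀ x, 0 ≤ (N : ℝ) * (b ^ 2 * (Pm F x).trace.re) ^ (1 + 1 / s)) ∧
    Integrable (fun x => (N : ℝ) * (b ^ 2 * (Pm F x).trace.re) ^ (1 + 1 / s)) := by
  obtain ⟨B, hB, hτ⟩ := h.sup_bound
  have hτ0 : ∀ x, 0 ≤ (Pm F x).trace.re := fun x => trace_nonneg (Pm_psd x)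
  have hbτ : ∀ x, 0 ≤ b ^ 2 * (Pm F x).trace.re := fun x => mul_nonneg (sq_nonneg b) (hτ0 x)
  have hτc : Continuous fun x => (Pm F x).trace.re :=
    Complex.continuous_re.comp h.contPM.matrix_trace
  have hG0 : ∀ x, 0 ≤ (N : ℝ) * (b ^ 2 * (Pm F x).trace.re) ^ (1 + 1 / s) := fun x =>
    mul_nonneg (Nat.cast_nonneg N) (Real.rpow_nonneg (hbτ x) _)
  have hGc : Continuous fun x => (N : ℝ) * (b ^ 2 * (Pm F x).trace.re) ^ (1 + 1 / s) :=
    continuous_const.mul ((continuous_const.mul hτc).rpow_const fun x => Or.inr (by positivity))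
  refine ⟨hG0, ?_⟩
  refine Integrable.mono' (g := fun x => N * (b ^ 2 * B) ^ (1 / s) * b ^ 2 * (Pm F x).trace.re)
    (h.trP_int.const_mul _) hGc.aestronglyMeasurable (Eventually.of_forall fun x => ?_)
  rw [Real.norm_eq_abs, abs_of_nonneg (hG0 x)]
  have e1 : (b ^ 2 * (Pm F x).trace.re) ^ (1 + 1 / s) =
      (b ^ 2 * (Pm F x).trace.re) * (b ^ 2 * (Pm F x).trace.re) ^ (1 / s) := by
    rw [Real.rpow_add_of_nonneg (hbτ x) zero_le_one (by positivity), Real.rpow_one]
  have e2 : (b ^ 2 * (Pm F x).trace.re) ^ (1 / s) ≤ (b ^ 2 * B) ^ (1 / s) :=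
    Real.rpow_le_rpow (hbτ x) (mul_le_mul_of_nonneg_left (hτ x) (sq_nonneg b)) (by positivity)
  have e3 : (b ^ 2 * (Pm F x).trace.re) * (b ^ 2 * (Pm F x).trace.re) ^ (1 / s) ≤
      (b ^ 2 * (Pm F x).trace.re) * (b ^ 2 * B) ^ (1 / s) :=
    mul_le_mul_of_nonneg_left e2 (hbτ x)
  rw [e1]
  calc (N : ℝ) * ((b ^ 2 * (Pm F x).trace.re) * (b ^ 2 * (Pm F x).trace.re) ^ (1 / s))
      ≤ N * ((b ^ 2 * (Pm F x).trace.re) * (b ^ 2 * B) ^ (1 / s)) :=
        mul_le_mul_of_nonneg_left e3 (Nat.cast_nonneg N)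
    _ = _ := by ring

/-- choice of the parameters -/
theorem choose_params {G : ℝ → ℝ} (hGi : Integrable G) {s ε : ℝ} (N : ℕ) (hs : 0 < s)
    (hε : 0 < ε) :
    ∃ ρ η δ : ℝ, 0 < ρ ∧ 0 < η ∧ 0 < δ ∧ (∫ x, G x) - ε < (∫ x in (-ρ)..ρ, G x) ∧
      ((1 + η) ^ s - 1) * (∫ x, G x) < ε ∧
      (1 + 1 / η) ^ s * (N * δ ^ (1 + s)) * (2 * ρ) < ε := by
  set I : ℝ := ∫ x, G x with hI
  obtain ⟨ρ, hρ, hρI⟩ : ∃ ρ : ℝ, 0 < ρ ∧ I - ε < ∫ x in (-ρ)..ρ, G x := by
    have h1 : Tendsto (fun ρ : ℝ => ∫ x in (-ρ)..ρ, G x) atTop (𝓝 I) :=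
      intervalIntegral_tendsto_integral hGi tendsto_neg_atTop_atBot tendsto_id
    have h2 := (h1.eventually (lt_mem_nhds (show I - ε < I by linarith))).and
      (eventually_gt_atTop (0 : ℝ))
    obtain ⟨ρ, h3, h4⟩ := h2.exists
    exact ⟨ρ, h4, h3⟩
  obtain ⟨η, hη, hηI⟩ : ∃ η : ℝ, 0 < η ∧ ((1 + η) ^ s - 1) * I < ε := by
    have h1 : Continuous fun η : ℝ => ((1 + |η|) ^ s - 1) * I :=
      (((continuous_const.add continuous_abs).rpow_const fun x => Or.inr hs.le).sub
        continuous_const).mul continuous_const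
    have h2 : Tendsto (fun η : ℝ => ((1 + |η|) ^ s - 1) * I) (𝓝[>] 0) (𝓝 0) := by
      have := (h1.tendsto 0).mono_left (nhdsWithin_le_nhds (s := Ioi 0))
      simpa using this
    obtain ⟨η, h3, h4⟩ := ((h2.eventually (gt_mem_nhds hε)).and self_mem_nhdsWithin).exists
    have h4' : 0 < η := h4
    rw [abs_of_pos h4'] at h3
    exact ⟨η, h4', h3⟩
  obtain ⟨δ, hδ, hδI⟩ : ∃ δ : ℝ, 0 < δ ∧
      (1 + 1 / η) ^ s * (N * δ ^ (1 + s)) * (2 * ρ) < ε := by
    have h1 : Continuous fun δ : ℝ => (1 + 1 / η) ^ s * (N * δ ^ (1 + s)) * (2 * ρ) :=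
      (continuous_const.mul (continuous_const.mul
        (Real.continuous_rpow_const (by positivity)))).mul continuous_const
    have h2 : Tendsto (fun δ : ℝ => (1 + 1 / η) ^ s * (N * δ ^ (1 + s)) * (2 * ρ)) (𝓝[>] 0)
        (𝓝 0) := by
      have := (h1.tendsto 0).mono_left (nhdsWithin_le_nhds (s := Ioi 0))
      rw [Real.zero_rpow (by positivity)] at this
      simpa using this
    obtain ⟨δ, h3, h4⟩ := ((h2.eventually (gt_mem_nhds hε)).and self_mem_nhdsWithin).exists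
    exact ⟨δ, h4, h3⟩
  exact ⟨ρ, η, δ, hρ, hη, hδ, hρI, hηI, hδI⟩

/-- the hypotheses of the topological step -/
theorem potential_facts (hfc : FcContFact) {s : ℝ} (hs : 0 < s)
    {F V : ℝ → Matrix (Fin m) (Fin N) ℂ} (h : HM F V)
    {b : ℝ} (S : Mat N → Mat N) (hSc : ContinuousOn S {E | E.PosDef})
    (hSb : ∀ E : Mat N, E.PosDef → (((b ^ 2 : ℝ) : ℂ) • (1 : Mat N) - (S E)ᴴ * S E).PosSemidef)
    (ρ : ℝ) :
    ContinuousOn (fun q : Mat N × ℝ => Wp s (fun y => F y * S q.1) q.2)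
      ({E | E.PosDef} ×ˢ Icc (-ρ) ρ) ∧
    ∃ ω : ℝ, ∀ E : Mat N, E.PosDef → ∀ x ∈ Icc (-ρ) ρ,
      (Wp s (fun y => F y * S E) x).PosSemidef ∧
        ((ω : ℂ) • 1 - Wp s (fun y => F y * S E) x).PosSemidef := by
  have hTpsd : ∀ E x, ((S E)ᴴ * Pm F x * S E).PosSemidef := fun E x =>
    (Pm_psd x).conjTranspose_mul_mul_same (S E)
  constructor
  · have h1 : ContinuousOn (fun q : Mat N × ℝ => S q.1) ({E | E.PosDef} ×ˢ Icc (-ρ) ρ) :=
      hSc.comp continuousOn_fst fun q hq => hq.1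
    have h2 : ContinuousOn (fun q : Mat N × ℝ => Pm F q.2) ({E | E.PosDef} ×ˢ Icc (-ρ) ρ) :=
      h.contPM.comp_continuousOn continuousOn_snd
    have h3 : ContinuousOn (fun q : Mat N × ℝ => (S q.1)ᴴ) ({E | E.PosDef} ×ˢ Icc (-ρ) ρ) := by
      have : Continuous fun M : Mat N => Mᴴ := continuous_id.matrix_conjTranspose
      exact this.comp_continuousOn h1
    have h4 : ContinuousOn (fun q : Mat N × ℝ => (S q.1)ᴴ * Pm F q.2 * S q.1)
        ({E | E.PosDef} ×ˢ Icc (-ρ) ρ) := (h3.mul h2).mul h1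
    simp only [Wp, Pm_mul]
    exact (hfc.2 N (fun y : ℝ => y ^ (1 / s)) (Real.continuous_rpow_const (by positivity))).comp h4
      fun q _ => (hTpsd q.1 q.2).1
  · obtain ⟨B, hB, hτ⟩ := h.sup_bound
    refine ⟨(b ^ 2 * B) ^ (1 / s), fun E hE x _ => ⟨Wp_psd s _ x, ?_⟩⟩
    rw [Wp, Pm_mul]
    have h1 : (((b ^ 2 * B : ℝ) : ℂ) • (1 : Mat N) - (S E)ᴴ * Pm F x * S E).PosSemidef := by
      have h2 : (((b ^ 2 * B - b ^ 2 * (Pm F x).trace.re : ℝ) : ℂ) • (1 : Mat N)).PosSemidef := by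
        refine smul_one_psd ?_
        have := mul_le_mul_of_nonneg_left (hτ x) (sq_nonneg b)
        linarith
      have h3 := h2.add (sandwich_le (Pm_psd (U := F) x) (hSb E hE))
      have h4 : (((b ^ 2 * B - b ^ 2 * (Pm F x).trace.re : ℝ) : ℂ) • (1 : Mat N)) +
          ((((b ^ 2 * (Pm F x).trace.re : ℝ) : ℂ) • (1 : Mat N)) - (S E)ᴴ * Pm F x * S E) =
          ((b ^ 2 * B : ℝ) : ℂ) • (1 : Mat N) - (S E)ᴴ * Pm F x * S E := by
        rw [← add_sub_assoc, ← add_smul]
        congr 2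
        push_cast
        ring
      rw [h4] at h3
      exact h3
    exact rpow_le_smul (hTpsd E x) h1 (by positivity)

/-- the test inequality for the density power -/
theorem step_test (hfc : FcContFact) {s : ℝ} (hs : 0 < s)
    {F V : ℝ → Matrix (Fin m) (Fin N) ℂ} (h : HM F V)
    (hG : ∀ j k, ∫ x, Pm F x j k = if j = k then 1 else 0) (S : Mat N) {ρ δ : ℝ} (hρ : 0 < ρ)
    (hδ : 0 < δ) (hT : HM (fun x => F x * S) (fun x => V x * S)) {K : Mat N} {Z : ℝ → Mat N}
    (hti : Integrable fun x => trPow (Pm (fun y => F y * S) x) (1 + 1 / s))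
    (hR : Ric (-ρ) ρ K (fun x => Wp s (fun y => F y * S) x + (δ : ℂ) • 1) Z) :
    ∫ x in (-ρ)..ρ, trPow (Pm (fun y => F y * S) x) (1 + 1 / s) ≤
      (∫ x, ((V x * S)ᴴ * (V x * S)).trace.re) + (Sᴴ * S * (K * K)).trace.re := by
  have hWc := Wp_cont' hfc hs hT δ (Icc (-ρ) ρ)
  have htest := test_ineq hT hρ.le hR hWc
  have hρρ : -ρ ≤ ρ := by linarith
  have hte : ∫ x, (Pm (fun y => F y * S) x * (K * K)).trace.re =
      (Sᴴ * S * (K * K)).trace.re := by
    have h1 : ∀ x, (Pm (fun y => F y * S) x * (K * K)).trace =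
        (Pm F x * (S * (K * K) * Sᴴ)).trace := by
      intro x
      rw [Pm_mul]
      calc (Sᴴ * Pm F x * S * (K * K)).trace
          = (Sᴴ * (Pm F x * S * (K * K))).trace := by
            simp only [Matrix.mul_assoc]
        _ = _ := by rw [trace_mul_comm]; simp only [Matrix.mul_assoc]
    have h2 : (S * (K * K) * Sᴴ).trace = (Sᴴ * S * (K * K)).trace := by
      rw [trace_mul_comm]
      simp only [Matrix.mul_assoc]
    simp only [h1]
    rw [integral_tr h hG, h2]
  rw [hte] at htest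
  refine le_trans ?_ htest
  refine intervalIntegral.integral_mono_on hρρ hti.intervalIntegrable ?_ fun x _ => ?_
  · apply ContinuousOn.intervalIntegrable
    rw [uIcc_of_le hρρ]
    exact contOn_trace (contOn_mul (fun i j => (hT.contP i j).continuousOn) hWc)
  · rw [Wp, Matrix.mul_add, trace_add, Complex.add_re, trace_mul_rpow (Pm_psd x) hs]
    have h1 : 0 ≤ (Pm (fun y => F y * S) x * ((δ : ℂ) • (1 : Mat N))).trace.re := by
      rw [Matrix.mul_smul, trace_smul, smul_eq_mul, Complex.re_ofReal_mul, Matrix.mul_one]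
      exact mul_nonneg hδ.le (trace_nonneg (Pm_psd x))
    linarith

/-- the fixed energy inequality for the density power -/
theorem step_fe (hFE : FEFact) (hfc : FcContFact) {s : ℝ} (hs : 0 < s) (hs1 : s < 1)
    {T V' : ℝ → Matrix (Fin m) (Fin N) ℂ} {ρ δ η : ℝ} (hρ : 0 < ρ) (hη : 0 < η)
    (hδ : 0 < δ) (hT : HM T V') {K : Mat N} {Z : ℝ → Mat N}
    (hti : Integrable fun x => trPow (Pm T x) (1 + 1 / s))
    (hR : Ric (-ρ) ρ K (fun x => Wp s T x + (δ : ℂ) • 1) Z) :
    Cs s * trPow (K * K) (s + 1 / 2) ≤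
      (1 + η) ^ s * (∫ x in (-ρ)..ρ, trPow (Pm T x) (1 + 1 / s)) +
        (1 + 1 / η) ^ s * (N * δ ^ (1 + s)) * (2 * ρ) := by
  have hWc := Wp_cont' hfc hs hT δ (Icc (-ρ) ρ)
  have hρρ : -ρ ≤ ρ := by linarith
  have hWpsd : ∀ x, (Wp s T x + (δ : ℂ) • (1 : Mat N)).PosSemidef := fun x =>
    (Wp_psd s T x).add (smul_one_psd hδ.le)
  have hfe := hFE N s (-ρ) ρ K _ Z hs hs1 hWc (fun x _ => hWpsd x) hR
  rw [trPow_two_mul hR.posDef.posSemidef] at hfe
  refine hfe.trans ?_
  have hup : ∫ x in (-ρ)..ρ, trPow (Wp s T x + (δ : ℂ) • (1 : Mat N)) (1 + s) ≤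
      ∫ x in (-ρ)..ρ, ((1 + η) ^ s * trPow (Pm T x) (1 + 1 / s) +
        (1 + 1 / η) ^ s * (N * δ ^ (1 + s))) := by
    refine intervalIntegral.integral_mono_on hρρ ?_
      ((hti.intervalIntegrable.const_mul _).add intervalIntegrable_const) fun x _ => ?_
    · apply ContinuousOn.intervalIntegrable
      rw [uIcc_of_le hρρ]
      exact trPow_cont hfc ((Wp_contOn hfc hs hT _).add continuousOn_const)
        (fun x _ => (hWpsd x).1) (by positivity)
    · have h1 := trPow_add_smul_le (Wp_psd s T x) hδ.le hη (p := 1 + s) (by linarith)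
      rw [add_sub_cancel_left] at h1
      refine h1.trans (le_of_eq ?_)
      rw [Wp, trPow_rpow (Pm_psd x) hs]
  refine hup.trans (le_of_eq ?_)
  rw [intervalIntegral.integral_add (hti.intervalIntegrable.const_mul _)
    intervalIntegrable_const, intervalIntegral.integral_const_mul,
    intervalIntegral.integral_const, smul_eq_mul]
  ring

theorem final_arith {s c J J' I ε T E η x : ℝ} (hs : 0 < s) (hI : ((1 + η) ^ s - 1) * I < ε)
    (hη : 0 < η) (hJI : J ≤ I) (hJ' : J' ≤ J + ε) (hε : 0 < ε) (hx : x < ε)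
    (h1 : J ≤ T) (h2 : c * E ≤ (1 + η) ^ s * J + x) :
    c / (1 + s) * E - 3 * ε ≤ T - s / (1 + s) * J' := by
  have e2 : (1 + η) ^ s * J ≤ J + ε := by
    have h3 : 0 ≤ (1 + η) ^ s - 1 := by
      have := Real.one_le_rpow (show 1 ≤ 1 + η by linarith) hs.le
      linarith
    have h4 := mul_le_mul_of_nonneg_left hJI h3
    linarith
  have hs1' : 0 < 1 + s := by linarith
  have e5 : c / (1 + s) * E ≤ (J + 2 * ε) / (1 + s) := by
    rw [div_mul_eq_mul_div]
    gcongr
    linarith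
  have e6 : (J + 2 * ε) / (1 + s) ≤ J - s / (1 + s) * J + 2 * ε := by
    have h1 : (J + 2 * ε) / (1 + s) = J - s / (1 + s) * J + 2 * ε / (1 + s) := by
      field_simp
      ring
    have h2 : 2 * ε / (1 + s) ≤ 2 * ε := by
      apply div_le_self (by positivity)
      linarith
    linarith
  have e7 : s / (1 + s) * J' ≤ s / (1 + s) * J + ε := by
    have h1 : 0 ≤ s / (1 + s) := by positivity
    have h2 : s / (1 + s) ≤ 1 := by
      rw [div_le_one hs1']
      linarith
    have h3 := mul_le_mul_of_nonneg_left hJ' h1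
    nlinarith
  linarith

/-- **Core inequality** for a given continuous family `E ↦ S_E`. -/
theorem core_ineq (hFE : FEFact) (hTop : Top2Fact) (hfc : FcContFact) {s : ℝ} (hs : 0 < s)
    (hs1 : s < 1) {F V : ℝ → Matrix (Fin m) (Fin N) ℂ} (h : HM F V)
    (hVV : ∀ j k, Integrable (fun x => ((V x)ᴴ * V x) j k))
    (hG : ∀ j k, ∫ x, Pm F x j k = if j = k then 1 else 0)
    {b : ℝ} (S : Mat N → Mat N) (hSc : ContinuousOn S {E | E.PosDef})
    (hSb : ∀ E : Mat N, E.PosDef → (((b ^ 2 : ℝ) : ℂ) • (1 : Mat N) - (S E)ᴴ * S E).PosSemidef)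
    {ε : ℝ} (hε : 0 < ε) :
    ∃ E : Mat N, E.PosDef ∧
      Cs s / (1 + s) * trPow E (s + 1 / 2) - ε ≤
        (∫ x, ((V x * S E)ᴴ * (V x * S E)).trace.re) + ((S E)ᴴ * S E * E).trace.re -
          s / (1 + s) * ∫ x, trPow (Pm (fun y => F y * S E) x) (1 + 1 / s) := by
  have hq0 : 0 < 1 + 1 / s := by positivity
  obtain ⟨hG0, hGi⟩ := dom_facts h b hs
  obtain ⟨ρ, η, δ, hρ, hη, hδ, hρI, hηI, hδI⟩ := choose_params hGi N hs
    (show 0 < ε / 3 by positivity)
  obtain ⟨hcont, ω, hbd⟩ := potential_facts hfc hs h S hSc hSb ρ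
  obtain ⟨K, Z, hRic⟩ := hTop N (-ρ) ρ ω δ (by linarith) hδ
    (fun E x => Wp s (fun y => F y * S E) x) hcont hbd
  have hKd := hRic.posDef
  have hEd : (K * K).PosDef := by
    rw [mul_self_eq_cfc hKd.1]
    exact cfc_pd hKd.1 fun x hx => mul_pos (spec_pos hKd hx) (spec_pos hKd hx)
  refine ⟨K * K, hEd, ?_⟩
  have hTM : HM (fun x => F x * S (K * K)) (fun x => V x * S (K * K)) := h.mul_const hVV _
  have htc : Continuous fun x => trPow (Pm (fun y => F y * S (K * K)) x) (1 + 1 / s) := by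
    rw [← continuousOn_univ]
    exact trPow_cont hfc hTM.contPM.continuousOn (fun x _ => (Pm_psd x).1) hq0.le
  have ht0 : ∀ x, 0 ≤ trPow (Pm (fun y => F y * S (K * K)) x) (1 + 1 / s) := fun x =>
    trPow_nonneg (Pm_psd x) _
  have htG : ∀ x, trPow (Pm (fun y => F y * S (K * K)) x) (1 + 1 / s) ≤
      (N : ℝ) * (b ^ 2 * (Pm F x).trace.re) ^ (1 + 1 / s) := fun x => by
    rw [Pm_mul]
    exact trPow_sandwich_le (Pm_psd x) (hSb _ hEd) hq0.le
  have hti : Integrable fun x => trPow (Pm (fun y => F y * S (K * K)) x) (1 + 1 / s) := by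
    refine hGi.mono' htc.aestronglyMeasurable (Eventually.of_forall fun x => ?_)
    rw [Real.norm_eq_abs, abs_of_nonneg (ht0 x)]
    exact htG x
  have hρρ : -ρ ≤ ρ := by linarith
  have h1 : ∫ x in (-ρ)..ρ, ((N : ℝ) * (b ^ 2 * (Pm F x).trace.re) ^ (1 + 1 / s) -
      trPow (Pm (fun y => F y * S (K * K)) x) (1 + 1 / s)) ≤
      ∫ x, ((N : ℝ) * (b ^ 2 * (Pm F x).trace.re) ^ (1 + 1 / s) -
        trPow (Pm (fun y => F y * S (K * K)) x) (1 + 1 / s)) := by
    rw [intervalIntegral.integral_of_le hρρ]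
    exact setIntegral_le_integral (hGi.sub hti) (Eventually.of_forall fun x =>
      sub_nonneg.mpr (htG x))
  rw [intervalIntegral.integral_sub hGi.intervalIntegrable hti.intervalIntegrable,
    integral_sub hGi hti] at h1
  have h2 : ∫ x in (-ρ)..ρ, trPow (Pm (fun y => F y * S (K * K)) x) (1 + 1 / s) ≤
      ∫ x, (N : ℝ) * (b ^ 2 * (Pm F x).trace.re) ^ (1 + 1 / s) := by
    have h3 : ∫ x in (-ρ)..ρ, trPow (Pm (fun y => F y * S (K * K)) x) (1 + 1 / s) ≤
        ∫ x, trPow (Pm (fun y => F y * S (K * K)) x) (1 + 1 / s) := by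
      rw [intervalIntegral.integral_of_le hρρ]
      exact setIntegral_le_integral hti (Eventually.of_forall ht0)
    exact h3.trans (integral_mono hti hGi htG)
  have h3 := step_test hfc hs h hG (S (K * K)) hρ hδ hTM hti hRic
  have h4 := step_fe hFE hfc hs hs1 hρ hη hδ hTM hti hRic
  have h5 := final_arith hs hηI hη h2
    (J' := ∫ x, trPow (Pm (fun y => F y * S (K * K)) x) (1 + 1 / s))
    (by linarith) (by positivity) hδI h3 h4
  linarith

end Vale.Agent.P371.G
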