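import Vale.Agent.P371.G.Iface
import Vale.Agent.P371.FE.TraceFun

open Matrix
open scoped ComplexOrder

namespace Vale.Agent.P371.G

theorem gibbsFact : GibbsFact := by
  intro N a b Y ha hb hY
  have h := FE.gibbs ha hb hY.posSemidef
  have h1 : (Y * (cfc Real.log a + cfc Real.log b)).trace =
      ((cfc Real.log a + cfc Real.log b) * Y).trace := trace_mul_comm _ _
  have h2 : Y * cfc Real.log Y = cfc (fun x => x * Real.log x) Y := by
    have h3 := FE.cfc_mulm hY.1 id Real.log
    rw [FE.cfc_idm hY.1] at h3
    exact h3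
  rw [h1, h2]
  exact h

end Vale.Agent.P371.G
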