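import Vale.Agent.P371.G.Iface
import Vale.Agent.P371.G.GibbsF
import Vale.Agent.P371.G.Cfc

/-!
# P371: the fixed-energy theorem (M5)
-/

open MeasureTheory Matrix Set
open scoped ENNReal ComplexOrder

namespace Vale.Agent.P371.G

variable {N : ℕ}

namespace FEm

theorem Kt_sub_dg_posDef {κ : Fin N → ℝ} (hκ : ∀ j, 0 < κ j) {t : ℝ} (ht : 0 < t) :
    (Kt κ t - dg κ).PosDef := by
  have : Kt κ t - dg κ = diagonal fun j => ((√(κ j ^ 2 + t) - κ j : ℝ) : ℂ) := by
    ext i j
    by_cases h : i = j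
    · subst h
      simp [Kt, dg]
    · simp [Kt, dg, h]
  rw [this, posDef_diagonal_iff]
  intro i
  rw [Complex.zero_lt_real, sub_pos]
  exact (Real.lt_sqrt (hκ i).le).mpr (by linarith)

theorem posDef_sub {κ : Fin N → ℝ} (hκ : ∀ j, 0 < κ j) {Z : Mat N} (hZ : Adm κ Z) {t : ℝ}
    (ht : 0 < t) : (Kt κ t - Z).PosDef := by
  have h := (Kt_sub_dg_posDef hκ ht).add_posSemidef hZ.upper
  have e : Kt κ t - Z = Kt κ t - dg κ + (dg κ - Z) := by abel
  rwa [e]

theorem posDef_add {κ : Fin N → ℝ} (hκ : ∀ j, 0 < κ j) {Z : Mat N} (hZ : Adm κ Z) {t : ℝ}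
    (ht : 0 < t) : (Kt κ t + Z).PosDef := by
  have h := (Kt_sub_dg_posDef hκ ht).add_posSemidef hZ.lower
  have e : Kt κ t + Z = Kt κ t - dg κ + (dg κ + Z) := by abel
  rwa [e]

theorem trace_ab (κ : Fin N → ℝ) (Z : Mat N) {t : ℝ} (ht : 0 ≤ t) :
    ((Kt κ t + Z) * (Kt κ t - Z)).trace = (Xm κ Z).trace + t * N := by
  have h1 : (Kt κ t + Z) * (Kt κ t - Z) = Kt κ t * Kt κ t - Z * Z + (Z * Kt κ t - Kt κ t * Z) := by
    simp only [Matrix.add_mul, Matrix.mul_sub]
    abel
  have h2 : Kt κ t * Kt κ t = dg κ * dg κ + (t : ℂ) • 1 := by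
    ext i j
    by_cases h : i = j
    · subst h
      simp only [Kt, dg, diagonal_mul_diagonal, diagonal_apply_eq, Matrix.add_apply,
        Matrix.smul_apply, one_apply_eq, smul_eq_mul, mul_one]
      rw [← Complex.ofReal_mul, ← Complex.ofReal_mul, ← Complex.ofReal_add,
        Real.mul_self_sqrt (by positivity)]
      congr 1
      ring
    · simp [Kt, dg, h]
  rw [h1, trace_add, trace_sub (Z * Kt κ t), trace_mul_comm Z, sub_self, add_zero, h2, Xm,
    trace_sub, trace_sub, trace_add, trace_smul, trace_one]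
  simp only [Fintype.card_fin, smul_eq_mul]
  ring

/-- the scalar function `w(g, t) = (g + t) log (1 + g/t) - g` -/
noncomputable def wf (g t : ℝ) : ℝ := (g + t) * Real.log (1 + g / t) - g

theorem affine_posDef {W : Mat N} (hW : W.PosSemidef) {c t : ℝ} (hc : 0 ≤ c) (ht : 0 < t) :
    ((c : ℂ) • W + (t : ℂ) • 1).PosDef :=
  Matrix.PosDef.posSemidef_add (hW.smul (by rw [Complex.zero_le_real]; exact hc))
    (PosDef.one.smul (by rw [Complex.zero_lt_real]; exact ht))

/-- `(A'')` -/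
theorem gibbs_pt {κ : Fin N → ℝ} (hκ : ∀ j, 0 < κ j) {Z : Mat N} (hZ : Adm κ Z) {t : ℝ}
    (ht : 0 < t) {W : Mat N} (hW : W.PosSemidef) {c : ℝ} (hc : 0 ≤ c) :
    c * ((Lt κ t Z * W).trace.re - Real.log t * W.trace.re) +
      t * ((Lt κ t Z).trace.re - N * Real.log t) ≤
      (Xm κ Z).trace.re + ∑ i, wf (c * hW.1.eigenvalues i) t := by
  set Y : Mat N := (c : ℂ) • W + (t : ℂ) • 1 with hY
  have hYp : Y.PosDef := affine_posDef hW hc ht
  have h := gibbsFact N _ _ Y (posDef_add hκ hZ ht) (posDef_sub hκ hZ ht) hYp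
  have h1 : (Y * (cfc Real.log (Kt κ t + Z) + cfc Real.log (Kt κ t - Z))).trace.re =
      c * (Lt κ t Z * W).trace.re + t * (Lt κ t Z).trace.re := by
    change (Y * Lt κ t Z).trace.re = _
    rw [hY, Matrix.add_mul, Matrix.smul_mul, Matrix.smul_mul, Matrix.one_mul, trace_add,
      trace_smul, trace_smul, trace_mul_comm W, smul_eq_mul, smul_eq_mul, Complex.add_re,
      Complex.re_ofReal_mul, Complex.re_ofReal_mul]
  have h2 : Y.trace.re = c * W.trace.re + t * N := by
    rw [hY, trace_add, trace_smul, trace_smul, trace_one, smul_eq_mul, smul_eq_mul,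
      Complex.add_re, Complex.re_ofReal_mul, Complex.re_ofReal_mul]
    simp
  have h3 : (Y * cfc Real.log Y).trace.re =
      ∑ i, (c * hW.1.eigenvalues i + t) * Real.log (c * hW.1.eigenvalues i + t) := by
    rw [hY, ← cfc_affine hW.1, cfc_cfc hW.1, FE.cfc_mulm hW.1, FE.trace_cfc hW.1,
      Complex.ofReal_re]
  have h4 : W.trace.re = ∑ i, hW.1.eigenvalues i := by
    have := FE.trace_cfc hW.1 id
    rw [FE.cfc_idm hW.1] at this
    rw [this, Complex.ofReal_re]
    rfl
  have h5 : ((Kt κ t + Z) * (Kt κ t - Z)).trace.re = (Xm κ Z).trace.re + t * N := by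
    rw [trace_ab κ Z ht.le, Complex.add_re, ← Complex.ofReal_natCast, ← Complex.ofReal_mul,
      Complex.ofReal_re]
  rw [h1, h2, h3, h5] at h
  have h6 : ∑ i, (c * hW.1.eigenvalues i + t) * Real.log (c * hW.1.eigenvalues i + t) =
      (∑ i, wf (c * hW.1.eigenvalues i) t) + c * W.trace.re +
        Real.log t * (c * W.trace.re + t * N) := by
    have h7 : ∀ i, (c * hW.1.eigenvalues i + t) * Real.log (c * hW.1.eigenvalues i + t) =
        wf (c * hW.1.eigenvalues i) t + c * hW.1.eigenvalues i +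
          Real.log t * (c * hW.1.eigenvalues i + t) := by
      intro i
      have h8 : 0 ≤ c * hW.1.eigenvalues i := mul_nonneg hc (hW.eigenvalues_nonneg i)
      have h9 : c * hW.1.eigenvalues i + t = t * (1 + c * hW.1.eigenvalues i / t) := by
        field_simp
        ring
      have h10 : Real.log (c * hW.1.eigenvalues i + t) =
          Real.log t + Real.log (1 + c * hW.1.eigenvalues i / t) := by
        rw [← Real.log_mul ht.ne' (by positivity), ← h9]
      rw [h10, wf]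
      ring
    simp only [h7, Finset.sum_add_distrib, ← Finset.mul_sum, h4]
    simp only [Finset.sum_const, Finset.card_univ, Fintype.card_fin, nsmul_eq_mul]
    ring
  rw [h6] at h
  linarith

theorem wf_nonneg {g t : ℝ} (hg : 0 ≤ g) (ht : 0 < t) : 0 ≤ wf g t := by
  unfold wf
  have h1 : 0 ≤ g / t := div_nonneg hg ht.le
  have h2 := Real.one_sub_inv_le_log_of_pos (x := 1 + g / t) (by positivity)
  have h3 : 0 < g + t := by positivity
  have h4 : (g + t) * (1 - (1 + g / t)⁻¹) = g := by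
    field_simp
    ring
  have h5 := mul_le_mul_of_nonneg_left h2 h3.le
  linarith

/-- weighted version of the integral inequality -/
theorem weighted {h r : ℝ → ℝ} {s t₁ t₂ : ℝ} (hs : 0 < s) (ht₁ : 0 < t₁) (h12 : t₁ ≤ t₂)
    (hc : ContinuousOn h (Icc t₁ t₂)) (rc : ContinuousOn r (Icc t₁ t₂))
    (hr : ∀ a ∈ Icc t₁ t₂, ∀ b ∈ Icc t₁ t₂, a ≤ b → h b - h a ≤ ∫ t in a..b, r t) :
    t₂ ^ s * h t₂ - t₁ ^ s * h t₁ ≤ ∫ t in t₁..t₂, (s * t ^ (s - 1) * h t + t ^ s * r t) := by
  set R : ℝ → ℝ := fun t => ∫ τ in t₁..t, r τ with hR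
  have hri : IntervalIntegrable r volume t₁ t₂ := rc.intervalIntegrable_of_Icc h12
  have hRc : ContinuousOn R (Icc t₁ t₂) := by
    have := intervalIntegral.continuousOn_primitive_interval' hri (left_mem_uIcc)
    rwa [uIcc_of_le h12] at this
  have hRd : ∀ t ∈ Ioo t₁ t₂, HasDerivAt R (r t) t := by
    intro t ht
    refine intervalIntegral.integral_hasDerivAt_right ?_ ?_ ?_
    · exact (rc.mono (Icc_subset_Icc le_rfl ht.2.le)).intervalIntegrable_of_Icc ht.1.le
    · exact (rc.mono Ioo_subset_Icc_self).stronglyMeasurableAtFilter isOpen_Ioo t ht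
    · exact rc.continuousAt (Icc_mem_nhds ht.1 ht.2)
  have hpc : ∀ a : ℝ, ContinuousOn (fun t : ℝ => t ^ a) (Icc t₁ t₂) := fun a t ht =>
    (Real.continuousAt_rpow_const t a (Or.inl (ht₁.trans_le ht.1).ne')).continuousWithinAt
  have hp : ∀ a : ℝ, ∀ t ∈ Icc t₁ t₂, HasDerivAt (fun t : ℝ => t ^ a) (a * t ^ (a - 1)) t :=
    fun a t ht => Real.hasDerivAt_rpow_const (Or.inl (ht₁.trans_le ht.1).ne')
  have c1 : ContinuousOn (fun t => s * t ^ (s - 1)) (Icc t₁ t₂) :=
    continuousOn_const.mul (hpc _)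
  have hRftc : ∫ t in t₁..t₂, (s * t ^ (s - 1) * R t + t ^ s * r t) =
      t₂ ^ s * R t₂ - t₁ ^ s * R t₁ := by
    refine intervalIntegral.integral_eq_sub_of_hasDerivAt_of_le h12 ((hpc s).mul hRc) ?_ ?_
    · intro t ht
      exact (hp s t (Ioo_subset_Icc_self ht)).mul (hRd t ht)
    · exact ((c1.mul hRc).add ((hpc s).mul rc)).intervalIntegrable_of_Icc h12
  have hR0 : R t₁ = 0 := by simp [hR]
  set Θ : ℝ → ℝ := fun t => h t - R t with hΘ
  have hΘc : ContinuousOn Θ (Icc t₁ t₂) := hc.sub hRc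
  have hanti : ∀ t ∈ Icc t₁ t₂, Θ t₂ ≤ Θ t := by
    intro t ht
    have h1 := hr t ht t₂ (right_mem_Icc.mpr h12) ht.2
    have h2 : R t₂ - R t = ∫ τ in t..t₂, r τ := by
      have i1 : IntervalIntegrable r volume t₁ t :=
        (rc.mono (Icc_subset_Icc le_rfl ht.2)).intervalIntegrable_of_Icc ht.1
      have i2 : IntervalIntegrable r volume t t₂ :=
        (rc.mono (Icc_subset_Icc ht.1 le_rfl)).intervalIntegrable_of_Icc ht.2
      have := intervalIntegral.integral_add_adjacent_intervals i1 i2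
      simp only [hR]
      linarith
    simp only [hΘ]
    linarith
  have hint : ∫ t in t₁..t₂, s * t ^ (s - 1) = t₂ ^ s - t₁ ^ s := by
    refine intervalIntegral.integral_eq_sub_of_hasDerivAt_of_le h12 (hpc s) ?_ ?_
    · intro t ht
      exact hp s t (Ioo_subset_Icc_self ht)
    · exact c1.intervalIntegrable_of_Icc h12
  have hΘi : Θ t₂ * (t₂ ^ s - t₁ ^ s) ≤ ∫ t in t₁..t₂, s * t ^ (s - 1) * Θ t := by
    rw [← hint, ← intervalIntegral.integral_const_mul]
    refine intervalIntegral.integral_mono_on h12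
      ((continuousOn_const.mul c1).intervalIntegrable_of_Icc h12)
      ((c1.mul hΘc).intervalIntegrable_of_Icc h12) ?_
    intro t ht
    have h1 : 0 ≤ s * t ^ (s - 1) :=
      mul_nonneg hs.le (Real.rpow_nonneg (ht₁.trans_le ht.1).le _)
    have := mul_le_mul_of_nonneg_left (hanti t ht) h1
    linarith
  have hsum : ∫ t in t₁..t₂, (s * t ^ (s - 1) * h t + t ^ s * r t) =
      (∫ t in t₁..t₂, s * t ^ (s - 1) * Θ t) +
        ∫ t in t₁..t₂, (s * t ^ (s - 1) * R t + t ^ s * r t) := by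
    have i1 : IntervalIntegrable (fun t => s * t ^ (s - 1) * Θ t) volume t₁ t₂ :=
      (c1.mul hΘc).intervalIntegrable_of_Icc h12
    have i2 : IntervalIntegrable (fun t => s * t ^ (s - 1) * R t + t ^ s * r t) volume t₁ t₂ :=
      ((c1.mul hRc).add ((hpc s).mul rc)).intervalIntegrable_of_Icc h12
    rw [← intervalIntegral.integral_add i1 i2]
    refine intervalIntegral.integral_congr fun t _ => ?_
    simp only [hΘ]
    ring
  have hmono : t₁ ^ s * Θ t₂ ≤ t₁ ^ s * Θ t₁ :=
    mul_le_mul_of_nonneg_left (hanti t₁ (left_mem_Icc.mpr h12)) (Real.rpow_nonneg ht₁.le _)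
  rw [hsum, hRftc, hR0]
  have e1 : h t₂ = Θ t₂ + R t₂ := by simp [hΘ]
  have e2 : h t₁ = Θ t₁ := by simp [hΘ, hR0]
  rw [e1, e2]
  linarith

theorem swap_cont {f : ℝ → ℝ → ℝ} {a b c d : ℝ} (hab : a ≤ b) (hcd : c ≤ d)
    (hf : ContinuousOn (fun q : ℝ × ℝ => f q.1 q.2) (Icc a b ×ˢ Icc c d)) :
    ∫ t in a..b, ∫ x in c..d, f t x = ∫ x in c..d, ∫ t in a..b, f t x := by
  simp only [intervalIntegral.integral_of_le hab, intervalIntegral.integral_of_le hcd,
    ← integral_Icc_eq_integral_Ioc]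
  refine integral_integral_swap ?_
  rw [Measure.prod_restrict]
  exact hf.integrableOn_compact (isCompact_Icc.prod isCompact_Icc)

theorem inner_integrable {f : ℝ → ℝ → ℝ} {a b c d : ℝ} (hab : a ≤ b) (hcd : c ≤ d)
    (hf : ContinuousOn (fun q : ℝ × ℝ => f q.1 q.2) (Icc a b ×ˢ Icc c d)) :
    IntervalIntegrable (fun x => ∫ t in a..b, f t x) volume c d := by
  rw [intervalIntegrable_iff_integrableOn_Icc_of_le hcd]
  simp only [intervalIntegral.integral_of_le hab, ← integral_Icc_eq_integral_Ioc]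
  have h1 : Integrable (Function.uncurry f)
      ((volume.restrict (Icc a b)).prod (volume.restrict (Icc c d))) := by
    rw [Measure.prod_restrict]
    exact hf.integrableOn_compact (isCompact_Icc.prod isCompact_Icc)
  exact h1.integral_prod_right

section cont

theorem contOn_mat {X : Type*} [TopologicalSpace X] {S : Set X} {F : X → Mat N} :
    ContinuousOn F S ↔ ∀ i j, ContinuousOn (fun x => F x i j) S := by
  constructor
  · intro h i j
    exact (continuousOn_pi.mp (continuousOn_pi.mp h i) j)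
  · intro h
    exact continuousOn_pi.mpr fun i => continuousOn_pi.mpr fun j => h i j

theorem Kt_cont (κ : Fin N → ℝ) : Continuous fun t : ℝ => Kt κ t := by
  refine continuous_matrix fun i j => ?_
  by_cases h : i = j
  · subst h
    simp only [Kt, diagonal_apply_eq]
    fun_prop
  · simp only [Kt, diagonal_apply_ne _ h]
    exact continuous_const

theorem Lt_contOn (hF : FcContFact) {κ : Fin N → ℝ} (hκ : ∀ j, 0 < κ j) {Z : ℝ → Mat N}
    {S : Set ℝ} (hZa : ∀ x ∈ S, Adm κ (Z x)) (hZc : ContinuousOn Z S) :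
    ContinuousOn (fun q : ℝ × ℝ => Lt κ q.1 (Z q.2)) (Ioi 0 ×ˢ S) := by
  have h1 : ContinuousOn (fun q : ℝ × ℝ => Kt κ q.1) (Ioi (0 : ℝ) ×ˢ S) :=
    ((Kt_cont κ).comp continuous_fst).continuousOn
  have h2 : ContinuousOn (fun q : ℝ × ℝ => Z q.2) (Ioi (0 : ℝ) ×ˢ S) :=
    hZc.comp continuousOn_snd fun q hq => hq.2
  have hlog : ContinuousOn (fun A : Mat N => cfc Real.log A) {A | A.PosDef} :=
    hF.1 N Real.log (Real.continuousOn_log.mono fun x hx => ne_of_gt hx)
  refine ContinuousOn.add ?_ ?_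
  · exact hlog.comp (h1.add h2) fun q hq => posDef_add hκ (hZa q.2 hq.2) hq.1
  · exact hlog.comp (h1.sub h2) fun q hq => posDef_sub hκ (hZa q.2 hq.2) hq.1

theorem Lt_contOn_t (hF : FcContFact) {κ : Fin N → ℝ} (hκ : ∀ j, 0 < κ j) {Z : Mat N}
    (hZ : Adm κ Z) : ContinuousOn (fun t : ℝ => Lt κ t Z) (Ioi 0) := by
  have h1 : ContinuousOn (fun t : ℝ => Kt κ t) (Ioi (0 : ℝ)) := (Kt_cont κ).continuousOn
  have h2 : ContinuousOn (fun _ : ℝ => Z) (Ioi (0 : ℝ)) := continuousOn_const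
  have hlog : ContinuousOn (fun A : Mat N => cfc Real.log A) {A | A.PosDef} :=
    hF.1 N Real.log (Real.continuousOn_log.mono fun x hx => ne_of_gt hx)
  refine ContinuousOn.add ?_ ?_
  · exact hlog.comp (h1.add h2) fun t ht => posDef_add hκ hZ ht
  · exact hlog.comp (h1.sub h2) fun t ht => posDef_sub hκ hZ ht

theorem trace_contOn {X : Type*} [TopologicalSpace X] {S : Set X} {F : X → Mat N}
    (hF : ContinuousOn F S) : ContinuousOn (fun x => (F x).trace.re) S := by
  refine Complex.continuous_re.comp_continuousOn ?_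
  exact (Continuous.matrix_trace continuous_id).comp_continuousOn hF

end cont

/-- The inequality for a fixed `Z`, after integration over `t`. -/
theorem point (hB : BFact) (hH : HFact) (hF : FcContFact) (hS : ScalarFact) {κ : Fin N → ℝ}
    (hκ : ∀ j, 0 < κ j) {Z : Mat N} (hZ : Adm κ Z) {W : Mat N} (hW : W.PosSemidef) {s : ℝ}
    (hs : 0 < s) (hs1 : s < 1) {t₁ t₂ : ℝ} (ht₁ : 0 < t₁) (h12 : t₁ ≤ t₂) :
    -(t₁ ^ s * (((Xm κ Z + (t₁ : ℂ) • 1) * Lt κ t₁ Z).trace.re -
        Real.log t₁ * (Xm κ Z + (t₁ : ℂ) • 1).trace.re - (Xm κ Z).trace.re)) -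
      s * ∫ t in t₁..t₂, t ^ (s - 1) * ((Lt κ t Z * (Xm κ Z - W)).trace.re -
        Real.log t * (Xm κ Z - W).trace.re) ≤
      c0 s * (s / (1 + s)) ^ (1 + s) * trPow W (1 + s) := by
  set T : ℝ := (Xm κ Z).trace.re with hT
  set ell : ℝ → ℝ := fun t => (Lt κ t Z).trace.re with hell
  set h : ℝ → ℝ := fun t => ((Xm κ Z + (t : ℂ) • 1) * Lt κ t Z).trace.re -
        Real.log t * (Xm κ Z + (t : ℂ) • 1).trace.re - T with hh
  set r : ℝ → ℝ := fun t => ell t - N * Real.log t - T / t with hr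
  have hpos : ∀ t ∈ Icc t₁ t₂, 0 < t := fun t ht => ht₁.trans_le ht.1
  have hsub : Icc t₁ t₂ ⊆ Ioi 0 := fun t ht => hpos t ht
  have hLc : ContinuousOn (fun t : ℝ => Lt κ t Z) (Icc t₁ t₂) := (Lt_contOn_t hF hκ hZ).mono hsub
  have hlogc : ContinuousOn Real.log (Icc t₁ t₂) :=
    Real.continuousOn_log.mono fun t ht => (hpos t ht).ne'
  have hXt : ContinuousOn (fun t : ℝ => Xm κ Z + (t : ℂ) • (1 : Mat N)) (Icc t₁ t₂) := by
    refine (Continuous.continuousOn ?_)
    exact continuous_const.add (Complex.continuous_ofReal.smul continuous_const)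
  have hpc : ∀ a : ℝ, ContinuousOn (fun t : ℝ => t ^ a) (Icc t₁ t₂) := fun a t ht =>
    (Real.continuousAt_rpow_const t a (Or.inl (hpos t ht).ne')).continuousWithinAt
  have hellc : ContinuousOn ell (Icc t₁ t₂) := trace_contOn hLc
  have hXLc : ContinuousOn (fun t : ℝ => ((Xm κ Z + (t : ℂ) • 1) * Lt κ t Z).trace.re)
      (Icc t₁ t₂) := trace_contOn (hXt.mul hLc)
  have hhc : ContinuousOn h (Icc t₁ t₂) :=
    (hXLc.sub (hlogc.mul (trace_contOn hXt))).sub continuousOn_const
  have hrc : ContinuousOn r (Icc t₁ t₂) :=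
    (hellc.sub (continuousOn_const.mul hlogc)).sub
      (continuousOn_const.div continuousOn_id fun t ht => (hpos t ht).ne')
  have htr : ∀ t : ℝ, (Xm κ Z + (t : ℂ) • (1 : Mat N)).trace.re = T + t * N := by
    intro t
    rw [trace_add, trace_smul, trace_one, smul_eq_mul, Complex.add_re, Complex.re_ofReal_mul]
    simp [hT]
  have hineq : ∀ a ∈ Icc t₁ t₂, ∀ b ∈ Icc t₁ t₂, a ≤ b → h b - h a ≤ ∫ t in a..b, r t := by
    intro a ha b hb hab
    have h1 := hB N κ Z hκ hZ a b (hpos a ha) hab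
    have hsub' : Icc a b ⊆ Icc t₁ t₂ := Icc_subset_Icc ha.1 hb.2
    have h2 : ∫ t in a..b, (T / t + (N * Real.log t + N)) =
        Real.log b * (T + b * N) - Real.log a * (T + a * N) := by
      have hd : ∀ t ∈ Ioo a b, HasDerivAt (fun t => Real.log t * (T + t * N))
          (T / t + (N * Real.log t + N)) t := by
        intro t ht
        have ht0 : 0 < t := hpos t (hsub' (Ioo_subset_Icc_self ht))
        have h3 : HasDerivAt (fun t : ℝ => T + t * N) (N : ℝ) t := by
          simpa using ((hasDerivAt_id t).mul_const (N : ℝ)).const_add T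
        refine ((Real.hasDerivAt_log ht0.ne').mul h3).congr_deriv ?_
        field_simp
        ring
      refine intervalIntegral.integral_eq_sub_of_hasDerivAt_of_le
        (f := fun t => Real.log t * (T + t * N)) hab ?_ hd ?_
      · exact (hlogc.mono hsub').mul (by fun_prop)
      · refine ContinuousOn.intervalIntegrable_of_Icc hab ?_
        refine (continuousOn_const.div continuousOn_id fun t ht =>
          (hpos t (hsub' ht)).ne').add ?_
        exact (continuousOn_const.mul (hlogc.mono hsub')).add continuousOn_const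
    have h4 : ∫ t in a..b, r t = (∫ t in a..b, (ell t + N)) -
        ∫ t in a..b, (T / t + (N * Real.log t + N)) := by
      rw [← intervalIntegral.integral_sub]
      · refine intervalIntegral.integral_congr fun t _ => ?_
        simp only [hr]
        ring
      · exact ((hellc.mono hsub').add continuousOn_const).intervalIntegrable_of_Icc hab
      · refine ContinuousOn.intervalIntegrable_of_Icc hab ?_
        refine (continuousOn_const.div continuousOn_id fun t ht =>
          (hpos t (hsub' ht)).ne').add ?_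
        exact (continuousOn_const.mul (hlogc.mono hsub')).add continuousOn_const
    rw [h4, h2]
    simp only [hh, htr]
    simp only [hell]
    linarith
  have hw := weighted hs ht₁ h12 hhc hrc hineq
  have hh2 : 0 ≤ h t₂ := (hH N κ hκ).1 Z hZ t₂ (ht₁.trans_le h12)
  have hlam : 0 ≤ s / (1 + s) := by positivity
  -- the pointwise bound of the integrand
  have hbound : ∀ t ∈ Icc t₁ t₂, s * t ^ (s - 1) * h t + t ^ s * r t ≤
      s * (t ^ (s - 1) * ((Lt κ t Z * (Xm κ Z - W)).trace.re -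
        Real.log t * (Xm κ Z - W).trace.re)) +
        (1 + s) * ∑ i, t ^ (s - 1) * wf (s / (1 + s) * hW.1.eigenvalues i) t := by
    intro t ht
    have ht0 := hpos t ht
    have h1 := gibbs_pt hκ hZ ht0 hW hlam
    have h2 : t ^ s = t ^ (s - 1) * t := by
      rw [← Real.rpow_add_one ht0.ne']
      congr 1
      ring
    have h3 : h t = (Lt κ t Z * Xm κ Z).trace.re + t * ell t - Real.log t * (T + t * N) - T := by
      simp only [hh, htr]
      rw [Matrix.add_mul, Matrix.smul_mul, Matrix.one_mul, trace_add, trace_smul, smul_eq_mul,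
        Complex.add_re, Complex.re_ofReal_mul, trace_mul_comm (Xm κ Z)]
    have h4 : (Lt κ t Z * (Xm κ Z - W)).trace.re =
        (Lt κ t Z * Xm κ Z).trace.re - (Lt κ t Z * W).trace.re := by
      rw [Matrix.mul_sub, trace_sub, Complex.sub_re]
    have h5 : (Xm κ Z - W).trace.re = T - W.trace.re := by
      rw [trace_sub, Complex.sub_re]
    have h6 : 0 ≤ t ^ (s - 1) := Real.rpow_nonneg ht0.le _
    have h7 : s * t ^ (s - 1) * h t + t ^ s * r t =
        t ^ (s - 1) * (s * h t + t * r t) := by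
      rw [h2]
      ring
    have h8 : s * (t ^ (s - 1) * ((Lt κ t Z * (Xm κ Z - W)).trace.re -
        Real.log t * (Xm κ Z - W).trace.re)) +
        (1 + s) * ∑ i, t ^ (s - 1) * wf (s / (1 + s) * hW.1.eigenvalues i) t =
        t ^ (s - 1) * (s * ((Lt κ t Z * (Xm κ Z - W)).trace.re -
        Real.log t * (Xm κ Z - W).trace.re) +
        (1 + s) * ∑ i, wf (s / (1 + s) * hW.1.eigenvalues i) t) := by
      rw [← Finset.mul_sum]
      ring
    rw [h7, h8]
    refine mul_le_mul_of_nonneg_left ?_ h6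
    have h9 : t * r t = t * (ell t - N * Real.log t) - T := by
      simp only [hr]
      field_simp
    have h10 := mul_le_mul_of_nonneg_left h1 (by positivity : 0 ≤ 1 + s)
    have h11 : (1 + s) * (s / (1 + s) * ((Lt κ t Z * W).trace.re - Real.log t * W.trace.re) +
        t * ((Lt κ t Z).trace.re - N * Real.log t)) =
        s * ((Lt κ t Z * W).trace.re - Real.log t * W.trace.re) +
          (1 + s) * (t * ((Lt κ t Z).trace.re - N * Real.log t)) := by
      field_simp
    rw [h11] at h10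
    rw [h9, h3, h4, h5]
    simp only [hell]
    rw [← hT] at h10
    linarith
  set G : ℝ → ℝ := fun t => t ^ (s - 1) * ((Lt κ t Z * (Xm κ Z - W)).trace.re -
        Real.log t * (Xm κ Z - W).trace.re) with hG
  have hGc : ContinuousOn G (Icc t₁ t₂) :=
    (hpc _).mul ((trace_contOn (hLc.mul continuousOn_const)).sub (hlogc.mul continuousOn_const))
  set ω : Fin N → ℝ := fun i => s / (1 + s) * hW.1.eigenvalues i with hω
  have hω0 : ∀ i, 0 ≤ ω i := fun i => mul_nonneg hlam (hW.eigenvalues_nonneg i)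
  have hwfc : ∀ i, ContinuousOn (fun t => t ^ (s - 1) * wf (ω i) t) (Icc t₁ t₂) := by
    intro i
    refine (hpc _).mul ?_
    unfold wf
    refine ((continuousOn_const.add continuousOn_id).mul ?_).sub continuousOn_const
    refine ContinuousOn.log ?_ ?_
    · exact continuousOn_const.add (continuousOn_const.div continuousOn_id
        fun t ht => (hpos t ht).ne')
    · intro t ht
      have := div_nonneg (hω0 i) (hpos t ht).le
      positivity
  have hwi : ∀ i, ∫ t in t₁..t₂, t ^ (s - 1) * wf (ω i) t ≤ c0 s * ω i ^ (1 + s) / (1 + s) := by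
    intro i
    obtain ⟨hi1, hi2⟩ := (hS s hs hs1).2.2.1 (ω i) (hω0 i)
    rw [← hi2, intervalIntegral.integral_of_le h12]
    refine setIntegral_mono_set hi1 ?_ ?_
    · refine (ae_restrict_iff' measurableSet_Ioi).mpr (Filter.Eventually.of_forall fun t ht => ?_)
      exact mul_nonneg (Real.rpow_nonneg (le_of_lt ht) _) (wf_nonneg (hω0 i) ht)
    · exact Filter.Eventually.of_forall fun t ht => ht₁.trans ht.1
  have hsumc : ContinuousOn (fun t => (1 + s) * ∑ i, t ^ (s - 1) * wf (ω i) t) (Icc t₁ t₂) :=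
    continuousOn_const.mul (continuousOn_finsetSum _ fun i _ => hwfc i)
  have hI1 : IntervalIntegrable (fun t => s * G t) volume t₁ t₂ :=
    (continuousOn_const.mul hGc).intervalIntegrable_of_Icc h12
  have hI2 : IntervalIntegrable (fun t => (1 + s) * ∑ i, t ^ (s - 1) * wf (ω i) t) volume t₁ t₂ :=
    hsumc.intervalIntegrable_of_Icc h12
  have hI0 : IntervalIntegrable (fun t => s * t ^ (s - 1) * h t + t ^ s * r t) volume t₁ t₂ :=
    (((continuousOn_const.mul (hpc _)).mul hhc).add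
      ((hpc _).mul hrc)).intervalIntegrable_of_Icc h12
  have hmono : ∫ t in t₁..t₂, (s * t ^ (s - 1) * h t + t ^ s * r t) ≤
      ∫ t in t₁..t₂, (s * G t + (1 + s) * ∑ i, t ^ (s - 1) * wf (ω i) t) :=
    intervalIntegral.integral_mono_on h12 hI0 (hI1.add hI2) hbound
  have hsplit : ∫ t in t₁..t₂, (s * G t + (1 + s) * ∑ i, t ^ (s - 1) * wf (ω i) t) =
      s * (∫ t in t₁..t₂, G t) + (1 + s) * ∑ i, ∫ t in t₁..t₂, t ^ (s - 1) * wf (ω i) t := by
    rw [intervalIntegral.integral_add hI1 hI2, intervalIntegral.integral_const_mul,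
      intervalIntegral.integral_const_mul, intervalIntegral.integral_finsetSum]
    intro i _
    exact (hwfc i).intervalIntegrable_of_Icc h12
  have hsum : (1 + s) * ∑ i, ∫ t in t₁..t₂, t ^ (s - 1) * wf (ω i) t ≤
      c0 s * (s / (1 + s)) ^ (1 + s) * trPow W (1 + s) := by
    have h1 : ∑ i, ∫ t in t₁..t₂, t ^ (s - 1) * wf (ω i) t ≤
        ∑ i, c0 s * ω i ^ (1 + s) / (1 + s) := Finset.sum_le_sum fun i _ => hwi i
    have h2 := mul_le_mul_of_nonneg_left h1 (by positivity : 0 ≤ 1 + s)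
    refine h2.trans (le_of_eq ?_)
    rw [trPow, dif_pos hW.1, Finset.mul_sum, Finset.mul_sum]
    refine Finset.sum_congr rfl fun i _ => ?_
    simp only [hω]
    rw [Real.mul_rpow hlam (hW.eigenvalues_nonneg i)]
    field_simp
  have hneg : 0 ≤ t₂ ^ s * h t₂ := mul_nonneg (Real.rpow_nonneg (hpos t₂ ⟨h12, le_rfl⟩).le _) hh2
  rw [hsplit] at hmono
  linarith

theorem Kt_add_dg (κ : Fin N → ℝ) (t : ℝ) :
    Kt κ t + dg κ = dg fun j => √(κ j ^ 2 + t) + κ j := by
  ext i j
  by_cases h : i = j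
  · subst h
    simp [Kt, dg]
  · simp [Kt, dg, h]

theorem Kt_sub_dg (κ : Fin N → ℝ) (t : ℝ) :
    Kt κ t - dg κ = dg fun j => √(κ j ^ 2 + t) - κ j := by
  ext i j
  by_cases h : i = j
  · subst h
    simp [Kt, dg]
  · simp [Kt, dg, h]

theorem trace_cfc_dg (d : Fin N → ℝ) (f : ℝ → ℝ) : (cfc f (dg d)).trace.re = ∑ j, f (d j) := by
  rw [cfc_dg, dg, trace_diagonal, Complex.re_sum]
  rfl

theorem psi_dg (κ : Fin N → ℝ) (t : ℝ) :
    psi κ t (dg κ) = ∑ j, (fent (√(κ j ^ 2 + t) + κ j) - fent (√(κ j ^ 2 + t) - κ j)) := by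
  rw [psi, Kt_add_dg, Kt_sub_dg, trace_cfc_dg, trace_cfc_dg, ← Finset.sum_sub_distrib]

theorem psi_neg (κ : Fin N → ℝ) (t : ℝ) (Z : Mat N) : psi κ t (-Z) = -psi κ t Z := by
  rw [psi, psi, sub_neg_eq_add, ← sub_eq_add_neg]
  ring

theorem Lt_contOn_x (hF : FcContFact) {κ : Fin N → ℝ} (hκ : ∀ j, 0 < κ j) {Z : ℝ → Mat N}
    {S : Set ℝ} (hZa : ∀ x ∈ S, Adm κ (Z x)) (hZc : ContinuousOn Z S) {t : ℝ} (ht : 0 < t) :
    ContinuousOn (fun x : ℝ => Lt κ t (Z x)) S := by
  have h1 : ContinuousOn (fun _ : ℝ => Kt κ t) S := continuousOn_const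
  have hlog : ContinuousOn (fun A : Mat N => cfc Real.log A) {A | A.PosDef} :=
    hF.1 N Real.log (Real.continuousOn_log.mono fun x hx => ne_of_gt hx)
  refine ContinuousOn.add ?_ ?_
  · exact hlog.comp (h1.add hZc) fun x hx => posDef_add hκ (hZa x hx) ht
  · exact hlog.comp (h1.sub hZc) fun x hx => posDef_sub hκ (hZa x hx) ht

theorem trace_ftc {x₀ x₁ : ℝ} (h01 : x₀ ≤ x₁) {Z Z' : ℝ → Mat N}
    (hZc : ContinuousOn Z (Icc x₀ x₁)) (hZ'c : ContinuousOn Z' (Icc x₀ x₁))
    (hder : ∀ x ∈ Icc x₀ x₁, ∀ i j,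
      HasDerivWithinAt (fun y => Z y i j) (Z' x i j) (Icc x₀ x₁) x) :
    ∫ x in x₀..x₁, (Z' x).trace.re = (Z x₁).trace.re - (Z x₀).trace.re := by
  have hd : ∀ x ∈ Ioo x₀ x₁, HasDerivAt (fun x => (Z x).trace.re) (Z' x).trace.re x := by
    intro x hx
    have h1 : ∀ j, HasDerivAt (fun y => Z y j j) (Z' x j j) x := fun j =>
      (hder x (Ioo_subset_Icc_self hx) j j).hasDerivAt (Icc_mem_nhds hx.1 hx.2)
    have h2 : HasDerivAt (fun y => (Z y).trace) (Z' x).trace x := by
      simp only [trace, diag_apply]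
      exact HasDerivAt.fun_sum fun j _ => h1 j
    exact (Complex.reCLM.hasFDerivAt (x := (Z x).trace)).comp_hasDerivAt x h2
  exact intervalIntegral.integral_eq_sub_of_hasDerivAt_of_le h01 (trace_contOn hZc) hd
    ((trace_contOn hZ'c).intervalIntegrable_of_Icc h01)

/-- the integrand -/
noncomputable def Gf (κ : Fin N → ℝ) (s : ℝ) (Z Z' : ℝ → Mat N) (t x : ℝ) : ℝ :=
  t ^ (s - 1) * ((Lt κ t (Z x) * Z' x).trace.re - Real.log t * (Z' x).trace.re)

theorem Gf_cont (hF : FcContFact) {κ : Fin N → ℝ} (hκ : ∀ j, 0 < κ j) {Z Z' : ℝ → Mat N}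
    {S : Set ℝ} (hZa : ∀ x ∈ S, Adm κ (Z x)) (hZc : ContinuousOn Z S) (hZ'c : ContinuousOn Z' S)
    (s : ℝ) : ContinuousOn (fun q : ℝ × ℝ => Gf κ s Z Z' q.1 q.2) (Ioi 0 ×ˢ S) := by
  have c1 : ContinuousOn (fun q : ℝ × ℝ => q.1 ^ (s - 1)) (Ioi 0 ×ˢ S) := by
    intro q hq
    exact (ContinuousAt.rpow_const continuousAt_fst
      (Or.inl (ne_of_gt hq.1))).continuousWithinAt
  have c2 : ContinuousOn (fun q : ℝ × ℝ => Real.log q.1) (Ioi 0 ×ˢ S) :=
    continuousOn_fst.log fun q hq => ne_of_gt hq.1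
  have c3 : ContinuousOn (fun q : ℝ × ℝ => Z' q.2) (Ioi 0 ×ˢ S) :=
    hZ'c.comp continuousOn_snd fun q hq => hq.2
  have c4 : ContinuousOn (fun q : ℝ × ℝ => Lt κ q.1 (Z q.2)) (Ioi 0 ×ˢ S) :=
    Lt_contOn hF hκ hZa hZc
  have c5 : ContinuousOn (fun q : ℝ × ℝ => (Lt κ q.1 (Z q.2) * Z' q.2).trace.re) (Ioi 0 ×ˢ S) :=
    trace_contOn (c4.mul c3)
  have c6 : ContinuousOn (fun q : ℝ × ℝ => (Z' q.2).trace.re) (Ioi 0 ×ˢ S) := trace_contOn c3
  exact c1.mul (c5.sub (c2.mul c6))

theorem Gf_inner (hP : PsiFact) (hF : FcContFact) (hS : ScalarFact)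
    {κ : Fin N → ℝ} (hκ : ∀ j, 0 < κ j) {x₀ x₁ : ℝ} (h01 : x₀ ≤ x₁) {Z Z' : ℝ → Mat N} {s : ℝ}
    (hs : 0 < s) (hs1 : s < 1) (hadm : ∀ x ∈ Icc x₀ x₁, Adm κ (Z x))
    (hZc : ContinuousOn Z (Icc x₀ x₁)) (hZ'c : ContinuousOn Z' (Icc x₀ x₁))
    (hder : ∀ x ∈ Icc x₀ x₁, ∀ i j,
      HasDerivWithinAt (fun y => Z y i j) (Z' x i j) (Icc x₀ x₁) x)
    (h0 : Z x₀ = dg κ) (h1 : Z x₁ = -dg κ) {t : ℝ} (ht0 : 0 < t) :
    ∫ x in x₀..x₁, Gf κ s Z Z' t x = -(t ^ (s - 1) * ∑ j, zeta (κ j) t) := by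
  have hPsi : ∫ x in x₀..x₁, (Lt κ t (Z x) * Z' x).trace.re = -(2 * psi κ t (dg κ)) := by
    rw [hP N κ t x₀ x₁ Z Z' hκ ht0 h01 hadm hder (contOn_mat.mp hZ'c), h0, h1, psi_neg]
    ring
  have h4 : (dg κ).trace.re = ∑ j, κ j := by
    rw [dg, trace_diagonal, Complex.re_sum]
    rfl
  have hTr : ∫ x in x₀..x₁, (Z' x).trace.re = -(2 * ∑ j, κ j) := by
    rw [trace_ftc h01 hZc hZ'c hder, h0, h1, trace_neg, Complex.neg_re, h4]
    ring
  have hLtc : ContinuousOn (fun x => Lt κ t (Z x)) (Icc x₀ x₁) := Lt_contOn_x hF hκ hadm hZc ht0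
  have i1 : IntervalIntegrable (fun x => (Lt κ t (Z x) * Z' x).trace.re) volume x₀ x₁ :=
    (trace_contOn (hLtc.mul hZ'c)).intervalIntegrable_of_Icc h01
  have i2 : IntervalIntegrable (fun x => Real.log t * (Z' x).trace.re) volume x₀ x₁ :=
    (continuousOn_const.mul (trace_contOn hZ'c)).intervalIntegrable_of_Icc h01
  simp only [Gf]
  rw [intervalIntegral.integral_const_mul, intervalIntegral.integral_sub i1 i2,
    intervalIntegral.integral_const_mul, hPsi, hTr]
  have h2 : ∀ j, zeta (κ j) t =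
      2 * (fent (√(κ j ^ 2 + t) + κ j) - fent (√(κ j ^ 2 + t) - κ j) - κ j * Real.log t) :=
    fun j => ((hS s hs hs1).2.2.2.2 (κ j) t (hκ j) ht0).symm
  simp only [h2, ← Finset.mul_sum, Finset.sum_sub_distrib, ← Finset.sum_mul, psi_dg]
  ring

/-- the truncated inequality, integrated over `x` -/
theorem trunc (hB : BFact) (hH : HFact) (hP : PsiFact) (hF : FcContFact) (hS : ScalarFact)
    {κ : Fin N → ℝ} (hκ : ∀ j, 0 < κ j) {x₀ x₁ : ℝ} {W Z : ℝ → Mat N} {s : ℝ}
    (hs : 0 < s) (hs1 : s < 1) (hWc : ContinuousOn W (Icc x₀ x₁))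
    (hW : ∀ x ∈ Icc x₀ x₁, (W x).PosSemidef) (hR : Ric x₀ x₁ (dg κ) W Z) {C : ℝ}
    (hC : ∀ (Z : Mat N), Adm κ Z → ∀ t : ℝ, 0 < t → t ≤ 1 →
      ((Xm κ Z + (t : ℂ) • 1) * Lt κ t Z).trace.re -
        Real.log t * (Xm κ Z + (t : ℂ) • 1).trace.re - (Xm κ Z).trace.re ≤ C * (1 - Real.log t))
    {t₁ t₂ : ℝ} (ht₁ : 0 < t₁) (ht1 : t₁ ≤ 1) (ht2 : 1 ≤ t₂) :
    s * ∫ t in t₁..t₂, t ^ (s - 1) * ∑ j, zeta (κ j) t ≤
      c0 s * (s / (1 + s)) ^ (1 + s) * (∫ x in x₀..x₁, trPow (W x) (1 + s)) +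
        t₁ ^ s * (C * (1 - Real.log t₁)) * (x₁ - x₀) := by
  have h12 : t₁ ≤ t₂ := ht1.trans ht2
  have hpos : ∀ t ∈ Icc t₁ t₂, 0 < t := fun t ht => ht₁.trans_le ht.1
  have hadm : ∀ x ∈ Icc x₀ x₁, Adm κ (Z x) := fun x hx =>
    ⟨hR.herm x hx, hR.lower x hx, hR.upper x hx⟩
  have hZc : ContinuousOn Z (Icc x₀ x₁) := contOn_mat.mpr fun i j x hx =>
    (hR.deriv x hx i j).continuousWithinAt
  set Z' : ℝ → Mat N := fun x => Xm κ (Z x) - W x with hZ'
  have hZ'c : ContinuousOn Z' (Icc x₀ x₁) := by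
    refine ContinuousOn.sub ?_ hWc
    exact continuousOn_const.sub (hZc.mul hZc)
  have hder : ∀ x ∈ Icc x₀ x₁, ∀ i j,
      HasDerivWithinAt (fun y => Z y i j) (Z' x i j) (Icc x₀ x₁) x := hR.deriv
  have hsub : Icc t₁ t₂ ×ˢ Icc x₀ x₁ ⊆ Ioi 0 ×ˢ Icc x₀ x₁ :=
    prod_mono (fun t ht => hpos t ht) Subset.rfl
  have hGc : ContinuousOn (fun q : ℝ × ℝ => Gf κ s Z Z' q.1 q.2) (Icc t₁ t₂ ×ˢ Icc x₀ x₁) :=
    (Gf_cont hF hκ hadm hZc hZ'c s).mono hsub
  have hswap := swap_cont h12 hR.le hGc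
  have hlhs : ∫ t in t₁..t₂, ∫ x in x₀..x₁, Gf κ s Z Z' t x =
      -∫ t in t₁..t₂, t ^ (s - 1) * ∑ j, zeta (κ j) t := by
    rw [← intervalIntegral.integral_neg]
    refine intervalIntegral.integral_congr fun t ht => ?_
    rw [uIcc_of_le h12] at ht
    exact Gf_inner hP hF hS hκ hR.le hs hs1 hadm hZc hZ'c hder hR.left hR.right (hpos t ht)
  have hpt : ∀ x ∈ Icc x₀ x₁, -(t₁ ^ s * (C * (1 - Real.log t₁))) -
      s * ∫ t in t₁..t₂, Gf κ s Z Z' t x ≤
      c0 s * (s / (1 + s)) ^ (1 + s) * trPow (W x) (1 + s) := by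
    intro x hx
    have h1 := point hB hH hF hS hκ (hadm x hx) (hW x hx) hs hs1 ht₁ h12
    have h2 := hC (Z x) (hadm x hx) t₁ ht₁ ht1
    have h3 := mul_le_mul_of_nonneg_left h2 (Real.rpow_nonneg ht₁.le s)
    simp only [Gf, hZ']
    linarith
  have hpc : ContinuousOn (fun x => trPow (W x) (1 + s)) (Icc x₀ x₁) := by
    have h1 : ContinuousOn (fun x => (cfc (fun y : ℝ => y ^ (1 + s)) (W x)).trace.re)
        (Icc x₀ x₁) :=
      trace_contOn ((hF.2 N _ (Real.continuous_rpow_const (by positivity))).comp hWc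
        fun x hx => (hW x hx).1)
    exact h1.congr fun x hx => trPow_eq (hW x hx).1 _
  have hint : IntervalIntegrable (fun x => ∫ t in t₁..t₂, Gf κ s Z Z' t x) volume x₀ x₁ :=
    inner_integrable h12 hR.le hGc
  have hfin : ∫ x in x₀..x₁, (-(t₁ ^ s * (C * (1 - Real.log t₁))) -
      s * ∫ t in t₁..t₂, Gf κ s Z Z' t x) ≤
      ∫ x in x₀..x₁, c0 s * (s / (1 + s)) ^ (1 + s) * trPow (W x) (1 + s) := by
    refine intervalIntegral.integral_mono_on hR.le ?_ ?_ hpt
    · exact intervalIntegrable_const.sub (hint.const_mul s)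
    · exact (hpc.intervalIntegrable_of_Icc hR.le).const_mul _
  rw [intervalIntegral.integral_sub intervalIntegrable_const (hint.const_mul s),
    intervalIntegral.integral_const, intervalIntegral.integral_const_mul,
    intervalIntegral.integral_const_mul, ← hswap, hlhs, smul_eq_mul] at hfin
  linarith

/-- the fixed-energy inequality for diagonal `K` -/
theorem fe_diag (hB : BFact) (hH : HFact) (hP : PsiFact) (hF : FcContFact) (hS : ScalarFact)
    {κ : Fin N → ℝ} (hκ : ∀ j, 0 < κ j) {x₀ x₁ : ℝ} {W Z : ℝ → Mat N} {s : ℝ}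
    (hs : 0 < s) (hs1 : s < 1) (hWc : ContinuousOn W (Icc x₀ x₁))
    (hW : ∀ x ∈ Icc x₀ x₁, (W x).PosSemidef) (hR : Ric x₀ x₁ (dg κ) W Z) :
    Cs s * ∑ j, κ j ^ (2 * s + 1) ≤ ∫ x in x₀..x₁, trPow (W x) (1 + s) := by
  obtain ⟨C, hC⟩ := (hH N κ hκ).2
  obtain ⟨hc0, hBs, -, hz, -⟩ := hS s hs hs1
  set g : ℝ → ℝ := fun t => t ^ (s - 1) * ∑ j, zeta (κ j) t with hg
  set I : ℝ := ∫ x in x₀..x₁, trPow (W x) (1 + s) with hI
  have hgi : IntegrableOn g (Ioi 0) := by
    have h1 : g = fun t => ∑ j, t ^ (s - 1) * zeta (κ j) t := by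
      funext t
      rw [hg, ← Finset.mul_sum]
    rw [h1]
    exact integrable_finsetSum _ fun j _ => (hz (κ j) (hκ j)).1
  have hgv : ∫ t in Ioi (0 : ℝ), g t = c0 s * Bs s * ∑ j, κ j ^ (2 * s + 1) := by
    have h1 : g = fun t => ∑ j, t ^ (s - 1) * zeta (κ j) t := by
      funext t
      rw [hg, ← Finset.mul_sum]
    rw [h1, integral_finsetSum _ fun j _ => (hz (κ j) (hκ j)).1, Finset.mul_sum]
    refine Finset.sum_congr rfl fun j _ => ?_
    rw [(hz (κ j) (hκ j)).2]
    ring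
  set a : ℕ → ℝ := fun n => 1 / ((n : ℝ) + 1) with ha
  set b : ℕ → ℝ := fun n => (n : ℝ) + 1 with hb
  have ha0 : ∀ n, 0 < a n := fun n => by simp only [ha]; positivity
  have ha1 : ∀ n, a n ≤ 1 := fun n => by
    simp only [ha]
    rw [div_le_one (by positivity)]
    have : (0 : ℝ) ≤ n := Nat.cast_nonneg n
    linarith
  have hb1 : ∀ n, 1 ≤ b n := fun n => by
    have : (0 : ℝ) ≤ n := Nat.cast_nonneg n
    simp only [hb]
    linarith
  have htend : Filter.Tendsto (fun n => ∫ t in (a n)..(b n), g t) Filter.atTop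
      (nhds (∫ t in Ioi (0 : ℝ), g t)) := by
    have hU : ⋃ n, Ioc (a n) (b n) = Ioi (0 : ℝ) := by
      ext t
      simp only [mem_iUnion, mem_Ioc, mem_Ioi]
      constructor
      · rintro ⟨n, hn1, -⟩
        exact (ha0 n).trans hn1
      · intro ht
        obtain ⟨n, hn⟩ := exists_nat_gt (max t (1 / t))
        have h1 : t < n := (le_max_left _ _).trans_lt hn
        have h2 : 1 / t < n := (le_max_right _ _).trans_lt hn
        refine ⟨n, ?_, ?_⟩
        · simp only [ha]
          rw [div_lt_iff₀ (by positivity)]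
          rw [div_lt_iff₀ ht] at h2
          nlinarith
        · simp only [hb]
          linarith
    have hmono : Monotone fun n => Ioc (a n) (b n) := by
      intro n k hnk
      refine Ioc_subset_Ioc ?_ ?_
      · simp only [ha]
        have : (n : ℝ) ≤ k := Nat.cast_le.mpr hnk
        exact one_div_le_one_div_of_le (by positivity) (by linarith)
      · simp only [hb]
        have : (n : ℝ) ≤ k := Nat.cast_le.mpr hnk
        linarith
    have h1 := tendsto_setIntegral_of_monotone (μ := volume) (f := g)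
      (s := fun n => Ioc (a n) (b n)) (fun n => measurableSet_Ioc) hmono (by rw [hU]; exact hgi)
    rw [hU] at h1
    refine h1.congr fun n => ?_
    rw [intervalIntegral.integral_of_le ((ha1 n).trans (hb1 n))]
  have hat : Filter.Tendsto a Filter.atTop (nhdsWithin 0 (Ioi 0)) := by
    refine tendsto_nhdsWithin_iff.mpr ⟨tendsto_one_div_add_atTop_nhds_zero_nat,
      Filter.Eventually.of_forall fun n => ha0 n⟩
  have herr : Filter.Tendsto (fun n => a n ^ s * (C * (1 - Real.log (a n))) * (x₁ - x₀))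
      Filter.atTop (nhds 0) := by
    have h1 : Filter.Tendsto (fun t : ℝ => Real.log t * t ^ s) (nhdsWithin 0 (Ioi 0)) (nhds 0) :=
      tendsto_log_mul_rpow_nhdsGT_zero hs
    have h2 : Filter.Tendsto (fun t : ℝ => t ^ s) (nhdsWithin 0 (Ioi 0)) (nhds 0) := by
      have h3 : ContinuousAt (fun t : ℝ => t ^ s) 0 :=
        Real.continuousAt_rpow_const 0 s (Or.inr hs.le)
      have h4 := h3.tendsto
      rw [Real.zero_rpow hs.ne'] at h4
      exact h4.mono_left nhdsWithin_le_nhds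
    have h5 : Filter.Tendsto (fun t : ℝ => t ^ s * (C * (1 - Real.log t)) * (x₁ - x₀))
        (nhdsWithin 0 (Ioi 0)) (nhds 0) := by
      have h6 := ((h2.sub h1).const_mul C).mul_const (x₁ - x₀)
      simp only [sub_zero, mul_zero, zero_mul] at h6
      refine h6.congr fun t => ?_
      ring
    exact h5.comp hat
  have hmain : s * (c0 s * Bs s * ∑ j, κ j ^ (2 * s + 1)) ≤
      c0 s * (s / (1 + s)) ^ (1 + s) * I + 0 := by
    rw [← hgv]
    refine le_of_tendsto_of_tendsto (htend.const_mul s) (tendsto_const_nhds.add herr)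
      (Filter.Eventually.of_forall fun n => ?_)
    exact trunc hB hH hP hF hS hκ hs hs1 hWc hW hR hC (ha0 n) (ha1 n) (hb1 n)
  rw [add_zero] at hmain
  have h1 : s * (Bs s * ∑ j, κ j ^ (2 * s + 1)) ≤ (s / (1 + s)) ^ (1 + s) * I := by
    have h2 : c0 s * (s * (Bs s * ∑ j, κ j ^ (2 * s + 1))) ≤
        c0 s * ((s / (1 + s)) ^ (1 + s) * I) := by
      linarith
    exact le_of_mul_le_mul_left h2 hc0
  have hs' : 0 < 1 + s := by positivity
  have h3 : Cs s = ((1 + s) / s) ^ (1 + s) * (s * Bs s) := by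
    rw [Cs, Real.div_rpow hs'.le hs.le, Real.rpow_add hs 1 s, Real.rpow_one]
    field_simp
  have h4 : ((1 + s) / s) ^ (1 + s) * (s / (1 + s)) ^ (1 + s) = 1 := by
    rw [← Real.mul_rpow (by positivity) (by positivity)]
    have : (1 + s) / s * (s / (1 + s)) = 1 := by
      field_simp
    rw [this, Real.one_rpow]
  have h5 := mul_le_mul_of_nonneg_left h1
    (Real.rpow_nonneg (by positivity : 0 ≤ (1 + s) / s) (1 + s))
  have h6 : ((1 + s) / s) ^ (1 + s) * ((s / (1 + s)) ^ (1 + s) * I) = I := by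
    rw [← mul_assoc, h4, one_mul]
  rw [h6] at h5
  rw [h3]
  linarith

theorem deriv_conj {V V' : Mat N} {F : ℝ → Mat N} {F' : Mat N} {S : Set ℝ} {x : ℝ}
    (h : ∀ i j, HasDerivWithinAt (fun y => F y i j) (F' i j) S x) (i j : Fin N) :
    HasDerivWithinAt (fun y => (V * F y * V') i j) ((V * F' * V') i j) S x := by
  simp only [Matrix.mul_apply, Finset.sum_mul]
  exact HasDerivWithinAt.fun_sum fun l _ => HasDerivWithinAt.fun_sum fun k _ =>
    ((h k l).const_mul _).mul_const _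

end FEm

/-- M5: the fixed-energy theorem. -/
theorem feFact (hB : BFact) (hH : HFact) (hP : PsiFact) (hF : FcContFact) (hS : ScalarFact) :
    FEFact := by
  intro N s x₀ x₁ K W Z hs hs1 hWc hW hR
  set U : Mat N := (hR.posDef.1.eigenvectorUnitary : Mat N) with hU
  have hUU : star U * U = 1 := Unitary.coe_star_mul_self _
  have hUU' : U * star U = 1 := Unitary.coe_mul_star_self _
  set κ : Fin N → ℝ := hR.posDef.1.eigenvalues with hκd
  have hκ : ∀ j, 0 < κ j := fun j => hR.posDef.eigenvalues_pos j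
  set V : Mat N := star U with hV
  have hVs : star V = U := star_star U
  have hVV : V * star V = 1 := by rw [hVs]; exact hUU
  have hVV' : star V * V = 1 := by rw [hVs]; exact hUU'
  have hK : V * K * star V = dg κ := by
    have h1 : K = U * dg κ * star U := FE.spec hR.posDef.1
    rw [hVs]
    conv_lhs => rw [h1]
    have : V * (U * dg κ * star U) * U = (star U * U) * (dg κ * (star U * U)) := by
      simp only [Matrix.mul_assoc, hV]
    rw [this, hUU, Matrix.one_mul, Matrix.mul_one]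
  have hmul : ∀ A B : Mat N, V * (A * B) * star V = (V * A * star V) * (V * B * star V) := by
    intro A B
    have : (V * A * star V) * (V * B * star V) = V * A * ((star V * V) * B) * star V := by
      simp only [Matrix.mul_assoc]
    rw [this, hVV', Matrix.one_mul]
    simp only [Matrix.mul_assoc]
  have hpsd : ∀ A : Mat N, A.PosSemidef → (V * A * star V).PosSemidef := by
    intro A hA
    have := hA.mul_mul_conjTranspose_same V
    rwa [← star_eq_conjTranspose] at this
  have hherm : ∀ A : Mat N, A.IsHermitian → (V * A * star V).IsHermitian := by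
    intro A hA
    change star (V * A * star V) = V * A * star V
    rw [star_mul, star_mul, star_star, Matrix.mul_assoc]
    have : star A = A := hA
    rw [this]
  have hR' : Ric x₀ x₁ (dg κ) (fun x => V * W x * star V) (fun x => V * Z x * star V) := by
    refine ⟨hR.le, ?_, ?_, ?_, ?_, ?_, ?_, ?_⟩
    · rw [dg, posDef_diagonal_iff]
      intro i
      exact_mod_cast hκ i
    · intro x hx
      exact hherm _ (hR.herm x hx)
    · intro x hx i j
      have h1 := FEm.deriv_conj (V := V) (V' := star V) (hR.deriv x hx) i j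
      have h2 : V * (K * K - Z x * Z x - W x) * star V =
          dg κ * dg κ - V * Z x * star V * (V * Z x * star V) - V * W x * star V := by
        rw [Matrix.mul_sub, Matrix.mul_sub, Matrix.sub_mul, Matrix.sub_mul, hmul, hmul, hK]
      rw [h2] at h1
      exact h1
    · change V * Z x₀ * star V = dg κ
      rw [hR.left, hK]
    · change V * Z x₁ * star V = -dg κ
      rw [hR.right, Matrix.mul_neg, Matrix.neg_mul, hK]
    · intro x hx
      have h1 := hpsd _ (hR.lower x hx)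
      rw [Matrix.mul_add, Matrix.add_mul, hK] at h1
      exact h1
    · intro x hx
      have h1 := hpsd _ (hR.upper x hx)
      rw [Matrix.mul_sub, Matrix.sub_mul, hK] at h1
      exact h1
  have hWc' : ContinuousOn (fun x => V * W x * star V) (Icc x₀ x₁) :=
    (continuousOn_const.mul (FEm.contOn_mat.mpr hWc)).mul continuousOn_const
  have h := FEm.fe_diag hB hH hP hF hS hκ hs hs1 hWc' (fun x hx => hpsd _ (hW x hx)) hR'
  have h1 : trPow K (2 * s + 1) = ∑ j, κ j ^ (2 * s + 1) := by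
    rw [trPow, dif_pos hR.posDef.1]
  have h2 : ∫ x in x₀..x₁, trPow (V * W x * star V) (1 + s) =
      ∫ x in x₀..x₁, trPow (W x) (1 + s) := by
    refine intervalIntegral.integral_congr fun x hx => ?_
    rw [uIcc_of_le hR.le] at hx
    exact FEm.trPow_conj hVV (hW x hx).1 _
  rw [h1, ← h2]
  exact h

end Vale.Agent.P371.G
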