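import Mathlib

/-!
# P371: the inequality (B) behind the fixed-energy inequality
-/

open Matrix
open scoped ComplexOrder

namespace Vale.Agent.P371.G.FB

variable {N : ℕ}

section
open scoped MatrixOrder

theorem exists_factor {C : Matrix (Fin N) (Fin N) ℂ} (hC : C.PosSemidef) :
    ∃ B : Matrix (Fin N) (Fin N) ℂ, C = Bᴴ * B := by
  obtain ⟨B, hB⟩ := CStarAlgebra.nonneg_iff_eq_star_mul_self.mp hC.nonneg
  exact ⟨B, hB⟩

end

/-- `Re tr (C⁻¹ R C R) ≥ Re tr R²` for Hermitian `R` and positive definite `C`. -/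
theorem re_trace_inv_conj {C R : Matrix (Fin N) (Fin N) ℂ} (hC : C.PosDef) (hR : R.IsHermitian) :
    ((R * R).trace).re ≤ ((C⁻¹ * R * C * R).trace).re := by
  obtain ⟨B, hB⟩ : ∃ B : Matrix (Fin N) (Fin N) ℂ, C = B * Bᴴ := by
    obtain ⟨B, hB⟩ := exists_factor hC.posSemidef
    exact ⟨Bᴴ, by rw [conjTranspose_conjTranspose]; exact hB⟩
  have hdet : IsUnit C.det := hC.det_pos.ne'.isUnit
  have hdetB : IsUnit B.det := by
    have h1 : C.det = B.det * Bᴴ.det := by rw [hB, det_mul]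
    rw [h1] at hdet
    exact isUnit_of_mul_isUnit_left hdet
  have hdetB' : IsUnit Bᴴ.det := by
    have h1 : C.det = B.det * Bᴴ.det := by rw [hB, det_mul]
    rw [h1] at hdet
    exact isUnit_of_mul_isUnit_right hdet
  have hCi : C⁻¹ = (Bᴴ)⁻¹ * B⁻¹ := by rw [hB, Matrix.mul_inv_rev]
  set T : Matrix (Fin N) (Fin N) ℂ := B⁻¹ * R * B with hT
  have hTs : Tᴴ = Bᴴ * R * (Bᴴ)⁻¹ := by
    rw [hT, conjTranspose_mul, conjTranspose_mul, hR.eq, conjTranspose_nonsing_inv, Matrix.mul_assoc]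
  have h0 : 0 ≤ (((T - Tᴴ) * (T - Tᴴ)ᴴ).trace).re := by
    have := (posSemidef_self_mul_conjTranspose (T - Tᴴ)).trace_nonneg
    exact (Complex.le_def.1 this).1
  have h1 : (T * Tᴴ).trace = (C⁻¹ * R * C * R).trace := by
    rw [hTs, hT, hCi, hB]
    rw [show B⁻¹ * R * B * (Bᴴ * R * (Bᴴ)⁻¹) = (B⁻¹ * R * B * Bᴴ * R) * (Bᴴ)⁻¹ by
      simp only [Matrix.mul_assoc]]
    rw [Matrix.trace_mul_comm]
    simp only [Matrix.mul_assoc]
  have h2 : (T * T).trace = (R * R).trace := by
    rw [hT, show B⁻¹ * R * B * (B⁻¹ * R * B) = (B⁻¹ * R * (B * B⁻¹) * R) * B by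
      simp only [Matrix.mul_assoc], mul_nonsing_inv _ hdetB, Matrix.mul_one, Matrix.trace_mul_comm,
      show B * (B⁻¹ * R * R) = (B * B⁻¹) * (R * R) by simp only [Matrix.mul_assoc],
      mul_nonsing_inv _ hdetB, Matrix.one_mul]
  have h3 : ((Tᴴ * Tᴴ).trace).re = ((T * T).trace).re := by
    rw [← conjTranspose_mul, trace_conjTranspose]
    simp
  have h4 : (Tᴴ * T).trace = (T * Tᴴ).trace := Matrix.trace_mul_comm _ _
  have h5 : (T - Tᴴ) * (T - Tᴴ)ᴴ = T * Tᴴ - T * T - Tᴴ * Tᴴ + Tᴴ * T := by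
    rw [conjTranspose_sub, conjTranspose_conjTranspose]
    noncomm_ring
  rw [h5, trace_add, trace_sub, trace_sub, h4, Complex.add_re, Complex.sub_re, Complex.sub_re, h3,
    h1, h2] at h0
  linarith

/-- (B1): the pointwise inequality in the resolvent parameter. -/
theorem factB1 {a b : Matrix (Fin N) (Fin N) ℂ} (ha : a.PosDef) (hb : b.PosDef) {r : ℝ}
    (hr : 0 ≤ r) :
    (((a * b + b * a) * ((a + (r : ℂ) • 1)⁻¹ * (a + b)⁻¹ * (a + (r : ℂ) • 1)⁻¹)).trace).re / 2 ≤
      (((a + (r : ℂ) • (1 : Matrix (Fin N) (Fin N) ℂ))⁻¹).trace).re -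
        r * (((a + (r : ℂ) • (1 : Matrix (Fin N) (Fin N) ℂ))⁻¹ *
          (a + (r : ℂ) • (1 : Matrix (Fin N) (Fin N) ℂ))⁻¹).trace).re -
        (((a + b)⁻¹ * (a * a * ((a + (r : ℂ) • (1 : Matrix (Fin N) (Fin N) ℂ))⁻¹ *
          (a + (r : ℂ) • (1 : Matrix (Fin N) (Fin N) ℂ))⁻¹))).trace).re := by
  have hr' : (0 : ℂ) ≤ (r : ℂ) := by rw [Complex.zero_le_real]; exact hr
  have har : (a + (r : ℂ) • (1 : Matrix (Fin N) (Fin N) ℂ)).PosDef :=
    ha.add_posSemidef (PosSemidef.one.smul hr')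
  set R := (a + (r : ℂ) • (1 : Matrix (Fin N) (Fin N) ℂ))⁻¹ with hRdef
  set C := (a + b)⁻¹ with hCdef
  have hab : (a + b).PosDef := ha.add hb
  have hC : C.PosDef := hab.inv
  have hR : R.PosDef := har.inv
  have hdet : IsUnit (a + b).det := hab.det_pos.ne'.isUnit
  have hdetr : IsUnit (a + (r : ℂ) • (1 : Matrix (Fin N) (Fin N) ℂ)).det := har.det_pos.ne'.isUnit
  have hCi : C⁻¹ = a + b := by rw [hCdef, nonsing_inv_nonsing_inv _ hdet]
  have hCC : (a + b) * C = 1 := mul_nonsing_inv _ hdet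
  have hCC' : C * (a + b) = 1 := nonsing_inv_mul _ hdet
  have haR : a * R = 1 - (r : ℂ) • R := by
    have h1 := mul_nonsing_inv _ hdetr
    rw [← hRdef, add_mul, smul_mul_assoc, one_mul] at h1
    rw [← h1]; abel
  have hRa : R * a = 1 - (r : ℂ) • R := by
    have h1 := nonsing_inv_mul _ hdetr
    rw [← hRdef, mul_add, mul_smul_comm, mul_one] at h1
    rw [← h1]; abel
  have key := re_trace_inv_conj hC hR.1
  rw [hCi] at key
  -- trace identities
  have e1 : ((a * (a + b)) * (R * C * R)).trace = R.trace - (r : ℂ) * ((a + b) * R * C * R).trace := by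
    rw [show a * (a + b) * (R * C * R) = a * ((a + b) * R * C * R) by simp only [Matrix.mul_assoc],
      Matrix.trace_mul_comm, show (a + b) * R * C * R * a = (a + b) * R * C * (R * a) by
        simp only [Matrix.mul_assoc], hRa, mul_sub, mul_one, mul_smul_comm, trace_sub, trace_smul,
      smul_eq_mul, show (a + b) * R * C = (a + b) * (R * C) by simp only [Matrix.mul_assoc],
      Matrix.trace_mul_comm (a + b) (R * C), show R * C * (a + b) = R * (C * (a + b)) by
        simp only [Matrix.mul_assoc], hCC', mul_one]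
  have e2 : (((a + b) * a) * (R * C * R)).trace = R.trace - (r : ℂ) * ((a + b) * R * C * R).trace := by
    rw [show (a + b) * a * (R * C * R) = (a + b) * (a * R) * C * R by simp only [Matrix.mul_assoc],
      haR, mul_sub, mul_one, mul_smul_comm, sub_mul, sub_mul, hCC, one_mul, smul_mul_assoc,
      smul_mul_assoc, trace_sub, trace_smul, smul_eq_mul]
  have e3 : ((a * a) * (R * C * R)).trace = (C * (a * a * (R * R))).trace := by
    have hcomm : R * a = a * R := by rw [haR, hRa]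
    rw [show a * a * (R * C * R) = (a * a * R) * (C * R) by simp only [Matrix.mul_assoc],
      Matrix.trace_mul_comm, show C * R * (a * a * R) = C * ((R * a) * (a * R)) by
        simp only [Matrix.mul_assoc], hcomm, show a * R * (a * R) = a * (R * a) * R by
        simp only [Matrix.mul_assoc], hcomm]
    simp only [Matrix.mul_assoc]
  have e4 : (a * b + b * a) = a * (a + b) + (a + b) * a - (a * a + a * a) := by noncomm_ring
  have e5 : ((a * b + b * a) * (R * C * R)).trace =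
      2 * R.trace - 2 * ((r : ℂ) * ((a + b) * R * C * R).trace) -
        2 * (C * (a * a * (R * R))).trace := by
    rw [e4, sub_mul, add_mul (a * (a + b)) ((a + b) * a), add_mul (a * a) (a * a), trace_sub, trace_add,
      trace_add, e1, e2, e3]
    ring
  rw [e5]
  simp only [Complex.sub_re, Complex.mul_re, Complex.re_ofNat, Complex.im_ofNat, zero_mul, sub_zero,
    Complex.ofReal_re, Complex.ofReal_im]
  nlinarith [mul_le_mul_of_nonneg_left key hr]

end Vale.Agent.P371.G.FB
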