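import Mathlib
import Vale.Agent.P371.FE.Gibbs
import Vale.Agent.P371.G.FactB

/-!
# P371: the inequality (B2), integrated form
-/

open Matrix Filter Topology MeasureTheory
open scoped ComplexOrder

namespace Vale.Agent.P371.G.FB

variable {N : ℕ}

/-! ### Derivatives of matrix functions, entrywise -/

theorem hasDerivAt_inv_entry {A : ℝ → Matrix (Fin N) (Fin N) ℂ} {A' : Matrix (Fin N) (Fin N) ℂ}
    {t : ℝ} (hA : ∀ i j, HasDerivAt (fun s => A s i j) (A' i j) t) (hdet : (A t).det ≠ 0)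
    (i j : Fin N) :
    HasDerivAt (fun s => (A s)⁻¹ i j) ((-((A t)⁻¹ * A' * (A t)⁻¹)) i j) t := by
  have hAc : ContinuousAt A t :=
    continuousAt_pi.2 fun i => continuousAt_pi.2 fun j => (hA i j).continuousAt
  have hdetc : ContinuousAt (fun s => (A s).det) t :=
    (continuous_id.matrix_det.continuousAt (x := A t)).comp hAc
  have hinv : ContinuousAt (fun s => (A s)⁻¹) t := by
    have h1 : ContinuousAt (Inv.inv : Matrix (Fin N) (Fin N) ℂ → _) (A t) := by
      refine continuousAt_matrix_inv _ ?_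
      have : (Ring.inverse : ℂ → ℂ) = fun x => x⁻¹ := by
        ext x; exact Ring.inverse_eq_inv x
      rw [this]
      exact continuousAt_inv₀ hdet
    exact ContinuousAt.comp (f := A) h1 hAc
  have hinvij : ∀ i j, ContinuousAt (fun s => (A s)⁻¹ i j) t := by
    intro i j
    exact (continuousAt_pi.1 ((continuousAt_pi.1 hinv) i)) j
  rw [hasDerivAt_iff_tendsto_slope]
  have hev : ∀ᶠ s in 𝓝[≠] t, (A s).det ≠ 0 :=
    (hdetc.eventually_ne hdet).filter_mono nhdsWithin_le_nhds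
  have h2 : Tendsto (fun s => -∑ k, ∑ l, (A s)⁻¹ i k * slope (fun s => A s k l) t s *
      (A t)⁻¹ l j) (𝓝[≠] t) (𝓝 (-∑ k, ∑ l, (A t)⁻¹ i k * A' k l * (A t)⁻¹ l j)) := by
    refine (tendsto_finsetSum _ fun k _ => tendsto_finsetSum _ fun l _ => ?_).neg
    refine Tendsto.mul_const _ (Tendsto.mul ?_ ?_)
    · exact (hinvij i k).tendsto.mono_left nhdsWithin_le_nhds
    · exact hasDerivAt_iff_tendsto_slope.1 (hA k l)
  have h3 : (-((A t)⁻¹ * A' * (A t)⁻¹)) i j = -∑ k, ∑ l, (A t)⁻¹ i k * A' k l * (A t)⁻¹ l j := by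
    rw [Matrix.neg_apply, Matrix.mul_apply]
    congr 1
    rw [Finset.sum_comm]
    refine Finset.sum_congr rfl fun l _ => ?_
    rw [Matrix.mul_apply, Finset.sum_mul]
  rw [h3]
  refine h2.congr' ?_
  filter_upwards [hev, self_mem_nhdsWithin] with s hs hne
  have hst : (A s)⁻¹ - (A t)⁻¹ = -((A s)⁻¹ * (A s - A t) * (A t)⁻¹) := by
    rw [mul_sub, sub_mul, nonsing_inv_mul _ (isUnit_iff_ne_zero.2 hs), one_mul, Matrix.mul_assoc,
      mul_nonsing_inv _ (isUnit_iff_ne_zero.2 hdet), mul_one]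
    abel
  have hst' : (A s)⁻¹ i j - (A t)⁻¹ i j = -∑ k, ∑ l, (A s)⁻¹ i k * (A s k l - A t k l) *
      (A t)⁻¹ l j := by
    have := congrFun (congrFun hst i) j
    rw [Matrix.sub_apply] at this
    rw [this, Matrix.neg_apply, Matrix.mul_apply]
    congr 1
    rw [Finset.sum_comm]
    refine Finset.sum_congr rfl fun l _ => ?_
    rw [Matrix.mul_apply, Finset.sum_mul]
    rfl
  rw [slope_def_module, hst', smul_neg, Finset.smul_sum]
  congr 1
  refine Finset.sum_congr rfl fun k _ => ?_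
  rw [Finset.smul_sum]
  refine Finset.sum_congr rfl fun l _ => ?_
  rw [slope_def_module, mul_smul_comm, smul_mul_assoc]

theorem hasDerivAt_trace_mul {F G : ℝ → Matrix (Fin N) (Fin N) ℂ}
    {F' G' : Matrix (Fin N) (Fin N) ℂ} {t : ℝ}
    (hF : ∀ i j, HasDerivAt (fun s => F s i j) (F' i j) t)
    (hG : ∀ i j, HasDerivAt (fun s => G s i j) (G' i j) t) :
    HasDerivAt (fun s => ((F s * G s).trace).re) (((F' * G t + F t * G').trace).re) t := by
  have h1 : HasDerivAt (fun s => (F s * G s).trace) ((F' * G t + F t * G').trace) t := by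
    have h2 : HasDerivAt (fun s => ∑ i, ∑ j, F s i j * G s j i)
        (∑ i, ∑ j, (F' i j * G t j i + F t i j * G' j i)) t :=
      HasDerivAt.fun_sum fun i _ => HasDerivAt.fun_sum fun j _ => (hF i j).mul (hG j i)
    have h3 : (F' * G t + F t * G').trace = ∑ i, ∑ j, (F' i j * G t j i + F t i j * G' j i) := by
      rw [trace_add]
      simp only [trace, diag_apply, Matrix.mul_apply, Finset.sum_add_distrib]
    rw [h3]
    exact h2
  exact Complex.reCLM.hasFDerivAt.comp_hasDerivAt t h1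


/-! ### Spectral functions -/

/-- `U diag(f) U^*` -/
noncomputable def sf (U : Matrix (Fin N) (Fin N) ℂ) (f : Fin N → ℝ) : Matrix (Fin N) (Fin N) ℂ :=
  U * diagonal (fun i => (f i : ℂ)) * star U

section sf

variable {U : Matrix (Fin N) (Fin N) ℂ}

theorem sf_mul (hU : star U * U = 1) (f g : Fin N → ℝ) :
    sf U f * sf U g = sf U (fun i => f i * g i) := by
  unfold sf
  have : U * diagonal (fun i => (f i : ℂ)) * star U * (U * diagonal (fun i => (g i : ℂ)) * star U)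
      = U * (diagonal (fun i => (f i : ℂ)) * ((star U * U) * diagonal (fun i => (g i : ℂ)))) *
        star U := by
    simp only [Matrix.mul_assoc]
  rw [this, hU, Matrix.one_mul, diagonal_mul_diagonal]
  congr 3
  ext i
  push_cast
  rfl

theorem sf_one (hU : U * star U = 1) : sf U (fun _ => 1) = 1 := by
  unfold sf
  simp [hU]

theorem sf_add (f g : Fin N → ℝ) : sf U f + sf U g = sf U (fun i => f i + g i) := by
  unfold sf
  rw [← add_mul, ← mul_add, diagonal_add]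
  congr 3
  ext i
  push_cast
  rfl

theorem sf_smul (c : ℝ) (f : Fin N → ℝ) : (c : ℂ) • sf U f = sf U (fun i => c * f i) := by
  unfold sf
  rw [← smul_mul_assoc, ← mul_smul_comm, ← diagonal_smul]
  congr 3
  ext i
  simp

theorem trace_mul_sf (M : Matrix (Fin N) (Fin N) ℂ) (f : Fin N → ℝ) :
    ((M * sf U f).trace).re = ∑ i, f i * ((star U * M * U) i i).re := by
  rw [trace_mul_comm, sf, FE.diag_trace1, Complex.re_sum]
  refine Finset.sum_congr rfl fun i _ => ?_
  rw [Complex.re_ofReal_mul]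

end sf

theorem cfc_sf {A : Matrix (Fin N) (Fin N) ℂ} (hA : A.IsHermitian) (f : ℝ → ℝ) :
    cfc f A = sf (hA.eigenvectorUnitary : Matrix (Fin N) (Fin N) ℂ)
      (fun i => f (hA.eigenvalues i)) :=
  FE.cfc_spec hA f

theorem eq_sf {A : Matrix (Fin N) (Fin N) ℂ} (hA : A.IsHermitian) :
    A = sf (hA.eigenvectorUnitary : Matrix (Fin N) (Fin N) ℂ) hA.eigenvalues :=
  FE.spec hA

theorem unit_star_mul {A : Matrix (Fin N) (Fin N) ℂ} (hA : A.IsHermitian) :
    star (hA.eigenvectorUnitary : Matrix (Fin N) (Fin N) ℂ) *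
      (hA.eigenvectorUnitary : Matrix (Fin N) (Fin N) ℂ) = 1 :=
  Unitary.coe_star_mul_self _

theorem unit_mul_star {A : Matrix (Fin N) (Fin N) ℂ} (hA : A.IsHermitian) :
    (hA.eigenvectorUnitary : Matrix (Fin N) (Fin N) ℂ) *
      star (hA.eigenvectorUnitary : Matrix (Fin N) (Fin N) ℂ) = 1 :=
  Unitary.coe_mul_star_self _

/-- the resolvent as a spectral function -/
theorem res_sf {a : Matrix (Fin N) (Fin N) ℂ} (ha : a.PosDef) {r : ℝ} (hr : 0 ≤ r) :
    (a + (r : ℂ) • (1 : Matrix (Fin N) (Fin N) ℂ))⁻¹ =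
      sf (ha.1.eigenvectorUnitary : Matrix (Fin N) (Fin N) ℂ)
        (fun i => (ha.1.eigenvalues i + r)⁻¹) := by
  set U := (ha.1.eigenvectorUnitary : Matrix (Fin N) (Fin N) ℂ) with hU
  have h1 : a + (r : ℂ) • (1 : Matrix (Fin N) (Fin N) ℂ) =
      sf U (fun i => ha.1.eigenvalues i + r) := by
    conv_lhs => rw [eq_sf ha.1, ← sf_one (unit_mul_star ha.1), sf_smul, sf_add]
    simp only [mul_one]
    rfl
  apply inv_eq_right_inv
  rw [h1, sf_mul (unit_star_mul ha.1), ← sf_one (unit_mul_star ha.1)]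
  congr 1
  ext i
  have := ha.eigenvalues_pos i
  exact mul_inv_cancel₀ (by positivity)

/-! ### The family `K_t` -/

/-- `k_j(t) = sqrt(κ_j² + t)` -/
noncomputable def kk (κ : Fin N → ℝ) (t : ℝ) (j : Fin N) : ℝ := √(κ j ^ 2 + t)

/-- `K_t = diag sqrt(κ_j² + t)` -/
noncomputable def KK (κ : Fin N → ℝ) (t : ℝ) : Matrix (Fin N) (Fin N) ℂ :=
  diagonal (fun j => (kk κ t j : ℂ))

/-- `C_t = (2 K_t)⁻¹` -/
noncomputable def CC (κ : Fin N → ℝ) (t : ℝ) : Matrix (Fin N) (Fin N) ℂ :=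
  diagonal (fun j => (((2 * kk κ t j)⁻¹ : ℝ) : ℂ))

/-- the resolvent `(K_t - Z + r)⁻¹` -/
noncomputable def RR (κ : Fin N → ℝ) (Z : Matrix (Fin N) (Fin N) ℂ) (r t : ℝ) :
    Matrix (Fin N) (Fin N) ℂ :=
  (KK κ t - Z + (r : ℂ) • (1 : Matrix (Fin N) (Fin N) ℂ))⁻¹

variable (κ : Fin N → ℝ)

theorem kk_pos {t : ℝ} (ht : 0 < t) (j : Fin N) : 0 < kk κ t j :=
  Real.sqrt_pos.2 (by positivity)

theorem kk_sq {t : ℝ} (ht : 0 < t) (j : Fin N) : kk κ t j ^ 2 = κ j ^ 2 + t :=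
  Real.sq_sqrt (by positivity)

theorem hasDerivAt_kk {t : ℝ} (ht : 0 < t) (j : Fin N) :
    HasDerivAt (fun s => kk κ s j) ((2 * kk κ t j)⁻¹) t := by
  have h1 : HasDerivAt (fun s : ℝ => κ j ^ 2 + s) 1 t := by
    simpa using (hasDerivAt_id t).const_add (κ j ^ 2)
  have h2 := h1.sqrt (by positivity : κ j ^ 2 + t ≠ 0)
  refine h2.congr_deriv ?_
  rw [one_div]
  rfl

theorem hasDerivAt_KK {t : ℝ} (ht : 0 < t) (i j : Fin N) :
    HasDerivAt (fun s => KK κ s i j) (CC κ t i j) t := by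
  by_cases hij : i = j
  · subst hij
    simp only [KK, CC, diagonal_apply_eq]
    exact (hasDerivAt_kk κ ht i).ofReal_comp
  · simp only [KK, CC, diagonal_apply_ne _ hij]
    exact hasDerivAt_const t 0

theorem KK_mul_CC {t : ℝ} (ht : 0 < t) : (KK κ t + KK κ t) * CC κ t = 1 := by
  unfold KK CC
  rw [diagonal_add, diagonal_mul_diagonal, ← diagonal_one]
  congr 1
  ext j
  have := (kk_pos κ ht j).ne'
  rw [← Complex.ofReal_add, ← Complex.ofReal_mul]
  have h2 : (kk κ t j + kk κ t j) * (2 * kk κ t j)⁻¹ = 1 := by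
    field_simp
    ring
  rw [h2]
  simp

theorem CC_eq {t : ℝ} (ht : 0 < t) (Z : Matrix (Fin N) (Fin N) ℂ) :
    ((KK κ t - Z) + (KK κ t + Z))⁻¹ = CC κ t := by
  apply inv_eq_right_inv
  rw [show KK κ t - Z + (KK κ t + Z) = KK κ t + KK κ t by abel]
  exact KK_mul_CC κ ht

/-- `X + t = K_t² - Z²` -/
noncomputable def XX (Z : Matrix (Fin N) (Fin N) ℂ) (t : ℝ) : Matrix (Fin N) (Fin N) ℂ :=
  KK κ t * KK κ t - Z * Z

theorem XX_eq (Z : Matrix (Fin N) (Fin N) ℂ) (t : ℝ) :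
    (KK κ t - Z) * (KK κ t + Z) + (KK κ t + Z) * (KK κ t - Z) = (2 : ℂ) • XX κ Z t := by
  unfold XX
  rw [two_smul]
  noncomm_ring

theorem XX_neg (Z : Matrix (Fin N) (Fin N) ℂ) (t : ℝ) : XX κ (-Z) t = XX κ Z t := by
  unfold XX
  rw [neg_mul_neg]

theorem hasDerivAt_XX {t : ℝ} (ht : 0 < t) (Z : Matrix (Fin N) (Fin N) ℂ) (i j : Fin N) :
    HasDerivAt (fun s => XX κ Z s i j) ((1 : Matrix (Fin N) (Fin N) ℂ) i j) t := by
  unfold XX KK
  simp only [diagonal_mul_diagonal, Matrix.sub_apply]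
  by_cases hij : i = j
  · subst hij
    simp only [diagonal_apply_eq, one_apply_eq]
    have h1 : HasDerivAt (fun s : ℝ => ((κ i ^ 2 + s : ℝ) : ℂ)) (1 : ℂ) t := by
      have : HasDerivAt (fun s : ℝ => κ i ^ 2 + s) 1 t := by
        simpa using (hasDerivAt_id t).const_add (κ i ^ 2)
      simpa using this.ofReal_comp
    have h2 := h1.sub_const ((Z * Z) i i)
    refine h2.congr_of_eventuallyEq ?_
    filter_upwards [lt_mem_nhds ht] with s hs
    have := kk_sq κ hs i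
    rw [← this]
    push_cast
    ring
  · simp only [diagonal_apply_ne _ hij, one_apply_ne hij]
    exact hasDerivAt_const t _

/-- `φ_r(t) = Re tr ((X+t) (K_t - Z + r)⁻¹)` -/
noncomputable def phi (Z : Matrix (Fin N) (Fin N) ℂ) (r t : ℝ) : ℝ :=
  ((XX κ Z t * RR κ Z r t).trace).re

/-- the lower bound for the derivative of `φ_r(t)`:
`ψ_r(t) = r Re tr R² + Re tr (C a² R²)` -/
noncomputable def psi (Z : Matrix (Fin N) (Fin N) ℂ) (r t : ℝ) : ℝ :=
  r * ((RR κ Z r t * RR κ Z r t).trace).re +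
    ((CC κ t * ((KK κ t - Z) * (KK κ t - Z) * (RR κ Z r t * RR κ Z r t))).trace).re

theorem posDef_add_smul {a : Matrix (Fin N) (Fin N) ℂ} (ha : a.PosDef) {r : ℝ} (hr : 0 ≤ r) :
    (a + (r : ℂ) • (1 : Matrix (Fin N) (Fin N) ℂ)).PosDef :=
  ha.add_posSemidef (PosSemidef.one.smul (by rw [Complex.zero_le_real]; exact hr))

theorem hasDerivAt_phi {Z : Matrix (Fin N) (Fin N) ℂ} {r t : ℝ} (ht : 0 < t) (hr : 0 ≤ r)
    (ha : (KK κ t - Z).PosDef) :
    HasDerivAt (fun s => phi κ Z r s)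
      (((RR κ Z r t).trace).re -
        ((XX κ Z t * (RR κ Z r t * CC κ t * RR κ Z r t)).trace).re) t := by
  have hdet : (KK κ t - Z + (r : ℂ) • (1 : Matrix (Fin N) (Fin N) ℂ)).det ≠ 0 :=
    (posDef_add_smul ha hr).det_pos.ne'
  have h1 : ∀ i j, HasDerivAt
      (fun s => (KK κ s - Z + (r : ℂ) • (1 : Matrix (Fin N) (Fin N) ℂ)) i j) (CC κ t i j) t := by
    intro i j
    simp only [Matrix.add_apply, Matrix.sub_apply]
    exact ((hasDerivAt_KK κ ht i j).sub_const _).add_const _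
  have h2 := hasDerivAt_inv_entry h1 hdet
  have h3 := hasDerivAt_trace_mul (hasDerivAt_XX κ ht Z) h2
  refine h3.congr_deriv ?_
  rw [one_mul, mul_neg, trace_add, trace_neg, Complex.add_re, Complex.neg_re]
  unfold RR
  ring

theorem phi_deriv_ge {Z : Matrix (Fin N) (Fin N) ℂ} {r t : ℝ} (ht : 0 < t) (hr : 0 ≤ r)
    (ha : (KK κ t - Z).PosDef) (hb : (KK κ t + Z).PosDef) :
    psi κ Z r t ≤ ((RR κ Z r t).trace).re -
        ((XX κ Z t * (RR κ Z r t * CC κ t * RR κ Z r t)).trace).re := by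
  have h1 := factB1 ha hb hr
  rw [CC_eq κ ht Z, XX_eq] at h1
  rw [smul_mul_assoc, trace_smul, smul_eq_mul, Complex.mul_re, Complex.re_ofNat, Complex.im_ofNat,
    zero_mul, sub_zero] at h1
  unfold psi
  unfold RR
  linarith

end Vale.Agent.P371.G.FB
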