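import Vale.Agent.P371.G.Iface
import Vale.Agent.P371.G.FactB2

/-!
# P371: the inequality (B2), integrated form: the integrals
-/

open Matrix Filter Topology MeasureTheory Set
open scoped ComplexOrder

namespace Vale.Agent.P371.G.FB

variable {N : ℕ} (κ : Fin N → ℝ)

/-! ### Continuity -/

theorem continuous_KK : Continuous (fun t => KK κ t) := by
  unfold KK kk
  refine Continuous.matrix_diagonal ?_
  refine continuous_pi fun j => ?_
  exact Complex.continuous_ofReal.comp (Real.continuous_sqrt.comp (by fun_prop))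

theorem continuousOn_CC : ContinuousOn (fun t => CC κ t) (Ioi 0) := by
  unfold CC
  have h1 : Continuous (fun v : Fin N → ℂ => diagonal v) := continuous_id.matrix_diagonal
  refine h1.comp_continuousOn (continuousOn_pi.2 fun j => ?_)
  refine Complex.continuous_ofReal.comp_continuousOn ?_
  refine ContinuousOn.inv₀ ?_ ?_
  · refine Continuous.continuousOn ?_
    unfold kk
    exact continuous_const.mul (Real.continuous_sqrt.comp (by fun_prop))
  · intro t ht
    have := kk_pos κ ht j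
    positivity

theorem continuousOn_RR {Z : Matrix (Fin N) (Fin N) ℂ}
    (hpos : ∀ t, 0 < t → (KK κ t - Z).PosDef) :
    ContinuousOn (fun p : ℝ × ℝ => RR κ Z p.1 p.2) (Ici 0 ×ˢ Ioi 0) := by
  intro p hp
  refine ContinuousAt.continuousWithinAt ?_
  have hA : Continuous (fun p : ℝ × ℝ =>
      KK κ p.2 - Z + (p.1 : ℂ) • (1 : Matrix (Fin N) (Fin N) ℂ)) := by
    refine (((continuous_KK κ).comp continuous_snd).sub continuous_const).add ?_
    exact (Complex.continuous_ofReal.comp continuous_fst).smul continuous_const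
  have hdet : (KK κ p.2 - Z + (p.1 : ℂ) • (1 : Matrix (Fin N) (Fin N) ℂ)).det ≠ 0 :=
    (posDef_add_smul (hpos p.2 hp.2) hp.1).det_pos.ne'
  have h1 : ContinuousAt (Inv.inv : Matrix (Fin N) (Fin N) ℂ → _)
      (KK κ p.2 - Z + (p.1 : ℂ) • (1 : Matrix (Fin N) (Fin N) ℂ)) := by
    refine continuousAt_matrix_inv _ ?_
    have : (Ring.inverse : ℂ → ℂ) = fun x => x⁻¹ := by
      ext x; exact Ring.inverse_eq_inv x
    rw [this]
    exact continuousAt_inv₀ hdet
  exact ContinuousAt.comp (f := fun p : ℝ × ℝ =>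
      KK κ p.2 - Z + (p.1 : ℂ) • (1 : Matrix (Fin N) (Fin N) ℂ)) h1 hA.continuousAt

theorem continuous_reTrace : Continuous (fun A : Matrix (Fin N) (Fin N) ℂ => (A.trace).re) :=
  Complex.continuous_re.comp continuous_id.matrix_trace

theorem continuousOn_psi {Z : Matrix (Fin N) (Fin N) ℂ}
    (hpos : ∀ t, 0 < t → (KK κ t - Z).PosDef) :
    ContinuousOn (fun p : ℝ × ℝ => psi κ Z p.1 p.2) (Ici 0 ×ˢ Ioi 0) := by
  unfold psi
  have hR := continuousOn_RR κ hpos
  have hC : ContinuousOn (fun p : ℝ × ℝ => CC κ p.2) (Ici 0 ×ˢ Ioi 0) :=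
    (continuousOn_CC κ).comp continuous_snd.continuousOn fun p hp => hp.2
  have hK : ContinuousOn (fun p : ℝ × ℝ => KK κ p.2 - Z) (Ici 0 ×ˢ Ioi 0) :=
    (((continuous_KK κ).comp continuous_snd).sub continuous_const).continuousOn
  refine ContinuousOn.add ?_ ?_
  · exact continuous_fst.continuousOn.mul (continuous_reTrace.comp_continuousOn (hR.mul hR))
  · exact continuous_reTrace.comp_continuousOn (hC.mul ((hK.mul hK).mul (hR.mul hR)))

/-! ### `φ(r, t₂) - φ(r, t₁) ≥ ∫ ψ(r, t) dt` -/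

theorem phi_sub_ge {Z : Matrix (Fin N) (Fin N) ℂ} (hpos : ∀ t, 0 < t → (KK κ t - Z).PosDef)
    (hpos' : ∀ t, 0 < t → (KK κ t + Z).PosDef) {r t₁ t₂ : ℝ} (hr : 0 ≤ r) (ht₁ : 0 < t₁)
    (ht : t₁ ≤ t₂) :
    ∫ t in t₁..t₂, psi κ Z r t ≤ phi κ Z r t₂ - phi κ Z r t₁ := by
  have hsub : Icc t₁ t₂ ⊆ Ioi 0 := fun t h => lt_of_lt_of_le ht₁ h.1
  have hψ : ContinuousOn (fun t => psi κ Z r t) (Icc t₁ t₂) := by
    have := continuousOn_psi κ hpos
    exact this.comp (f := fun t => (r, t)) (by fun_prop) fun t h => ⟨hr, hsub h⟩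
  refine intervalIntegral.integral_le_sub_of_hasDeriv_right_of_le (g := fun t => phi κ Z r t)
    (g' := fun t => ((RR κ Z r t).trace).re -
      ((XX κ Z t * (RR κ Z r t * CC κ t * RR κ Z r t)).trace).re) ht ?_ ?_ ?_ ?_
  · intro t h
    exact (hasDerivAt_phi κ (hsub h) hr (hpos t (hsub h))).continuousAt.continuousWithinAt
  · intro t h
    have h' := hsub (Ioo_subset_Icc_self h)
    exact (hasDerivAt_phi κ h' hr (hpos t h')).hasDerivWithinAt
  · exact hψ.integrableOn_Icc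
  · intro t h
    have h' := hsub (Ioo_subset_Icc_self h)
    exact phi_deriv_ge κ h' hr (hpos t h') (hpos' t h')

/-! ### Spectral formulas -/

section spectral

variable {κ} {Z : Matrix (Fin N) (Fin N) ℂ} {t : ℝ}

/-- diagonal entries in the eigenbasis -/
noncomputable def dd {a : Matrix (Fin N) (Fin N) ℂ} (ha : a.IsHermitian)
    (X : Matrix (Fin N) (Fin N) ℂ) (i : Fin N) : ℝ :=
  ((star (ha.eigenvectorUnitary : Matrix (Fin N) (Fin N) ℂ) * X *
    (ha.eigenvectorUnitary : Matrix (Fin N) (Fin N) ℂ)) i i).re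

theorem trace_mul_cfc' {a : Matrix (Fin N) (Fin N) ℂ} (ha : a.IsHermitian)
    (X : Matrix (Fin N) (Fin N) ℂ) (f : Fin N → ℝ) :
    ((X * sf (ha.eigenvectorUnitary : Matrix (Fin N) (Fin N) ℂ) f).trace).re =
      ∑ i, f i * dd ha X i :=
  trace_mul_sf X f

theorem dd_one {a : Matrix (Fin N) (Fin N) ℂ} (ha : a.IsHermitian) (i : Fin N) :
    dd ha 1 i = 1 := by
  unfold dd
  rw [Matrix.mul_one, unit_star_mul ha, one_apply_eq, Complex.one_re]

theorem trace_eq_sum_dd {a : Matrix (Fin N) (Fin N) ℂ} (ha : a.IsHermitian)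
    (X : Matrix (Fin N) (Fin N) ℂ) : (X.trace).re = ∑ i, dd ha X i := by
  have h := trace_mul_cfc' ha X (fun _ => 1)
  rw [sf_one (unit_mul_star ha), Matrix.mul_one] at h
  simpa using h

theorem phi_eq (ha : (KK κ t - Z).PosDef) {r : ℝ} (hr : 0 ≤ r) :
    phi κ Z r t = ∑ i, (ha.1.eigenvalues i + r)⁻¹ * dd ha.1 (XX κ Z t) i := by
  unfold phi RR
  rw [res_sf ha hr]
  exact trace_mul_cfc' _ _ _

theorem psi_eq (ha : (KK κ t - Z).PosDef) {r : ℝ} (hr : 0 ≤ r) :
    psi κ Z r t = ∑ i, (r * ((ha.1.eigenvalues i + r)⁻¹ * (ha.1.eigenvalues i + r)⁻¹) +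
      dd ha.1 (CC κ t) i * (ha.1.eigenvalues i * ha.1.eigenvalues i *
        ((ha.1.eigenvalues i + r)⁻¹ * (ha.1.eigenvalues i + r)⁻¹))) := by
  have e0 : (KK κ t - Z) * (KK κ t - Z) =
      sf (ha.1.eigenvectorUnitary : Matrix (Fin N) (Fin N) ℂ)
        (fun i => ha.1.eigenvalues i * ha.1.eigenvalues i) := by
    rw [← sf_mul (unit_star_mul ha.1), ← eq_sf ha.1]
  unfold psi RR
  rw [res_sf ha hr, sf_mul (unit_star_mul ha.1), e0, sf_mul (unit_star_mul ha.1),
    trace_mul_cfc', ← Matrix.one_mul (sf _ _), trace_mul_cfc', Finset.mul_sum,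
    ← Finset.sum_add_distrib]
  refine Finset.sum_congr rfl fun i _ => ?_
  rw [dd_one]
  ring

theorem trace_mul_log (ha : (KK κ t - Z).PosDef) (X : Matrix (Fin N) (Fin N) ℂ) :
    ((X * cfc Real.log (KK κ t - Z)).trace).re =
      ∑ i, Real.log (ha.1.eigenvalues i) * dd ha.1 X i := by
  rw [cfc_sf ha.1, trace_mul_cfc']

end spectral

/-! ### The `r`-integrals -/

theorem integral_inv_add {α M : ℝ} (hα : 0 < α) (hM : 0 ≤ M) :
    IntervalIntegrable (fun r => (α + r)⁻¹) volume 0 M ∧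
    ∫ r in (0 : ℝ)..M, (α + r)⁻¹ = Real.log (α + M) - Real.log α := by
  have hc : ContinuousOn (fun r : ℝ => (α + r)⁻¹) (uIcc 0 M) := by
    rw [uIcc_of_le hM]
    refine ContinuousOn.inv₀ (by fun_prop) fun r hr => ?_
    have := hr.1
    positivity
  refine ⟨hc.intervalIntegrable, ?_⟩
  have := intervalIntegral.integral_eq_sub_of_hasDerivAt (f := fun r => Real.log (α + r))
    (f' := fun r => (α + r)⁻¹) (a := 0) (b := M) ?_ hc.intervalIntegrable
  · rw [this, add_zero]
  · intro r hr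
    rw [uIcc_of_le hM] at hr
    have h0 : α + r ≠ 0 := by have := hr.1; positivity
    have h1 : HasDerivAt (fun r => α + r) 1 r := by simpa using (hasDerivAt_id r).const_add α
    refine (h1.log h0).congr_deriv ?_
    rw [one_div]

theorem integral_psi_scalar {α c M : ℝ} (hα : 0 < α) (hM : 0 ≤ M) :
    IntervalIntegrable (fun r => r * ((α + r)⁻¹ * (α + r)⁻¹) +
      c * (α * α * ((α + r)⁻¹ * (α + r)⁻¹))) volume 0 M ∧
    ∫ r in (0 : ℝ)..M, (r * ((α + r)⁻¹ * (α + r)⁻¹) + c * (α * α * ((α + r)⁻¹ * (α + r)⁻¹))) =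
      Real.log (α + M) - Real.log α + α / (α + M) - 1 + c * α - c * α ^ 2 / (α + M) := by
  have hne : ∀ r ∈ Icc (0 : ℝ) M, α + r ≠ 0 := fun r hr => by
    have := hr.1
    positivity
  have hc1 : ContinuousOn (fun r : ℝ => (α + r)⁻¹) (uIcc 0 M) := by
    rw [uIcc_of_le hM]
    exact ContinuousOn.inv₀ (by fun_prop) hne
  have hc : ContinuousOn (fun r => r * ((α + r)⁻¹ * (α + r)⁻¹) +
      c * (α * α * ((α + r)⁻¹ * (α + r)⁻¹))) (uIcc 0 M) :=
    (continuousOn_id.mul (hc1.mul hc1)).add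
      (continuousOn_const.mul (continuousOn_const.mul (hc1.mul hc1)))
  refine ⟨hc.intervalIntegrable, ?_⟩
  have := intervalIntegral.integral_eq_sub_of_hasDerivAt
    (f := fun r => Real.log (α + r) + (α - c * α ^ 2) * (α + r)⁻¹)
    (f' := fun r => r * ((α + r)⁻¹ * (α + r)⁻¹) + c * (α * α * ((α + r)⁻¹ * (α + r)⁻¹)))
    (a := 0) (b := M) ?_ hc.intervalIntegrable
  · rw [this, add_zero]
    have h2 : α + M ≠ 0 := by positivity
    field_simp
    ring
  · intro r hr
    rw [uIcc_of_le hM] at hr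
    have h0 : α + r ≠ 0 := hne r hr
    have h1 : HasDerivAt (fun r => α + r) 1 r := by simpa using (hasDerivAt_id r).const_add α
    refine ((h1.log h0).add ((h1.inv h0).const_mul (α - c * α ^ 2))).congr_deriv ?_
    field_simp
    ring

end Vale.Agent.P371.G.FB
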