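import Vale.Agent.P371.G.FactB3

/-!
# P371: the inequality (B2), integrated form: conclusion
-/

open Matrix Filter Topology MeasureTheory Set
open scoped ComplexOrder

namespace Vale.Agent.P371.G.FB

variable {N : ℕ} (κ : Fin N → ℝ)

section one

variable {κ} {Z : Matrix (Fin N) (Fin N) ℂ} {t : ℝ}

theorem integral_phi (ha : (KK κ t - Z).PosDef) {M : ℝ} (hM : 0 ≤ M) :
    IntervalIntegrable (fun r => phi κ Z r t) volume 0 M ∧
    ∫ r in (0 : ℝ)..M, phi κ Z r t =
      ∑ i, (Real.log (ha.1.eigenvalues i + M) - Real.log (ha.1.eigenvalues i)) *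
        dd ha.1 (XX κ Z t) i := by
  have h1 : ∀ i, IntervalIntegrable
      (fun r => (ha.1.eigenvalues i + r)⁻¹ * dd ha.1 (XX κ Z t) i) volume 0 M :=
    fun i => (integral_inv_add (ha.eigenvalues_pos i) hM).1.mul_const _
  have h2 : IntervalIntegrable
      (fun r => ∑ i, (ha.1.eigenvalues i + r)⁻¹ * dd ha.1 (XX κ Z t) i) volume 0 M := by
    have := IntervalIntegrable.sum Finset.univ fun i _ => h1 i
    refine this.congr fun r _ => ?_
    rw [Finset.sum_apply]
  have h3 : EqOn (fun r => ∑ i, (ha.1.eigenvalues i + r)⁻¹ * dd ha.1 (XX κ Z t) i)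
      (fun r => phi κ Z r t) (uIcc 0 M) := by
    intro r hr
    rw [uIcc_of_le hM] at hr
    exact (phi_eq ha hr.1).symm
  refine ⟨(intervalIntegrable_congr (h3.mono uIoc_subset_uIcc)).1 h2, ?_⟩
  rw [← intervalIntegral.integral_congr h3, intervalIntegral.integral_finsetSum fun i _ => h1 i]
  refine Finset.sum_congr rfl fun i _ => ?_
  rw [intervalIntegral.integral_mul_const, (integral_inv_add (ha.eigenvalues_pos i) hM).2]

theorem integral_psi (ha : (KK κ t - Z).PosDef) {M : ℝ} (hM : 0 ≤ M) :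
    ∫ r in (0 : ℝ)..M, psi κ Z r t =
      ∑ i, (Real.log (ha.1.eigenvalues i + M) - Real.log (ha.1.eigenvalues i) +
        ha.1.eigenvalues i / (ha.1.eigenvalues i + M) - 1 +
        dd ha.1 (CC κ t) i * ha.1.eigenvalues i -
        dd ha.1 (CC κ t) i * ha.1.eigenvalues i ^ 2 / (ha.1.eigenvalues i + M)) := by
  have h3 : EqOn (fun r => psi κ Z r t) (fun r => ∑ i,
      (r * ((ha.1.eigenvalues i + r)⁻¹ * (ha.1.eigenvalues i + r)⁻¹) +
      dd ha.1 (CC κ t) i * (ha.1.eigenvalues i * ha.1.eigenvalues i *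
        ((ha.1.eigenvalues i + r)⁻¹ * (ha.1.eigenvalues i + r)⁻¹)))) (uIcc 0 M) := by
    intro r hr
    rw [uIcc_of_le hM] at hr
    exact psi_eq ha hr.1
  rw [intervalIntegral.integral_congr h3, intervalIntegral.integral_finsetSum fun i _ =>
    (integral_psi_scalar (ha.eigenvalues_pos i) hM).1]
  refine Finset.sum_congr rfl fun i _ => ?_
  rw [(integral_psi_scalar (ha.eigenvalues_pos i) hM).2]

/-- The truncated logarithm. -/
theorem tendsto_H1 (ha : (KK κ t - Z).PosDef) :
    Tendsto (fun M => ((XX κ Z t).trace).re * Real.log (1 + M) -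
      ∫ r in (0 : ℝ)..M, phi κ Z r t) atTop
      (𝓝 (((XX κ Z t * cfc Real.log (KK κ t - Z)).trace).re)) := by
  rw [trace_mul_log ha, trace_eq_sum_dd ha.1]
  have h1 : ∀ i, Tendsto (fun M => dd ha.1 (XX κ Z t) i * (Real.log (1 + M) -
      Real.log (ha.1.eigenvalues i + M) + Real.log (ha.1.eigenvalues i))) atTop
      (𝓝 (Real.log (ha.1.eigenvalues i) * dd ha.1 (XX κ Z t) i)) := by
    intro i
    have hα := ha.eigenvalues_pos i
    have h2 : Tendsto (fun M => Real.log (1 + M) - Real.log (ha.1.eigenvalues i + M)) atTop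
        (𝓝 0) := by
      have h3 : Tendsto (fun M : ℝ => (1 + M) / (ha.1.eigenvalues i + M)) atTop (𝓝 1) := by
        have h4 : Tendsto (fun M : ℝ => 1 + (1 - ha.1.eigenvalues i) *
            (ha.1.eigenvalues i + M)⁻¹) atTop (𝓝 (1 + (1 - ha.1.eigenvalues i) * 0)) := by
          refine tendsto_const_nhds.add (tendsto_const_nhds.mul ?_)
          exact tendsto_inv_atTop_zero.comp (tendsto_atTop_add_const_left _ _ tendsto_id)
        rw [mul_zero, add_zero] at h4
        refine h4.congr' ?_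
        filter_upwards [eventually_ge_atTop 0] with M hM
        have : ha.1.eigenvalues i + M ≠ 0 := by positivity
        field_simp
        ring
      have h5 := (Real.continuousAt_log one_ne_zero).tendsto.comp h3
      rw [Real.log_one] at h5
      refine h5.congr' ?_
      filter_upwards [eventually_ge_atTop 0] with M hM
      rw [Function.comp, Real.log_div (by positivity) (by positivity)]
    have h6 := (h2.add_const (Real.log (ha.1.eigenvalues i))).const_mul (dd ha.1 (XX κ Z t) i)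
    rw [zero_add, mul_comm (dd ha.1 (XX κ Z t) i) (Real.log _)] at h6
    exact h6
  have h7 := tendsto_finsetSum Finset.univ fun i _ => h1 i
  refine h7.congr' ?_
  filter_upwards [eventually_ge_atTop 0] with M hM
  rw [(integral_phi ha hM).2, Finset.sum_mul, ← Finset.sum_sub_distrib]
  refine Finset.sum_congr rfl fun i _ => ?_
  ring

theorem dd_CC_nonneg (ht : 0 < t) {a : Matrix (Fin N) (Fin N) ℂ} (ha : a.IsHermitian)
    (i : Fin N) : 0 ≤ dd ha (CC κ t) i := by
  have hC : (CC κ t).PosSemidef := by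
    unfold CC
    refine PosSemidef.diagonal fun j => ?_
    have := kk_pos κ ht j
    change (0 : ℂ) ≤ _
    rw [Complex.zero_le_real]
    positivity
  have h1 := hC.conjTranspose_mul_mul_same
    (ha.eigenvectorUnitary : Matrix (Fin N) (Fin N) ℂ)
  have h2 := h1.diag_nonneg (i := i)
  exact (Complex.le_def.1 h2).1

/-- The upper bound of the `r`-integral. -/
theorem integral_psi_ge (ht : 0 < t) (ha : (KK κ t - Z).PosDef) {M : ℝ} (hM : 0 < M) :
    N * Real.log (1 + M) - ∫ r in (0 : ℝ)..M, psi κ Z r t ≤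
      ((cfc Real.log (KK κ t - Z)).trace).re + N - ((CC κ t * (KK κ t - Z)).trace).re +
      (N + ((CC κ t * ((KK κ t - Z) * (KK κ t - Z))).trace).re) / M := by
  have e1 : ((CC κ t * (KK κ t - Z)).trace).re =
      ∑ i, ha.1.eigenvalues i * dd ha.1 (CC κ t) i := by
    conv_lhs => rw [eq_sf ha.1]
    exact trace_mul_cfc' _ _ _
  have e2 : ((CC κ t * ((KK κ t - Z) * (KK κ t - Z))).trace).re =
      ∑ i, ha.1.eigenvalues i * ha.1.eigenvalues i * dd ha.1 (CC κ t) i := by
    have e0 : (KK κ t - Z) * (KK κ t - Z) =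
        sf (ha.1.eigenvectorUnitary : Matrix (Fin N) (Fin N) ℂ)
          (fun i => ha.1.eigenvalues i * ha.1.eigenvalues i) := by
      rw [← sf_mul (unit_star_mul ha.1), ← eq_sf ha.1]
    rw [e0, trace_mul_cfc']
  have e3 : ((cfc Real.log (KK κ t - Z)).trace).re = ∑ i, Real.log (ha.1.eigenvalues i) := by
    have h := trace_mul_log ha 1
    rw [Matrix.one_mul] at h
    rw [h]
    refine Finset.sum_congr rfl fun i _ => ?_
    rw [dd_one, mul_one]
  have e4 : (N : ℝ) = ∑ _i : Fin N, (1 : ℝ) := by simp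
  rw [integral_psi ha hM.le, e1, e2, e3]
  conv_lhs => rw [e4]
  conv_rhs => rw [e4]
  rw [Finset.sum_mul, ← Finset.sum_sub_distrib, ← Finset.sum_add_distrib,
    ← Finset.sum_sub_distrib, ← Finset.sum_add_distrib, Finset.sum_div, ← Finset.sum_add_distrib]
  refine Finset.sum_le_sum fun i _ => ?_
  have hα := ha.eigenvalues_pos i
  have hc := dd_CC_nonneg (κ := κ) ht ha.1 i
  set α := ha.1.eigenvalues i
  set c := dd ha.1 (CC κ t) i
  have h1 : Real.log (1 + M) - Real.log (α + M) ≤ 1 / M := by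
    have h2 : Real.log (1 + M) ≤ Real.log M + 1 / M := by
      have h3 : Real.log (1 + M) - Real.log M = Real.log ((1 + M) / M) := by
        rw [Real.log_div (by positivity) hM.ne']
      have h4 := Real.log_le_sub_one_of_pos (show 0 < (1 + M) / M by positivity)
      have h5 : (1 + M) / M - 1 = 1 / M := by field_simp; ring
      linarith
    have h6 : Real.log M ≤ Real.log (α + M) := Real.log_le_log hM (by linarith)
    linarith
  have h2 : 0 ≤ α / (α + M) := by positivity
  have h3 : c * α ^ 2 / (α + M) ≤ α * α * c / M := by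
    rw [show c * α ^ 2 = α * α * c by ring]
    exact div_le_div_of_nonneg_left (by positivity) hM (by linarith)
  have h4 : (1 + α * α * c) / M = 1 / M + α * α * c / M := by ring
  rw [h4]
  nlinarith

/-- `Re tr log a = log det a` -/
theorem re_trace_log {a : Matrix (Fin N) (Fin N) ℂ} (ha : a.PosDef) :
    ((cfc Real.log a).trace).re = Real.log (a.det).re := by
  have h1 : ((cfc Real.log a).trace).re = ∑ i, Real.log (ha.1.eigenvalues i) := by
    have h := trace_mul_cfc' ha.1 1 (fun i => Real.log (ha.1.eigenvalues i))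
    rw [Matrix.one_mul, ← cfc_sf ha.1] at h
    rw [h]
    refine Finset.sum_congr rfl fun i _ => ?_
    rw [dd_one, mul_one]
  have h2 : a.det = ((∏ i, ha.1.eigenvalues i : ℝ) : ℂ) := by
    rw [ha.1.det_eq_prod_eigenvalues]
    push_cast
    rfl
  rw [h1, h2, Complex.ofReal_re, Real.log_prod fun i _ => (ha.eigenvalues_pos i).ne']

end one

theorem isHermitian_KK (t : ℝ) : (KK κ t).IsHermitian := by
  unfold KK
  rw [isHermitian_diagonal_iff]
  intro j
  rw [isSelfAdjoint_iff, Complex.star_def, Complex.conj_ofReal]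

/-- one-sided version of (B2) -/
theorem oneB {Z : Matrix (Fin N) (Fin N) ℂ} (hpos : ∀ t, 0 < t → (KK κ t - Z).PosDef)
    (hpos' : ∀ t, 0 < t → (KK κ t + Z).PosDef) {t₁ t₂ : ℝ} (ht₁ : 0 < t₁) (ht : t₁ ≤ t₂) :
    IntervalIntegrable (fun t => ((cfc Real.log (KK κ t - Z)).trace).re + N -
      ((CC κ t * (KK κ t - Z)).trace).re) volume t₁ t₂ ∧
    ((XX κ Z t₂ * cfc Real.log (KK κ t₂ - Z)).trace).re -
      ((XX κ Z t₁ * cfc Real.log (KK κ t₁ - Z)).trace).re ≤
      ∫ t in t₁..t₂, (((cfc Real.log (KK κ t - Z)).trace).re + N -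
        ((CC κ t * (KK κ t - Z)).trace).re) := by
  have hsub : Icc t₁ t₂ ⊆ Ioi 0 := fun t h => lt_of_lt_of_le ht₁ h.1
  have ht₂ : 0 < t₂ := lt_of_lt_of_le ht₁ ht
  have hKc : ContinuousOn (fun t => KK κ t - Z) (Icc t₁ t₂) :=
    ((continuous_KK κ).sub continuous_const).continuousOn
  have hCc : ContinuousOn (fun t => CC κ t) (Icc t₁ t₂) := (continuousOn_CC κ).mono hsub
  have hlogc : ContinuousOn (fun t => ((cfc Real.log (KK κ t - Z)).trace).re) (Icc t₁ t₂) := by
    have h1 : ContinuousOn (fun t => Real.log ((KK κ t - Z).det).re) (Icc t₁ t₂) := by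
      refine ContinuousOn.log ?_ ?_
      · exact (Complex.continuous_re.comp continuous_id.matrix_det).comp_continuousOn hKc
      · intro t h
        exact (Complex.lt_def.1 (hpos t (hsub h)).det_pos).1.ne'
    exact h1.congr fun t h => re_trace_log (hpos t (hsub h))
  have hgc : ContinuousOn (fun t => ((cfc Real.log (KK κ t - Z)).trace).re + N -
      ((CC κ t * (KK κ t - Z)).trace).re) (Icc t₁ t₂) :=
    (hlogc.add continuousOn_const).sub (continuous_reTrace.comp_continuousOn (hCc.mul hKc))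
  have hec : ContinuousOn (fun t => (N : ℝ) +
      ((CC κ t * ((KK κ t - Z) * (KK κ t - Z))).trace).re) (Icc t₁ t₂) :=
    continuousOn_const.add (continuous_reTrace.comp_continuousOn (hCc.mul (hKc.mul hKc)))
  have hgi : IntervalIntegrable (fun t => ((cfc Real.log (KK κ t - Z)).trace).re + N -
      ((CC κ t * (KK κ t - Z)).trace).re) volume t₁ t₂ := by
    refine ContinuousOn.intervalIntegrable ?_
    rw [uIcc_of_le ht]
    exact hgc
  have hei : IntervalIntegrable (fun t => (N : ℝ) +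
      ((CC κ t * ((KK κ t - Z) * (KK κ t - Z))).trace).re) volume t₁ t₂ := by
    refine ContinuousOn.intervalIntegrable ?_
    rw [uIcc_of_le ht]
    exact hec
  refine ⟨hgi, ?_⟩
  -- the truncated inequality
  have key : ∀ M : ℝ, 0 < M →
      (((XX κ Z t₂).trace).re * Real.log (1 + M) - ∫ r in (0 : ℝ)..M, phi κ Z r t₂) -
      (((XX κ Z t₁).trace).re * Real.log (1 + M) - ∫ r in (0 : ℝ)..M, phi κ Z r t₁) ≤
      (∫ t in t₁..t₂, (((cfc Real.log (KK κ t - Z)).trace).re + N -
        ((CC κ t * (KK κ t - Z)).trace).re)) +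
      (∫ t in t₁..t₂, ((N : ℝ) +
        ((CC κ t * ((KK κ t - Z) * (KK κ t - Z))).trace).re)) / M := by
    intro M hM
    -- joint continuity
    have hψ : ContinuousOn (fun p : ℝ × ℝ => psi κ Z p.1 p.2) (Icc 0 M ×ˢ Icc t₁ t₂) :=
      (continuousOn_psi κ hpos).mono (prod_mono (fun r h => h.1) hsub)
    have hψi : IntegrableOn (fun p : ℝ × ℝ => psi κ Z p.1 p.2) (Icc 0 M ×ˢ Icc t₁ t₂) :=
      hψ.integrableOn_compact (isCompact_Icc.prod isCompact_Icc)
    have hψi' : IntegrableOn (Function.uncurry fun r t => psi κ Z r t)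
        (uIoc 0 M ×ˢ uIoc t₁ t₂) := by
      rw [uIoc_of_le hM.le, uIoc_of_le ht]
      exact hψi.mono_set (prod_mono Ioc_subset_Icc_self Ioc_subset_Icc_self)
    have hswap := intervalIntegral_intervalIntegral_swap hψi'
    have hprod : Integrable (Function.uncurry fun r t => psi κ Z r t)
        ((volume.restrict (Ioc 0 M)).prod (volume.restrict (Ioc t₁ t₂))) := by
      rw [Measure.prod_restrict, ← Measure.volume_eq_prod]
      rw [uIoc_of_le hM.le, uIoc_of_le ht] at hψi'
      exact hψi'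
    have hi1 : IntervalIntegrable (fun r => ∫ t in t₁..t₂, psi κ Z r t) volume 0 M := by
      rw [intervalIntegrable_iff_integrableOn_Ioc_of_le hM.le]
      simp only [intervalIntegral.integral_of_le ht]
      exact hprod.integral_prod_left
    have hi2 : IntervalIntegrable (fun t => ∫ r in (0 : ℝ)..M, psi κ Z r t) volume t₁ t₂ := by
      rw [intervalIntegrable_iff_integrableOn_Ioc_of_le ht]
      simp only [intervalIntegral.integral_of_le hM.le]
      exact hprod.integral_prod_right
    have hp1 := integral_phi (hpos t₁ ht₁) hM.le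
    have hp2 := integral_phi (hpos t₂ ht₂) hM.le
    have h1 : ∫ r in (0 : ℝ)..M, ∫ t in t₁..t₂, psi κ Z r t ≤
        (∫ r in (0 : ℝ)..M, phi κ Z r t₂) - ∫ r in (0 : ℝ)..M, phi κ Z r t₁ := by
      rw [← intervalIntegral.integral_sub hp2.1 hp1.1]
      refine intervalIntegral.integral_mono_on hM.le hi1 (hp2.1.sub hp1.1) fun r hr => ?_
      exact phi_sub_ge κ hpos hpos' hr.1 ht₁ ht
    have h2 : ((XX κ Z t₂).trace).re - ((XX κ Z t₁).trace).re = (t₂ - t₁) * N := by
      have h3 : ∀ t, 0 < t → ((XX κ Z t).trace).re =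
          ∑ j, (κ j ^ 2) - ((Z * Z).trace).re + t * N := by
        intro t h
        have h4 : ((KK κ t * KK κ t).trace).re = ∑ j, (κ j ^ 2 + t) := by
          unfold KK
          rw [diagonal_mul_diagonal, trace_diagonal, Complex.re_sum]
          refine Finset.sum_congr rfl fun j _ => ?_
          rw [← kk_sq κ h j, ← Complex.ofReal_mul, Complex.ofReal_re, sq]
        unfold XX
        rw [trace_sub, Complex.sub_re, h4, Finset.sum_add_distrib]
        simp
        ring
      rw [h3 t₂ ht₂, h3 t₁ ht₁]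
      ring
    have h3 : ∫ t in t₁..t₂, (N * Real.log (1 + M) - ∫ r in (0 : ℝ)..M, psi κ Z r t) =
        (t₂ - t₁) * (N * Real.log (1 + M)) - ∫ t in t₁..t₂, ∫ r in (0 : ℝ)..M, psi κ Z r t := by
      rw [intervalIntegral.integral_sub intervalIntegrable_const hi2,
        intervalIntegral.integral_const, smul_eq_mul]
    have h4 : ∫ t in t₁..t₂, (N * Real.log (1 + M) - ∫ r in (0 : ℝ)..M, psi κ Z r t) ≤
        ∫ t in t₁..t₂, ((((cfc Real.log (KK κ t - Z)).trace).re + N -
          ((CC κ t * (KK κ t - Z)).trace).re) +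
          (N + ((CC κ t * ((KK κ t - Z) * (KK κ t - Z))).trace).re) / M) := by
      refine intervalIntegral.integral_mono_on ht (intervalIntegrable_const.sub hi2)
        (hgi.add (hei.div_const M)) fun t h => ?_
      exact integral_psi_ge (hsub h) (hpos t (hsub h)) hM
    rw [intervalIntegral.integral_add hgi (hei.div_const M),
      intervalIntegral.integral_div] at h4
    rw [hswap] at h1
    have h5 : ((XX κ Z t₂).trace).re * Real.log (1 + M) - ((XX κ Z t₁).trace).re *
        Real.log (1 + M) = (t₂ - t₁) * (N * Real.log (1 + M)) := by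
      rw [← sub_mul, h2]
      ring
    linarith
  have hl := (tendsto_H1 (hpos t₂ ht₂)).sub (tendsto_H1 (hpos t₁ ht₁))
  have hr : Tendsto (fun M : ℝ => (∫ t in t₁..t₂, (((cfc Real.log (KK κ t - Z)).trace).re + N -
        ((CC κ t * (KK κ t - Z)).trace).re)) +
      (∫ t in t₁..t₂, ((N : ℝ) +
        ((CC κ t * ((KK κ t - Z) * (KK κ t - Z))).trace).re)) / M) atTop
      (𝓝 ((∫ t in t₁..t₂, (((cfc Real.log (KK κ t - Z)).trace).re + N -
        ((CC κ t * (KK κ t - Z)).trace).re)) + 0)) :=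
    tendsto_const_nhds.add (tendsto_const_nhds.div_atTop tendsto_id)
  rw [add_zero] at hr
  refine le_of_tendsto_of_tendsto hl hr ?_
  filter_upwards [eventually_gt_atTop 0] with M hM
  exact key M hM

end Vale.Agent.P371.G.FB

namespace Vale.Agent.P371.G

theorem Kt_eq {N : ℕ} (κ : Fin N → ℝ) (t : ℝ) : Kt κ t = FB.KK κ t := rfl

/-- `K_t ± Z` is positive definite for `t > 0` and admissible `Z`. -/
theorem Adm.posDef_sub {N : ℕ} {κ : Fin N → ℝ} {Z : Mat N} (hZ : Adm κ Z)
    {t : ℝ} (ht : 0 < t) : (Kt κ t - Z).PosDef := by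
  have h1 : (Kt κ t - dg κ).PosDef := by
    unfold Kt dg
    rw [diagonal_sub, posDef_diagonal_iff]
    intro j
    rw [← Complex.ofReal_sub, Complex.zero_lt_real, sub_pos]
    exact Real.lt_sqrt_of_sq_lt (by linarith)
  have h2 := h1.add_posSemidef hZ.upper
  rwa [show Kt κ t - dg κ + (dg κ - Z) = Kt κ t - Z by abel] at h2

theorem Adm.posDef_add {N : ℕ} {κ : Fin N → ℝ} {Z : Mat N} (hZ : Adm κ Z)
    {t : ℝ} (ht : 0 < t) : (Kt κ t + Z).PosDef := by
  have h1 : (Kt κ t - dg κ).PosDef := by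
    unfold Kt dg
    rw [diagonal_sub, posDef_diagonal_iff]
    intro j
    rw [← Complex.ofReal_sub, Complex.zero_lt_real, sub_pos]
    exact Real.lt_sqrt_of_sq_lt (by linarith)
  have h2 := h1.add_posSemidef hZ.lower
  rwa [show Kt κ t - dg κ + (dg κ + Z) = Kt κ t + Z by abel] at h2

theorem Xm_add {N : ℕ} (κ : Fin N → ℝ) (Z : Mat N) {t : ℝ} (ht : 0 < t) :
    Xm κ Z + (t : ℂ) • 1 = FB.XX κ Z t := by
  unfold Xm FB.XX dg FB.KK
  rw [diagonal_mul_diagonal, diagonal_mul_diagonal]
  have : (diagonal fun i => ((FB.kk κ t i : ℝ) : ℂ) * ((FB.kk κ t i : ℝ) : ℂ)) =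
      (diagonal fun i => ((κ i : ℝ) : ℂ) * ((κ i : ℝ) : ℂ)) +
        (t : ℂ) • (1 : Matrix (Fin N) (Fin N) ℂ) := by
    rw [← diagonal_one, ← diagonal_smul, diagonal_add]
    congr 1
    ext i
    have h := FB.kk_sq κ ht i
    rw [← Complex.ofReal_mul, ← sq, h, Pi.smul_apply, smul_eq_mul, mul_one]
    push_cast
    ring
  rw [this]
  abel

/-- M2. -/
theorem bFact : BFact := by
  intro N κ Z _ hZ t₁ t₂ ht₁ ht
  have hp : ∀ t, 0 < t → (FB.KK κ t - Z).PosDef := fun t h => hZ.posDef_sub h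
  have hp' : ∀ t, 0 < t → (FB.KK κ t + Z).PosDef := fun t h => hZ.posDef_add h
  have ht₂ : 0 < t₂ := lt_of_lt_of_le ht₁ ht
  obtain ⟨i1, h1⟩ := FB.oneB κ hp hp' ht₁ ht
  obtain ⟨i2, h2⟩ := FB.oneB κ (Z := -Z) (fun t h => by rw [sub_neg_eq_add]; exact hp' t h)
    (fun t h => by rw [← sub_eq_add_neg]; exact hp t h) ht₁ ht
  have h3 := intervalIntegral.integral_add i1 i2
  have h4 : ∫ t in t₁..t₂, ((Lt κ t Z).trace.re + N) =
      ∫ t in t₁..t₂, ((((cfc Real.log (FB.KK κ t - Z)).trace).re + N -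
        ((FB.CC κ t * (FB.KK κ t - Z)).trace).re) +
        (((cfc Real.log (FB.KK κ t - -Z)).trace).re + N -
        ((FB.CC κ t * (FB.KK κ t - -Z)).trace).re)) := by
    refine intervalIntegral.integral_congr fun t h => ?_
    rw [uIcc_of_le ht] at h
    have ht' : 0 < t := lt_of_lt_of_le ht₁ h.1
    have e1 : ((FB.CC κ t * (FB.KK κ t - Z)).trace).re +
        ((FB.CC κ t * (FB.KK κ t - -Z)).trace).re = N := by
      rw [← Complex.add_re, ← trace_add, ← mul_add, show FB.KK κ t - Z + (FB.KK κ t - -Z) =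
        FB.KK κ t + FB.KK κ t by abel, trace_mul_comm, FB.KK_mul_CC κ ht', trace_one]
      simp
    simp only [Lt, Kt_eq, trace_add, Complex.add_re, sub_neg_eq_add] at e1 ⊢
    linarith
  rw [h4, h3, Xm_add κ Z ht₁, Xm_add κ Z ht₂]
  simp only [Lt, Kt_eq, mul_add, trace_add, Complex.add_re]
  rw [FB.XX_neg, FB.XX_neg] at h2
  simp only [sub_neg_eq_add] at h2 ⊢
  linarith

end Vale.Agent.P371.G
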