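import Vale.Agent.P371.G.OdeF

/-!
# M0: continuity of the functional calculus
-/

open Matrix Set Filter Topology
open scoped ComplexOrder

namespace Vale.Agent.P371.G

open P371Mat

namespace FcC

variable {N : ℕ}

section

open scoped Matrix.Norms.Frobenius

lemma frob_cfc_sub_sq {A B : Matrix (Fin N) (Fin N) ℂ} (hA : A.IsHermitian)
    (hB : B.IsHermitian) (g : ℝ → ℝ) : ‖cfc g A - cfc g B‖ ^ 2 =
      ∑ i, ∑ j, (g (hA.eigenvalues i) - g (hB.eigenvalues j)) ^ 2 *
        ‖((eU hA)ᴴ * eU hB) i j‖ ^ 2 := by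
  rw [← frob_unitary (eU_mul_star hA) (eU_mul_star hB) (A := cfc g A - cfc g B), frob_sq]
  refine Finset.sum_congr rfl fun i _ => Finset.sum_congr rfl fun j _ => ?_
  have h1 : (eU hA)ᴴ * (cfc g A - cfc g B) * eU hB =
      diagonal (fun i => (g (hA.eigenvalues i) : ℂ)) * ((eU hA)ᴴ * eU hB) -
      ((eU hA)ᴴ * eU hB) * diagonal (fun i => (g (hB.eigenvalues i) : ℂ)) := by
    rw [P371Mat.cfc_spec hA, P371Mat.cfc_spec hB, Matrix.mul_sub, Matrix.sub_mul]
    congr 1
    · rw [← Matrix.mul_assoc, ← Matrix.mul_assoc, eU_star_mul, Matrix.one_mul,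
        Matrix.mul_assoc]
    · simp only [Matrix.mul_assoc]
      rw [eU_star_mul, Matrix.mul_one]
  rw [h1, Matrix.sub_apply, diagonal_mul, mul_diagonal]
  have h2 : (g (hA.eigenvalues i) : ℂ) * ((eU hA)ᴴ * eU hB) i j -
      ((eU hA)ᴴ * eU hB) i j * (g (hB.eigenvalues j) : ℂ) =
      ((g (hA.eigenvalues i) - g (hB.eigenvalues j) : ℝ) : ℂ) * ((eU hA)ᴴ * eU hB) i j := by
    push_cast; ring
  rw [h2, norm_mul, Complex.norm_real, mul_pow, Real.norm_eq_abs, sq_abs]

lemma sum_overlap {A B : Matrix (Fin N) (Fin N) ℂ} (hA : A.IsHermitian) (hB : B.IsHermitian) :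
    ∑ i, ∑ j, ‖((eU hA)ᴴ * eU hB) i j‖ ^ 2 = N := by
  rw [← frob_sq, frob_sq_trace, conjTranspose_mul, conjTranspose_conjTranspose]
  have : (eU hB)ᴴ * eU hA * ((eU hA)ᴴ * eU hB) = 1 := by
    have h1 : (eU hB)ᴴ * eU hA * ((eU hA)ᴴ * eU hB) =
        (eU hB)ᴴ * (eU hA * (eU hA)ᴴ) * eU hB := by simp only [Matrix.mul_assoc]
    rw [h1, eU_mul_star, Matrix.mul_one, eU_star_mul]
  rw [this, trace_one]
  simp

lemma frob_cfc_modulus {A B : Matrix (Fin N) (Fin N) ℂ} (hA : A.IsHermitian)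
    (hB : B.IsHermitian) {f : ℝ → ℝ} {ε C : ℝ}
    (h : ∀ i j, |f (hA.eigenvalues i) - f (hB.eigenvalues j)| ≤
      ε + C * |hA.eigenvalues i - hB.eigenvalues j|) :
    ‖cfc f A - cfc f B‖ ^ 2 ≤ 2 * ε ^ 2 * N + 2 * C ^ 2 * ‖A - B‖ ^ 2 := by
  have h0 := frob_cfc_sub_sq hA hB (fun t => t)
  rw [cfc_eq_self hA (fun i => rfl), cfc_eq_self hB (fun i => rfl)] at h0
  rw [frob_cfc_sub_sq hA hB f, h0, ← sum_overlap hA hB, Finset.mul_sum, Finset.mul_sum,
    ← Finset.sum_add_distrib]
  refine Finset.sum_le_sum fun i _ => ?_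
  rw [Finset.mul_sum, Finset.mul_sum, ← Finset.sum_add_distrib]
  refine Finset.sum_le_sum fun j _ => ?_
  rw [← mul_assoc, ← add_mul]
  refine mul_le_mul_of_nonneg_right ?_ (by positivity)
  have h1 := h i j
  have h2 := abs_nonneg (f (hA.eigenvalues i) - f (hB.eigenvalues j))
  have h3 : (f (hA.eigenvalues i) - f (hB.eigenvalues j)) ^ 2 ≤
      (ε + C * |hA.eigenvalues i - hB.eigenvalues j|) ^ 2 := by
    rw [← sq_abs]
    exact pow_le_pow_left₀ h2 h1 2
  have h4 : |hA.eigenvalues i - hB.eigenvalues j| ^ 2 = (hA.eigenvalues i - hB.eigenvalues j) ^ 2 :=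
    sq_abs _
  nlinarith [sq_nonneg (ε - C * |hA.eigenvalues i - hB.eigenvalues j|)]

end

lemma qf_bound (D : Matrix (Fin N) (Fin N) ℂ) {c : ℝ} (hD : ∀ i j, ‖D i j‖ ≤ c)
    (v : Fin N → ℂ) : |qf D v| ≤ N * c * nsq v := by
  have h1 : |qf D v| ≤ ‖star v ⬝ᵥ D *ᵥ v‖ := Complex.abs_re_le_norm _
  refine h1.trans ?_
  have h2 : ‖star v ⬝ᵥ D *ᵥ v‖ ≤ ∑ i, ∑ j, c * (‖v i‖ * ‖v j‖) := by
    simp only [dotProduct, mulVec]
    refine (norm_sum_le _ _).trans (Finset.sum_le_sum fun i _ => ?_)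
    rw [norm_mul, Pi.star_apply, norm_star]
    calc ‖v i‖ * ‖∑ j, D i j * v j‖ ≤ ‖v i‖ * ∑ j, c * ‖v j‖ := by
          refine mul_le_mul_of_nonneg_left ((norm_sum_le _ _).trans
            (Finset.sum_le_sum fun j _ => ?_)) (norm_nonneg _)
          rw [norm_mul]
          exact mul_le_mul_of_nonneg_right (hD i j) (norm_nonneg _)
      _ = ∑ j, c * (‖v i‖ * ‖v j‖) := by
          rw [Finset.mul_sum]
          refine Finset.sum_congr rfl fun j _ => by ring
  refine h2.trans ?_
  have h3 : ∑ i, ∑ j, c * (‖v i‖ * ‖v j‖) = c * (∑ i, ‖v i‖) ^ 2 := by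
    rw [sq, Finset.sum_mul_sum, Finset.mul_sum]
    refine Finset.sum_congr rfl fun i _ => ?_
    rw [Finset.mul_sum]
  rw [h3]
  have h4 : (∑ i, ‖v i‖) ^ 2 ≤ N * nsq v := by
    have := sq_sum_le_card_mul_sum_sq (s := (Finset.univ : Finset (Fin N))) (f := fun i => ‖v i‖)
    simpa [nsq] using this
  rcases isEmpty_or_nonempty (Fin N) with h | h
  · simp [nsq]
  · obtain ⟨i⟩ := h
    have hc : 0 ≤ c := (norm_nonneg _).trans (hD i i)
    calc c * (∑ i, ‖v i‖) ^ 2 ≤ c * (N * nsq v) := mul_le_mul_of_nonneg_left h4 hc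
      _ = N * c * nsq v := by ring

lemma cont_at {A : Matrix (Fin N) (Fin N) ℂ} (hA : A.IsHermitian) {f : ℝ → ℝ} {l u η : ℝ}
    (hη : 0 < η) (hl : ∀ i, l ≤ hA.eigenvalues i) (hu : ∀ i, hA.eigenvalues i ≤ u)
    (hf : ContinuousOn f (Icc (l - η) (u + η))) :
    ContinuousWithinAt (fun A : Matrix (Fin N) (Fin N) ℂ => cfc f A) {A | A.IsHermitian} A := by
  have hK : IsCompact (Icc (l - η) (u + η)) := isCompact_Icc
  have huc := hK.uniformContinuousOn_of_continuous hf
  obtain ⟨Mf, hMf⟩ := hK.exists_bound_of_continuousOn hf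
  -- modulus
  have hmod : ∀ ε > 0, ∃ C, 0 ≤ C ∧ ∀ s ∈ Icc (l - η) (u + η), ∀ t ∈ Icc (l - η) (u + η),
      |f s - f t| ≤ ε + C * |s - t| := by
    intro ε hε
    obtain ⟨δ, hδ, hδf⟩ := Metric.uniformContinuousOn_iff.1 huc ε hε
    refine ⟨2 * |Mf| / δ, by positivity, fun s hs t ht => ?_⟩
    by_cases hst : |s - t| < δ
    · have h1 := hδf s hs t ht (by rwa [Real.dist_eq])
      rw [Real.dist_eq] at h1
      have h2 : 0 ≤ 2 * |Mf| / δ * |s - t| := by positivity
      linarith
    · push Not at hst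
      have h1 : |f s - f t| ≤ 2 * |Mf| := by
        have h2 := hMf s hs
        have h3 := hMf t ht
        rw [Real.norm_eq_abs] at h2 h3
        have h4 := le_abs_self Mf
        calc |f s - f t| ≤ |f s| + |f t| := abs_sub _ _
          _ ≤ 2 * |Mf| := by linarith
      have h5 : 2 * |Mf| ≤ 2 * |Mf| / δ * |s - t| := by
        rw [div_mul_eq_mul_div, le_div_iff₀ hδ]
        exact mul_le_mul_of_nonneg_left hst (by positivity)
      linarith
  -- topology of functions
  have key : ContinuousWithinAt (fun (A : Fin N → Fin N → ℂ) (i j : Fin N) => cfc f (of A) i j)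
      {A | (of A).IsHermitian} (of.symm A) := by
    rw [Metric.continuousWithinAt_iff]
    intro ε hε
    set ε1 : ℝ := ε / (2 * (N + 1)) with hε1
    have hε1p : 0 < ε1 := by positivity
    obtain ⟨C, hC0, hC⟩ := hmod ε1 hε1p
    set d : ℝ := min (η / (N + 1)) (ε / (2 * (C + 1) * (N + 1))) with hd
    have hd0 : 0 < d := by positivity
    refine ⟨d, hd0, fun B hB hdist => ?_⟩
    have hBH : (of B).IsHermitian := hB
    have hentry : ∀ i j, ‖A i j - of B i j‖ ≤ d := by
      intro i j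
      have h1 : dist (B i j) (of.symm A i j) ≤ dist B (of.symm A) :=
        (dist_le_pi_dist (B i) (of.symm A i) j).trans (dist_le_pi_dist B (of.symm A) i)
      rw [dist_comm, dist_eq_norm] at h1
      exact h1.trans hdist.le
    have hdN : N * d ≤ η := by
      have h1 : d ≤ η / (N + 1) := min_le_left _ _
      rw [le_div_iff₀ (by positivity)] at h1
      nlinarith
    have hBeig : ∀ j, hBH.eigenvalues j ∈ Icc (l - η) (u + η) := by
      intro j
      have hb : ∀ v, nsq v = 1 → |qf (A - of B) v| ≤ η := by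
        intro v hv
        have := qf_bound (A - of B) (c := d) (fun i j => by
          rw [Matrix.sub_apply]; exact hentry i j) v
        rw [hv, mul_one] at this
        exact this.trans hdN
      constructor
      · refine le_eig hBH (fun v hv => ?_) j
        have h1 := hb v hv
        rw [qf_sub] at h1
        have h2 := le_qf_cfc hA (f := fun t => t) (α := l) (β := 0)
          (fun i => by rw [zero_mul, add_zero]; exact hl i) v
        rw [cfc_eq_self hA (fun i => rfl), hv] at h2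
        have h3 := (abs_le.1 h1).2
        linarith
      · refine eig_le hBH (fun v hv => ?_) j
        have h1 := hb v hv
        rw [qf_sub] at h1
        have h2 := qf_cfc_le hA (f := fun t => t) (α := u) (β := 0)
          (fun i => by rw [zero_mul, add_zero]; exact hu i) v
        rw [cfc_eq_self hA (fun i => rfl), hv] at h2
        have h3 := (abs_le.1 h1).1
        linarith
    have hAeig : ∀ i, hA.eigenvalues i ∈ Icc (l - η) (u + η) := fun i =>
      ⟨by have := hl i; linarith, by have := hu i; linarith⟩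
    have hfro := frob_cfc_modulus hA hBH (f := f) (ε := ε1) (C := C)
      (fun i j => hC _ (hAeig i) _ (hBeig j))
    rw [dist_pi_lt_iff hε]
    intro i
    rw [dist_pi_lt_iff hε]
    intro j
    rw [dist_comm, dist_eq_norm]
    change ‖cfc f A i j - cfc f (of B) i j‖ < ε
    have h1 := entry_le_frob (cfc f A - cfc f (of B)) i j
    rw [Matrix.sub_apply] at h1
    have h2 := frob_le_of_entry (A - of B) hd0.le (fun i j => by
      rw [Matrix.sub_apply]; exact hentry i j)
    have hfin : ∀ X Y : ℝ, 0 ≤ Y → Y ≤ N * d → X ^ 2 ≤ 2 * ε1 ^ 2 * N + 2 * C ^ 2 * Y ^ 2 →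
        X < ε := by
      intro X Y hY0 hY hX
      have hN : (0 : ℝ) ≤ N := Nat.cast_nonneg N
      have e1 : (N + 1) * ε1 = ε / 2 := by rw [hε1]; field_simp
      have e2 : d * (2 * (C + 1) * (N + 1)) ≤ ε := by
        have h3 : d ≤ ε / (2 * (C + 1) * (N + 1)) := min_le_right _ _
        rwa [le_div_iff₀ (by positivity)] at h3
      have e3 : C * Y ≤ ε / 2 := by
        have h3 : C * Y ≤ C * (N * d) := mul_le_mul_of_nonneg_left hY hC0
        have h4 : C * (N * d) ≤ (C + 1) * (N + 1) * d := by nlinarith [mul_nonneg hC0 hN]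
        nlinarith
      have e4 : (C * Y) ^ 2 ≤ (ε / 2) ^ 2 := pow_le_pow_left₀ (by positivity) e3 2
      have e5 : N * ε1 ^ 2 < (ε / 2) ^ 2 := by
        rw [← e1]
        have : 0 < ε1 ^ 2 := by positivity
        nlinarith [mul_nonneg hN hN]
      refine lt_of_pow_lt_pow_left₀ 2 hε.le ?_
      nlinarith
    refine lt_of_le_of_lt h1 (hfin _ _ ?_ h2 hfro)
    exact @norm_nonneg _ (Matrix.frobeniusNormedAddCommGroup.toSeminormedAddCommGroup.toSeminormedAddGroup) _
  exact key

lemma exists_bounds {A : Matrix (Fin N) (Fin N) ℂ} (hA : A.IsHermitian) :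
    ∃ l u : ℝ, (∀ i, l ≤ hA.eigenvalues i) ∧ ∀ i, hA.eigenvalues i ≤ u := by
  obtain ⟨l, hl⟩ := (Set.finite_range hA.eigenvalues).bddBelow
  obtain ⟨u, hu⟩ := (Set.finite_range hA.eigenvalues).bddAbove
  exact ⟨l, u, fun i => hl (Set.mem_range_self i), fun i => hu (Set.mem_range_self i)⟩

end FcC

/-- **M0**. -/
theorem fcContFact : FcContFact := by
  constructor
  · intro N f hf A hA
    have hpd : A.PosDef := hA
    obtain ⟨l, u, _, hu⟩ := FcC.exists_bounds hpd.1
    obtain ⟨m, hm0, hm⟩ : ∃ m : ℝ, 0 < m ∧ ∀ i, m ≤ hpd.1.eigenvalues i := by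
      rcases isEmpty_or_nonempty (Fin N) with h | h
      · exact ⟨1, one_pos, fun i => h.elim i⟩
      · obtain ⟨i, _, hi⟩ := Finset.exists_min_image Finset.univ hpd.1.eigenvalues
          ⟨Classical.arbitrary _, Finset.mem_univ _⟩
        exact ⟨_, hpd.eigenvalues_pos i, fun j => hi j (Finset.mem_univ _)⟩
    have h1 := FcC.cont_at hpd.1 (f := f) (l := m) (u := u) (η := m / 2) (by linarith) hm hu
      (hf.mono fun t ht => by
        have := ht.1
        simp only [mem_Ioi]
        linarith)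
    exact h1.mono fun B hB => (show B.PosDef from hB).1
  · intro N f hf A hA
    obtain ⟨l, u, hl, hu⟩ := FcC.exists_bounds hA
    exact FcC.cont_at hA one_pos hl hu hf.continuousOn

end Vale.Agent.P371.G
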