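import Vale.Agent.P371.G.FactB4
import Vale.Agent.P371.G.GibbsF

/-!
# P371: `h(t) ≥ 0` and an upper bound for `h(t)` at small `t`
-/

open Matrix Filter Topology MeasureTheory Set
open scoped ComplexOrder

namespace Vale.Agent.P371.G.HFp

variable {N : ℕ} {κ : Fin N → ℝ} {Z : Mat N} {t : ℝ}

/-- `h(t) = tr (X + t)(L_t - log t) - tr X` -/
noncomputable def hh (κ : Fin N → ℝ) (Z : Mat N) (t : ℝ) : ℝ :=
  ((Xm κ Z + (t : ℂ) • 1) * Lt κ t Z).trace.re -
    Real.log t * (Xm κ Z + (t : ℂ) • 1).trace.re - (Xm κ Z).trace.re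

theorem trace_Xm_add (κ : Fin N → ℝ) (Z : Mat N) (t : ℝ) :
    (Xm κ Z + (t : ℂ) • 1).trace.re = (Xm κ Z).trace.re + t * N := by
  rw [trace_add, Complex.add_re, trace_smul, trace_one]
  simp

theorem cfc_smul_one (f : ℝ → ℝ) (t : ℝ) :
    cfc f ((t : ℂ) • (1 : Mat N)) = ((f t : ℝ) : ℂ) • (1 : Mat N) := by
  have h := cfc_algebraMap (A := Mat N) t f
  have h2 : ∀ r : ℝ, algebraMap ℝ (Mat N) r = (r : ℂ) • (1 : Mat N) := by
    intro r
    rw [Algebra.algebraMap_eq_smul_one]
    ext i j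
    simp [Matrix.smul_apply]
  rw [h2, h2] at h
  exact h

theorem trace_ab (ht : 0 < t) :
    ((Kt κ t + Z) * (Kt κ t - Z)).trace.re = (Xm κ Z).trace.re + t * N := by
  have h1 := Xm_add κ Z ht
  rw [← trace_Xm_add, h1]
  have h2 : (Kt κ t + Z) * (Kt κ t - Z) = Kt κ t * Kt κ t - Z * Z + (Z * Kt κ t - Kt κ t * Z) := by
    noncomm_ring
  rw [h2, trace_add, trace_sub (Z * Kt κ t), trace_mul_comm Z (Kt κ t), sub_self, add_zero]
  rfl

/-- Gibbs with `Y = t` -/
theorem trace_Lt_le (hZ : Adm κ Z) (ht : 0 < t) :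
    (Lt κ t Z).trace.re ≤ (Xm κ Z).trace.re / t + N * Real.log t := by
  have hY : ((t : ℂ) • (1 : Mat N)).PosDef :=
    PosDef.one.smul (by rw [Complex.zero_lt_real]; exact ht)
  have h := gibbsFact N (Kt κ t + Z) (Kt κ t - Z) _ (hZ.posDef_add ht) (hZ.posDef_sub ht) hY
  rw [cfc_smul_one, smul_mul_assoc, one_mul, smul_mul_assoc, one_mul, trace_smul, trace_smul,
    trace_smul, trace_smul, trace_one, trace_ab ht] at h
  simp only [smul_eq_mul, Complex.re_ofReal_mul, Fintype.card_fin, Complex.natCast_re] at h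
  have h2 : t * (Lt κ t Z).trace.re ≤ (Xm κ Z).trace.re + t * (Real.log t * N) := by
    unfold Lt
    linarith
  have h3 : (Xm κ Z).trace.re / t + N * Real.log t =
      ((Xm κ Z).trace.re + t * (Real.log t * N)) / t := by
    field_simp
  rw [h3, le_div_iff₀ ht]
  linarith

theorem hh_antitone (hκ : ∀ j, 0 < κ j) (hZ : Adm κ Z) {t₁ t₂ : ℝ} (ht₁ : 0 < t₁) (ht : t₁ ≤ t₂) :
    hh κ Z t₂ ≤ hh κ Z t₁ := by
  have h1 := bFact N κ Z hκ hZ t₁ t₂ ht₁ ht
  have hne : ∀ t ∈ Icc t₁ t₂, t ≠ 0 := fun t h => (lt_of_lt_of_le ht₁ h.1).ne'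
  have hint : IntervalIntegrable (fun t => (Xm κ Z).trace.re / t + N * Real.log t + N)
      volume t₁ t₂ := by
    refine ContinuousOn.intervalIntegrable ?_
    rw [uIcc_of_le ht]
    refine ((continuousOn_const.div continuousOn_id hne).add
      (continuousOn_const.mul (continuousOn_id.log hne))).add continuousOn_const
  have hint2 : IntervalIntegrable (fun t => (Lt κ t Z).trace.re + N) volume t₁ t₂ := by
    have h2 : ContinuousOn (fun t => (Lt κ t Z).trace.re + N) (Icc t₁ t₂) := by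
      have h3 : ∀ W : Mat N, (∀ t, 0 < t → (FB.KK κ t - W).PosDef) →
          ContinuousOn (fun t => ((cfc Real.log (FB.KK κ t - W)).trace).re) (Icc t₁ t₂) := by
        intro W hW
        have h4 : ContinuousOn (fun t => Real.log ((FB.KK κ t - W).det).re) (Icc t₁ t₂) := by
          refine ContinuousOn.log ?_ ?_
          · exact (Complex.continuous_re.comp continuous_id.matrix_det).comp_continuousOn
              ((FB.continuous_KK κ).sub continuous_const).continuousOn
          · intro t h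
            exact (Complex.lt_def.1 (hW t (lt_of_lt_of_le ht₁ h.1)).det_pos).1.ne'
        exact h4.congr fun t h => FB.re_trace_log (hW t (lt_of_lt_of_le ht₁ h.1))
      have h5 := h3 (-Z) fun t h => by rw [sub_neg_eq_add]; exact hZ.posDef_add h
      have h6 := h3 Z fun t h => hZ.posDef_sub h
      refine ContinuousOn.add ?_ continuousOn_const
      have h7 : (fun t => (Lt κ t Z).trace.re) = fun t =>
          ((cfc Real.log (FB.KK κ t - -Z)).trace).re + ((cfc Real.log (FB.KK κ t - Z)).trace).re := by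
        ext t
        rw [Lt, trace_add, Complex.add_re, sub_neg_eq_add]
        rfl
      rw [h7]
      exact h5.add h6
    refine ContinuousOn.intervalIntegrable ?_
    rw [uIcc_of_le ht]
    exact h2
  have h2 : ∫ t in t₁..t₂, ((Lt κ t Z).trace.re + N) ≤
      ∫ t in t₁..t₂, ((Xm κ Z).trace.re / t + N * Real.log t + N) := by
    refine intervalIntegral.integral_mono_on ht hint2 hint fun t h => ?_
    have := trace_Lt_le hZ (lt_of_lt_of_le ht₁ h.1)
    linarith
  have h3 : ∫ t in t₁..t₂, ((Xm κ Z).trace.re / t + N * Real.log t + N) =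
      Real.log t₂ * ((Xm κ Z).trace.re + t₂ * N) - Real.log t₁ * ((Xm κ Z).trace.re + t₁ * N) := by
    refine intervalIntegral.integral_eq_sub_of_hasDerivAt
      (f := fun t => Real.log t * ((Xm κ Z).trace.re + t * N)) (fun t h => ?_) hint
    rw [uIcc_of_le ht] at h
    have h0 := hne t h
    have h4 : HasDerivAt (fun t : ℝ => (Xm κ Z).trace.re + t * N) (1 * N) t :=
      ((hasDerivAt_id t).mul_const (N : ℝ)).const_add _
    refine ((Real.hasDerivAt_log h0).mul h4).congr_deriv ?_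
    field_simp
    ring
  unfold hh
  rw [trace_Xm_add, trace_Xm_add]
  linarith

/-! ### the spectral form of `tr (X+t) log (K - Z)` -/

theorem dd_XX (κ : Fin N → ℝ) (Z : Mat N) (t : ℝ) (ha : (FB.KK κ t - Z).IsHermitian)
    (i : Fin N) :
    FB.dd ha (FB.XX κ Z t) i = ha.eigenvalues i * FB.dd ha (FB.KK κ t + Z) i := by
  set a := FB.KK κ t - Z with hadef
  set b := FB.KK κ t + Z with hbdef
  set U : Mat N := (ha.eigenvectorUnitary : Mat N) with hU
  have hUU : star U * U = 1 := Unitary.coe_star_mul_self _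
  have hX : FB.XX κ Z t = (1 / 2 : ℂ) • (a * b + b * a) := by
    rw [FB.XX_eq κ Z t, smul_smul]
    norm_num
  have h1 : star U * a = (diagonal fun i => (ha.eigenvalues i : ℂ)) * star U := by
    have := FE.spec ha
    rw [← hU] at this
    conv_lhs => rw [this]
    rw [Matrix.mul_assoc, ← Matrix.mul_assoc (star U) U, hUU, Matrix.one_mul]
  have h2 : a * U = U * (diagonal fun i => (ha.eigenvalues i : ℂ)) := by
    have := FE.spec ha
    rw [← hU] at this
    conv_lhs => rw [this]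
    rw [Matrix.mul_assoc, hUU, Matrix.mul_one]
  have h3 : star U * (FB.XX κ Z t) * U = (1 / 2 : ℂ) •
      ((diagonal fun i => (ha.eigenvalues i : ℂ)) * (star U * b * U) +
        (star U * b * U) * (diagonal fun i => (ha.eigenvalues i : ℂ))) := by
    rw [hX, Matrix.mul_smul, Matrix.smul_mul, Matrix.mul_add, Matrix.add_mul]
    congr 1
    rw [← Matrix.mul_assoc (star U) a b, h1, ← Matrix.mul_assoc (star U) b a]
    rw [Matrix.mul_assoc (star U * b) a U, h2]
    simp only [Matrix.mul_assoc]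
  unfold FB.dd
  rw [← hU, h3, Matrix.smul_apply, Matrix.add_apply, diagonal_mul, mul_diagonal, smul_eq_mul]
  rw [show (1 / 2 : ℂ) * ((ha.eigenvalues i : ℂ) * (star U * b * U) i i +
    (star U * b * U) i i * (ha.eigenvalues i : ℂ)) =
    (ha.eigenvalues i : ℂ) * (star U * b * U) i i by ring, Complex.re_ofReal_mul]

theorem dd_nonneg {a b : Mat N} (ha : a.IsHermitian) (hb : b.PosSemidef) (i : Fin N) :
    0 ≤ FB.dd ha b i := by
  have h1 := hb.conjTranspose_mul_mul_same (ha.eigenvectorUnitary : Mat N)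
  have h2 := h1.diag_nonneg (i := i)
  exact (Complex.le_def.1 h2).1

theorem log_aux : MonotoneOn (fun x : ℝ => Real.log x - (x - 1) + (x - 1) ^ 2 / 2) (Ioi 0) := by
  have hd : ∀ x : ℝ, 0 < x → HasDerivAt (fun x : ℝ => Real.log x - (x - 1) + (x - 1) ^ 2 / 2)
      (x⁻¹ - 1 + (x - 1)) x := by
    intro x hx
    have h1 : HasDerivAt (fun x : ℝ => x - 1) 1 x := (hasDerivAt_id x).sub_const 1
    have h2 := ((Real.hasDerivAt_log hx.ne').sub h1).add ((h1.pow 2).div_const 2)
    refine h2.congr_deriv ?_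
    simp
  refine monotoneOn_of_deriv_nonneg (convex_Ioi 0)
    (fun x hx => (hd x hx).continuousAt.continuousWithinAt)
    (fun x hx => ?_) fun x hx => ?_
  · rw [interior_Ioi] at hx
    exact (hd x hx).differentiableAt.differentiableWithinAt
  · rw [interior_Ioi] at hx
    rw [(hd x hx).deriv]
    have hx' : 0 < x := hx
    have : x⁻¹ - 1 + (x - 1) = (x - 1) ^ 2 / x := by
      field_simp
      ring
    rw [this]
    positivity

/-- `x log x ≥ (x-1) + (x-1)²/2 - (x-1)³/6` -/
theorem xlogx_ge {x : ℝ} (hx : 0 < x) :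
    (x - 1) + (x - 1) ^ 2 / 2 - (x - 1) ^ 3 / 6 ≤ x * Real.log x := by
  have hd : ∀ x : ℝ, 0 < x → HasDerivAt
      (fun x : ℝ => x * Real.log x - ((x - 1) + (x - 1) ^ 2 / 2 - (x - 1) ^ 3 / 6))
      (Real.log x - (x - 1) + (x - 1) ^ 2 / 2) x := by
    intro x hx
    have h1 : HasDerivAt (fun x : ℝ => x - 1) 1 x := (hasDerivAt_id x).sub_const 1
    have h2 := ((hasDerivAt_id x).mul (Real.hasDerivAt_log hx.ne')).sub
      ((h1.add ((h1.pow 2).div_const 2)).sub ((h1.pow 3).div_const 6))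
    refine h2.congr_deriv ?_
    simp only [id]
    field_simp
    ring
  have hg1 : ∀ x : ℝ, 1 ≤ x → 0 ≤ Real.log x - (x - 1) + (x - 1) ^ 2 / 2 := by
    intro x hx
    have h := log_aux (show (1 : ℝ) ∈ Ioi 0 by simp) (show x ∈ Ioi (0 : ℝ) from by
      have : (0 : ℝ) < x := by linarith
      exact this) hx
    simpa using h
  have hg2 : ∀ x : ℝ, 0 < x → x ≤ 1 → Real.log x - (x - 1) + (x - 1) ^ 2 / 2 ≤ 0 := by
    intro x hx0 hx
    have h := log_aux (show x ∈ Ioi (0 : ℝ) from hx0) (show (1 : ℝ) ∈ Ioi 0 by simp) hx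
    simpa using h
  rcases le_total 1 x with h | h
  · have hm : MonotoneOn
        (fun x : ℝ => x * Real.log x - ((x - 1) + (x - 1) ^ 2 / 2 - (x - 1) ^ 3 / 6))
        (Icc 1 x) := by
      refine monotoneOn_of_deriv_nonneg (convex_Icc 1 x)
        (fun y hy => (hd y (by linarith [hy.1])).continuousAt.continuousWithinAt)
        (fun y hy => ?_) fun y hy => ?_
      · rw [interior_Icc] at hy
        exact (hd y (by linarith [hy.1])).differentiableAt.differentiableWithinAt
      · rw [interior_Icc] at hy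
        rw [(hd y (by linarith [hy.1])).deriv]
        exact hg1 y hy.1.le
    have := hm (left_mem_Icc.2 h) (right_mem_Icc.2 h) h
    simp only [Real.log_one] at this
    linarith
  · have hm : AntitoneOn
        (fun x : ℝ => x * Real.log x - ((x - 1) + (x - 1) ^ 2 / 2 - (x - 1) ^ 3 / 6))
        (Icc x 1) := by
      refine antitoneOn_of_deriv_nonpos (convex_Icc x 1)
        (fun y hy => (hd y (by linarith [hy.1])).continuousAt.continuousWithinAt)
        (fun y hy => ?_) fun y hy => ?_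
      · rw [interior_Icc] at hy
        exact (hd y (by linarith [hy.1])).differentiableAt.differentiableWithinAt
      · rw [interior_Icc] at hy
        rw [(hd y (by linarith [hy.1])).deriv]
        exact hg2 y (by linarith [hy.1]) hy.2.le
    have := hm (left_mem_Icc.2 h) (right_mem_Icc.2 h) h
    simp only [Real.log_one] at this
    linarith

theorem xlog_tau_ge {α τ : ℝ} (hα : 0 < α) (hτ : 0 < τ) :
    (α - τ) + (α - τ) ^ 2 / (2 * τ) - (α - τ) ^ 3 / (6 * τ ^ 2) ≤
      α * (Real.log α - Real.log τ) := by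
  have h := mul_le_mul_of_nonneg_left (xlogx_ge (show 0 < α / τ by positivity)) hτ.le
  rw [Real.log_div hα.ne' hτ.ne'] at h
  have e1 : τ * ((α / τ - 1) + (α / τ - 1) ^ 2 / 2 - (α / τ - 1) ^ 3 / 6) =
      (α - τ) + (α - τ) ^ 2 / (2 * τ) - (α - τ) ^ 3 / (6 * τ ^ 2) := by
    field_simp
  have e2 : τ * (α / τ * (Real.log α - Real.log τ)) = α * (Real.log α - Real.log τ) := by
    field_simp
  rw [e1, e2] at h
  exact h

/-- lower bound of `tr (X + t) (log (K - Z) - log τ)` -/
theorem one_lower (ha : (FB.KK κ t - Z).PosDef) (hb : (FB.KK κ t + Z).PosSemidef) {τ : ℝ}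
    (hτ : 0 < τ) {p : Mat N} (hp : p = FB.KK κ t - Z - (τ : ℂ) • 1) :
    ((FB.KK κ t + Z) * p).trace.re + ((FB.KK κ t + Z) * (p * p)).trace.re / (2 * τ) -
      ((FB.KK κ t + Z) * (p * p * p)).trace.re / (6 * τ ^ 2) ≤
    ((FB.XX κ Z t * cfc Real.log (FB.KK κ t - Z)).trace).re -
      Real.log τ * (FB.XX κ Z t).trace.re := by
  have hp1 : p = FB.sf (ha.1.eigenvectorUnitary : Mat N) (fun i => ha.1.eigenvalues i - τ) := by
    rw [hp]
    conv_lhs => rw [FB.eq_sf ha.1, ← FB.sf_one (FB.unit_mul_star ha.1), sub_eq_add_neg, ← neg_smul,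
      ← Complex.ofReal_neg, FB.sf_smul, FB.sf_add]
    congr 1
    ext i
    ring
  have hp2 : p * p = FB.sf (ha.1.eigenvectorUnitary : Mat N)
      (fun i => (ha.1.eigenvalues i - τ) * (ha.1.eigenvalues i - τ)) := by
    rw [hp1, FB.sf_mul (FB.unit_star_mul ha.1)]
  have hp3 : p * p * p = FB.sf (ha.1.eigenvectorUnitary : Mat N)
      (fun i => (ha.1.eigenvalues i - τ) * (ha.1.eigenvalues i - τ) *
        (ha.1.eigenvalues i - τ)) := by
    rw [hp2, hp1, FB.sf_mul (FB.unit_star_mul ha.1)]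
  rw [FB.trace_mul_log ha, FB.trace_eq_sum_dd ha.1 (FB.XX κ Z t), hp3, hp2, hp1,
    FB.trace_mul_cfc', FB.trace_mul_cfc', FB.trace_mul_cfc', Finset.sum_div, Finset.sum_div,
    Finset.mul_sum, ← Finset.sum_add_distrib, ← Finset.sum_sub_distrib, ← Finset.sum_sub_distrib]
  refine Finset.sum_le_sum fun i _ => ?_
  rw [dd_XX]
  have hc := dd_nonneg ha.1 hb i
  have h1 := mul_le_mul_of_nonneg_right (xlog_tau_ge (ha.eigenvalues_pos i) hτ) hc
  have e1 : ((ha.1.eigenvalues i - τ) + (ha.1.eigenvalues i - τ) ^ 2 / (2 * τ) -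
      (ha.1.eigenvalues i - τ) ^ 3 / (6 * τ ^ 2)) * FB.dd ha.1 (FB.KK κ t + Z) i =
      (ha.1.eigenvalues i - τ) * FB.dd ha.1 (FB.KK κ t + Z) i +
      (ha.1.eigenvalues i - τ) * (ha.1.eigenvalues i - τ) * FB.dd ha.1 (FB.KK κ t + Z) i /
        (2 * τ) -
      (ha.1.eigenvalues i - τ) * (ha.1.eigenvalues i - τ) * (ha.1.eigenvalues i - τ) *
        FB.dd ha.1 (FB.KK κ t + Z) i / (6 * τ ^ 2) := by ring
  rw [e1] at h1
  linarith

/-- upper bound of `tr (X + t) log (K - Z)` -/
theorem one_upper (ha : (FB.KK κ t - Z).PosDef) (hb : (FB.KK κ t + Z).PosSemidef) {R : ℝ}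
    (hR : (FB.KK κ t - Z).trace.re ≤ R) :
    ((FB.XX κ Z t * cfc Real.log (FB.KK κ t - Z)).trace).re ≤
      Real.log R * (FB.XX κ Z t).trace.re := by
  rw [FB.trace_mul_log ha, FB.trace_eq_sum_dd ha.1 (FB.XX κ Z t), Finset.mul_sum]
  refine Finset.sum_le_sum fun i _ => ?_
  have hα := ha.eigenvalues_pos i
  have h1 : ha.1.eigenvalues i ≤ R := by
    have h2 : (FB.KK κ t - Z).trace.re = ∑ i, ha.1.eigenvalues i := by
      rw [ha.1.trace_eq_sum_eigenvalues]
      simp
    rw [h2] at hR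
    refine le_trans ?_ hR
    exact Finset.single_le_sum (f := fun i => ha.1.eigenvalues i)
      (fun i _ => (ha.eigenvalues_pos i).le) (Finset.mem_univ i)
  rw [dd_XX]
  have hc := dd_nonneg ha.1 hb i
  have h3 := Real.log_le_log hα h1
  exact mul_le_mul_of_nonneg_right h3 (mul_nonneg hα.le hc)

/-! ### lower bound -/

/-- `B' = K_t - τ` -/
noncomputable def bb (κ : Fin N → ℝ) (t : ℝ) : Mat N := FB.KK κ t - ((√t : ℝ) : ℂ) • 1

/-- the error term -/
noncomputable def err (κ : Fin N → ℝ) (Z : Mat N) (t : ℝ) : ℝ :=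
  (((bb κ t + Z) * ((bb κ t - Z) * (bb κ t - Z))).trace.re +
    ((bb κ t - Z) * ((bb κ t + Z) * (bb κ t + Z))).trace.re) / (2 * √t) -
  (((bb κ t - Z) * (bb κ t - Z) * (bb κ t - Z)).trace.re +
    ((bb κ t + Z) * (bb κ t + Z) * (bb κ t + Z)).trace.re) / (6 * √t) -
  (((bb κ t + Z) * ((bb κ t - Z) * (bb κ t - Z) * (bb κ t - Z))).trace.re +
    ((bb κ t - Z) * ((bb κ t + Z) * (bb κ t + Z) * (bb κ t + Z))).trace.re) / (6 * √t ^ 2)

theorem re_trace_sq_nonneg {A : Mat N} (hA : A.IsHermitian) : 0 ≤ (A * A).trace.re := by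
  have h := (posSemidef_conjTranspose_mul_self A).trace_nonneg
  rw [hA.eq] at h
  exact (Complex.le_def.1 h).1

theorem isHermitian_bb (κ : Fin N → ℝ) (t : ℝ) : (bb κ t).IsHermitian := by
  refine (FB.isHermitian_KK κ t).sub ?_
  rw [Matrix.IsHermitian, conjTranspose_smul, conjTranspose_one, Complex.star_def,
    Complex.conj_ofReal]

theorem err_le (hZ : Adm κ Z) (ht : 0 < t) : err κ Z t ≤ hh κ Z t := by
  have hτ : 0 < √t := Real.sqrt_pos.2 ht
  have hττ : √t * √t = t := Real.mul_self_sqrt ht.le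
  have hlog : Real.log t = 2 * Real.log √t := by
    conv_lhs => rw [← hττ]
    rw [Real.log_mul hτ.ne' hτ.ne']
    ring
  have ha : (FB.KK κ t - Z).PosDef := hZ.posDef_sub ht
  have hb : (FB.KK κ t + Z).PosDef := hZ.posDef_add ht
  have hb' : (FB.KK κ t - -Z).PosDef := by rw [sub_neg_eq_add]; exact hb
  have ha' : (FB.KK κ t + -Z).PosSemidef := by rw [← sub_eq_add_neg]; exact ha.posSemidef
  have h1 := one_lower ha hb.posSemidef hτ (p := bb κ t - Z) (by unfold bb; abel)
  have h2 := one_lower hb' ha' hτ (p := bb κ t + Z) (by unfold bb; abel)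
  rw [FB.XX_neg, sub_neg_eq_add, ← sub_eq_add_neg] at h2
  set B := bb κ t with hB
  set K := FB.KK κ t with hK
  have hKB : K = (√t : ℂ) • 1 + B := by rw [hB]; unfold bb; abel
  have hh' : hh κ Z t = ((FB.XX κ Z t * cfc Real.log (K - Z)).trace.re -
      Real.log √t * (FB.XX κ Z t).trace.re) + ((FB.XX κ Z t * cfc Real.log (K + Z)).trace.re -
      Real.log √t * (FB.XX κ Z t).trace.re) - (Xm κ Z).trace.re := by
    unfold hh Lt
    rw [Xm_add κ Z ht, hlog, mul_add, trace_add, Complex.add_re]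
    simp only [Kt_eq]
    rw [← hK]
    ring
  -- trace of `K²`
  have hX : (Xm κ Z).trace.re = (K * K).trace.re - (Z * Z).trace.re - t * N := by
    have h3 := trace_Xm_add κ Z t
    rw [Xm_add κ Z ht, FB.XX, trace_sub, Complex.sub_re] at h3
    linarith
  have hKK : (K * K).trace.re = t * N + 2 * √t * B.trace.re + (B * B).trace.re := by
    rw [hKB]
    have : ((√t : ℂ) • (1 : Mat N) + B) * ((√t : ℂ) • 1 + B) =
        ((√t * √t : ℝ) : ℂ) • (1 : Mat N) + ((2 * √t : ℝ) : ℂ) • B + B * B := by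
      simp only [add_mul, mul_add, smul_mul_assoc, mul_smul_comm, one_mul, mul_one, smul_add,
        smul_smul]
      push_cast
      rw [two_mul, add_smul]
      abel
    rw [this, hττ, trace_add, trace_add, trace_smul, trace_smul, trace_one]
    simp
  have hexp : ∀ p q : Mat N, K + Z = (√t : ℂ) • 1 + q → 
      ((K + Z) * p).trace.re = √t * p.trace.re + (q * p).trace.re := by
    intro p q h
    rw [h, add_mul, smul_mul_assoc, one_mul, trace_add, trace_smul, Complex.add_re, smul_eq_mul,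
      Complex.re_ofReal_mul]
  have hexp' : ∀ p q : Mat N, K - Z = (√t : ℂ) • 1 + q → 
      ((K - Z) * p).trace.re = √t * p.trace.re + (q * p).trace.re := by
    intro p q h
    rw [h, add_mul, smul_mul_assoc, one_mul, trace_add, trace_smul, Complex.add_re, smul_eq_mul,
      Complex.re_ofReal_mul]
  have hq : K + Z = (√t : ℂ) • 1 + (B + Z) := by rw [hKB]; abel
  have hp : K - Z = (√t : ℂ) • 1 + (B - Z) := by rw [hKB]; abel
  rw [hexp _ _ hq, hexp _ _ hq, hexp _ _ hq] at h1
  rw [hexp' _ _ hp, hexp' _ _ hp, hexp' _ _ hp] at h2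
  have e1 : (B - Z).trace.re + (B + Z).trace.re = 2 * B.trace.re := by
    rw [trace_sub, trace_add, Complex.sub_re, Complex.add_re]
    ring
  have hcomm : (B * Z).trace.re = (Z * B).trace.re := by rw [trace_mul_comm]
  have e2 : ((B + Z) * (B - Z)).trace.re = (B * B).trace.re - (Z * Z).trace.re := by
    simp only [add_mul, mul_sub, trace_add, trace_sub, Complex.sub_re, Complex.add_re]
    linarith
  have e2' : ((B - Z) * (B + Z)).trace.re = (B * B).trace.re - (Z * Z).trace.re := by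
    simp only [sub_mul, mul_add, trace_add, trace_sub, Complex.sub_re, Complex.add_re]
    linarith
  have e3 : ((B - Z) * (B - Z)).trace.re + ((B + Z) * (B + Z)).trace.re =
      2 * (B * B).trace.re + 2 * (Z * Z).trace.re := by
    simp only [sub_mul, mul_sub, add_mul, mul_add, trace_add, trace_sub, Complex.sub_re,
      Complex.add_re]
    linarith
  have hBB : 0 ≤ (B * B).trace.re := re_trace_sq_nonneg (isHermitian_bb κ t)
  rw [hh']
  unfold err
  rw [← hB]
  rw [e2] at h1
  rw [e2'] at h2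
  have d1 : (√t * ((B - Z) * (B - Z)).trace.re + ((B + Z) * ((B - Z) * (B - Z))).trace.re) /
      (2 * √t) = ((B - Z) * (B - Z)).trace.re / 2 +
        ((B + Z) * ((B - Z) * (B - Z))).trace.re / (2 * √t) := by
    field_simp
  have d2 : (√t * ((B + Z) * (B + Z)).trace.re + ((B - Z) * ((B + Z) * (B + Z))).trace.re) /
      (2 * √t) = ((B + Z) * (B + Z)).trace.re / 2 +
        ((B - Z) * ((B + Z) * (B + Z))).trace.re / (2 * √t) := by
    field_simp
  have d3 : (√t * ((B - Z) * (B - Z) * (B - Z)).trace.re +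
      ((B + Z) * ((B - Z) * (B - Z) * (B - Z))).trace.re) / (6 * √t ^ 2) =
      ((B - Z) * (B - Z) * (B - Z)).trace.re / (6 * √t) +
        ((B + Z) * ((B - Z) * (B - Z) * (B - Z))).trace.re / (6 * √t ^ 2) := by
    field_simp
  have d4 : (√t * ((B + Z) * (B + Z) * (B + Z)).trace.re +
      ((B - Z) * ((B + Z) * (B + Z) * (B + Z))).trace.re) / (6 * √t ^ 2) =
      ((B + Z) * (B + Z) * (B + Z)).trace.re / (6 * √t) +
        ((B - Z) * ((B + Z) * (B + Z) * (B + Z))).trace.re / (6 * √t ^ 2) := by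
    field_simp
  rw [d1, d3] at h1
  rw [d2, d4] at h2
  have e4 : √t * (B - Z).trace.re + √t * (B + Z).trace.re = 2 * √t * B.trace.re := by
    rw [← mul_add, e1]
    ring
  rw [add_div, add_div, add_div]
  linarith

theorem tendsto_bb (κ : Fin N → ℝ) : Tendsto (fun t => bb κ t) atTop (𝓝 0) := by
  have h1 : ∀ j, Tendsto (fun t => √(κ j ^ 2 + t) - √t) atTop (𝓝 0) := by
    intro j
    have h2 : Tendsto (fun t : ℝ => κ j ^ 2 / √t) atTop (𝓝 0) :=
      tendsto_const_nhds.div_atTop (Real.tendsto_sqrt_atTop)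
    refine squeeze_zero' ?_ ?_ h2
    · filter_upwards [eventually_gt_atTop 0] with t ht
      have := Real.sqrt_le_sqrt (show t ≤ κ j ^ 2 + t by nlinarith [sq_nonneg (κ j)])
      linarith
    · filter_upwards [eventually_gt_atTop 0] with t ht
      have hτ : 0 < √t := Real.sqrt_pos.2 ht
      have h3 : √t ≤ √(κ j ^ 2 + t) :=
        Real.sqrt_le_sqrt (show t ≤ κ j ^ 2 + t by nlinarith [sq_nonneg (κ j)])
      have h4 : √(κ j ^ 2 + t) * √(κ j ^ 2 + t) = κ j ^ 2 + t := Real.mul_self_sqrt (by positivity)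
      have h5 : √t * √t = t := Real.mul_self_sqrt ht.le
      rw [le_div_iff₀ hτ]
      nlinarith
  have h2 : (fun t => bb κ t) = fun t => diagonal (fun j => ((√(κ j ^ 2 + t) - √t : ℝ) : ℂ)) := by
    ext1 t
    unfold bb FB.KK FB.kk
    rw [← diagonal_one, ← diagonal_smul, diagonal_sub]
    congr 1
    ext j
    simp
  have h3 : Continuous (fun v : Fin N → ℂ => diagonal v) := continuous_id.matrix_diagonal
  have h4 : Tendsto (fun t j => ((√(κ j ^ 2 + t) - √t : ℝ) : ℂ)) atTop
      (𝓝 (fun _ : Fin N => (0 : ℂ))) := by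
    rw [tendsto_pi_nhds]
    intro j
    have := (Complex.continuous_ofReal.tendsto 0).comp (h1 j)
    rw [Complex.ofReal_zero] at this
    exact this
  have h5 := (h3.tendsto _).comp h4
  rw [h2]
  have h6 : diagonal (fun _ : Fin N => (0 : ℂ)) = 0 := diagonal_zero
  rw [h6] at h5
  exact h5

theorem tendsto_err (κ : Fin N → ℝ) (Z : Mat N) : Tendsto (fun t => err κ Z t) atTop (𝓝 0) := by
  have hb := tendsto_bb κ
  have hm : Tendsto (fun t => bb κ t - Z) atTop (𝓝 (0 - Z)) := hb.sub_const Z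
  have hp : Tendsto (fun t => bb κ t + Z) atTop (𝓝 (0 + Z)) := hb.add_const Z
  have htr : ∀ {f : ℝ → Mat N} {A : Mat N}, Tendsto f atTop (𝓝 A) →
      Tendsto (fun t => (f t).trace.re) atTop (𝓝 A.trace.re) := fun h =>
    (FB.continuous_reTrace.tendsto _).comp h
  have hs2 : Tendsto (fun t : ℝ => 2 * √t) atTop atTop :=
    Real.tendsto_sqrt_atTop.const_mul_atTop (by norm_num)
  have hs6 : Tendsto (fun t : ℝ => 6 * √t) atTop atTop :=
    Real.tendsto_sqrt_atTop.const_mul_atTop (by norm_num)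
  have hs66 : Tendsto (fun t : ℝ => 6 * √t ^ 2) atTop atTop :=
    ((tendsto_pow_atTop (two_ne_zero)).comp Real.tendsto_sqrt_atTop).const_mul_atTop (by norm_num)
  have h1 := ((htr (hp.mul (hm.mul hm))).add (htr (hm.mul (hp.mul hp)))).div_atTop hs2
  have h2 := ((htr ((hm.mul hm).mul hm)).add (htr ((hp.mul hp).mul hp))).div_atTop hs6
  have h3 := ((htr (hp.mul ((hm.mul hm).mul hm))).add
    (htr (hm.mul ((hp.mul hp).mul hp)))).div_atTop hs66
  have h4 := (h1.sub h2).sub h3
  rw [sub_zero, sub_zero] at h4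
  exact h4

theorem hh_nonneg (hκ : ∀ j, 0 < κ j) (hZ : Adm κ Z) (ht : 0 < t) : 0 ≤ hh κ Z t := by
  refine le_of_tendsto (tendsto_err κ Z) ?_
  filter_upwards [eventually_ge_atTop t] with s hs
  exact (err_le hZ (lt_of_lt_of_le ht hs)).trans (hh_antitone hκ hZ ht hs)

end Vale.Agent.P371.G.HFp

namespace Vale.Agent.P371.G

open HFp

/-- M2'. -/
theorem hFact : HFact := by
  intro N κ hκ
  refine ⟨fun Z hZ t ht => hh_nonneg hκ hZ ht, ?_⟩
  set R : ℝ := ∑ j, (√(κ j ^ 2 + 1) + κ j) + 1 with hR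
  have hR1 : 1 ≤ R := by
    have : 0 ≤ ∑ j, (√(κ j ^ 2 + 1) + κ j) :=
      Finset.sum_nonneg fun j _ => add_nonneg (Real.sqrt_nonneg _) (hκ j).le
    linarith
  set S : ℝ := ∑ j, κ j ^ 2 + N with hS
  have hS0 : 0 ≤ S := by positivity
  refine ⟨2 * Real.log R * S + N + S, fun Z hZ t ht ht1 => ?_⟩
  have hlt : Real.log t ≤ 0 := Real.log_nonpos ht.le ht1
  have hlR : 0 ≤ Real.log R := Real.log_nonneg hR1
  have ha : (FB.KK κ t - Z).PosDef := hZ.posDef_sub ht
  have hb : (FB.KK κ t + Z).PosDef := hZ.posDef_add ht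
  have hb' : (FB.KK κ t - -Z).PosDef := by rw [sub_neg_eq_add]; exact hb
  have ha' : (FB.KK κ t + -Z).PosSemidef := by rw [← sub_eq_add_neg]; exact ha.posSemidef
  have hdg : (dg κ).trace.re = ∑ j, κ j := by
    rw [dg, trace_diagonal, Complex.re_sum]
    simp
  have hKt : (FB.KK κ t).trace.re ≤ ∑ j, √(κ j ^ 2 + 1) := by
    unfold FB.KK
    rw [trace_diagonal, Complex.re_sum]
    refine Finset.sum_le_sum fun j _ => ?_
    rw [Complex.ofReal_re]
    exact Real.sqrt_le_sqrt (by linarith)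
  have hZ1 : 0 ≤ (dg κ + Z).trace.re := (Complex.le_def.1 hZ.lower.trace_nonneg).1
  have hZ2 : 0 ≤ (dg κ - Z).trace.re := (Complex.le_def.1 hZ.upper.trace_nonneg).1
  rw [trace_add, Complex.add_re, hdg] at hZ1
  rw [trace_sub, Complex.sub_re, hdg] at hZ2
  have hR' : R = ∑ j, √(κ j ^ 2 + 1) + ∑ j, κ j + 1 := by rw [hR, Finset.sum_add_distrib]
  have t1 : (FB.KK κ t - Z).trace.re ≤ R := by
    rw [trace_sub, Complex.sub_re]
    linarith
  have t2 : (FB.KK κ t - -Z).trace.re ≤ R := by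
    rw [sub_neg_eq_add, trace_add, Complex.add_re]
    linarith
  have h1 := one_upper ha hb.posSemidef t1
  have h2 := one_upper hb' ha' t2
  rw [FB.XX_neg, sub_neg_eq_add] at h2
  have hX : (FB.XX κ Z t).trace.re = (Xm κ Z).trace.re + t * N := by
    rw [← Xm_add κ Z ht, trace_Xm_add]
  have hX0 : 0 ≤ (FB.XX κ Z t).trace.re := by
    rw [FB.trace_eq_sum_dd ha.1 (FB.XX κ Z t)]
    refine Finset.sum_nonneg fun i _ => ?_
    rw [dd_XX]
    exact mul_nonneg (ha.eigenvalues_pos i).le (dd_nonneg ha.1 hb.posSemidef i)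
  have hXS : (FB.XX κ Z t).trace.re ≤ S := by
    rw [hX, Xm, trace_sub, Complex.sub_re]
    have h3 : (dg κ * dg κ).trace.re = ∑ j, κ j ^ 2 := by
      rw [dg, diagonal_mul_diagonal, trace_diagonal, Complex.re_sum]
      refine Finset.sum_congr rfl fun j _ => ?_
      rw [← Complex.ofReal_mul, Complex.ofReal_re, sq]
    have h4 := re_trace_sq_nonneg hZ.herm
    have h5 : t * N ≤ N := by
      have : (0 : ℝ) ≤ N := Nat.cast_nonneg N
      nlinarith
    rw [h3]
    linarith
  have h6 : t * N ≤ N := by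
    have : (0 : ℝ) ≤ N := Nat.cast_nonneg N
    nlinarith
  have e1 : ((Xm κ Z + (t : ℂ) • 1) * Lt κ t Z).trace.re =
      ((FB.XX κ Z t * cfc Real.log (FB.KK κ t - Z)).trace).re +
        ((FB.XX κ Z t * cfc Real.log (FB.KK κ t + Z)).trace).re := by
    unfold Lt
    rw [Xm_add κ Z ht, mul_add, trace_add, Complex.add_re, add_comm]
    simp only [Kt_eq]
  rw [e1, trace_Xm_add, ← hX]
  have hN : (0 : ℝ) ≤ N := Nat.cast_nonneg N
  have k1 : Real.log R * (FB.XX κ Z t).trace.re ≤ Real.log R * S :=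
    mul_le_mul_of_nonneg_left hXS hlR
  have k2 : -Real.log t * (FB.XX κ Z t).trace.re ≤ -Real.log t * S :=
    mul_le_mul_of_nonneg_left hXS (by linarith)
  have k3 : 0 ≤ -Real.log t * (2 * Real.log R * S + N) :=
    mul_nonneg (by linarith) (by positivity)
  nlinarith

end Vale.Agent.P371.G
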