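import Vale.Agent.P371.G.FE
import Vale.Agent.P371.FE.TraceFun

/-!
# M3: the fundamental theorem of calculus for `ψ_t (Z x)`
-/

open MeasureTheory Matrix Set
open scoped ComplexOrder
open Vale.Agent.P371.FE

namespace Vale.Agent.P371.G.PsiM

variable {N : ℕ}

theorem term_bound {a b δ : ℝ} (hδ : 0 < δ) (ha : δ ≤ a) (hb : 0 < b) :
    |fent b - fent a - Real.log a * (b - a)| ≤ (a - b) ^ 2 / δ := by
  have ha0 : 0 < a := hδ.trans_le ha
  have e : fent b - fent a - Real.log a * (b - a) = b * Real.log (b / a) - b + a := by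
    unfold fent
    rw [Real.log_div hb.ne' ha0.ne']
    ring
  have h1 : b * Real.log (b / a) ≤ b * (b / a - 1) :=
    mul_le_mul_of_nonneg_left (Real.log_le_sub_one_of_pos (by positivity)) hb.le
  have h2 : b * (1 - a / b) ≤ b * Real.log (b / a) := by
    refine mul_le_mul_of_nonneg_left ?_ hb.le
    have h3 := Real.log_le_sub_one_of_pos (show 0 < a / b by positivity)
    have h7 : Real.log (a / b) = -Real.log (b / a) := by rw [← Real.log_inv, inv_div]
    linarith
  have h4 : b * (1 - a / b) = b - a := by field_simp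
  have h5 : b * (b / a - 1) - b + a = (a - b) ^ 2 / a := by
    field_simp
    ring
  have h6 : (a - b) ^ 2 / a ≤ (a - b) ^ 2 / δ :=
    div_le_div_of_nonneg_left (sq_nonneg _) hδ ha
  rw [e, abs_of_nonneg (by linarith)]
  linarith

theorem klein_bound {A B : Mat N} (hA : A.PosDef) (hB : B.PosDef) {δ : ℝ} (hδ : 0 < δ)
    (h : ∀ k, δ ≤ hA.1.eigenvalues k) :
    |(cfc fent B).trace.re - (cfc fent A).trace.re - ((cfc Real.log A) * (B - A)).trace.re| ≤
      fro (A - B) / δ := by
  rw [trace_taylor hA.1 hB.1 fent Real.log, fro_sub hA.1 hB.1, Finset.sum_div]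
  refine (Finset.abs_sum_le_sum_abs _ _).trans (Finset.sum_le_sum fun k _ => ?_)
  rw [Finset.sum_div]
  refine (Finset.abs_sum_le_sum_abs _ _).trans (Finset.sum_le_sum fun l _ => ?_)
  rw [abs_mul, abs_of_nonneg (ov_nonneg hA.1 hB.1 k l), mul_div_assoc]
  exact mul_le_mul_of_nonneg_left (term_bound hδ (h k) (hB.eigenvalues_pos l))
    (ov_nonneg hA.1 hB.1 k l)

theorem exists_lower {A : Mat N} (hA : A.PosDef) : ∃ δ : ℝ, 0 < δ ∧ ∀ k, δ ≤ hA.1.eigenvalues k := by
  rcases isEmpty_or_nonempty (Fin N) with he | he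
  · exact ⟨1, one_pos, fun k => (he.false k).elim⟩
  · obtain ⟨k₀, hk₀⟩ := Finite.exists_min hA.1.eigenvalues
    exact ⟨_, hA.eigenvalues_pos k₀, hk₀⟩

theorem hasDeriv_tr {A : ℝ → Mat N} {A' : Mat N} {S : Set ℝ} {x : ℝ} (hx : x ∈ S)
    (hpd : ∀ y ∈ S, (A y).PosDef)
    (hder : ∀ i j, HasDerivWithinAt (fun y => A y i j) (A' i j) S x) :
    HasDerivWithinAt (fun y => (cfc fent (A y)).trace.re) ((cfc Real.log (A x) * A').trace.re)
      S x := by
  obtain ⟨δ, hδ, hδ'⟩ := exists_lower (hpd x hx)
  set L := cfc Real.log (A x) with hL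
  -- the linear part
  have hlin : HasDerivWithinAt (fun y => (L * (A y - A x)).trace.re) ((L * A').trace.re) S x := by
    have h1 : HasDerivWithinAt (fun y => (L * (A y - A x)).trace) ((L * A').trace) S x := by
      simp only [trace, diag_apply, Matrix.mul_apply, Matrix.sub_apply]
      refine HasDerivWithinAt.fun_sum fun i _ => HasDerivWithinAt.fun_sum fun j _ => ?_
      exact ((hder j i).sub_const _).const_mul _
    exact (Complex.reCLM.hasFDerivAt (x := (L * (A x - A x)).trace)).comp_hasDerivWithinAt x h1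
  -- the remainder
  set r : ℝ → ℝ := fun y => (cfc fent (A y)).trace.re - (cfc fent (A x)).trace.re -
    (L * (A y - A x)).trace.re with hr
  have hr0 : HasDerivWithinAt r 0 S x := by
    rw [hasDerivWithinAt_iff_isLittleO]
    have hrx : r x = 0 := by
      rw [hr]
      simp
    have hq : (fun y => fro (A x - A y) / δ) =o[nhdsWithin x S] fun y => y - x := by
      have h1 : (fun y => fro (A x - A y)) =o[nhdsWithin x S] fun y => y - x := by
        have h9 : ∀ i j, (fun y => ‖(A x - A y) i j‖ ^ 2) =o[nhdsWithin x S] fun y => y - x := by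
          intro i j
          have h2 : (fun y => (A x - A y) i j) =O[nhdsWithin x S] fun y => y - x := by
            have h3 := (hder i j).hasFDerivWithinAt.isBigO_sub
            have h4 : (fun y => (A x - A y) i j) = fun y => -(A y i j - A x i j) := by
              funext y
              rw [Matrix.sub_apply]
              ring
            rw [h4]
            exact h3.neg_left
          have h5 : (fun y => ‖(A x - A y) i j‖ ^ 2) =O[nhdsWithin x S] fun y => ‖y - x‖ ^ 2 :=
            (h2.norm_norm).pow 2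
          have h8 : (fun y : ℝ => ‖y - x‖ ^ 2) =o[nhds x] fun y => y - x :=
            Asymptotics.isLittleO_pow_sub_sub x one_lt_two
          exact h5.trans_isLittleO (h8.mono nhdsWithin_le_nhds)
        unfold fro
        exact Asymptotics.IsLittleO.fun_sum fun i _ => Asymptotics.IsLittleO.fun_sum fun j _ => h9 i j
      have h6 : (fun y => fro (A x - A y) / δ) = fun y => δ⁻¹ * fro (A x - A y) := by
        funext y
        rw [div_eq_inv_mul]
      rw [h6]
      exact h1.const_mul_left _
    refine Asymptotics.IsBigO.trans_isLittleO ?_ hq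
    refine Asymptotics.IsBigO.of_bound 1 ?_
    filter_upwards [self_mem_nhdsWithin] with y hy
    rw [hrx, smul_zero, sub_zero, sub_zero, one_mul, Real.norm_eq_abs, Real.norm_eq_abs]
    exact (klein_bound (hpd x hx) (hpd y hy) hδ hδ').trans (le_abs_self _)
  have h := (hr0.add hlin).add_const ((cfc fent (A x)).trace.re)
  rw [zero_add] at h
  refine h.congr (fun y _ => ?_) ?_
  · simp only [hr, Pi.add_apply]
    ring
  · simp only [hr, Pi.add_apply]
    ring

end Vale.Agent.P371.G.PsiM

namespace Vale.Agent.P371.G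

open FEm

theorem psiFact_of (hF : FcContFact) : PsiFact := by
  intro N κ t x₀ x₁ Z Z' hκ ht h01 hZa hder hZ'
  have hZc : ContinuousOn Z (Icc x₀ x₁) :=
    contOn_mat.2 fun i j x hx => (hder x hx i j).continuousWithinAt
  have hZ'c : ContinuousOn Z' (Icc x₀ x₁) := contOn_mat.2 hZ'
  have hcont : ContinuousOn (fun x => (Lt κ t (Z x) * Z' x).trace.re) (Icc x₀ x₁) :=
    trace_contOn ((Lt_contOn_x hF hκ hZa hZc ht).mul hZ'c)
  have hd : ∀ x ∈ Icc x₀ x₁, HasDerivWithinAt (fun y => psi κ t (Z y))
      ((Lt κ t (Z x) * Z' x).trace.re) (Icc x₀ x₁) x := by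
    intro x hx
    have h1 := PsiM.hasDeriv_tr (A := fun y => Kt κ t + Z y) (A' := Z' x) hx
      (fun y hy => posDef_add hκ (hZa y hy) ht) (fun i j => by
        have := (hder x hx i j).const_add (Kt κ t i j)
        exact this)
    have h2 := PsiM.hasDeriv_tr (A := fun y => Kt κ t - Z y) (A' := -Z' x) hx
      (fun y hy => posDef_sub hκ (hZa y hy) ht) (fun i j => by
        have := (hder x hx i j).const_sub (Kt κ t i j)
        exact this)
    have h3 := h1.sub h2
    have e : (cfc Real.log (Kt κ t + Z x) * Z' x).trace.re -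
        (cfc Real.log (Kt κ t - Z x) * -Z' x).trace.re = (Lt κ t (Z x) * Z' x).trace.re := by
      unfold Lt
      rw [Matrix.mul_neg, trace_neg, Complex.neg_re, sub_neg_eq_add, Matrix.add_mul, trace_add,
        Complex.add_re]
    rw [e] at h3
    exact h3
  refine intervalIntegral.integral_eq_sub_of_hasDerivAt_of_le h01
    (fun x hx => (hd x hx).continuousWithinAt) (fun x hx => ?_)
    (hcont.intervalIntegrable_of_Icc h01)
  exact (hd x (Ioo_subset_Icc_self hx)).hasDerivAt (Icc_mem_nhds hx.1 hx.2)

end Vale.Agent.P371.G
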