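import Mathlib
import Vale.Agent.P371.G.KinC
import Vale.Agent.P371.G.Klein
import Vale.Agent.P371.FE.TraceFun
import Vale.Agent.P371.UpGen

/-!
# P371, all `1/2 < γ < 3/2`: matrix part of the reduction
-/

open MeasureTheory Matrix
open scoped ENNReal ComplexOrder ComplexConjugate

namespace Vale.Agent.P371.G

open Vale.Agent.P371 Vale.Agent.P371.FE

variable {m N : ℕ}

/-- `trPow` as a sum over the roots of the characteristic polynomial. -/
theorem trPow_roots {n : ℕ} {B : Matrix (Fin n) (Fin n) ℂ} (hB : B.IsHermitian) (p : ℝ) :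
    trPow B p = (B.charpoly.roots.map (fun z : ℂ => z.re ^ p)).sum := by
  rw [trPow, dif_pos hB, hB.roots_charpoly_eq_eigenvalues, Multiset.map_map]
  rfl

/-- `tr (A A^*)^p = tr (A^* A)^p`. -/
theorem trPow_mul_comm (A : Matrix (Fin m) (Fin N) ℂ) {p : ℝ} (hp : p ≠ 0) :
    trPow (A * Aᴴ) p = trPow (Aᴴ * A) p := by
  have h1 : (A * Aᴴ).IsHermitian := isHermitian_mul_conjTranspose_self A
  have h2 : (Aᴴ * A).IsHermitian := isHermitian_conjTranspose_mul_self A
  rw [trPow_roots h1, trPow_roots h2]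
  have h3 := congrArg Polynomial.roots (Matrix.charpoly_mul_comm' A Aᴴ)
  have hX : ∀ n : ℕ, (Polynomial.X ^ n : Polynomial ℂ) ≠ 0 := fun n =>
    pow_ne_zero _ Polynomial.X_ne_zero
  rw [Polynomial.roots_mul (mul_ne_zero (hX _) (Matrix.charpoly_monic _).ne_zero),
    Polynomial.roots_mul (mul_ne_zero (hX _) (Matrix.charpoly_monic _).ne_zero),
    Polynomial.roots_X_pow, Polynomial.roots_X_pow] at h3
  have h4 := congrArg (fun M : Multiset ℂ => (M.map (fun z : ℂ => z.re ^ p)).sum) h3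
  simp only [Multiset.map_add, Multiset.sum_add, Multiset.map_nsmul, Multiset.map_singleton,
    Multiset.sum_nsmul, Multiset.sum_singleton, Complex.zero_re, Real.zero_rpow hp, smul_zero,
    zero_add] at h4
  exact h4

theorem trPow_nonnegR {A : Matrix (Fin N) (Fin N) ℂ} (hA : A.PosSemidef) (p : ℝ) :
    0 ≤ trPow A p := by
  rw [trPow, dif_pos hA.1]
  exact Finset.sum_nonneg fun k _ => Real.rpow_nonneg (hA.eigenvalues_nonneg k) _

/-- Matrix Young inequality. -/
theorem matYoung {A B : Matrix (Fin m) (Fin m) ℂ} (hA : A.PosSemidef) (hB : B.PosSemidef)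
    {s : ℝ} (hs : 0 < s) :
    (A * B).trace.re ≤ 1 / (1 + s) * trPow A (1 + s) + s / (1 + s) * trPow B (1 + 1 / s) := by
  have hc : (1 + s).HolderConjugate (1 + 1 / s) := by
    rw [Real.holderConjugate_iff]
    constructor
    · linarith
    · field_simp
      ring
  have e1 : (A * B).trace.re = ∑ k, ∑ l, ov hA.1 hB.1 k l *
      (hA.1.eigenvalues k * hB.1.eigenvalues l) := by
    have h := trace_cfc_mul hA.1 hB.1 id id
    rw [cfc_idm hA.1, cfc_idm hB.1] at h
    rw [h, Complex.ofReal_re]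
    rfl
  have e2 : trPow A (1 + s) = ∑ k, ∑ l, ov hA.1 hB.1 k l * hA.1.eigenvalues k ^ (1 + s) := by
    rw [trPow, dif_pos hA.1]
    refine Finset.sum_congr rfl fun k _ => ?_
    rw [← Finset.sum_mul, ov_sum_right, one_mul]
  have e3 : trPow B (1 + 1 / s) =
      ∑ k, ∑ l, ov hA.1 hB.1 k l * hB.1.eigenvalues l ^ (1 + 1 / s) := by
    rw [trPow, dif_pos hB.1, Finset.sum_comm]
    refine Finset.sum_congr rfl fun l _ => ?_
    rw [← Finset.sum_mul, ov_sum_left, one_mul]
  rw [e1, e2, e3, Finset.mul_sum, Finset.mul_sum, ← Finset.sum_add_distrib]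
  refine Finset.sum_le_sum fun k _ => ?_
  rw [Finset.mul_sum, Finset.mul_sum, ← Finset.sum_add_distrib]
  refine Finset.sum_le_sum fun l _ => ?_
  have h := Real.young_inequality_of_nonneg (hA.eigenvalues_nonneg k) (hB.eigenvalues_nonneg l) hc
  have h2 := mul_le_mul_of_nonneg_left h (ov_nonneg hA.1 hB.1 k l)
  refine h2.trans (le_of_eq ?_)
  have hs1 : (1 : ℝ) + s ≠ 0 := by linarith
  have hs2 : s ≠ 0 := hs.ne'
  have hs3 : (1 : ℝ) + 1 / s = (1 + s) / s := by field_simp; ring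
  have e4 : hB.1.eigenvalues l ^ (1 + 1 / s) / (1 + 1 / s) =
      s / (1 + s) * hB.1.eigenvalues l ^ (1 + 1 / s) := by
    rw [show s / (1 + s) = ((1 : ℝ) + 1 / s)⁻¹ by rw [hs3, inv_div]]
    rw [div_eq_inv_mul]
  rw [e4]
  ring

/-- a power of a positive semidefinite matrix of small trace -/
theorem trPow_le_trace {A : Matrix (Fin N) (Fin N) ℂ} (hA : A.PosSemidef) {q c : ℝ} (hq : 1 ≤ q)
    (hc : A.trace.re ≤ c) : trPow A q ≤ c ^ (q - 1) * A.trace.re := by
  have htr : A.trace.re = ∑ k, hA.1.eigenvalues k := by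
    have h := hA.1.trace_eq_sum_eigenvalues
    rw [h]
    simp
  rw [trPow, dif_pos hA.1, htr, Finset.mul_sum]
  refine Finset.sum_le_sum fun k _ => ?_
  have hk := hA.eigenvalues_nonneg k
  have hle : hA.1.eigenvalues k ≤ c := by
    rw [htr] at hc
    refine le_trans ?_ hc
    exact Finset.single_le_sum (f := fun k => hA.1.eigenvalues k)
      (fun i _ => hA.eigenvalues_nonneg i) (Finset.mem_univ k)
  rcases hk.eq_or_lt with h0 | h0
  · rw [← h0, mul_zero, Real.zero_rpow (by linarith)]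
  · have h1 : hA.1.eigenvalues k ^ q = hA.1.eigenvalues k ^ (q - 1) * hA.1.eigenvalues k := by
      rw [← Real.rpow_add_one h0.ne']
      congr 1
      ring
    rw [h1]
    exact mul_le_mul_of_nonneg_right (Real.rpow_le_rpow hk hle (by linarith)) hk

/-- measurability of the trace of a power -/
theorem trPow_meas {W : ℝ → Matrix (Fin m) (Fin m) ℂ} (hW : ∀ i j, Measurable fun x => W x i j)
    (hp : ∀ x, (W x).PosSemidef) {p : ℝ} (hp0 : 0 ≤ p) : Measurable fun x => trPow (W x) p := by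
  set ev : ℝ → Fin m → ℝ := fun x k => (hp x).1.eigenvalues k with hev
  have h1 : ∀ n : ℕ, Measurable fun x => ∑ k, ev x k ^ n := by
    intro n
    have h1 : (fun x => ∑ k, ev x k ^ n) = fun x => ((W x ^ n).trace).re := by
      funext x
      exact (trace_pow_eq (hp x).1 n).symm
    rw [h1]
    have h2 : Measurable fun x => (W x ^ n).trace :=
      Finset.measurable_sum _ fun k _ => pow_meas hW n k k
    exact Complex.measurable_re.comp h2
  have h2 : ∀ P : Polynomial ℝ, Measurable fun x => ∑ k, P.eval (ev x k) := by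
    intro P
    have h3 : (fun x => ∑ k, P.eval (ev x k)) =
        fun x => ∑ i ∈ P.support, P.coeff i * ∑ k, ev x k ^ i := by
      funext x
      simp only [Polynomial.eval_eq_sum, Polynomial.sum_def]
      rw [Finset.sum_comm]
      refine Finset.sum_congr rfl fun i _ => ?_
      rw [Finset.mul_sum]
    rw [h3]
    exact Finset.measurable_sum _ fun i _ => (h1 i).const_mul _
  have hg : Continuous fun t : ℝ => t ^ p := Real.continuous_rpow_const hp0
  have hP : ∀ n : ℕ, ∃ P : Polynomial ℝ, ∀ t ∈ Set.Icc (-(n : ℝ)) n,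
      |P.eval t - t ^ p| < 1 / ((n : ℝ) + 1) := fun n =>
    exists_polynomial_near_of_continuousOn _ _ _ hg.continuousOn _ (by positivity)
  choose P hP using hP
  have hfun : (fun x => trPow (W x) p) = fun x => ∑ k, ev x k ^ p := by
    funext x
    rw [trPow, dif_pos (hp x).1]
  rw [hfun]
  refine measurable_of_tendsto_metrizable (fun n => h2 (P n)) ?_
  rw [tendsto_pi_nhds]
  intro x
  refine tendsto_finsetSum _ fun k _ => ?_
  rw [tendsto_iff_norm_sub_tendsto_zero]
  refine squeeze_zero' (Filter.Eventually.of_forall fun n => norm_nonneg _) ?_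
    tendsto_one_div_add_atTop_nhds_zero_nat
  obtain ⟨n₀, hn₀⟩ := exists_nat_ge |ev x k|
  filter_upwards [Filter.eventually_ge_atTop n₀] with n hn
  have h1 : |ev x k| ≤ n := hn₀.trans (by exact_mod_cast hn)
  exact (hP n _ (abs_le.1 h1)).le

/-- Cauchy-Schwarz for a positive semidefinite matrix, in the form of an upper bound. -/
theorem norm_form_le {W : Matrix (Fin m) (Fin m) ℂ} (hW : W.PosSemidef) (f g : Fin m → ℂ) :
    ‖star f ⬝ᵥ (W *ᵥ g)‖ ≤
      1 / 2 * (star f ⬝ᵥ (W *ᵥ f)).re + 1 / 2 * (star g ⬝ᵥ (W *ᵥ g)).re := by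
  obtain ⟨B, hB'⟩ : ∃ B : Matrix (Fin m) (Fin m) ℂ, W = Bᴴ * B := by
    refine ⟨diagonal (fun i => ((√(hW.1.eigenvalues i) : ℝ) : ℂ)) *
      star (hW.1.eigenvectorUnitary : Matrix (Fin m) (Fin m) ℂ), ?_⟩
    rw [conjTranspose_mul, diagonal_conjTranspose, star_eq_conjTranspose,
      conjTranspose_conjTranspose]
    conv_lhs => rw [spec_decomp hW.1]
    rw [star_eq_conjTranspose]
    simp only [Matrix.mul_assoc]
    rw [← Matrix.mul_assoc (diagonal _) (diagonal _), diagonal_mul_diagonal]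
    congr 3
    funext i
    have hsq := Real.mul_self_sqrt (hW.eigenvalues_nonneg i)
    set e := hW.1.eigenvalues i
    have h1 : star (((√e : ℝ) : ℂ)) = ((√e : ℝ) : ℂ) := Complex.conj_ofReal _
    change ((e : ℝ) : ℂ) = star (((√e : ℝ) : ℂ)) * ((√e : ℝ) : ℂ)
    rw [h1, ← Complex.ofReal_mul, hsq]
  have e : ∀ a b : Fin m → ℂ, star a ⬝ᵥ (W *ᵥ b) = star (B *ᵥ a) ⬝ᵥ (B *ᵥ b) := by
    intro a b
    rw [hB', star_mulVec, ← dotProduct_mulVec, mulVec_mulVec]
  rw [e f g, e f f, e g g]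
  set a := B *ᵥ f
  set b := B *ᵥ g
  have e2 : ∀ c : Fin m → ℂ, (star c ⬝ᵥ c).re = ∑ i, ‖c i‖ ^ 2 := by
    intro c
    simp only [dotProduct, Pi.star_apply, Complex.re_sum]
    refine Finset.sum_congr rfl fun k _ => ?_
    have h2 : star (c k) * c k = ((‖c k‖ ^ 2 : ℝ) : ℂ) := by
      rw [← Complex.normSq_eq_norm_sq, Complex.normSq_eq_conj_mul_self]
      rfl
    rw [h2, Complex.ofReal_re]
  rw [e2, e2]
  calc ‖star a ⬝ᵥ b‖ ≤ ∑ i, ‖a i‖ * ‖b i‖ := by
        simp only [dotProduct, Pi.star_apply]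
        refine (norm_sum_le _ _).trans (Finset.sum_le_sum fun i _ => ?_)
        rw [norm_mul, norm_star]
    _ ≤ ∑ i, (1 / 2 * ‖a i‖ ^ 2 + 1 / 2 * ‖b i‖ ^ 2) :=
        Finset.sum_le_sum fun i _ => by nlinarith [sq_nonneg (‖a i‖ - ‖b i‖)]
    _ = _ := by rw [Finset.sum_add_distrib, ← Finset.mul_sum, ← Finset.mul_sum]

theorem trace_mul_vecMulVec (W : Matrix (Fin m) (Fin m) ℂ) (f : Fin m → ℂ) :
    (W * vecMulVec f (star f)).trace = star f ⬝ᵥ (W *ᵥ f) := by
  rw [mul_vecMulVec, trace_vecMulVec, dotProduct_comm]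

theorem trace_vecMulVec_self (f : Fin m → ℂ) :
    (vecMulVec f (star f)).trace.re = ∑ i, ‖f i‖ ^ 2 := by
  rw [trace_vecMulVec]
  simp only [dotProduct, Pi.star_apply, Complex.re_sum]
  refine Finset.sum_congr rfl fun k _ => ?_
  have h2 : f k * star (f k) = ((‖f k‖ ^ 2 : ℝ) : ℂ) := by
    rw [← Complex.normSq_eq_norm_sq, Complex.normSq_eq_conj_mul_self, mul_comm]
    rfl
  rw [h2, Complex.ofReal_re]

end Vale.Agent.P371.G
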