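import Mathlib
import Vale.Agent.P371.G.RedMat
import Vale.Agent.P371.G.Const

/-!
# P371, all `1/2 < γ < 3/2`: from the kinetic inequality to the upper bound of `L_γ(m)`
-/

open MeasureTheory Matrix
open scoped ENNReal ComplexOrder ComplexConjugate

namespace Vale.Agent.P371.G

open Vale.Agent.P371 Vale.Agent.P371.FE

variable {m N : ℕ}

section H1

variable {f f' : ℝ → Fin m → ℂ}

theorem h1_ii (h : IsH1 f f') (a b : ℝ) : IntervalIntegrable f' volume a b :=
  intervalIntegrable_iff.mpr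
    (((h.memLp_deriv.locallyIntegrable (by norm_num)).integrableOn_isCompact
      isCompact_uIcc).mono_set Set.uIoc_subset_uIcc)

theorem h1_cont (h : IsH1 f f') : Continuous f := by
  have h1 : f = fun x => f 0 + ∫ t in (0 : ℝ)..x, f' t := by
    funext x
    rw [← h.sub_eq 0 x]
    abel
  rw [h1]
  exact continuous_const.add (intervalIntegral.continuous_primitive (fun a b => h1_ii h a b) 0)

theorem h1_sq (h : MemLp f 2) : Integrable fun x => ‖f x‖ ^ 2 := h.integrable_norm_pow (by norm_num)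

theorem h1_bdd (h : IsH1 f f') : ∃ C : ℝ, ∀ x, ‖f x‖ ≤ C := by
  have hs := h1_sq h.memLp
  have hs' := h1_sq h.memLp_deriv
  refine ⟨(1 + ∫ x, ‖f x‖ ^ 2) + (1 + ∫ x, ‖f' x‖ ^ 2), fun x => ?_⟩
  have hle : x ≤ x + 1 := by linarith
  have key : ∀ g : ℝ → Fin m → ℂ, MemLp g 2 →
      IntervalIntegrable g volume x (x + 1) → ∫ t in x..(x + 1), ‖g t‖ ≤ 1 + ∫ x, ‖g x‖ ^ 2 := by
    intro g hg hgi
    have hq := h1_sq hg
    have h1 : ∫ t in x..(x + 1), ‖g t‖ ≤ ∫ t in x..(x + 1), (1 + ‖g t‖ ^ 2) := by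
      refine intervalIntegral.integral_mono_on hle hgi.norm
        (_root_.intervalIntegrable_const.add hq.intervalIntegrable) fun t _ => ?_
      nlinarith [sq_nonneg (‖g t‖ - 1), norm_nonneg (g t)]
    rw [intervalIntegral.integral_add _root_.intervalIntegrable_const hq.intervalIntegrable,
      intervalIntegral.integral_const] at h1
    have h2 : ∫ t in x..(x + 1), ‖g t‖ ^ 2 ≤ ∫ x, ‖g x‖ ^ 2 := by
      rw [intervalIntegral.integral_of_le hle]
      exact setIntegral_le_integral hq (Filter.Eventually.of_forall fun t => by positivity)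
    have h3 : (x + 1 - x) • (1 : ℝ) = 1 := by
      rw [smul_eq_mul]; ring
    rw [h3] at h1
    linarith
  have hfi : IntervalIntegrable f volume x (x + 1) := (h1_cont h).intervalIntegrable _ _
  have hfi' := h1_ii h x (x + 1)
  have h1 : ∀ y ∈ Set.Icc x (x + 1), ‖f x‖ ≤ ‖f y‖ + ∫ t in x..(x + 1), ‖f' t‖ := by
    intro y hy
    have h2 : f x = f y - ∫ t in x..y, f' t := by
      rw [← h.sub_eq x y]
      abel
    have h3 : ‖∫ t in x..y, f' t‖ ≤ ∫ t in x..(x + 1), ‖f' t‖ := by
      refine (intervalIntegral.norm_integral_le_integral_norm hy.1).trans ?_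
      rw [intervalIntegral.integral_of_le hy.1, intervalIntegral.integral_of_le hle]
      refine setIntegral_mono_set ?_ (Filter.Eventually.of_forall fun t => norm_nonneg _) ?_
      · exact (intervalIntegrable_iff_integrableOn_Ioc_of_le hle).1 hfi'.norm
      · exact (Set.Ioc_subset_Ioc_right hy.2).eventuallyLE
    calc ‖f x‖ = ‖f y - ∫ t in x..y, f' t‖ := by rw [← h2]
      _ ≤ ‖f y‖ + ‖∫ t in x..y, f' t‖ := norm_sub_le _ _
      _ ≤ _ := by gcongr
  have h4 : ∫ y in x..(x + 1), ‖f x‖ ≤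
      ∫ y in x..(x + 1), (‖f y‖ + ∫ t in x..(x + 1), ‖f' t‖) :=
    intervalIntegral.integral_mono_on hle _root_.intervalIntegrable_const
      (hfi.norm.add _root_.intervalIntegrable_const) h1
  rw [intervalIntegral.integral_add hfi.norm _root_.intervalIntegrable_const,
    intervalIntegral.integral_const, intervalIntegral.integral_const] at h4
  have h5 : ∀ c : ℝ, (x + 1 - x) • c = c := fun c => by
    rw [smul_eq_mul]; ring
  rw [h5, h5] at h4
  linarith [key f h.memLp hfi, key f' h.memLp_deriv hfi']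

theorem h1_comb {u u' : Fin N → ℝ → Fin m → ℂ} (h : ∀ j, IsH1 (u j) (u' j)) (S : Mat N)
    (j : Fin N) : IsH1 (comb S u j) (comb S u' j) := by
  refine ⟨?_, ?_, ?_⟩
  · exact memLp_finsetSum _ fun k _ => (h k).memLp.const_smul (S k j)
  · exact memLp_finsetSum _ fun k _ => (h k).memLp_deriv.const_smul (S k j)
  · intro a b
    have h1 : ∫ x in a..b, comb S u' j x = ∑ k, ∫ x in a..b, S k j • u' k x := by
      have h2 : ∀ k ∈ (Finset.univ : Finset (Fin N)),
          IntervalIntegrable (fun x => S k j • u' k x) volume a b := fun k _ =>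
        (h1_ii (h k) a b).smul (S k j)
      exact intervalIntegral.integral_finsetSum h2
    rw [h1]
    unfold comb
    rw [← Finset.sum_sub_distrib]
    refine Finset.sum_congr rfl fun k _ => ?_
    rw [intervalIntegral.integral_smul, ← (h k).sub_eq a b, smul_sub]

theorem h1_ip_int {f g : ℝ → Fin m → ℂ} (hf : MemLp f 2) (hg : MemLp g 2) :
    Integrable fun x => star (f x) ⬝ᵥ g x := by
  simp only [dotProduct, Pi.star_apply]
  exact integrable_finsetSum _ fun i _ =>
    MemLp.integrable_mul (p := 2) (q := 2) (hf.eval i).star (hg.eval i)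

theorem h1_sumsq (hf : MemLp f 2) : Integrable fun x => ∑ i, ‖f x i‖ ^ 2 :=
  integrable_finsetSum _ fun i _ => (hf.eval i).integrable_norm_pow (by norm_num)

theorem sumsq_le {C : ℝ} (v : Fin m → ℂ) (h : ‖v‖ ≤ C) : ∑ i, ‖v i‖ ^ 2 ≤ m * C ^ 2 := by
  calc ∑ i, ‖v i‖ ^ 2 ≤ ∑ _i : Fin m, C ^ 2 := by
        refine Finset.sum_le_sum fun i _ => ?_
        exact pow_le_pow_left₀ (norm_nonneg _) ((norm_le_pi_norm v i).trans h) 2
    _ = m * C ^ 2 := by simp

end H1

section Pot

variable {s : ℝ} {W : ℝ → Matrix (Fin m) (Fin m) ℂ}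

theorem pot_int {p : ℝ} (hp : 0 ≤ p) (hW : IsPotential p W) :
    Integrable fun x => trPow (W x) p := by
  have hm : Measurable fun x => trPow (W x) p := trPow_meas hW.measurable hW.posSemidef hp
  refine ⟨hm.aestronglyMeasurable, ?_⟩
  rw [hasFiniteIntegral_iff_ofReal (Filter.Eventually.of_forall fun x =>
    trPow_nonnegR (hW.posSemidef x) p)]
  exact hW.finite

theorem pot_lint {p : ℝ} (hp : 0 ≤ p) (hW : IsPotential p W) :
    intPow W p = ENNReal.ofReal (∫ x, trPow (W x) p) :=
  (ofReal_integral_eq_lintegral_ofReal (pot_int hp hW) (Filter.Eventually.of_forall fun x =>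
    trPow_nonnegR (hW.posSemidef x) p)).symm

theorem quad_le (hs : 0 < s) {A : Matrix (Fin m) (Fin m) ℂ} (hA : A.PosSemidef) {C : ℝ}
    (v : Fin m → ℂ) (h : ‖v‖ ≤ C) : (star v ⬝ᵥ (A *ᵥ v)).re ≤ 1 / (1 + s) * trPow A (1 + s) +
      s / (1 + s) * ((m * C ^ 2) ^ (1 / s) * ∑ i, ‖v i‖ ^ 2) := by
  have hP : (vecMulVec v (star v)).PosSemidef := posSemidef_vecMulVec_self_star v
  have h1 := matYoung hA hP hs
  rw [trace_mul_vecMulVec] at h1
  refine h1.trans (add_le_add_right (mul_le_mul_of_nonneg_left ?_ (by positivity)) _)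
  have h2 := trPow_le_trace hP (q := 1 + 1 / s) (c := m * C ^ 2)
    (by have : 0 < 1 / s := by positivity
        linarith) (by rw [trace_vecMulVec_self]; exact sumsq_le v h)
  rw [trace_vecMulVec_self, show 1 + 1 / s - 1 = 1 / s by ring] at h2
  exact h2

theorem form_meas (hW : ∀ i j, Measurable fun x => W x i j) {f g : ℝ → Fin m → ℂ}
    (hf : Continuous f) (hg : Continuous g) :
    Measurable fun x => star (f x) ⬝ᵥ (W x *ᵥ g x) := by
  simp only [dotProduct, mulVec, Pi.star_apply]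
  refine Finset.measurable_sum _ fun i _ => Measurable.mul ?_ ?_
  · exact (continuous_star.comp ((continuous_apply i).comp hf)).measurable
  · exact Finset.measurable_sum _ fun j _ => (hW i j).mul ((continuous_apply j).comp hg).measurable

theorem form_int (hs : 0 < s) (hW : IsPotential (1 + s) W) {f f' g g' : ℝ → Fin m → ℂ}
    (hf : IsH1 f f') (hg : IsH1 g g') :
    Integrable fun x => star (f x) ⬝ᵥ (W x *ᵥ g x) := by
  obtain ⟨C, hC⟩ := h1_bdd hf
  obtain ⟨D, hD⟩ := h1_bdd hg
  have hI := pot_int (by linarith : (0 : ℝ) ≤ 1 + s) hW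
  have hB : ∀ (h : ℝ → Fin m → ℂ) (E : ℝ), MemLp h 2 → Integrable fun x =>
      1 / (1 + s) * trPow (W x) (1 + s) +
        s / (1 + s) * ((m * E ^ 2) ^ (1 / s) * ∑ i, ‖h x i‖ ^ 2) := fun h E hh =>
    (hI.const_mul _).add (((h1_sumsq hh).const_mul _).const_mul _)
  refine Integrable.mono' (((hB f C hf.memLp).const_mul (1 / 2)).add
    ((hB g D hg.memLp).const_mul (1 / 2)))
    (form_meas hW.measurable (h1_cont hf) (h1_cont hg)).aestronglyMeasurable
    (Filter.Eventually.of_forall fun x => ?_)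
  refine (norm_form_le (hW.posSemidef x) (f x) (g x)).trans ?_
  have h1 := quad_le hs (hW.posSemidef x) (f x) (hC x)
  have h2 := quad_le hs (hW.posSemidef x) (g x) (hD x)
  simp only [Pi.add_apply]
  linarith

/-- the matrix with the columns `v_j(x)` -/
def colM (v : Fin N → ℝ → Fin m → ℂ) (x : ℝ) : Matrix (Fin m) (Fin N) ℂ := of fun i j => v j x i

theorem gramM_eq_colM (v : Fin N → ℝ → Fin m → ℂ) (x : ℝ) : gramM v x = (colM v x)ᴴ * colM v x := by
  ext j l
  simp [gramM, colM, mul_apply, dotProduct, conjTranspose_apply]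

theorem gramM_psd (v : Fin N → ℝ → Fin m → ℂ) (x : ℝ) : (gramM v x).PosSemidef := by
  rw [gramM_eq_colM]
  exact posSemidef_conjTranspose_mul_self _

theorem gramM_trace (v : Fin N → ℝ → Fin m → ℂ) (x : ℝ) :
    (gramM v x).trace.re = ∑ j, ∑ i, ‖v j x i‖ ^ 2 := by
  simp only [trace, diag_apply, gramM, of_apply, Complex.re_sum, dotProduct, Pi.star_apply]
  refine Finset.sum_congr rfl fun j _ => Finset.sum_congr rfl fun i _ => ?_
  have h2 : star (v j x i) * v j x i = ((‖v j x i‖ ^ 2 : ℝ) : ℂ) := by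
    rw [← Complex.normSq_eq_norm_sq, Complex.normSq_eq_conj_mul_self]
    rfl
  rw [h2, Complex.ofReal_re]

theorem gramM_meas {v : Fin N → ℝ → Fin m → ℂ} (hv : ∀ j, Continuous (v j)) (j l : Fin N) :
    Measurable fun x => gramM v x j l := by
  simp only [gramM, of_apply, dotProduct, Pi.star_apply]
  refine Finset.measurable_sum _ fun i _ => Measurable.mul ?_ ?_
  · exact (continuous_star.comp ((continuous_apply i).comp (hv j))).measurable
  · exact ((continuous_apply i).comp (hv l)).measurable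

theorem gramM_int (hs : 0 < s) {v v' : Fin N → ℝ → Fin m → ℂ} (hv : ∀ j, IsH1 (v j) (v' j)) :
    Integrable fun x => trPow (gramM v x) (1 + 1 / s) := by
  have hs1 : 0 < 1 / s := by positivity
  choose C hC using fun j => h1_bdd (hv j)
  set c : ℝ := ∑ j, m * C j ^ 2 with hc
  have hI : Integrable fun x => c ^ (1 / s) * ∑ j, ∑ i, ‖v j x i‖ ^ 2 :=
    (integrable_finsetSum _ fun j _ => h1_sumsq (hv j).memLp).const_mul _
  refine Integrable.mono' hI (trPow_meas (gramM_meas fun j => h1_cont (hv j)) (gramM_psd v)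
    (by linarith)).aestronglyMeasurable (Filter.Eventually.of_forall fun x => ?_)
  rw [Real.norm_eq_abs, abs_of_nonneg (trPow_nonnegR (gramM_psd v x) _)]
  have h2 := trPow_le_trace (gramM_psd v x) (q := 1 + 1 / s) (c := c) (by linarith)
    (by rw [gramM_trace]; exact Finset.sum_le_sum fun j _ => sumsq_le _ (hC j x))
  rw [gramM_trace, show 1 + 1 / s - 1 = 1 / s by ring] at h2
  exact h2

theorem sum_form (A : Matrix (Fin m) (Fin m) ℂ) (v : Fin N → ℝ → Fin m → ℂ) (x : ℝ) :
    ∑ j, star (v j x) ⬝ᵥ (A *ᵥ v j x) = (A * (colM v x * (colM v x)ᴴ)).trace := by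
  rw [← Matrix.mul_assoc, Matrix.trace_mul_comm, trace]
  refine Finset.sum_congr rfl fun j _ => ?_
  simp [colM, mul_apply, dotProduct, mulVec, conjTranspose_apply]

theorem sum_form_le (hs : 0 < s) {A : Matrix (Fin m) (Fin m) ℂ} (hA : A.PosSemidef)
    (v : Fin N → ℝ → Fin m → ℂ) (x : ℝ) :
    (∑ j, star (v j x) ⬝ᵥ (A *ᵥ v j x)).re ≤
      1 / (1 + s) * trPow A (1 + s) + s / (1 + s) * trPow (gramM v x) (1 + 1 / s) := by
  have hs1 : 0 < 1 / s := by positivity
  rw [sum_form, gramM_eq_colM, ← trPow_mul_comm (colM v x) (p := 1 + 1 / s) (by linarith)]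
  exact matYoung hA (posSemidef_self_mul_conjTranspose _) hs

end Pot

section Lin

theorem ip_comb_right {φ : ℝ → Fin m → ℂ} {g : Fin N → ℝ → Fin m → ℂ} (S : Mat N) (j : Fin N)
    (h : ∀ k, Integrable fun x => star (φ x) ⬝ᵥ g k x) :
    ip φ (comb S g j) = ∑ k, S k j * ip φ (g k) := by
  unfold ip comb
  simp only [dotProduct_sum, dotProduct_smul, smul_eq_mul]
  rw [integral_finsetSum _ fun k _ => (h k).const_mul _]
  refine Finset.sum_congr rfl fun k _ => ?_
  rw [integral_const_mul]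

theorem ip_comb_left {φ : ℝ → Fin m → ℂ} {g : Fin N → ℝ → Fin m → ℂ} (S : Mat N) (j : Fin N)
    (h : ∀ k, Integrable fun x => star (g k x) ⬝ᵥ φ x) :
    ip (comb S g j) φ = ∑ k, conj (S k j) * ip (g k) φ := by
  unfold ip comb
  simp only [star_sum, star_smul, sum_dotProduct, smul_dotProduct, smul_eq_mul]
  have h2 := integral_finsetSum (μ := volume) Finset.univ fun k _ => (h k).const_mul (star (S k j))
  rw [h2]
  refine Finset.sum_congr rfl fun k _ => ?_
  rw [integral_const_mul]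
  rfl

theorem mulVec_comb (W : ℝ → Matrix (Fin m) (Fin m) ℂ) (S : Mat N) (f : Fin N → ℝ → Fin m → ℂ)
    (j : Fin N) : (fun x => W x *ᵥ comb S f j x) = comb S (fun k x => W x *ᵥ f k x) j := by
  funext x
  simp only [comb, mulVec_sum, mulVec_smul]

end Lin

theorem red_identity {s : ℝ} (hs : 0 < s) {W : ℝ → Matrix (Fin m) (Fin m) ℂ}
    (hW : IsPotential (1 + s) W) {f f' : Fin N → ℝ → Fin m → ℂ} {lam : Fin N → ℝ}
    (hH : ∀ k, IsH1 (f k) (f' k))
    (hE : ∀ k φ φ', IsH1 φ φ' →
      ip φ' (f' k) - ip φ (fun x => W x *ᵥ f k x) = lam k * ip φ (f k))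
    (ho : ∀ j k, ip (f j) (f k) = if j = k then 1 else 0) (S : Mat N) (j : Fin N) :
    (ip (comb S f j) (fun x => W x *ᵥ comb S f j x)).re =
      (ip (comb S f' j) (comb S f' j)).re + ∑ k, ‖S k j‖ ^ 2 * (-lam k) := by
  have hv := h1_comb hH S j
  have e1 : ip (comb S f' j) (comb S f' j) = ∑ k, S k j * ip (comb S f' j) (f' k) :=
    ip_comb_right S j fun k => h1_ip_int hv.memLp_deriv (hH k).memLp_deriv
  have e2 : ip (comb S f j) (fun x => W x *ᵥ comb S f j x) =
      ∑ k, S k j * ip (comb S f j) (fun x => W x *ᵥ f k x) := by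
    rw [mulVec_comb]
    exact ip_comb_right S j fun k => form_int hs hW hv (hH k)
  have e3 : ∀ k, ip (comb S f j) (f k) = conj (S k j) := by
    intro k
    rw [ip_comb_left S j fun l => h1_ip_int (hH l).memLp (hH k).memLp]
    simp [ho]
  have e4 : ip (comb S f j) (fun x => W x *ᵥ comb S f j x) = ip (comb S f' j) (comb S f' j) +
      ((∑ k, ‖S k j‖ ^ 2 * (-lam k) : ℝ) : ℂ) := by
    rw [e1, e2, Complex.ofReal_sum, ← Finset.sum_add_distrib]
    refine Finset.sum_congr rfl fun k _ => ?_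
    have h1 := hE k _ _ hv
    rw [e3 k] at h1
    have h2 : ip (comb S f j) (fun x => W x *ᵥ f k x) =
        ip (comb S f' j) (f' k) - lam k * conj (S k j) := by
      rw [← h1]
      ring
    rw [h2]
    have h3 : ((‖S k j‖ ^ 2 * (-lam k) : ℝ) : ℂ) = -(lam k * (S k j * conj (S k j))) := by
      rw [Complex.mul_conj, Complex.normSq_eq_norm_sq]
      push_cast
      ring
    rw [h3]
    ring
  rw [e4, Complex.add_re, Complex.ofReal_re]

theorem Bs_posR {s : ℝ} (hs : 0 < s) : 0 < Bs s := by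
  rw [Bs_gamma hs]
  have h1 := Real.Gamma_pos_of_pos (show 0 < s + 1 by linarith)
  have h2 := Real.Gamma_pos_of_pos (show 0 < s + 3 / 2 by linarith)
  positivity

theorem Cs_pos {s : ℝ} (hs : 0 < s) : 0 < Cs s := by
  have h := Bs_posR hs
  unfold Cs
  positivity

/-- the sharp inequality -/
theorem red_main (hKin : KinCFact) {s : ℝ} (hs : 0 < s) (hs1 : s < 1)
    {W : ℝ → Matrix (Fin m) (Fin m) ℂ} (hW : IsPotential (1 + s) W) {lam : Fin N → ℝ}
    {f : Fin N → ℝ → Fin m → ℂ} (hsys : IsNegSystem W lam f) :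
    Cs s * ∑ j, |lam j| ^ (s + 1 / 2) ≤ ∫ x, trPow (W x) (1 + s) := by
  choose f' hH hE using hsys.eigen
  have hI := pot_int (by linarith : (0 : ℝ) ≤ 1 + s) hW
  have hs2 : 0 < 1 + s := by linarith
  have key : ∀ ε > 0, Cs s / (1 + s) * ∑ j, |lam j| ^ (s + 1 / 2) ≤
      (1 / (1 + s) * ∫ x, trPow (W x) (1 + s)) + ε := by
    intro ε hε
    obtain ⟨S, hS⟩ := hKin m N s f f' (fun j => |lam j|) hs hs1 hH hsys.orthonormal
      (fun j => abs_pos.2 (hsys.neg j).ne) ε hε
    have hv := fun j => h1_comb hH S j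
    have e1 : ∀ j, (ip (comb S f j) (fun x => W x *ᵥ comb S f j x)).re =
        (ip (comb S f' j) (comb S f' j)).re + ∑ k, ‖S k j‖ ^ 2 * |lam k| := by
      intro j
      rw [red_identity hs hW hH hE hsys.orthonormal S j]
      congr 1
      refine Finset.sum_congr rfl fun k _ => ?_
      rw [abs_of_neg (hsys.neg k)]
    have hF : ∀ j, Integrable fun x => star (comb S f j x) ⬝ᵥ (W x *ᵥ comb S f j x) := fun j =>
      form_int hs hW (hv j) (hv j)
    have e2 : ∑ j, (ip (comb S f j) (fun x => W x *ᵥ comb S f j x)).re =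
        ∫ x, (∑ j, star (comb S f j x) ⬝ᵥ (W x *ᵥ comb S f j x)).re := by
      have hF' : ∀ j ∈ (Finset.univ : Finset (Fin N)), Integrable fun x =>
          (star (comb S f j x) ⬝ᵥ (W x *ᵥ comb S f j x)).re := fun j _ => (hF j).re
      simp only [Complex.re_sum]
      rw [integral_finsetSum _ hF']
      refine Finset.sum_congr rfl fun j _ => ?_
      exact (integral_re (hF j)).symm
    have e3 : ∫ x, (∑ j, star (comb S f j x) ⬝ᵥ (W x *ᵥ comb S f j x)).re ≤
        ∫ x, (1 / (1 + s) * trPow (W x) (1 + s) +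
          s / (1 + s) * trPow (gramM (comb S f) x) (1 + 1 / s)) := by
      refine integral_mono ?_ ((hI.const_mul _).add ((gramM_int hs hv).const_mul _)) fun x => ?_
      · exact (integrable_finsetSum _ fun j _ => hF j).re
      · exact sum_form_le hs (hW.posSemidef x) _ x
    rw [integral_add (hI.const_mul _) ((gramM_int hs hv).const_mul _), integral_const_mul,
      integral_const_mul, ← e2] at e3
    simp only [e1, Finset.sum_add_distrib] at e3
    linarith
  have h2 := le_of_forall_pos_le_add key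
  have h3 := mul_le_mul_of_nonneg_left h2 hs2.le
  have h4 : (1 + s) * (Cs s / (1 + s) * ∑ j, |lam j| ^ (s + 1 / 2)) =
      Cs s * ∑ j, |lam j| ^ (s + 1 / 2) := by field_simp
  have h5 : (1 + s) * (1 / (1 + s) * ∫ x, trPow (W x) (1 + s)) = ∫ x, trPow (W x) (1 + s) := by
    field_simp
  rw [h4, h5] at h3
  exact h3

theorem upFact (hKin : KinCFact) : UpFact := by
  intro m s hs hs1
  unfold LT
  have e : s + 1 / 2 + 1 / 2 = 1 + s := by ring
  rw [e]
  refine iSup_le fun W => iSup_le fun hW => iSup_le fun hne => ?_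
  have hfin : intPow W (1 + s) < ∞ := hW.finite
  have hC := Cs_pos hs
  rw [ENNReal.div_le_iff_le_mul (Or.inl hne) (Or.inl hfin.ne)]
  unfold negTrace
  refine iSup_le fun N => iSup_le fun lam => iSup_le fun f => iSup_le fun hsys => ?_
  rw [pot_lint (by linarith : (0 : ℝ) ≤ 1 + s) hW,
    ← ENNReal.ofReal_sum_of_nonneg fun j _ => Real.rpow_nonneg (abs_nonneg _) _,
    ← ENNReal.ofReal_mul (by positivity)]
  refine ENNReal.ofReal_le_ofReal ?_
  have h := red_main hKin hs hs1 hW hsys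
  have h2 : 1 / Cs s * (Cs s * ∑ j, |lam j| ^ (s + 1 / 2)) = ∑ j, |lam j| ^ (s + 1 / 2) := by
    field_simp
  rw [← h2]
  exact mul_le_mul_of_nonneg_left h (by positivity)

end Vale.Agent.P371.G
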