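import Vale.Agent.P371.Defs

/-!
# P371, all `1/2 < γ < 3/2`: the statements of the modules (proved in the other files)

Functional calculus: Mathlib's `cfc`. Loewner order `A ≤ B`: `(B - A).PosSemidef`.
Throughout `γ = s + 1/2`, `0 < s < 1`, `p = γ + 1/2 = 1 + s`.
-/

open MeasureTheory Matrix Set
open scoped ENNReal ComplexOrder

namespace Vale.Agent.P371.G

/-- the space of `N × N` complex matrices -/
abbrev Mat (N : ℕ) : Type := Matrix (Fin N) (Fin N) ℂ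

/-- `K_t = √(E + t)` for `E = diagonal κ²`. -/
noncomputable def Kt {N : ℕ} (κ : Fin N → ℝ) (t : ℝ) : Mat N :=
  diagonal fun j => ((√(κ j ^ 2 + t) : ℝ) : ℂ)

/-- real diagonal matrix -/
noncomputable def dg {N : ℕ} (κ : Fin N → ℝ) : Mat N := diagonal fun j => ((κ j : ℝ) : ℂ)

/-- `f(r) = r log r - r` -/
noncomputable def fent (r : ℝ) : ℝ := r * Real.log r - r

/-- `ψ_t(Z) = tr f(K_t + Z) - tr f(K_t - Z)` -/
noncomputable def psi {N : ℕ} (κ : Fin N → ℝ) (t : ℝ) (Z : Mat N) : ℝ :=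
  (cfc fent (Kt κ t + Z)).trace.re - (cfc fent (Kt κ t - Z)).trace.re

/-- `L_t(Z) = log (K_t + Z) + log (K_t - Z)` -/
noncomputable def Lt {N : ℕ} (κ : Fin N → ℝ) (t : ℝ) (Z : Mat N) : Mat N :=
  cfc Real.log (Kt κ t + Z) + cfc Real.log (Kt κ t - Z)

/-- `X = E - Z²` for `E = diagonal κ²`. -/
noncomputable def Xm {N : ℕ} (κ : Fin N → ℝ) (Z : Mat N) : Mat N := dg κ * dg κ - Z * Z

/-- `-√E ≤ Z ≤ √E`, `E = diagonal κ²`. -/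
structure Adm {N : ℕ} (κ : Fin N → ℝ) (Z : Mat N) : Prop where
  herm : Z.IsHermitian
  lower : (dg κ + Z).PosSemidef
  upper : (dg κ - Z).PosSemidef

/-- M0: continuity of the functional calculus. -/
def FcContFact : Prop :=
  (∀ (N : ℕ) (f : ℝ → ℝ), ContinuousOn f (Ioi 0) →
    ContinuousOn (fun A : Mat N => cfc f A) {A | A.PosDef}) ∧
  ∀ (N : ℕ) (f : ℝ → ℝ), Continuous f →
    ContinuousOn (fun A : Mat N => cfc f A) {A | A.IsHermitian}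

/-- M1: the Gibbs form of the Golden-Thompson inequality. -/
def GibbsFact : Prop :=
  ∀ (N : ℕ) (a b Y : Mat N), a.PosDef → b.PosDef → Y.PosDef →
    (Y * (cfc Real.log a + cfc Real.log b)).trace.re - (Y * cfc Real.log Y).trace.re +
      Y.trace.re ≤ (a * b).trace.re

/-- M2: fact (B), in the integrated form (`h(t) = tr (X + t)(L_t - log t) - tr X`). -/
def BFact : Prop :=
  ∀ (N : ℕ) (κ : Fin N → ℝ) (Z : Mat N), (∀ j, 0 < κ j) → Adm κ Z → ∀ t₁ t₂ : ℝ, 0 < t₁ → t₁ ≤ t₂ →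
    ((Xm κ Z + (t₂ : ℂ) • 1) * Lt κ t₂ Z).trace.re -
      ((Xm κ Z + (t₁ : ℂ) • 1) * Lt κ t₁ Z).trace.re ≤
      ∫ t in t₁..t₂, ((Lt κ t Z).trace.re + N)

/-- M2': `h(t) ≥ 0` and the bound of `h(t)` for small `t` (uniform in `Z`). -/
def HFact : Prop :=
  ∀ (N : ℕ) (κ : Fin N → ℝ), (∀ j, 0 < κ j) →
    (∀ (Z : Mat N), Adm κ Z → ∀ t : ℝ, 0 < t →
      0 ≤ ((Xm κ Z + (t : ℂ) • 1) * Lt κ t Z).trace.re -
        Real.log t * (Xm κ Z + (t : ℂ) • 1).trace.re - (Xm κ Z).trace.re) ∧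
    ∃ C : ℝ, ∀ (Z : Mat N), Adm κ Z → ∀ t : ℝ, 0 < t → t ≤ 1 →
      ((Xm κ Z + (t : ℂ) • 1) * Lt κ t Z).trace.re -
        Real.log t * (Xm κ Z + (t : ℂ) • 1).trace.re - (Xm κ Z).trace.re ≤ C * (1 - Real.log t)

/-- A Hermitian Riccati path `Z' = K² - Z² - W` on `[x₀, x₁]` from `K` to `-K`, with
`-K ≤ Z ≤ K`. -/
structure Ric {N : ℕ} (x₀ x₁ : ℝ) (K : Mat N) (W Z : ℝ → Mat N) : Prop where
  le : x₀ ≤ x₁
  posDef : K.PosDef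
  herm : ∀ x ∈ Icc x₀ x₁, (Z x).IsHermitian
  deriv : ∀ x ∈ Icc x₀ x₁, ∀ i j,
    HasDerivWithinAt (fun y => Z y i j) ((K * K - Z x * Z x - W x) i j) (Icc x₀ x₁) x
  left : Z x₀ = K
  right : Z x₁ = -K
  lower : ∀ x ∈ Icc x₀ x₁, (K + Z x).PosSemidef
  upper : ∀ x ∈ Icc x₀ x₁, (K - Z x).PosSemidef

/-- M3: the fundamental theorem of calculus for `ψ_t(Z(x))`. -/
def PsiFact : Prop :=
  ∀ (N : ℕ) (κ : Fin N → ℝ) (t x₀ x₁ : ℝ) (Z Z' : ℝ → Mat N), (∀ j, 0 < κ j) → 0 < t → x₀ ≤ x₁ →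
    (∀ x ∈ Icc x₀ x₁, Adm κ (Z x)) →
    (∀ x ∈ Icc x₀ x₁, ∀ i j, HasDerivWithinAt (fun y => Z y i j) (Z' x i j) (Icc x₀ x₁) x) →
    (∀ i j, ContinuousOn (fun x => Z' x i j) (Icc x₀ x₁)) →
    ∫ x in x₀..x₁, (Lt κ t (Z x) * Z' x).trace.re = psi κ t (Z x₁) - psi κ t (Z x₀)

/-- `c₀(s) = ∫₀^∞ t^{s-1} log (1 + 1/t) dt` -/
noncomputable def c0 (s : ℝ) : ℝ := ∫ t in Ioi (0 : ℝ), t ^ (s - 1) * Real.log (1 + 1 / t)

/-- `B_s = ∫_{-1}^1 (1 - z²)^s dz` -/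
noncomputable def Bs (s : ℝ) : ℝ := ∫ z in (-1 : ℝ)..1, (1 - z ^ 2) ^ s

/-- `ζ_k(t) = ∫_{-k}^k log (1 + (k² - z²)/t) dz` -/
noncomputable def zeta (k t : ℝ) : ℝ := ∫ z in (-k)..k, Real.log (1 + (k ^ 2 - z ^ 2) / t)

/-- M4: scalar integrals. -/
def ScalarFact : Prop :=
  ∀ s : ℝ, 0 < s → s < 1 → 0 < c0 s ∧ 0 < Bs s ∧
    (∀ g : ℝ, 0 ≤ g →
      IntegrableOn (fun t => t ^ (s - 1) * ((g + t) * Real.log (1 + g / t) - g)) (Ioi 0) ∧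
      ∫ t in Ioi (0 : ℝ), t ^ (s - 1) * ((g + t) * Real.log (1 + g / t) - g) =
        c0 s * g ^ (1 + s) / (1 + s)) ∧
    (∀ k : ℝ, 0 < k →
      IntegrableOn (fun t => t ^ (s - 1) * zeta k t) (Ioi 0) ∧
      ∫ t in Ioi (0 : ℝ), t ^ (s - 1) * zeta k t = c0 s * k ^ (2 * s + 1) * Bs s) ∧
    (∀ k t : ℝ, 0 < k → 0 < t →
      2 * (fent (√(k ^ 2 + t) + k) - fent (√(k ^ 2 + t) - k) - k * Real.log t) = zeta k t)

/-- `1 / L`, the sharp constant: `(1+s)^{1+s} s^{-s} B_s` -/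
noncomputable def Cs (s : ℝ) : ℝ := (1 + s) ^ (1 + s) / s ^ s * Bs s

/-- M5: the fixed-energy theorem. -/
def FEFact : Prop :=
  ∀ (N : ℕ) (s x₀ x₁ : ℝ) (K : Mat N) (W Z : ℝ → Mat N), 0 < s → s < 1 →
    (∀ i j, ContinuousOn (fun x => W x i j) (Icc x₀ x₁)) →
    (∀ x ∈ Icc x₀ x₁, (W x).PosSemidef) → Ric x₀ x₁ K W Z →
    Cs s * trPow K (2 * s + 1) ≤ ∫ x in x₀..x₁, trPow (W x) (1 + s)

/-- the scalar potential on `[-ρ, ρ]` with ground state energy `-κ₀²`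
(`Z₀ = -κ₀ sin (π x / 2ρ)`, `Z₀' = κ₀² - Z₀² - v₀`). -/
noncomputable def v0 (κ₀ ρ x : ℝ) : ℝ :=
  κ₀ ^ 2 * Real.cos (Real.pi * x / (2 * ρ)) ^ 2 +
    κ₀ * (Real.pi / (2 * ρ)) * Real.cos (Real.pi * x / (2 * ρ))

/-- the box `(κ₀/2)² ≤ E ≤ R²` -/
def box (N : ℕ) (κ₀ R : ℝ) : Set (Mat N) :=
  {E | E.IsHermitian ∧ (E - (((κ₀ / 2) ^ 2 : ℝ) : ℂ) • 1).PosSemidef ∧
    (((R ^ 2 : ℝ) : ℂ) • 1 - E).PosSemidef}

/-- M6: Hartman-Stampacchia (from Brouwer). -/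
def VIFact : Prop :=
  ∀ (n : ℕ) (S : Set (EuclideanSpace ℝ (Fin n)))
    (F : EuclideanSpace ℝ (Fin n) → EuclideanSpace ℝ (Fin n)),
    IsCompact S → Convex ℝ S → S.Nonempty → ContinuousOn F S →
    ∃ e ∈ S, ∀ e' ∈ S, 0 ≤ inner ℝ (F e) (e' - e)

/-- M8: the topological step. -/
def TopFact : Prop :=
  ∀ (N : ℕ) (ρ κ₀ R M : ℝ), 0 < ρ → 0 < κ₀ → κ₀ < R → ρ * M ≤ R →
    ∀ Wf : Mat N → ℝ → Mat N,
    (∀ i j, ContinuousOn (fun q : Mat N × ℝ => Wf q.1 q.2 i j) (box N κ₀ R ×ˢ Icc (-ρ) ρ)) →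
    (∀ E ∈ box N κ₀ R, ∀ x ∈ Icc (-ρ) ρ,
      (Wf E x - ((v0 κ₀ ρ x : ℝ) : ℂ) • 1).PosSemidef ∧ ((M : ℂ) • 1 - Wf E x).PosSemidef) →
    ∃ (K : Mat N) (Z : ℝ → Mat N), K * K ∈ box N κ₀ R ∧ Ric (-ρ) ρ K (Wf (K * K)) Z

/-- the matrix `D = ∫ U^* W U - ∫ U'^* U'` -/
noncomputable def Dmat {m N : ℕ} (W : ℝ → Mat m) (u u' : Fin N → ℝ → Fin m → ℂ) : Mat N :=
  of fun j k => ip (u j) (fun x => W x *ᵥ u k x) - ip (u' j) (u' k)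

/-- M9: the sharp inequality for nice potentials. -/
def CoreFact : Prop :=
  ∀ (m N : ℕ) (s ρ : ℝ) (W : ℝ → Mat m) (u u' : Fin N → ℝ → Fin m → ℂ), 0 < s → s < 1 → 0 < ρ →
    (∀ i j, Continuous fun x => W x i j) → (∀ x, (W x).PosSemidef) → (∀ x, ρ ≤ |x| → W x = 0) →
    (∀ j, IsH1 (u j) (u' j)) → (∀ j k, ip (u j) (u k) = if j = k then 1 else 0) →
    (Dmat W u u').PosDef →
    Cs s * trPow (Dmat W u u') (s + 1 / 2) ≤ ∫ x, trPow (W x) (1 + s)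

/-- M10: the upper bound. -/
def UpFact : Prop :=
  ∀ (m : ℕ) (s : ℝ), 0 < s → s < 1 → LT (s + 1 / 2) m ≤ ENNReal.ofReal (1 / Cs s)

/-- M11: the lower bound. -/
def LowFact : Prop :=
  ∀ s : ℝ, 0 < s → s < 1 → (∀ m : ℕ, 1 ≤ m → ENNReal.ofReal (1 / Cs s) ≤ LT (s + 1 / 2) m) ∧
    ENNReal.ofReal (1 / Cs s) ≤ LTone (s + 1 / 2)

/-- M12: the constant. -/
def ConstFact : Prop :=
  ∀ s : ℝ, 0 < s → s < 1 → 1 / Cs s =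
    2 * ((s + 1 / 2 - 1 / 2) / (s + 1 / 2 + 1 / 2)) ^ (s + 1 / 2 - 1 / 2) * Lcl (s + 1 / 2)

end Vale.Agent.P371.G
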