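import Vale.Agent.P371.Low
import Vale.Agent.P371.G.Iface

/-!
# P371: calculus of `q(x) = (cosh x)^(-s)`
-/

open MeasureTheory Matrix Filter Topology
open scoped ENNReal ComplexOrder

namespace Vale.Agent.P371.G

/-- `q(x) = (cosh x)^(-s)`. -/
noncomputable def sq (s x : ℝ) : ℝ := Real.cosh x ^ (-s)

/-- The derivative of `q`. -/
noncomputable def sd (s x : ℝ) : ℝ := -s * (Real.sinh x / Real.cosh x) * sq s x

/-- The second derivative of `q`. -/
noncomputable def sdd (s x : ℝ) : ℝ := s ^ 2 * sq s x - s * (1 + s) * (Real.cosh x ^ 2)⁻¹ * sq s x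

lemma sq_pos (s x : ℝ) : 0 < sq s x := Real.rpow_pos_of_pos (Real.cosh_pos x) _

lemma hasDerivAt_sq (s x : ℝ) : HasDerivAt (sq s) (sd s x) x := by
  have hc := Real.cosh_pos x
  have h := (Real.hasDerivAt_cosh x).rpow_const (p := -s) (Or.inl hc.ne')
  refine h.congr_deriv ?_
  unfold sd sq
  rw [show -s - 1 = -s + (-1) by ring, Real.rpow_add hc, Real.rpow_neg_one]
  field_simp

lemma hasDerivAt_tanh' (x : ℝ) :
    HasDerivAt (fun x => Real.sinh x / Real.cosh x) ((Real.cosh x ^ 2)⁻¹) x := by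
  have hc := Real.cosh_pos x
  have h := (Real.hasDerivAt_sinh x).div (Real.hasDerivAt_cosh x) hc.ne'
  refine h.congr_deriv ?_
  have := Real.cosh_sq x
  field_simp
  linarith

lemma hasDerivAt_sd (s x : ℝ) : HasDerivAt (sd s) (sdd s x) x := by
  have hc := Real.cosh_pos x
  have h := ((hasDerivAt_tanh' x).const_mul (-s)).mul (hasDerivAt_sq s x)
  refine h.congr_deriv ?_
  have h1 : (Real.sinh x / Real.cosh x) ^ 2 = 1 - (Real.cosh x ^ 2)⁻¹ := by
    have := Real.cosh_sq x
    field_simp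
    linarith
  unfold sdd sd
  have h2 : -s * (Real.sinh x / Real.cosh x) * (-s * (Real.sinh x / Real.cosh x) * sq s x)
      = s ^ 2 * (Real.sinh x / Real.cosh x) ^ 2 * sq s x := by ring
  rw [h2, h1]
  ring

lemma continuous_sq (s : ℝ) : Continuous (sq s) :=
  continuous_iff_continuousAt.2 fun x => (hasDerivAt_sq s x).continuousAt

lemma continuous_sd (s : ℝ) : Continuous (sd s) :=
  continuous_iff_continuousAt.2 fun x => (hasDerivAt_sd s x).continuousAt

lemma continuous_cosh2_inv : Continuous fun x => (Real.cosh x ^ 2)⁻¹ := by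
  have : ∀ x, Real.cosh x ^ 2 ≠ 0 := fun x => by have := Real.cosh_pos x; positivity
  exact (Real.continuous_cosh.pow 2).inv₀ this

lemma continuous_sdd (s : ℝ) : Continuous (sdd s) := by
  have h1 := continuous_sq s
  have h2 := continuous_cosh2_inv
  unfold sdd
  exact (continuous_const.mul h1).sub ((continuous_const.mul h2).mul h1)

lemma exp_abs_div_two_le (x : ℝ) : Real.exp |x| / 2 ≤ Real.cosh x := by
  rw [← Real.cosh_abs, Real.cosh_eq]
  have := Real.exp_pos (-|x|)
  linarith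

lemma sq_le {s : ℝ} (hs : 0 < s) (x : ℝ) : sq s x ≤ 2 ^ s * Real.exp (-(s * |x|)) := by
  have h1 := exp_abs_div_two_le x
  have h2 : 0 < Real.exp |x| / 2 := by positivity
  have h3 : Real.cosh x ^ (-s) ≤ (Real.exp |x| / 2) ^ (-s) :=
    Real.rpow_le_rpow_of_nonpos h2 h1 (by linarith)
  refine h3.trans (le_of_eq ?_)
  rw [Real.div_rpow (Real.exp_pos _).le (by norm_num), ← Real.exp_mul, Real.rpow_neg (by norm_num)]
  rw [div_inv_eq_mul, mul_comm]
  congr 2
  ring

lemma tanh_sq_le (x : ℝ) : |Real.sinh x / Real.cosh x| ≤ 1 := by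
  have hc := Real.cosh_pos x
  rw [abs_div, abs_of_pos hc, div_le_one hc]
  apply abs_le_of_sq_le_sq _ hc.le
  have := Real.cosh_sq x
  linarith

lemma sd_le {s : ℝ} (hs : 0 < s) (x : ℝ) : |sd s x| ≤ s * 2 ^ s * Real.exp (-(s * |x|)) := by
  unfold sd
  rw [abs_mul, abs_mul, abs_neg, abs_of_pos hs, abs_of_pos (sq_pos s x)]
  have h1 := tanh_sq_le x
  have h2 := sq_le hs x
  have h3 := sq_pos s x
  calc s * |Real.sinh x / Real.cosh x| * sq s x ≤ s * 1 * (2 ^ s * Real.exp (-(s * |x|))) := by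
        gcongr
    _ = _ := by ring

lemma cosh2_inv_le (x : ℝ) : (Real.cosh x ^ 2)⁻¹ ≤ 1 := by
  apply inv_le_one_of_one_le₀
  have := Real.one_le_cosh x
  nlinarith

lemma cosh2_inv_pos (x : ℝ) : 0 < (Real.cosh x ^ 2)⁻¹ := by
  have := Real.cosh_pos x
  positivity

lemma sdd_le {s : ℝ} (hs : 0 < s) (x : ℝ) :
    |sdd s x| ≤ (s ^ 2 + s * (1 + s)) * 2 ^ s * Real.exp (-(s * |x|)) := by
  unfold sdd
  have h1 := cosh2_inv_le x
  have h0 := cosh2_inv_pos x
  have h2 := sq_le hs x
  have h3 := sq_pos s x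
  refine (abs_sub _ _).trans ?_
  rw [abs_of_pos (by positivity), abs_of_pos (by positivity)]
  calc s ^ 2 * sq s x + s * (1 + s) * (Real.cosh x ^ 2)⁻¹ * sq s x
      ≤ s ^ 2 * (2 ^ s * Real.exp (-(s * |x|)))
        + s * (1 + s) * 1 * (2 ^ s * Real.exp (-(s * |x|))) := by
        gcongr
    _ = _ := by ring

lemma integrable_exp_neg_abs {a : ℝ} (ha : 0 < a) :
    Integrable fun x : ℝ => Real.exp (-(a * |x|)) := by
  have h1 : IntegrableOn (fun x : ℝ => Real.exp (-(a * |x|))) (Set.Ioi 0) := by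
    have := integrableOn_exp_mul_Ioi (a := -a) (by linarith) 0
    refine this.congr_fun (fun x hx => ?_) measurableSet_Ioi
    rw [Set.mem_Ioi] at hx
    simp only [abs_of_pos hx]
    congr 1
    ring
  have h2 : IntegrableOn (fun x : ℝ => Real.exp (-(a * |x|))) (Set.Iic 0) := by
    have := integrableOn_exp_mul_Iic (a := a) ha 0
    refine this.congr_fun (fun x hx => ?_) measurableSet_Iic
    rw [Set.mem_Iic] at hx
    simp only [abs_of_nonpos hx]
    congr 1
    ring
  have := h2.union h1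
  rwa [Set.Iic_union_Ioi, integrableOn_univ] at this

lemma memLp_of_exp_bound {g : ℝ → ℝ} (hg : Continuous g) {s C : ℝ} (hs : 0 < s)
    (hb : ∀ x, |g x| ≤ C * Real.exp (-(s * |x|))) : MemLp g 2 := by
  rw [memLp_two_iff_integrable_sq hg.aestronglyMeasurable]
  refine Integrable.mono' ((integrable_exp_neg_abs (a := 2 * s) (by linarith)).const_mul (C ^ 2))
    (hg.pow 2).aestronglyMeasurable ?_
  refine Eventually.of_forall fun x => ?_
  rw [Real.norm_of_nonneg (by positivity), ← sq_abs]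
  have h1 := hb x
  have h2 := abs_nonneg (g x)
  calc |g x| ^ 2 ≤ (C * Real.exp (-(s * |x|))) ^ 2 := by gcongr
    _ = C ^ 2 * Real.exp (-(2 * s * |x|)) := by
        rw [mul_pow, ← Real.exp_nat_mul]
        push_cast
        congr 2
        ring

lemma memLp_sq {s : ℝ} (hs : 0 < s) : MemLp (sq s) 2 :=
  memLp_of_exp_bound (continuous_sq s) hs fun x => by
    rw [abs_of_pos (sq_pos s x)]; exact sq_le hs x

lemma memLp_sd {s : ℝ} (hs : 0 < s) : MemLp (sd s) 2 :=
  memLp_of_exp_bound (continuous_sd s) hs fun x => sd_le hs x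

lemma memLp_sdd {s : ℝ} (hs : 0 < s) : MemLp (sdd s) 2 :=
  memLp_of_exp_bound (continuous_sdd s) hs fun x => sdd_le hs x

/-- `|x| |q'(x)|` tends to `0`. -/
lemma tendsto_lin_mul_sd {s : ℝ} (hs : 0 < s) (C : ℝ) (l : Filter ℝ)
    (hl : Tendsto (fun x : ℝ => |x|) l atTop) :
    Tendsto (fun x => (C + |x|) * |sd s x|) l (𝓝 0) := by
  have h4 : Tendsto (fun t : ℝ => (|C| + t) * (s * 2 ^ s * Real.exp (-(s * t)))) atTop (𝓝 0) := by
    have e0 : Tendsto (fun t : ℝ => Real.exp (-(s * t))) atTop (𝓝 0) :=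
      Real.tendsto_exp_neg_atTop_nhds_zero.comp (tendsto_id.const_mul_atTop hs)
    have e1 : Tendsto (fun t : ℝ => (s * t) ^ 1 * Real.exp (-(s * t))) atTop (𝓝 0) :=
      (Real.tendsto_pow_mul_exp_neg_atTop_nhds_zero 1).comp (tendsto_id.const_mul_atTop hs)
    have := (e0.const_mul (|C| * (s * 2 ^ s))).add (e1.const_mul (2 ^ s))
    simp only [mul_zero, add_zero] at this
    refine this.congr fun t => ?_
    ring
  refine squeeze_zero_norm (fun x => ?_) (h4.comp hl)
  simp only [Function.comp_apply]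
  rw [norm_mul, Real.norm_eq_abs, Real.norm_eq_abs, abs_abs]
  refine mul_le_mul ?_ (sd_le hs x) (abs_nonneg _) (by positivity)
  refine (abs_add_le _ _).trans ?_
  rw [abs_abs]

/-! ### The integral `∫ sech^(2+2s) = ∫_{-1}^1 (1-z²)^s` -/

lemma cosh2_inv_eq (x : ℝ) : (Real.cosh x ^ 2)⁻¹ = 1 - Real.tanh x ^ 2 := by
  have hc := Real.cosh_pos x
  rw [Real.tanh_eq_sinh_div_cosh, div_pow]
  have := Real.cosh_sq x
  field_simp
  linarith

lemma integral_tanh (s : ℝ) :
    ∫ x, ((Real.cosh x ^ 2)⁻¹) ^ (1 + s) = Bs s := by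
  have h1 := integral_image_eq_integral_abs_deriv_smul (s := Set.univ) (f := Real.tanh)
    (f' := fun x => (Real.cosh x ^ 2)⁻¹) MeasurableSet.univ
    (fun x _ => by
      have := hasDerivAt_tanh' x
      have h2 : (fun x => Real.sinh x / Real.cosh x) = Real.tanh := by
        funext y; rw [Real.tanh_eq_sinh_div_cosh]
      rw [h2] at this
      exact this.hasDerivWithinAt) Real.tanh_injective.injOn (fun z => (1 - z ^ 2) ^ s)
  rw [Real.tanh_bijOn.image_eq] at h1
  unfold Bs
  rw [intervalIntegral.integral_of_le (by norm_num), integral_Ioc_eq_integral_Ioo, h1,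
    setIntegral_univ]
  congr 1
  funext x
  rw [← cosh2_inv_eq, abs_of_pos (cosh2_inv_pos x), smul_eq_mul,
    Real.rpow_add (cosh2_inv_pos x), Real.rpow_one]

lemma sq_rpow (s x : ℝ) : ((Real.cosh x ^ 2)⁻¹) ^ (1 + s) = Real.cosh x ^ (-(2 * (1 + s))) := by
  have hc := Real.cosh_pos x
  rw [Real.inv_rpow (by positivity), ← Real.rpow_natCast, ← Real.rpow_mul hc.le,
    ← Real.rpow_neg hc.le]
  norm_num

lemma integrable_sech {s : ℝ} (hs : 0 < s) :
    Integrable fun x => ((Real.cosh x ^ 2)⁻¹) ^ (1 + s) := by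
  have h := (memLp_sq (s := 1 + s) (by linarith)).integrable_sq
  refine h.congr (Eventually.of_forall fun x => ?_)
  simp only
  rw [sq_rpow]
  unfold sq
  rw [← Real.rpow_mul_natCast (Real.cosh_pos x).le]
  congr 1
  push_cast
  ring

lemma Bs_pos {s : ℝ} (hs : 0 < s) : 0 < Bs s := by
  rw [← integral_tanh]
  rw [integral_pos_iff_support_of_nonneg]
  · have : Function.support (fun x => ((Real.cosh x ^ 2)⁻¹) ^ (1 + s)) = Set.univ := by
      ext x
      simp only [Function.mem_support, Set.mem_univ, iff_true]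
      exact (Real.rpow_pos_of_pos (cosh2_inv_pos x) _).ne'
    rw [this]
    simp
  · intro x
    exact (Real.rpow_pos_of_pos (cosh2_inv_pos x) _).le
  · exact integrable_sech hs

lemma integrable_sq_sq {s : ℝ} (hs : 0 < s) : Integrable fun x => sq s x ^ 2 :=
  (memLp_sq hs).integrable_sq

lemma integral_sq_sq_pos {s : ℝ} (hs : 0 < s) : 0 < ∫ x, sq s x ^ 2 := by
  rw [integral_pos_iff_support_of_nonneg]
  · have : Function.support (fun x => sq s x ^ 2) = Set.univ := by
      ext x
      simp only [Function.mem_support, Set.mem_univ, iff_true]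
      have := sq_pos s x
      positivity
    rw [this]
    simp
  · intro x
    positivity
  · exact integrable_sq_sq hs

end Vale.Agent.P371.G
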