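import Vale.Agent.P371.G.ScalarB
import Vale.Agent.P371.G.LowCalc

/-!
# P371: the scalar integrals with `log (1 + g / t)`
-/

open MeasureTheory Set

namespace Vale.Agent.P371.G

theorem logOne_integrable {s : ℝ} (hs0 : 0 < s) (hs1 : s < 1) :
    IntegrableOn (fun t : ℝ => t ^ (s - 1) * Real.log (1 + 1 / t)) (Ioi 0) := by
  have hmeas : Measurable fun t : ℝ => t ^ (s - 1) * Real.log (1 + 1 / t) := by fun_prop
  rw [← Ioc_union_Ioi_eq_Ioi (zero_le_one (α := ℝ))]
  refine IntegrableOn.union ?_ ?_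
  · have h1 : IntegrableOn (fun t : ℝ => 2 ^ (s / 2) / (s / 2) * t ^ (s / 2 - 1)) (Ioc 0 1) := by
      have h2 : IntervalIntegrable (fun t : ℝ => t ^ (s / 2 - 1)) volume 0 1 :=
        intervalIntegral.intervalIntegrable_rpow' (by linarith)
      exact ((intervalIntegrable_iff_integrableOn_Ioc_of_le zero_le_one).1 h2).const_mul _
    refine Integrable.mono' h1 hmeas.aestronglyMeasurable ?_
    refine (ae_restrict_iff' measurableSet_Ioc).2 (Filter.Eventually.of_forall fun t ht => ?_)
    have ht0 : 0 < t := ht.1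
    have hl : 0 ≤ Real.log (1 + 1 / t) := Real.log_nonneg (by have := one_div_pos.2 ht0; linarith)
    rw [Real.norm_of_nonneg (mul_nonneg (Real.rpow_nonneg ht0.le _) hl)]
    have h3 : Real.log (1 + 1 / t) ≤ (2 / t) ^ (s / 2) / (s / 2) := by
      refine (Real.log_le_log (by positivity) ?_).trans
        (Real.log_le_rpow_div (by positivity) (by positivity))
      have h5 : 1 ≤ 1 / t := by rw [le_div_iff₀ ht0]; linarith [ht.2]
      have h6 : 2 / t = 1 / t + 1 / t := by ring
      linarith
    calc t ^ (s - 1) * Real.log (1 + 1 / t) ≤ t ^ (s - 1) * ((2 / t) ^ (s / 2) / (s / 2)) :=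
          mul_le_mul_of_nonneg_left h3 (Real.rpow_nonneg ht0.le _)
      _ = 2 ^ (s / 2) / (s / 2) * t ^ (s / 2 - 1) := by
          have e : t ^ (s / 2 - 1) = t ^ (s - 1) / t ^ (s / 2) := by
            rw [← Real.rpow_sub ht0]
            congr 1
            ring
          rw [Real.div_rpow (by norm_num) ht0.le, e]
          ring
  · have h1 : IntegrableOn (fun t : ℝ => t ^ (s - 2)) (Ioi 1) :=
      integrableOn_Ioi_rpow_of_lt (by linarith) zero_lt_one
    refine Integrable.mono' h1 hmeas.aestronglyMeasurable ?_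
    refine (ae_restrict_iff' measurableSet_Ioi).2 (Filter.Eventually.of_forall fun t ht => ?_)
    have ht1 : 1 < t := ht
    have ht0 : 0 < t := by linarith
    have hl : 0 ≤ Real.log (1 + 1 / t) := Real.log_nonneg (by have := one_div_pos.2 ht0; linarith)
    rw [Real.norm_of_nonneg (mul_nonneg (Real.rpow_nonneg ht0.le _) hl)]
    have h3 : Real.log (1 + 1 / t) ≤ 1 / t := by
      have := Real.log_le_sub_one_of_pos (show 0 < 1 + 1 / t by positivity)
      linarith
    calc t ^ (s - 1) * Real.log (1 + 1 / t) ≤ t ^ (s - 1) * (1 / t) :=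
          mul_le_mul_of_nonneg_left h3 (Real.rpow_nonneg ht0.le _)
      _ = t ^ (s - 2) := by
          have e : t ^ (s - 2) = t ^ (s - 1) / t := by
            rw [← Real.rpow_sub_one ht0.ne']
            congr 1
            ring
          rw [e]
          ring

theorem c0_pos {s : ℝ} (hs0 : 0 < s) (hs1 : s < 1) : 0 < c0 s := by
  have hpos : ∀ t ∈ Ioi (0 : ℝ), 0 < t ^ (s - 1) * Real.log (1 + 1 / t) := by
    intro t ht
    have ht0 : 0 < t := ht
    exact mul_pos (Real.rpow_pos_of_pos ht0 _)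
      (Real.log_pos (by have := one_div_pos.2 ht0; linarith))
  unfold c0
  rw [setIntegral_pos_iff_support_of_nonneg_ae ?_ (logOne_integrable hs0 hs1)]
  · have h1 : Ioi (0 : ℝ) ⊆ Function.support (fun t : ℝ => t ^ (s - 1) * Real.log (1 + 1 / t)) ∩
        Ioi 0 := fun t ht => ⟨(hpos t ht).ne', ht⟩
    refine lt_of_lt_of_le ?_ (measure_mono h1)
    simp
  · refine (ae_restrict_iff' measurableSet_Ioi).2 (Filter.Eventually.of_forall fun t ht => ?_)
    exact (hpos t ht).le

theorem logInt_both {s g : ℝ} (hs0 : 0 < s) (hs1 : s < 1) (hg : 0 ≤ g) :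
    IntegrableOn (fun t : ℝ => t ^ (s - 1) * Real.log (1 + g / t)) (Ioi 0) ∧
      ∫ t in Ioi (0 : ℝ), t ^ (s - 1) * Real.log (1 + g / t) = c0 s * g ^ s := by
  rcases hg.eq_or_lt with rfl | hg
  · simp [Real.zero_rpow hs0.ne']
  have e : ∀ t ∈ Ioi (0 : ℝ), t ^ (s - 1) * Real.log (1 + g / t) =
      g ^ (s - 1) * (fun u : ℝ => u ^ (s - 1) * Real.log (1 + 1 / u)) (g⁻¹ * t) := by
    intro t ht
    have ht0 : 0 < t := ht
    simp only
    rw [← mul_assoc, ← Real.mul_rpow hg.le (by positivity), mul_inv_cancel_left₀ hg.ne']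
    congr 3
    field_simp
  have hi := logOne_integrable hs0 hs1
  have hi2 := (integrableOn_Ioi_comp_mul_left_iff
    (fun u : ℝ => u ^ (s - 1) * Real.log (1 + 1 / u)) 0 (inv_pos.2 hg)).2 (by rwa [mul_zero])
  refine ⟨(integrableOn_congr_fun e measurableSet_Ioi).2 (hi2.const_mul _), ?_⟩
  rw [setIntegral_congr_fun measurableSet_Ioi e, integral_const_mul,
    integral_comp_mul_left_Ioi (fun u : ℝ => u ^ (s - 1) * Real.log (1 + 1 / u)) 0
      (inv_pos.2 hg), mul_zero, inv_inv, smul_eq_mul, ← mul_assoc]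
  unfold c0
  have h2 : g ^ (s - 1) * g = g ^ s := by
    rw [← Real.rpow_add_one hg.ne']
    congr 1
    ring
  rw [h2, mul_comm]

theorem hasDerivAt_prim {t y : ℝ} (ht : 0 < t) (hy : 0 ≤ y) :
    HasDerivAt (fun y => (y + t) * Real.log (1 + y / t) - y) (Real.log (1 + y / t)) y := by
  have h1 : HasDerivAt (fun y : ℝ => 1 + y / t) (1 / t) y := by
    have := ((hasDerivAt_id y).div_const t).const_add 1
    simpa using this
  have hp : 0 < 1 + y / t := by positivity
  have h2 := ((((hasDerivAt_id y).add_const t).mul (h1.log hp.ne')).sub (hasDerivAt_id y))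
  have e : (1 : ℝ) * Real.log (1 + y / t) + (id y + t) * (1 / t / (1 + y / t)) - 1 =
      Real.log (1 + y / t) := by
    have h3 : (id y + t) * (1 / t / (1 + y / t)) = 1 := by
      simp only [id]
      have : t + y ≠ 0 := by positivity
      field_simp
      ring
    rw [h3]
    ring
  rw [e] at h2
  exact h2

theorem g_part {s g : ℝ} (hs0 : 0 < s) (hs1 : s < 1) (hg : 0 ≤ g) :
    IntegrableOn (fun t : ℝ => t ^ (s - 1) * ((g + t) * Real.log (1 + g / t) - g)) (Ioi 0) ∧
      ∫ t in Ioi (0 : ℝ), t ^ (s - 1) * ((g + t) * Real.log (1 + g / t) - g) =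
        c0 s * g ^ (1 + s) / (1 + s) := by
  set F : ℝ × ℝ → ℝ := fun q => q.2 ^ (s - 1) * Real.log (1 + q.1 / q.2) with hF
  have hmeas : Measurable F := by
    rw [hF]
    fun_prop
  have hnn : ∀ z ∈ Ioc (0 : ℝ) g, ∀ t ∈ Ioi (0 : ℝ), 0 ≤ F (z, t) := by
    intro z hz t ht
    have ht' : 0 < t := ht
    exact mul_nonneg (Real.rpow_nonneg ht'.le _)
      (Real.log_nonneg (by have := div_nonneg hz.1.le ht'.le; linarith))
  have hint : Integrable F ((volume.restrict (Ioc 0 g)).prod (volume.restrict (Ioi 0))) := by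
    rw [integrable_prod_iff hmeas.aestronglyMeasurable]
    refine ⟨?_, ?_⟩
    · refine (ae_restrict_iff' measurableSet_Ioc).2 (Filter.Eventually.of_forall fun z hz => ?_)
      exact (logInt_both hs0 hs1 hz.1.le).1
    · have h3 : ∀ z ∈ Ioc (0 : ℝ) g, ∫ t in Ioi (0 : ℝ), ‖F (z, t)‖ = c0 s * z ^ s := by
        intro z hz
        rw [← (logInt_both hs0 hs1 hz.1.le).2]
        refine setIntegral_congr_fun measurableSet_Ioi fun t ht => ?_
        exact Real.norm_of_nonneg (hnn z hz t ht)
      have h4 : IntegrableOn (fun z : ℝ => c0 s * z ^ s) (Ioc 0 g) := by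
        have h5 : Continuous fun z : ℝ => c0 s * z ^ s :=
          continuous_const.mul (Continuous.rpow_const continuous_id fun z => Or.inr hs0.le)
        exact (h5.integrableOn_Icc (a := 0) (b := g)).mono_set Ioc_subset_Icc_self
      exact (integrableOn_congr_fun h3 measurableSet_Ioc).2 h4
  have hz : ∀ t ∈ Ioi (0 : ℝ), t ^ (s - 1) * ((g + t) * Real.log (1 + g / t) - g) =
      ∫ z in Ioc 0 g, F (z, t) := by
    intro t ht
    have ht0 : 0 < t := ht
    rw [← intervalIntegral.integral_of_le hg]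
    simp only [hF]
    rw [intervalIntegral.integral_const_mul]
    have hc : ContinuousOn (fun y : ℝ => Real.log (1 + y / t)) (uIcc 0 g) := by
      rw [uIcc_of_le hg]
      refine ContinuousOn.log (by fun_prop) fun z hz => ?_
      have := div_nonneg hz.1 ht0.le
      linarith
    rw [intervalIntegral.integral_eq_sub_of_hasDerivAt (f := fun y => (y + t) *
      Real.log (1 + y / t) - y) (fun y hy => hasDerivAt_prim ht0 (by
        rw [uIcc_of_le hg] at hy; exact hy.1)) hc.intervalIntegrable]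
    simp
  refine ⟨(integrableOn_congr_fun hz measurableSet_Ioi).2 hint.integral_prod_right, ?_⟩
  rw [setIntegral_congr_fun measurableSet_Ioi hz]
  have hsw := integral_integral_swap (f := fun z t => F (z, t)) (μ := volume.restrict (Ioc 0 g))
    (ν := volume.restrict (Ioi 0)) hint
  rw [← hsw]
  have h7 : ∫ z in Ioc 0 g, ∫ t in Ioi (0 : ℝ), F (z, t) = ∫ z in Ioc 0 g, c0 s * z ^ s :=
    setIntegral_congr_fun measurableSet_Ioc fun z hz => (logInt_both hs0 hs1 hz.1.le).2
  rw [h7, integral_const_mul, ← intervalIntegral.integral_of_le hg,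
    integral_rpow (Or.inl (by linarith)), Real.zero_rpow (by linarith)]
  rw [add_comm 1 s]
  ring

theorem scalarFact : ScalarFact := by
  intro s hs0 hs1
  refine ⟨c0_pos hs0 hs1, Bs_pos hs0, fun g hg => g_part hs0 hs1 hg, fun k hk => ?_,
    fun k t hk ht => zeta_eq hk ht⟩
  exact zeta_part hs0 (fun g hg => (logInt_both hs0 hs1 hg).1)
    (fun g hg => (logInt_both hs0 hs1 hg).2) hk

end Vale.Agent.P371.G
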