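import Mathlib

/-!
# Topological continuation (Leray–Schauder) in finite dimension

* `no_retraction` : no `C¹` retraction onto a sphere (Milnor–Rogers volume argument);
* `zero_of_id_outside` : a continuous self-map of a finite dimensional space which is the
  identity outside a compact set has a zero;
* `leray_schauder` : homotopy continuation of zeros.
-/

namespace P371Topo

open MeasureTheory Set Metric Filter Topology
open scoped Convolution

lemma poly_integral {X : Type*} [MeasurableSpace X] (μ : Measure X) (n : ℕ)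
    (P : X → Polynomial ℝ)
    (hd : ∀ x, (P x).natDegree ≤ n) (hi : ∀ t : ℝ, Integrable (fun x => (P x).eval t) μ) :
    ∃ Q : Polynomial ℝ, ∀ t, Q.eval t = ∫ x, (P x).eval t ∂μ := by
  classical
  let v : Fin (n + 1) → ℝ := fun i => (i : ℝ)
  have hv : Set.InjOn v (Finset.univ : Finset (Fin (n + 1))) := by
    intro i _ j _ hij
    have h : ((i : ℕ) : ℝ) = ((j : ℕ) : ℝ) := hij
    exact Fin.ext (by exact_mod_cast h)
  have key : ∀ x, P x = Lagrange.interpolate Finset.univ v (fun i => (P x).eval (v i)) := by
    intro x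
    apply Lagrange.eq_interpolate hv
    refine lt_of_le_of_lt Polynomial.degree_le_natDegree ?_
    rw [Finset.card_univ, Fintype.card_fin]
    exact_mod_cast Nat.lt_succ_of_le (hd x)
  refine ⟨Lagrange.interpolate Finset.univ v (fun i => ∫ x, (P x).eval (v i) ∂μ), fun t => ?_⟩
  have h1 : ∀ x, (P x).eval t = ∑ i, (P x).eval (v i) * (Lagrange.basis Finset.univ v i).eval t := by
    intro x
    conv_lhs => rw [key x]
    rw [Lagrange.interpolate_apply, Polynomial.eval_finsetSum]
    simp
  rw [Lagrange.interpolate_apply, Polynomial.eval_finsetSum]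
  simp_rw [h1]
  rw [integral_finsetSum]
  · refine Finset.sum_congr rfl fun i _ => ?_
    rw [Polynomial.eval_mul, Polynomial.eval_C, integral_mul_const]
  · intro i _
    exact (hi (v i)).mul_const _

section NoRetract

variable {E : Type*} [NormedAddCommGroup E] [InnerProductSpace ℝ E] [FiniteDimensional ℝ E]

/-- the polynomial `t ↦ det (1 + t A)` -/
lemma exists_det_poly : ∃ n : ℕ, ∀ A : E →L[ℝ] E, ∃ P : Polynomial ℝ, P.natDegree ≤ n ∧
    ∀ t : ℝ, P.eval t = (ContinuousLinearMap.id ℝ E + t • A).det := by
  classical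
  let b := Module.finBasis ℝ E
  refine ⟨Fintype.card (Fin (Module.finrank ℝ E)), fun A => ?_⟩
  let M : Matrix _ _ ℝ := LinearMap.toMatrix b b (A : E →ₗ[ℝ] E)
  refine ⟨Matrix.det ((Polynomial.X : Polynomial ℝ) • M.map Polynomial.C
    + (1 : Matrix _ _ ℝ).map Polynomial.C), Polynomial.natDegree_det_X_add_C_le _ _, fun t => ?_⟩
  have h1 : (ContinuousLinearMap.id ℝ E + t • A).det
      = Matrix.det (LinearMap.toMatrix b b
        ((ContinuousLinearMap.id ℝ E + t • A : E →L[ℝ] E) : E →ₗ[ℝ] E)) := by
    rw [LinearMap.det_toMatrix]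
  rw [h1, ← Polynomial.coe_evalRingHom, RingHom.map_det]
  congr 1
  ext i j
  simp only [RingHom.mapMatrix_apply, Matrix.map_apply, Matrix.add_apply, Matrix.smul_apply,
    smul_eq_mul, Polynomial.coe_evalRingHom, Polynomial.eval_mul,
    Polynomial.eval_X, Polynomial.eval_C, ContinuousLinearMap.toLinearMap_add, ContinuousLinearMap.toLinearMap_smul,
    ContinuousLinearMap.coe_id, map_add, map_smul, LinearMap.toMatrix_id]
  ring

lemma det_pos_of_small {A : E →L[ℝ] E} {t C : ℝ} (hA : ‖A‖ ≤ C) (ht : 0 ≤ t) (htC : t * C < 1) :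
    0 < (ContinuousLinearMap.id ℝ E + t • A).det := by
  have hne : ∀ s ∈ Icc (0:ℝ) t, (ContinuousLinearMap.id ℝ E + s • A).det ≠ 0 := by
    intro s hs hdet
    -- not injective
    have hk : ∃ x : E, x ≠ 0 ∧ (ContinuousLinearMap.id ℝ E + s • A) x = 0 := by
      by_contra hcon
      push Not at hcon
      have hinj : Function.Injective
          ((ContinuousLinearMap.id ℝ E + s • A : E →L[ℝ] E) : E →ₗ[ℝ] E) := by
        rw [injective_iff_map_eq_zero]
        intro a ha
        by_contra hane
        exact hcon a hane ha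
      have hunit := LinearMap.isUnit_iff_ker_eq_bot
        ((ContinuousLinearMap.id ℝ E + s • A : E →L[ℝ] E) : E →ₗ[ℝ] E)
      have hu := hunit.2 (LinearMap.ker_eq_bot.2 hinj)
      have hd := (LinearMap.isUnit_iff_isUnit_det _).1 hu
      exact hd.ne_zero hdet
    obtain ⟨x, hx, hAx⟩ := hk
    have h1 : x = -(s • A x) := by
      have : x + s • A x = 0 := by simpa using hAx
      exact eq_neg_of_add_eq_zero_left this
    have hxpos : 0 < ‖x‖ := norm_pos_iff.2 hx
    have h2 : ‖x‖ ≤ s * C * ‖x‖ := by
      calc ‖x‖ = ‖s • A x‖ := by rw [← norm_neg (s • A x), ← h1]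
        _ = s * ‖A x‖ := by rw [norm_smul, Real.norm_of_nonneg hs.1]
        _ ≤ s * (‖A‖ * ‖x‖) := by gcongr; exact hs.1; exact A.le_opNorm x
        _ ≤ s * (C * ‖x‖) := by gcongr; exact hs.1
        _ = s * C * ‖x‖ := by ring
    have hC : 0 ≤ C := le_trans (norm_nonneg _) hA
    have h3 : s * C < 1 := lt_of_le_of_lt (mul_le_mul_of_nonneg_right hs.2 hC) htC
    nlinarith
  have hcont : Continuous fun s : ℝ => (ContinuousLinearMap.id ℝ E + s • A).det :=
    ContinuousLinearMap.continuous_det.comp
      (continuous_const.add (continuous_id.smul continuous_const))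
  by_contra hneg
  push Not at hneg
  have h0 : (ContinuousLinearMap.id ℝ E + (0:ℝ) • A).det = 1 := by
    rw [zero_smul, add_zero]
    exact LinearMap.det_id
  have hiv := intermediate_value_Icc' ht (hcont.continuousOn (s := Icc 0 t))
  have hmem : (0:ℝ) ∈ Icc ((ContinuousLinearMap.id ℝ E + t • A).det)
      ((ContinuousLinearMap.id ℝ E + (0:ℝ) • A).det) := ⟨hneg, by rw [h0]; norm_num⟩
  obtain ⟨s, hs, hs0⟩ := hiv hmem
  exact hne s hs hs0

/-- There is no `C¹` map onto the sphere which is the identity on the sphere. -/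
theorem no_retraction [MeasurableSpace E] [BorelSpace E] (r : E → E) (hr : ContDiff ℝ 1 r)
    (R : ℝ) (hR : 0 < R) (h1 : ∀ x, ‖r x‖ = R) (h2 : ∀ x, ‖x‖ = R → r x = x) : False := by
  classical
  let μ : Measure E := volume
  let g : E → E := fun x => r x - x
  have hg : ContDiff ℝ 1 g := hr.sub contDiff_id
  have hgd : ∀ x, DifferentiableAt ℝ g x := fun x => (hg.differentiable one_ne_zero) x
  have hfc : Continuous (fderiv ℝ g) := hg.continuous_fderiv one_ne_zero
  have hBc : IsCompact (closedBall (0 : E) R) := isCompact_closedBall _ _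
  obtain ⟨C0, hC0⟩ := hBc.exists_bound_of_continuousOn hfc.continuousOn
  set C : ℝ := max C0 1 with hCdef
  have hC1 : 1 ≤ C := le_max_right _ _
  have hCpos : 0 < C := by linarith
  have hC : ∀ x ∈ closedBall (0 : E) R, ‖fderiv ℝ g x‖ ≤ C := fun x hx =>
    (hC0 x hx).trans (le_max_left _ _)
  have hlip : ∀ x ∈ closedBall (0 : E) R, ∀ y ∈ closedBall (0 : E) R,
      ‖g x - g y‖ ≤ C * ‖x - y‖ := by
    intro x hx y hy
    exact Convex.norm_image_sub_le_of_norm_fderiv_le (fun z _ => hgd z) hC
      (convex_closedBall _ _) hy hx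
  obtain ⟨n, hn⟩ := exists_det_poly (E := E)
  choose P hPdeg hPeval using hn
  -- the volume polynomial
  have hint : ∀ t : ℝ, Integrable (fun x => (P (fderiv ℝ g x)).eval t)
      (μ.restrict (ball (0 : E) R)) := by
    intro t
    have hc : Continuous fun x => (P (fderiv ℝ g x)).eval t := by
      simp_rw [hPeval]
      exact ContinuousLinearMap.continuous_det.comp
        (continuous_const.add (hfc.const_smul t))
    have := (hc.continuousOn (s := closedBall (0 : E) R)).integrableOn_compact (μ := μ) hBc
    exact this.mono_set ball_subset_closedBall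
  obtain ⟨Q, hQ⟩ := poly_integral (μ.restrict (ball (0 : E) R)) n
    (fun x => P (fderiv ℝ g x)) (fun x => hPdeg _) hint
  have hvol : 0 < (μ (ball (0 : E) R)).toReal := by
    refine ENNReal.toReal_pos (measure_ball_pos _ _ hR).ne' measure_ball_lt_top.ne
  -- small times
  have hsmall : ∀ t : ℝ, 0 < t → t * C < 1 → Q.eval t = (μ (ball (0 : E) R)).toReal := by
    intro t ht htC
    have ht1 : t < 1 := by nlinarith
    let f : E → E := fun x => x + t • g x
    have hfcont : Continuous f := continuous_id.add (continuous_const.smul hg.continuous)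
    have hinj : InjOn f (closedBall (0 : E) R) := by
      intro x hx y hy hxy
      have h3 : x - y = -(t • (g x - g y)) := by
        have : x + t • g x = y + t • g y := hxy
        have h4 : x - y = t • g y - t • g x := by
          rw [sub_eq_sub_iff_add_eq_add]; rw [this]; abel
        rw [h4]; module
      have h5 : ‖x - y‖ ≤ t * (C * ‖x - y‖) := by
        calc ‖x - y‖ = t * ‖g x - g y‖ := by
              conv_lhs => rw [h3]
              rw [norm_neg, norm_smul, Real.norm_of_nonneg ht.le]
          _ ≤ t * (C * ‖x - y‖) := by gcongr; exact hlip x hx y hy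
      have h6 : ‖x - y‖ = 0 := by
        have := norm_nonneg (x - y)
        nlinarith
      exact sub_eq_zero.1 (norm_eq_zero.1 h6)
    have hUopen : IsOpen (f '' ball (0 : E) R) := by
      obtain ⟨c, hc⟩ : ∃ c : NNReal, (c : ℝ) = t * C := ⟨⟨t * C, by positivity⟩, rfl⟩
      have happ : ApproximatesLinearOn f
          ((ContinuousLinearEquiv.refl ℝ E : E ≃L[ℝ] E) : E →L[ℝ] E) (ball (0 : E) R)
          c := by
        intro x hx y hy
        have h3 : f x - f y - ((ContinuousLinearEquiv.refl ℝ E : E ≃L[ℝ] E) : E →L[ℝ] E) (x - y)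
            = t • (g x - g y) := by
          simp only [f, ContinuousLinearEquiv.coe_coe, ContinuousLinearEquiv.refl_apply]
          module
        rw [h3, norm_smul, Real.norm_of_nonneg ht.le]
        have := hlip x (ball_subset_closedBall hx) y (ball_subset_closedBall hy)
        calc t * ‖g x - g y‖ ≤ t * (C * ‖x - y‖) := by gcongr
          _ = c * ‖x - y‖ := by rw [hc]; ring
      refine happ.open_image (ContinuousLinearEquiv.toNonlinearRightInverse _) isOpen_ball ?_
      rcases subsingleton_or_nontrivial E with hE | hE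
      · exact Or.inl hE
      · right
        have hN : (ContinuousLinearEquiv.toNonlinearRightInverse
            (ContinuousLinearEquiv.refl ℝ E)).nnnorm = 1 := by
          simp [ContinuousLinearEquiv.toNonlinearRightInverse]
        rw [hN, inv_one, ← NNReal.coe_lt_coe, hc]
        exact_mod_cast htC
    have hmaps : ∀ x ∈ ball (0 : E) R, f x ∈ ball (0 : E) R := by
      intro x hx
      rw [mem_ball_zero_iff] at hx ⊢
      have h3 : f x = (1 - t) • x + t • r x := by
        simp only [f, g]; rw [smul_sub, sub_smul, one_smul]; abel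
      rw [h3]
      calc ‖(1 - t) • x + t • r x‖ ≤ ‖(1 - t) • x‖ + ‖t • r x‖ := norm_add_le _ _
        _ = (1 - t) * ‖x‖ + t * R := by
          rw [norm_smul, norm_smul, Real.norm_of_nonneg ht.le, Real.norm_of_nonneg (by linarith),
            h1]
        _ < R := by nlinarith
    have himage : f '' ball (0 : E) R = ball (0 : E) R := by
      apply Subset.antisymm
      · rintro _ ⟨x, hx, rfl⟩; exact hmaps x hx
      · apply (convex_ball (0 : E) R).isPreconnected.subset_of_closure_inter_subset hUopen
        · exact ⟨f 0, hmaps 0 (mem_ball_self hR), mem_image_of_mem _ (mem_ball_self hR)⟩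
        · rintro y ⟨hy1, hy2⟩
          have hsub : closure (f '' ball (0 : E) R) ⊆ f '' closedBall (0 : E) R :=
            closure_minimal (image_mono ball_subset_closedBall) (hBc.image hfcont).isClosed
          obtain ⟨x, hx, rfl⟩ := hsub hy1
          rcases (mem_closedBall_zero_iff.1 hx).lt_or_eq with hlt | heq
          · exact ⟨x, mem_ball_zero_iff.2 hlt, rfl⟩
          · exfalso
            have hgx : f x = x := by simp [f, g, h2 x heq]
            rw [hgx, mem_ball_zero_iff] at hy2
            linarith
    have hderiv : ∀ x ∈ ball (0 : E) R, HasFDerivWithinAt f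
        (ContinuousLinearMap.id ℝ E + t • fderiv ℝ g x) (ball (0 : E) R) x := by
      intro x _
      exact ((hasFDerivAt_id x).add ((hgd x).hasFDerivAt.const_smul t)).hasFDerivWithinAt
    have hlint := lintegral_abs_det_fderiv_eq_addHaar_image μ measurableSet_ball hderiv
      (hinj.mono ball_subset_closedBall)
    rw [himage] at hlint
    rw [hQ t, ← hlint]
    simp_rw [hPeval]
    rw [integral_eq_lintegral_of_nonneg_ae]
    · congr 1
      refine setLIntegral_congr_fun measurableSet_ball ?_
      intro x hx
      have hpos := det_pos_of_small (hC x (ball_subset_closedBall hx)) ht.le htC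
      simp only
      rw [abs_of_pos hpos]
    · refine (ae_restrict_iff' measurableSet_ball).2 (Eventually.of_forall ?_)
      intro x hx
      exact (det_pos_of_small (hC x (ball_subset_closedBall hx)) ht.le htC).le
    · have := (hint t).aestronglyMeasurable
      simpa only [hPeval] using this
  -- hence the polynomial is constant
  have hconst : Q = Polynomial.C ((μ (ball (0 : E) R)).toReal) := by
    apply Polynomial.eq_of_infinite_eval_eq
    apply Set.Infinite.mono (s := Ioo (0:ℝ) (1 / C))
    · intro t ht
      simp only [Set.mem_ofPred_eq, Polynomial.eval_C]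
      refine hsmall t ht.1 ?_
      have := ht.2
      rwa [lt_div_iff₀ hCpos] at this
    · exact Ioo_infinite (by positivity)
  have hone : Q.eval 1 = 0 := by
    rw [hQ 1]
    simp_rw [hPeval]
    apply integral_eq_zero_of_ae
    refine Eventually.of_forall fun x => ?_
    simp only [one_smul, Pi.zero_apply]
    have hgr : ContinuousLinearMap.id ℝ E + fderiv ℝ g x = fderiv ℝ r x := by
      have hrd : DifferentiableAt ℝ r x := (hr.differentiable one_ne_zero) x
      have : fderiv ℝ g x = fderiv ℝ r x - ContinuousLinearMap.id ℝ E :=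
        (hrd.hasFDerivAt.sub (hasFDerivAt_id x)).fderiv
      rw [this]; abel
    rw [hgr]
    by_contra hdet
    have hrd : HasFDerivAt r (fderiv ℝ r x) x := ((hr.differentiable one_ne_zero) x).hasFDerivAt
    have hsq := hrd.norm_sq
    have hcst : HasFDerivAt (fun x => ‖r x‖ ^ 2) (0 : E →L[ℝ] ℝ) x := by
      simp_rw [h1]
      exact hasFDerivAt_const _ _
    have heq := hsq.unique hcst
    -- surjectivity
    have hsurj : Function.Surjective (fderiv ℝ r x) := by
      have hu : IsUnit ((fderiv ℝ r x : E →L[ℝ] E) : E →ₗ[ℝ] E) :=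
        (LinearMap.isUnit_iff_isUnit_det _).2 (isUnit_iff_ne_zero.2 hdet)
      have := LinearMap.range_eq_top.1 ((LinearMap.isUnit_iff_range_eq_top _).1 hu)
      exact this
    obtain ⟨v, hv⟩ := hsurj (r x)
    have := congrArg (fun L : E →L[ℝ] ℝ => L v) heq
    simp only [smul_apply, ContinuousLinearMap.comp_apply, hv,
      innerSL_apply_apply, zero_apply] at this
    rw [real_inner_self_eq_norm_sq, h1] at this
    simp at this
    linarith
  rw [hconst, Polynomial.eval_C] at hone
  linarith

/-- `C¹` version of the existence of zeros for maps which are the identity near infinity. -/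
theorem zero_of_C1 [MeasurableSpace E] [BorelSpace E] (F : E → E) (hF : ContDiff ℝ 1 F)
    (R : ℝ) (hR : 0 < R) (hid : ∀ x, R ≤ ‖x‖ → F x = x) : ∃ x, F x = 0 := by
  by_contra hcon
  push Not at hcon
  refine no_retraction (fun x => (R / ‖F x‖) • F x) ?_ R hR ?_ ?_
  · exact (contDiff_const.div (hF.norm ℝ hcon) (fun x => norm_ne_zero_iff.2 (hcon x))).smul hF
  · intro x
    have : 0 < ‖F x‖ := norm_pos_iff.2 (hcon x)
    rw [norm_smul, norm_div, norm_norm, Real.norm_of_nonneg hR.le]
    field_simp
  · intro x hx
    simp only [hid x hx.ge, hx]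
    rw [div_self hR.ne', one_smul]

theorem zero_of_continuous_aux [MeasurableSpace E] [BorelSpace E] (F : E → E) (hF : Continuous F)
    (R : ℝ) (hR : 0 < R) (hid : ∀ x, R ≤ ‖x‖ → F x = x) : ∃ x, F x = 0 := by
  by_contra hcon
  push Not at hcon
  -- lower bound
  obtain ⟨c, hc, hcF⟩ : ∃ c : ℝ, 0 < c ∧ ∀ x, c ≤ ‖F x‖ := by
    obtain ⟨x0, _, hx0⟩ := (isCompact_closedBall (0 : E) R).exists_isMinOn
      ⟨0, mem_closedBall_self hR.le⟩ (hF.norm.continuousOn)
    refine ⟨min ‖F x0‖ R, lt_min (norm_pos_iff.2 (hcon x0)) hR, fun x => ?_⟩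
    rcases le_or_gt ‖x‖ R with h | h
    · exact (min_le_left _ _).trans (hx0 (mem_closedBall_zero_iff.2 h))
    · rw [hid x h.le]
      exact (min_le_right _ _).trans h.le
  let G : E → E := fun x => F x - x
  have hG : Continuous G := hF.sub continuous_id
  have hG0 : ∀ x, R ≤ ‖x‖ → G x = 0 := fun x hx => by simp [G, hid x hx]
  have hGc : HasCompactSupport G := by
    apply HasCompactSupport.intro (isCompact_closedBall (0 : E) R)
    intro x hx
    apply hG0
    rw [mem_closedBall_zero_iff] at hx
    linarith
  have huc : UniformContinuous G := hGc.uniformContinuous_of_continuous hG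
  obtain ⟨δ, hδ, hδG⟩ := Metric.uniformContinuous_iff.1 huc (c / 2) (by linarith)
  let φ : ContDiffBump (0 : E) := ⟨δ / 2, δ, by linarith, by linarith⟩
  let H : E → E := (φ.normed volume ⋆[ContinuousLinearMap.lsmul ℝ ℝ, volume] G)
  have hH : ContDiff ℝ 1 H := by
    have h1 : ContDiff ℝ (1 : ℕ∞) H :=
      HasCompactSupport.contDiff_convolution_left _ φ.hasCompactSupport_normed
        φ.contDiff_normed hG.locallyIntegrable
    exact_mod_cast h1
  have hHc : ∀ x, ‖H x - G x‖ ≤ c / 2 := by
    intro x
    rw [← dist_eq_norm]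
    refine φ.dist_normed_convolution_le hG.aestronglyMeasurable ?_
    intro y hy
    exact (hδG (mem_ball.1 hy)).le
  have hH0 : ∀ x, R + δ ≤ ‖x‖ → H x = 0 := by
    intro x hx
    have hball : ∀ y ∈ ball x φ.rOut, G y = G x := by
      intro y hy
      have h1 : ‖x‖ - ‖y‖ ≤ ‖x - y‖ := norm_sub_norm_le x y
      have h2 : ‖x - y‖ < δ := by rw [← dist_eq_norm, dist_comm]; exact mem_ball.1 hy
      rw [hG0 x (by linarith), hG0 y (by linarith)]
    have := φ.normed_convolution_eq_right (μ := (volume : Measure E)) hball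
    rw [show H x = G x from this, hG0 x (by linarith)]
  obtain ⟨x, hx⟩ := zero_of_C1 (fun x => x + H x) (contDiff_id.add hH) (R + δ) (by linarith)
    (fun x hx => by simp [hH0 x hx])
  have h1 : F x = -(H x - G x) := by
    have h2 : x + H x = 0 := hx
    have h3 : F x = x + G x := by simp [G]
    rw [h3, neg_sub, eq_sub_iff_add_eq, add_right_comm, h2, zero_add]
  have h4 := hcF x
  rw [h1, norm_neg] at h4
  have := hHc x
  linarith

end NoRetract

/-- A continuous self-map of a finite dimensional real normed space which is the identity outside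
of a compact set has a zero. -/
theorem zero_of_id_outside {V : Type*} [NormedAddCommGroup V] [NormedSpace ℝ V]
    [FiniteDimensional ℝ V] (F : V → V) (hF : Continuous F) (K : Set V) (hK : IsCompact K)
    (hid : ∀ x, x ∉ K → F x = x) : ∃ x, F x = 0 := by
  let e : V ≃L[ℝ] EuclideanSpace ℝ (Fin (Module.finrank ℝ V)) := toEuclidean
  have hKe : IsCompact (e '' K) := hK.image e.continuous
  obtain ⟨R, hR⟩ := hKe.isBounded.exists_norm_le
  obtain ⟨x, hx⟩ := zero_of_continuous_aux (fun y => e (F (e.symm y)))
    (e.continuous.comp (hF.comp e.symm.continuous)) (max R 0 + 1)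
    (by have := le_max_right R 0; linarith)
    (fun y hy => by
      have h1 : e.symm y ∉ K := by
        intro hmem
        have h2 := hR y ⟨e.symm y, hmem, by simp⟩
        have := le_max_left R 0
        linarith
      simp [hid _ h1])
  refine ⟨e.symm x, ?_⟩
  have : e (F (e.symm x)) = e 0 := by rw [map_zero]; exact hx
  exact e.injective this

/-- Leray–Schauder continuation in finite dimension. -/
theorem leray_schauder {V : Type*} [NormedAddCommGroup V] [NormedSpace ℝ V]
    [FiniteDimensional ℝ V] (K : Set V) (hK : IsCompact K) (z0 : V) (hz : z0 ∈ interior K)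
    (h : ℝ → V → V)
    (hc : ContinuousOn (fun p : ℝ × V => h p.1 p.2) (Icc (0:ℝ) 1 ×ˢ K))
    (h0 : ∀ x ∈ K, h 0 x = x - z0)
    (hb : ∀ t ∈ Icc (0:ℝ) 1, ∀ x ∈ frontier K, h t x ≠ 0) :
    ∃ x ∈ K, h 1 x = 0 := by
  classical
  -- the set of zeros along the homotopy
  let A : Set V := Prod.snd '' {p ∈ Icc (0:ℝ) 1 ×ˢ K | h p.1 p.2 = 0}
  have hprod : IsCompact (Icc (0:ℝ) 1 ×ˢ K) := isCompact_Icc.prod hK
  have hAc : IsCompact A := by
    have hcl : IsClosed {p ∈ Icc (0:ℝ) 1 ×ˢ K | h p.1 p.2 = 0} := by
      have := hc.preimage_isClosed_of_isClosed hprod.isClosed (isClosed_singleton (x := (0 : V)))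
      convert this using 1
      ext p; rfl
    exact (hprod.of_isClosed_subset hcl (fun p hp => hp.1)).image continuous_snd
  have hdisj : Disjoint (frontier K) A := by
    rw [Set.disjoint_left]
    rintro x hx ⟨⟨t, y⟩, ⟨⟨ht, _⟩, hty⟩, rfl⟩
    exact hb t ht _ hx hty
  obtain ⟨lam, hl0, hl1, hl⟩ := exists_continuous_zero_one_of_isClosed isClosed_frontier
    hAc.isClosed hdisj
  let F : V → V := fun x => if x ∈ K then h (lam x) x else x - z0
  have hF : Continuous F := by
    apply continuous_if
    · intro x hx
      have hx' : x ∈ frontier K := hx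
      have hxK : x ∈ K := hK.isClosed.frontier_subset hx'
      rw [hl0 hx', Pi.zero_apply, h0 x hxK]
    · have : closure {x | x ∈ K} = K := hK.isClosed.closure_eq
      rw [this]
      have hmap : ContinuousOn (fun x => ((lam x, x) : ℝ × V)) K :=
        (lam.continuous.prodMk continuous_id).continuousOn
      exact hc.comp hmap (fun x hx => ⟨hl x, hx⟩)
    · exact (continuous_id.sub continuous_const).continuousOn
  obtain ⟨y, hy⟩ := zero_of_id_outside (fun y => F (y + z0))
    (hF.comp (continuous_id.add continuous_const)) ((fun x => x - z0) '' K)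
    (hK.image (continuous_id.sub continuous_const))
    (fun y hy => by
      have h1 : y + z0 ∉ K := fun hmem => hy ⟨y + z0, hmem, by simp⟩
      simp [F, h1])
  by_cases hyK : y + z0 ∈ K
  · have h1 : h (lam (y + z0)) (y + z0) = 0 := by
      simpa [F, hyK] using hy
    have h2 : y + z0 ∈ A := ⟨(lam (y + z0), y + z0), ⟨⟨hl _, hyK⟩, h1⟩, rfl⟩
    rw [hl1 h2, Pi.one_apply] at h1
    exact ⟨_, hyK, h1⟩
  · exfalso
    have h1 : y + z0 - z0 = 0 := by simpa [F, hyK] using hy
    have h2 : y + z0 = z0 := sub_eq_zero.1 h1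
    rw [h2] at hyK
    exact hyK (interior_subset hz)

/-- Brouwer: a bounded continuous self-map of a finite dimensional space has a fixed point. -/
theorem fixed_of_bounded {V : Type*} [NormedAddCommGroup V] [NormedSpace ℝ V]
    [FiniteDimensional ℝ V] (h : V → V) (hh : Continuous h) (M : ℝ) (hM : ∀ x, ‖h x‖ ≤ M) :
    ∃ x, h x = x := by
  let c : V → ℝ := fun x => max 0 (min 1 (M + 1 - ‖x‖))
  have hc : Continuous c := continuous_const.max (continuous_const.min
    (continuous_const.sub continuous_norm))
  obtain ⟨x, hx⟩ := zero_of_id_outside (fun x => x - c x • h x)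
    (continuous_id.sub (hc.smul hh)) (closedBall 0 (M + 1)) (isCompact_closedBall _ _)
    (fun x hx => by
      rw [mem_closedBall_zero_iff, not_le] at hx
      have : c x = 0 := by
        simp only [c]
        rw [max_eq_left]
        exact (min_le_right _ _).trans (by linarith)
      simp [this])
  have hx' : x = c x • h x := sub_eq_zero.1 hx
  have hc0 : 0 ≤ c x := le_max_left _ _
  have hc1 : c x ≤ 1 := max_le zero_le_one (min_le_left _ _)
  have hxM : ‖x‖ ≤ M := by
    rw [hx', norm_smul, Real.norm_of_nonneg hc0]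
    have := hM x
    have h0 := norm_nonneg (h x)
    nlinarith
  have hcx : c x = 1 := by
    simp only [c]
    rw [min_eq_left (by linarith), max_eq_right zero_le_one]
  rw [hcx, one_smul] at hx'
  exact ⟨x, hx'.symm⟩

/-- Variational inequality (Hartman–Stampacchia) on a compact convex set. -/
theorem hartman_stampacchia {V : Type*} [NormedAddCommGroup V] [InnerProductSpace ℝ V]
    [FiniteDimensional ℝ V] (K : Set V) (hK : IsCompact K) (hconv : Convex ℝ K)
    (hne : K.Nonempty) (F : V → V) (hF : ContinuousOn F K) :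
    ∃ e ∈ K, ∀ e' ∈ K, 0 ≤ inner ℝ (F e) (e' - e) := by
  -- the projection onto `K`
  have hproj : ∀ u : V, ∃ v ∈ K, ∀ w ∈ K, inner ℝ (u - v) (w - v) ≤ 0 := by
    intro u
    obtain ⟨v, hv, hv2⟩ := exists_norm_eq_iInf_of_complete_convex hne
      hK.isClosed.isComplete hconv u
    exact ⟨v, hv, (norm_eq_iInf_iff_real_inner_le_zero hconv hv).1 hv2⟩
  choose p hpK hp using hproj
  have hplip : ∀ u v, ‖p u - p v‖ ≤ ‖u - v‖ := by
    intro u v
    have h1 := hp u (p v) (hpK v)
    have h2 := hp v (p u) (hpK u)
    have h3 : ‖p u - p v‖ ^ 2 ≤ inner ℝ (u - v) (p u - p v) := by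
      have e1 : inner ℝ (u - v) (p u - p v) - ‖p u - p v‖ ^ 2
          = - (inner ℝ (u - p u) (p v - p u)) - inner ℝ (v - p v) (p u - p v) := by
        rw [← real_inner_self_eq_norm_sq, ← inner_neg_right, neg_sub, ← inner_sub_left,
          ← inner_sub_left]
        congr 1
        abel
      linarith
    have h4 : inner ℝ (u - v) (p u - p v) ≤ ‖u - v‖ * ‖p u - p v‖ := real_inner_le_norm _ _
    by_contra hcon
    push Not at hcon
    have h5 := norm_nonneg (u - v)
    nlinarith
  have hpc : Continuous p := by
    have : LipschitzWith 1 p := LipschitzWith.of_dist_le_mul fun u v => by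
      rw [dist_eq_norm, dist_eq_norm, NNReal.coe_one, one_mul]
      exact hplip u v
    exact this.continuous
  have hFp : Continuous fun x => F (p x) := by
    have := hF.comp hpc.continuousOn (s := univ) (fun x _ => hpK x)
    exact continuousOn_univ.1 this
  obtain ⟨M, hM⟩ := hK.isBounded.exists_norm_le
  obtain ⟨x, hx⟩ := fixed_of_bounded (fun x => p (p x - F (p x)))
    (hpc.comp (hpc.sub hFp)) M (fun x => hM _ (hpK _))
  have hxK : x ∈ K := by rw [← hx]; exact hpK _
  have hpx : p x = x := by
    have h1 := hp x x hxK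
    rw [real_inner_self_eq_norm_sq] at h1
    have h2 : ‖x - p x‖ = 0 := by
      have := norm_nonneg (x - p x)
      nlinarith
    exact (sub_eq_zero.1 (norm_eq_zero.1 h2)).symm
  refine ⟨x, hxK, fun e' he' => ?_⟩
  simp only [hpx] at hx
  have h1 := hp (x - F x) e' he'
  rw [hx] at h1
  have h2 : x - F x - x = -(F x) := by abel
  rw [h2, inner_neg_left] at h1
  linarith

end P371Topo
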