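import Vale.Agent.P371.G.TopPieces
import Vale.Agent.P371.G.Topo

/-!
# M8: the topological step
-/

open Matrix Set Filter Topology
open scoped ComplexOrder

namespace Vale.Agent.P371.G.Top17

open P371Mat

variable {N : ℕ}

lemma posDef_of_qf {A : Mat N} (hA : A.IsHermitian) {k : ℝ} (hk : 0 < k)
    (h : ∀ v, k * nsq v ≤ qf A v) : A.PosDef := by
  refine Matrix.PosDef.of_dotProduct_mulVec_pos hA fun v hv => ?_
  rw [Complex.lt_def]
  refine ⟨?_, ?_⟩
  · rw [Complex.zero_re]
    have h1 : nsq v ≠ 0 := fun h0 => hv (nsq_eq_zero h0)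
    have h2 : 0 < nsq v := lt_of_le_of_ne (nsq_nonneg v) (Ne.symm h1)
    exact lt_of_lt_of_le (mul_pos hk h2) (h v)
  · rw [Complex.zero_im]
    exact (hA.im_star_dotProduct_mulVec_self v).symm

/-- fixed point of the projected map -/
lemma exists_fixed {a R : ℝ} (haR : a ≤ R ^ 2) (Y1 : Mat N → Mat N)
    (hY : ContinuousOn Y1 (box2 N a (R ^ 2))) (hYH : ∀ E ∈ box2 N a (R ^ 2), (Y1 E).IsHermitian) :
    ∃ E ∈ box2 N a (R ^ 2), ∃ F : Mat N, F.IsHermitian ∧ Y1 E = E - F ∧
      E = cfc (clipf a (R ^ 2)) F := by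
  let g : Mat N → Mat N := fun E => boxp a R (boxp a R E - Y1 (boxp a R E))
  have hc : Continuous g := by
    have h1 : Continuous fun E => Y1 (boxp a R E) := by
      have := hY.comp (continuous_boxp (N := N) a R).continuousOn (s := univ)
        (fun E _ => boxp_mem haR E)
      exact continuousOn_univ.1 this
    exact (continuous_boxp a R).comp ((continuous_boxp a R).sub h1)
  let G : (Fin N → Fin N → ℂ) → (Fin N → Fin N → ℂ) := fun A i j => g (of A) i j
  have hG : Continuous G := hc
  obtain ⟨A, hA⟩ := P371Topo.fixed_of_bounded G hG (N * (|a| + R ^ 2)) (fun A => by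
    rw [pi_norm_le_iff_of_nonneg (by positivity)]
    intro i
    rw [pi_norm_le_iff_of_nonneg (by positivity)]
    intro j
    refine cfc_bound (hp_herm _) (by positivity) (fun t => ?_) i j
    have h1 : a ≤ clipf a (R ^ 2) t := le_min (le_max_right _ _) haR
    have h2 : clipf a (R ^ 2) t ≤ R ^ 2 := min_le_right _ _
    rw [abs_le]
    constructor
    · have := neg_abs_le a
      nlinarith [sq_nonneg R]
    · have := abs_nonneg a
      linarith)
  have hfix : g (of A) = of A := by
    ext i j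
    exact congrFun (congrFun hA i) j
  have hmem : (of A : Mat N) ∈ box2 N a (R ^ 2) := by
    rw [← hfix]; exact boxp_mem haR _
  have hself : boxp a R (of A) = of A := boxp_self hmem
  have hF : ((of A : Mat N) - Y1 (of A)).IsHermitian := hmem.1.sub (hYH _ hmem)
  refine ⟨of A, hmem, of A - Y1 (of A), hF, by abel, ?_⟩
  have h1 : boxp a R (boxp a R (of A) - Y1 (boxp a R (of A))) = of A := hfix
  rw [hself, boxp, hp_self hF] at h1
  exact h1.symm

/-- **M8**. -/
theorem top2Fact : Top2Fact := by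
  intro N x₀ x₁ ω δ hlt hδ Wf hWc hW
  -- constants
  set T : ℝ := x₁ - x₀ with hT
  have hT0 : 0 < T := by rw [hT]; linarith
  set b : ℝ := |ω| + δ with hb
  have hb0 : 0 < b := by have := abs_nonneg ω; rw [hb]; linarith
  set R : ℝ := b * T + 1 with hR
  have hR1 : 1 ≤ R := by rw [hR]; nlinarith [mul_pos hb0 hT0]
  have hR0 : 0 < R := by linarith
  have hbR : b * T ≤ 2 * R := by rw [hR]; nlinarith [mul_pos hb0 hT0]
  set k : ℝ := min (1 / 2) (δ * T / (2 * (2 + T))) with hk
  have hk0 : 0 < k := lt_min (by norm_num) (by positivity)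
  have hk1 : k ≤ 1 / 2 := min_le_left _ _
  have hk2 : k * (2 + T) ≤ δ * T / 2 := by
    have h1 : k ≤ δ * T / (2 * (2 + T)) := min_le_right _ _
    rw [le_div_iff₀ (by positivity)] at h1
    linarith
  have hkA : 2 * k + (k ^ 2 - δ) * T < 0 := by
    have h1 : k ^ 2 * T ≤ k * T := by
      have : k ^ 2 ≤ k := by nlinarith
      exact mul_le_mul_of_nonneg_right this hT0.le
    have h2 : 0 < δ * T := mul_pos hδ hT0
    nlinarith
  set a : ℝ := k ^ 2 with ha
  have ha0 : 0 < a := by positivity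
  have haR : a < R ^ 2 := by nlinarith
  -- boxes are positive definite
  have hboxpd : ∀ E ∈ box2 N a (R ^ 2), E.PosDef := by
    intro E hE
    refine posDef_of_qf hE.1 ha0 fun v => ?_
    have h1 := qf_nonneg hE.2.1 v
    rw [qf_sub, Flow.qf_csmul, qf_one] at h1
    linarith
  -- the potential
  let V : Mat N → ℝ → Mat N := fun E x => Wf E x + (δ : ℂ) • 1
  have hVc : ContinuousOn (fun q : Mat N × ℝ => V q.1 q.2) (box2 N a (R ^ 2) ×ˢ Icc x₀ x₁) := by
    refine ContinuousOn.add ?_ continuousOn_const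
    exact hWc.mono (prod_mono (fun E hE => hboxpd E hE) Subset.rfl)
  have hVH : ∀ E ∈ box2 N a (R ^ 2), ∀ x ∈ Icc x₀ x₁, (V E x).IsHermitian := by
    intro E hE x hx
    exact (hW E (hboxpd E hE) x hx).1.1.add (Flow.herm_csmul _ isHermitian_one)
  obtain ⟨Y, hY, hYc⟩ := odeFact N x₀ x₁ a R hlt ha0 haR hR0 V hVc hVH
  obtain ⟨E, hE, F, hF, hY1, hEF⟩ := exists_fixed haR.le (fun E => Y E x₁) hYc
    (fun E hE => (hY E hE).2.1 x₁ (right_mem_Icc.2 hlt.le))
  obtain ⟨hYl, hYH, hYd⟩ := hY E hE
  have hEpd := hboxpd E hE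
  have hEeig := box_eig hE
  set S : Mat N := cfc Real.sqrt E with hS
  have hSH : S.IsHermitian := isHermitian_cfc hE.1 _
  have hSk : ∀ v, k * nsq v ≤ qf S v := by
    intro v
    have := le_qf_cfc hE.1 (f := Real.sqrt) (α := k) (β := 0) (fun i => by
      rw [zero_mul, add_zero]
      have h1 := (hEeig i).1
      calc k = √(k ^ 2) := (Real.sqrt_sq hk0.le).symm
        _ ≤ _ := Real.sqrt_le_sqrt h1) v
    linarith
  have hSR : ∀ v, qf S v ≤ R * nsq v := by
    intro v
    have := qf_cfc_le hE.1 (f := Real.sqrt) (α := R) (β := 0) (fun i => by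
      rw [zero_mul, add_zero]
      have h1 := (hEeig i).2
      calc _ ≤ √(R ^ 2) := Real.sqrt_le_sqrt h1
        _ = R := Real.sqrt_sq hR0.le) v
    linarith
  have hSS : S * S = E := by
    rw [hS, cfc_mul_cfc hE.1]
    refine cfc_eq_self hE.1 fun i => ?_
    exact Real.mul_self_sqrt (ha0.le.trans (hEeig i).1)
  have hflow : Flow x₀ x₁ R b S (V E) (Y E) :=
    { lt := hlt
      R0 := hR0
      sH := hSH
      s0 := fun v => (mul_nonneg hk0.le (nsq_nonneg v)).trans (hSk v)
      sR := hSR
      yH := hYH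
      deriv := hYd
      left := hYl
      vH := hVH E hE
      v0 := fun x hx v => by
        have h1 := qf_nonneg (hW E hEpd x hx).1 v
        have h2 := nsq_nonneg v
        simp only [V]
        rw [qf_add, Flow.qf_csmul, qf_one]
        positivity
      vb := fun x hx v => by
        have h1 := qf_nonneg (hW E hEpd x hx).2 v
        rw [qf_sub, Flow.qf_csmul, qf_one] at h1
        have h2 := nsq_nonneg v
        have h3 := le_abs_self ω
        simp only [V]
        rw [qf_add, Flow.qf_csmul, qf_one, hb]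
        nlinarith }
  -- action on the eigenvectors of F
  have hEv : ∀ i, E *ᵥ ev hF i = ((clipf a (R ^ 2) (hF.eigenvalues i) : ℝ) : ℂ) • ev hF i := by
    intro i
    conv_lhs => rw [hEF]
    exact cfc_ev hF _ i
  have hSv : ∀ i, S *ᵥ ev hF i = ((√(clipf a (R ^ 2) (hF.eigenvalues i)) : ℝ) : ℂ) • ev hF i :=
    fun i => cfc_mulVec_eigen hE.1 _ (hEv i)
  have hYv : ∀ i, Y E x₁ *ᵥ ev hF i =
      ((clipf a (R ^ 2) (hF.eigenvalues i) - hF.eigenvalues i : ℝ) : ℂ) • ev hF i := by
    intro i
    have h1 : Y E x₁ = E - F := hY1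
    rw [h1, sub_mulVec, hEv, self_ev, ← sub_smul]
    push_cast
    rfl
  have hYq : ∀ i, qf (Y E x₁) (ev hF i) =
      clipf a (R ^ 2) (hF.eigenvalues i) - hF.eigenvalues i := by
    intro i
    rw [qf_of_eigen (hYv i), nsq_ev, mul_one]
  -- A side
  have hA : ∀ i, a ≤ hF.eigenvalues i := by
    intro i
    by_contra hcon
    push Not at hcon
    have hclip : clipf a (R ^ 2) (hF.eigenvalues i) = a := by
      rw [clipf, max_eq_right hcon.le, min_eq_left haR.le]
    have h1 := hflow.sideA (k := k) (δ := δ) (nsq_ev hF i) hk0.le (by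
      rw [hSv i, hclip, ha, Real.sqrt_sq hk0.le]) (fun x hx => by
      have h1 := qf_nonneg (hW E hEpd x hx).1 (ev hF i)
      simp only [V]
      rw [qf_add, Flow.qf_csmul, qf_one, nsq_ev]
      linarith)
    rw [hYq i, hclip] at h1
    linarith
  -- B side
  have hB : ∀ i, hF.eigenvalues i ≤ R ^ 2 := by
    by_contra hcon
    push Not at hcon
    obtain ⟨i₀, hi₀⟩ := hcon
    obtain ⟨i, _, hi⟩ := Finset.exists_max_image Finset.univ hF.eigenvalues ⟨i₀, Finset.mem_univ _⟩
    have hi1 : R ^ 2 < hF.eigenvalues i := lt_of_lt_of_le hi₀ (hi i₀ (Finset.mem_univ _))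
    set β : ℝ := hF.eigenvalues i - R ^ 2 with hβ
    have hβ0 : 0 < β := by rw [hβ]; linarith
    have hclip : ∀ j, R ^ 2 ≤ hF.eigenvalues j → clipf a (R ^ 2) (hF.eigenvalues j) = R ^ 2 := by
      intro j hj
      rw [clipf, max_eq_left (haR.le.trans hj), min_eq_right hj]
    have hclip2 : ∀ j, hF.eigenvalues j < R ^ 2 →
        hF.eigenvalues j ≤ clipf a (R ^ 2) (hF.eigenvalues j) := by
      intro j hj
      exact le_min (le_max_left _ _) hj.le
    let ind : ℝ → ℝ := fun t => if R ^ 2 ≤ t then 1 else 0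
    have hPv : ∀ j, cfc ind F *ᵥ ev hF j = ((ind (hF.eigenvalues j) : ℝ) : ℂ) • ev hF j :=
      fun j => cfc_ev hF _ j
    have hSP : S * cfc ind F = ((R : ℝ) : ℂ) • cfc ind F := by
      refine ext_ev hF fun j => ?_
      rw [← mulVec_mulVec, hPv, mulVec_smul, hSv, smul_mulVec, hPv, smul_smul, smul_smul]
      congr 1
      by_cases hj : R ^ 2 ≤ hF.eigenvalues j
      · rw [hclip j hj, Real.sqrt_sq hR0.le, mul_comm]
      · simp [ind, hj]
    have hpsd : (Y E x₁ + ((β : ℝ) : ℂ) • cfc ind F).PosSemidef := by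
      have h1 : Y E x₁ + ((β : ℝ) : ℂ) • cfc ind F =
          cfc (fun t => clipf a (R ^ 2) t - t + β * ind t) F := by
        refine ext_ev hF fun j => ?_
        rw [add_mulVec, hYv, smul_mulVec, hPv, cfc_ev, smul_smul, ← add_smul]
        push_cast
        rfl
      rw [h1]
      refine psd_cfc hF fun j => ?_
      by_cases hj : R ^ 2 ≤ hF.eigenvalues j
      · simp only [ind, hj, if_true, hclip j hj]
        have := hi j (Finset.mem_univ _)
        rw [hβ]; linarith
      · simp only [ind, hj, if_false, mul_zero, add_zero]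
        have := hclip2 j (not_le.1 hj)
        linarith
    have h1 := hflow.sideB (P := cfc ind F) (isHermitian_cfc hF _) (fun w => by
        have := qf_cfc_le hF (f := ind) (α := 1) (β := 0) (fun j => by
          simp only [ind]
          split_ifs <;> norm_num) w
        linarith) hSP hβ0.le hpsd (nsq_ev hF i) (by
          rw [hSv i, hclip i hi1.le, Real.sqrt_sq hR0.le]) (by
          rw [hYq i, hclip i hi1.le, hβ]; ring) hbR
    linarith
  have hEF2 : E = F := by
    rw [hEF]
    refine cfc_eq_self hF fun i => ?_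
    rw [clipf, max_eq_left (hA i), min_eq_left (hB i)]
  have hzero : Y E x₁ = 0 := by
    have h1 : Y E x₁ = E - F := hY1
    rw [h1, ← hEF2, sub_self]
  refine ⟨S, fun x => Y E x - S, ?_⟩
  have h1 := hflow.ric (posDef_of_qf hSH hk0 hSk) hzero
  have h2 : (fun x => Wf (S * S) x + (δ : ℂ) • (1 : Mat N)) = V E := by
    rw [hSS]
  rw [h2]
  exact h1

end Vale.Agent.P371.G.Top17
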