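import Vale.Agent.P371.G.FinalG
import Vale.Agent.P371.G.Red
import Vale.Agent.P371.G.Core
import Vale.Agent.P371.G.FE
import Vale.Agent.P371.G.HF
import Vale.Agent.P371.G.FactB4
import Vale.Agent.P371.G.Top17
import Vale.Agent.P371.G.ScalarG
import Vale.Agent.P371.G.FcCont
import Vale.Agent.P371.G.Psi22

/-!
# P371: the full one-dimensional Lieb-Thirring conjecture, `1/2 < γ < 3/2`, all `m`
-/

namespace Vale.Agent.P371.G

theorem sharp_all (γ : ℝ) (h1 : 1 / 2 < γ) (h2 : γ < 3 / 2) (m : ℕ) (hm : 1 ≤ m) :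
    LT γ m = LTone γ ∧ LT γ m = LT γ 1 ∧
      LT γ m = ENNReal.ofReal (2 * ((γ - 1 / 2) / (γ + 1 / 2)) ^ (γ - 1 / 2) * Lcl γ) :=
  sharp_all_of (upFact (kinCFact
    (feFact bFact hFact (psiFact_of fcContFact) fcContFact scalarFact)
    Top17.top2Fact fcContFact)) lowFact γ h1 h2 m hm

end Vale.Agent.P371.G
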