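import Vale.Agent.P371.G.LowCalc

/-!
# P371: the lower bound from `W(x) = s(1+s) sech² x`, `γ = s + 1/2`
-/

open MeasureTheory Matrix Filter Topology
open scoped ENNReal ComplexOrder

namespace Vale.Agent.P371.G

/-! ### Integration by parts -/

lemma ibp_interval {s : ℝ} {K K' : ℝ → ℝ} (hK' : MemLp K' 2)
    (hsub : ∀ a b : ℝ, K b - K a = ∫ x in a..b, K' x) (a b : ℝ) :
    ∫ x in a..b, (K' x * sd s x + K x * sdd s x) = K b * sd s b - K a * sd s a := by
  have hint : IntervalIntegrable K' volume a b := low_intervalIntegrable hK' a b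
  have hKe : K = fun x => K a + ∫ t in a..x, K' t := by
    funext x
    rw [← hsub a x]; ring
  have hac0 : AbsolutelyContinuousOnInterval (fun x => ∫ t in a..x, K' t) a b :=
    hint.absolutelyContinuousOnInterval_intervalIntegral (by simp)
  have hconst : AbsolutelyContinuousOnInterval (fun _ : ℝ => K a) a b := by
    have : LipschitzOnWith 0 (fun _ : ℝ => K a) (Set.uIcc a b) :=
      (LipschitzWith.const (K a)).lipschitzOnWith
    exact this.absolutelyContinuousOnInterval
  have hac : AbsolutelyContinuousOnInterval K a b := by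
    rw [hKe]
    exact hconst.add hac0
  have hqd : AbsolutelyContinuousOnInterval (sd s) a b := by
    have h1 : ContDiff ℝ 1 (sd s) := by
      rw [contDiff_one_iff_deriv]
      refine ⟨fun x => (hasDerivAt_sd s x).differentiableAt, ?_⟩
      have : deriv (sd s) = sdd s := by
        funext x; exact (hasDerivAt_sd s x).deriv
      rw [this]
      exact continuous_sdd s
    exact h1.contDiffOn.absolutelyContinuousOnInterval
  rw [← hac.integral_deriv_mul_eq_sub hqd]
  apply intervalIntegral.integral_congr_ae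
  filter_upwards [hint.ae_hasDerivAt_integral] with x hx hx2
  have h1 := (hx (Set.uIoc_subset_uIcc hx2) a (by simp)).const_add (K a)
  rw [← hKe] at h1
  rw [h1.deriv, (hasDerivAt_sd s x).deriv]

/-- Weak form of `q'' = s² q - s(1+s) sech² q` against a real `H¹` function. -/
lemma weak_real {s : ℝ} (hs : 0 < s) {K K' : ℝ → ℝ} (hK : MemLp K 2) (hK' : MemLp K' 2)
    (hsub : ∀ a b : ℝ, K b - K a = ∫ x in a..b, K' x) :
    Integrable (fun x => K' x * sd s x + K x * sdd s x) ∧
    ∫ x, (K' x * sd s x + K x * sdd s x) = 0 := by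
  have hint : Integrable (fun x => K' x * sd s x + K x * sdd s x) :=
    (hK'.integrable_mul (memLp_sd hs)).add (hK.integrable_mul (memLp_sdd hs))
  refine ⟨hint, ?_⟩
  have h1 := intervalIntegral_tendsto_integral hint tendsto_neg_atTop_atBot tendsto_id
    (l := atTop)
  obtain ⟨C, hC⟩ := low_bound hK' hsub
  have h2 : Tendsto (fun r : ℝ => K r * sd s r) atTop (𝓝 0) := by
    refine squeeze_zero_norm (fun x => ?_)
      (tendsto_lin_mul_sd hs C atTop tendsto_abs_atTop_atTop)
    rw [norm_mul, Real.norm_eq_abs, Real.norm_eq_abs]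
    exact mul_le_mul_of_nonneg_right (hC x) (abs_nonneg _)
  have h3 : Tendsto (fun r : ℝ => K (-r) * sd s (-r)) atTop (𝓝 0) := by
    have : Tendsto (fun r : ℝ => K r * sd s r) atBot (𝓝 0) := by
      refine squeeze_zero_norm (fun x => ?_)
        (tendsto_lin_mul_sd hs C atBot tendsto_abs_atBot_atTop)
      rw [norm_mul, Real.norm_eq_abs, Real.norm_eq_abs]
      exact mul_le_mul_of_nonneg_right (hC x) (abs_nonneg _)
    exact this.comp tendsto_neg_atTop_atBot
  have h4 := h2.sub h3
  rw [sub_zero] at h4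
  refine tendsto_nhds_unique h1 (h4.congr fun r => ?_)
  rw [ibp_interval hK' hsub]
  simp

/-- Weak form against a complex `H¹` function. -/
lemma weak_complex {s : ℝ} (hs : 0 < s) {k k' : ℝ → ℂ} (hk : MemLp k 2) (hk' : MemLp k' 2)
    (hsub : ∀ a b : ℝ, k b - k a = ∫ x in a..b, k' x) :
    ∫ x, (k' x * (sd s x : ℂ) + k x * (sdd s x : ℂ)) = 0 := by
  have hint1 : Integrable (fun x => k' x * (sd s x : ℂ)) := hk'.integrable_mul (memLp_sd hs).ofReal
  have hint2 : Integrable (fun x => k x * (sdd s x : ℂ)) :=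
    hk.integrable_mul (memLp_sdd hs).ofReal
  have hint := hint1.add hint2
  have hii : ∀ a b : ℝ, IntervalIntegrable k' volume a b := fun a b =>
    (hk'.locallyIntegrable (by norm_num)).integrableOn_isCompact isCompact_uIcc
      |>.intervalIntegrable
  have hre := (weak_real hs (K := fun x => (k x).re) (K' := fun x => (k' x).re) hk.re hk'.re
    (fun a b => by
      have := congrArg Complex.re (hsub a b)
      rw [Complex.sub_re] at this
      rw [this]
      exact (Complex.reCLM.intervalIntegral_comp_comm (hii a b)).symm)).2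
  have him := (weak_real hs (K := fun x => (k x).im) (K' := fun x => (k' x).im) hk.im hk'.im
    (fun a b => by
      have := congrArg Complex.im (hsub a b)
      rw [Complex.sub_im] at this
      rw [this]
      exact (Complex.imCLM.intervalIntegral_comp_comm (hii a b)).symm)).2
  apply Complex.ext
  · rw [Complex.zero_re, ← hre]
    have := Complex.reCLM.integral_comp_comm hint
    simp only [Complex.reCLM_apply, Pi.add_apply] at this
    rw [← this]
    congr 1
    funext x
    simp
  · rw [Complex.zero_im, ← him]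
    have := Complex.imCLM.integral_comp_comm hint
    simp only [Complex.imCLM_apply, Pi.add_apply] at this
    rw [← this]
    congr 1
    funext x
    simp

/-! ### The test potential -/

section
variable {m : ℕ} [NeZero m]

/-- The diagonal of the potential `s(1+s) sech² x E₀₀`. -/
noncomputable def gD (m : ℕ) [NeZero m] (s x : ℝ) (i : Fin m) : ℝ :=
  if i = 0 then s * (1 + s) * (Real.cosh x ^ 2)⁻¹ else 0

/-- The potential `s(1+s) sech² x E₀₀`. -/
noncomputable def gW (m : ℕ) [NeZero m] (s x : ℝ) : Matrix (Fin m) (Fin m) ℂ :=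
  Matrix.diagonal fun i => (gD m s x i : ℂ)

lemma trPow_gW {s : ℝ} (hs : 0 < s) (x : ℝ) :
    trPow (gW m s x) (1 + s) = (s * (1 + s)) ^ (1 + s) * ((Real.cosh x ^ 2)⁻¹) ^ (1 + s) := by
  unfold gW
  rw [trPow_diagonal]
  have h : ∀ i : Fin m, gD m s x i ^ (1 + s) =
      if i = 0 then (s * (1 + s)) ^ (1 + s) * ((Real.cosh x ^ 2)⁻¹) ^ (1 + s) else 0 := by
    intro i
    unfold gD
    split_ifs
    · rw [Real.mul_rpow (by positivity) (cosh2_inv_pos x).le]
    · rw [Real.zero_rpow (by positivity)]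
  simp_rw [h]
  simp

lemma intPow_gW {s : ℝ} (hs : 0 < s) :
    intPow (gW m s) (1 + s) = ENNReal.ofReal ((s * (1 + s)) ^ (1 + s) * Bs s) := by
  unfold intPow
  simp_rw [trPow_gW hs]
  rw [← ofReal_integral_eq_lintegral_ofReal ((integrable_sech hs).const_mul _)
    (Eventually.of_forall fun x => by have := cosh2_inv_pos x; positivity), integral_const_mul,
    integral_tanh]

lemma gW_potential {s : ℝ} (hs : 0 < s) : IsPotential (1 + s) (gW m s) where
  measurable i j := by
    unfold gW gD
    by_cases h : i = j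
    · subst h
      simp only [Matrix.diagonal_apply_eq]
      by_cases h0 : i = 0
      · simp only [h0, if_true]
        exact (Complex.continuous_ofReal.comp
          (continuous_const.mul continuous_cosh2_inv)).measurable
      · simp [h0]
    · simp [Matrix.diagonal_apply_ne _ h]
  posSemidef x := by
    unfold gW gD
    rw [Matrix.posSemidef_diagonal_iff]
    intro i
    have := cosh2_inv_pos x
    split_ifs
    · exact_mod_cast (by positivity : (0 : ℝ) ≤ s * (1 + s) * (Real.cosh x ^ 2)⁻¹)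
    · simp
  finite := by
    rw [intPow_gW hs]
    exact ENNReal.ofReal_lt_top

lemma lowE_isH1' {s : ℝ} (hs : 0 < s) (c : ℝ) :
    IsH1 (lowE m fun x => c * sq s x) (lowE m fun x => c * sd s x) where
  memLp := lowE_memLp ((memLp_sq hs).const_mul c)
  memLp_deriv := lowE_memLp ((memLp_sd hs).const_mul c)
  sub_eq a b := by
    have h : ∀ x, HasDerivAt (lowE m fun x => c * sq s x) (lowE m (fun x => c * sd s x) x) x := by
      intro x
      rw [hasDerivAt_pi]
      intro i
      unfold lowE
      by_cases h : i = 0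
      · simp only [h, if_true]
        exact ((hasDerivAt_sq s x).const_mul c).ofReal_comp
      · simp [h, hasDerivAt_const]
    rw [intervalIntegral.integral_eq_sub_of_hasDerivAt (fun x _ => h x)]
    apply Continuous.intervalIntegrable
    rw [continuous_pi_iff]
    intro i
    unfold lowE
    by_cases h : i = 0
    · simp only [h, if_true]
      exact Complex.continuous_ofReal.comp (continuous_const.mul (continuous_sd s))
    · simp [h, continuous_const]

lemma gW_mulVec (s : ℝ) (g : ℝ → ℝ) (x : ℝ) :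
    gW m s x *ᵥ lowE m g x = lowE m (fun x => s * (1 + s) * (Real.cosh x ^ 2)⁻¹ * g x) x := by
  funext i
  unfold gW lowE gD
  rw [Matrix.mulVec_diagonal]
  by_cases h : i = 0
  · simp [h]
  · simp [h]

lemma g_isEigen {s : ℝ} (hs : 0 < s) (c : ℝ) :
    IsEigen (gW m s) (-s ^ 2) (lowE m fun x => c * sq s x) := by
  refine ⟨lowE m fun x => c * sd s x, lowE_isH1' hs c, fun φ φ' hφ => ?_⟩
  simp_rw [gW_mulVec]
  rw [ip_lowE, ip_lowE, ip_lowE]
  have h0 : MemLp (fun x => star (φ x 0)) 2 := ((memLp_pi_iff.1 hφ.memLp) 0).star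
  have h1 : MemLp (fun x => star (φ' x 0)) 2 := ((memLp_pi_iff.1 hφ.memLp_deriv) 0).star
  have hsub : ∀ a b : ℝ, star (φ b 0) - star (φ a 0) = ∫ x in a..b, star (φ' x 0) := by
    intro a b
    have h := congrFun (hφ.sub_eq a b) 0
    rw [Pi.sub_apply] at h
    have hii : IntervalIntegrable φ' volume a b :=
      (hφ.memLp_deriv.locallyIntegrable (by norm_num)).integrableOn_isCompact isCompact_uIcc
        |>.intervalIntegrable
    have h2 := (ContinuousLinearMap.proj (R := ℝ) (φ := fun _ : Fin m => ℂ) 0).intervalIntegral_comp_comm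
      hii
    simp only [ContinuousLinearMap.proj_apply] at h2
    rw [← h2] at h
    rw [← star_sub, h]
    have hii0 : IntervalIntegrable (fun x => φ' x 0) volume a b :=
      (((memLp_pi_iff.1 hφ.memLp_deriv) 0).locallyIntegrable (by norm_num)).integrableOn_isCompact
        isCompact_uIcc |>.intervalIntegrable
    exact (Complex.conjCLE.toContinuousLinearMap.intervalIntegral_comp_comm hii0).symm
  have hw := weak_complex hs h0 h1 hsub
  have i1 : Integrable (fun x => star (φ' x 0) * ((c * sd s x : ℝ) : ℂ)) :=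
    h1.integrable_mul ((memLp_sd hs).const_mul c).ofReal
  have hq5 : MemLp (fun x => s * (1 + s) * (Real.cosh x ^ 2)⁻¹ * sq s x) 2 := by
    have := ((memLp_sq hs).const_mul (s ^ 2)).sub (memLp_sdd hs)
    refine this.congr_norm ?_ ?_
    · exact ((continuous_const.mul continuous_cosh2_inv).mul
        (continuous_sq s)).aestronglyMeasurable
    · refine Eventually.of_forall fun x => ?_
      simp only [Pi.sub_apply]
      congr 1
      unfold sdd
      ring
  have i2 : Integrable (fun x => star (φ x 0) *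
      ((s * (1 + s) * (Real.cosh x ^ 2)⁻¹ * (c * sq s x) : ℝ) : ℂ)) := by
    have := h0.integrable_mul (hq5.const_mul c).ofReal
    refine this.congr (Eventually.of_forall fun x => ?_)
    simp only [Pi.mul_apply]
    rw [show s * (1 + s) * (Real.cosh x ^ 2)⁻¹ * (c * sq s x)
      = c * (s * (1 + s) * (Real.cosh x ^ 2)⁻¹ * sq s x) by ring]
    rfl
  have i3 : Integrable (fun x => star (φ x 0) * ((c * sq s x : ℝ) : ℂ)) :=
    h0.integrable_mul ((memLp_sq hs).const_mul c).ofReal
  have i12 : Integrable (fun x => star (φ' x 0) * ((c * sd s x : ℝ) : ℂ)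
      - star (φ x 0) * ((s * (1 + s) * (Real.cosh x ^ 2)⁻¹ * (c * sq s x) : ℝ) : ℂ)) := i1.sub i2
  rw [← integral_sub i1 i2, ← integral_const_mul, ← sub_eq_zero, ← integral_sub i12
    (i3.const_mul _)]
  have : ∀ x, (star (φ' x 0) * ((c * sd s x : ℝ) : ℂ)
      - star (φ x 0) * ((s * (1 + s) * (Real.cosh x ^ 2)⁻¹ * (c * sq s x) : ℝ) : ℂ))
      - ((-s ^ 2 : ℝ) : ℂ) * (star (φ x 0) * ((c * sq s x : ℝ) : ℂ))
      = (c : ℂ) * (star (φ' x 0) * (sd s x : ℂ)
        + star (φ x 0) * (sdd s x : ℂ)) := by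
    intro x
    unfold sdd
    push_cast
    ring
  simp_rw [this]
  rw [integral_const_mul, hw, mul_zero]

/-- The normalization constant. -/
noncomputable def cn (s : ℝ) : ℝ := √((∫ x, sq s x ^ 2)⁻¹)

lemma g_norm {s : ℝ} (hs : 0 < s) : ip (lowE m fun x => cn s * sq s x)
    (lowE m fun x => cn s * sq s x) = 1 := by
  rw [ip_lowE]
  have hI := integral_sq_sq_pos hs
  have : ∀ x, star (lowE m (fun x => cn s * sq s x) x 0)
      * ((cn s * sq s x : ℝ) : ℂ) = (((∫ x, sq s x ^ 2)⁻¹ * sq s x ^ 2 : ℝ) : ℂ) := by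
    intro x
    unfold lowE
    simp only [if_true]
    rw [← Complex.conj_ofReal (cn s * sq s x)]
    simp only [RCLike.star_def, Complex.conj_ofReal]
    rw [← Complex.ofReal_mul]
    congr 1
    have h := Real.sq_sqrt (show (0:ℝ) ≤ (∫ x, sq s x ^ 2)⁻¹ by positivity)
    calc cn s * sq s x * (cn s * sq s x)
        = √((∫ x, sq s x ^ 2)⁻¹) ^ 2 * sq s x ^ 2 := by unfold cn; ring
      _ = _ := by rw [h]
  simp_rw [this]
  rw [integral_complex_ofReal, integral_const_mul, inv_mul_cancel₀ hI.ne', Complex.ofReal_one]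

lemma g_system {s : ℝ} (hs : 0 < s) : IsNegSystem (N := 1) (gW m s) (fun _ => -s ^ 2)
    (fun _ => lowE m fun x => cn s * sq s x) where
  neg _ := by
    have : 0 < s ^ 2 := by positivity
    linarith
  eigen _ := g_isEigen hs _
  orthonormal j k := by
    rw [Subsingleton.elim j k, if_pos rfl]
    exact g_norm hs

/-- The value `s^s / ((1+s)^(1+s) B_s)` of the one-bound-state constant, `s = γ - 1/2`. -/
noncomputable def Lval (s : ℝ) : ℝ := s ^ s / ((1 + s) ^ (1 + s) * Bs s)

lemma g_quot {s : ℝ} (hs : 0 < s) : ENNReal.ofReal (Lval s)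
    = ENNReal.ofReal (|(-s ^ 2 : ℝ)| ^ (s + 1 / 2)) / intPow (gW m s) (1 + s) := by
  have hB := Bs_pos hs
  have hp : 0 < (s * (1 + s)) ^ (1 + s) * Bs s := by positivity
  rw [intPow_gW hs, ← ENNReal.ofReal_div_of_pos hp]
  congr 1
  have h1 : |(-s ^ 2 : ℝ)| ^ (s + 1 / 2) = s ^ s * s ^ (1 + s) := by
    rw [abs_neg, abs_of_pos (by positivity), ← Real.rpow_natCast, ← Real.rpow_mul hs.le,
      ← Real.rpow_add hs]
    congr 1
    push_cast
    ring
  rw [h1]
  unfold Lval
  rw [Real.mul_rpow hs.le (by positivity)]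
  have h2 : 0 < s ^ (1 + s) := by positivity
  have h3 : 0 < (1 + s) ^ (1 + s) := by positivity
  field_simp

lemma intPow_gW_ne {s : ℝ} (hs : 0 < s) : intPow (gW m s) (1 + s) ≠ 0 := by
  rw [intPow_gW hs]
  have hB := Bs_pos hs
  have hp : 0 < (s * (1 + s)) ^ (1 + s) * Bs s := by positivity
  simpa using hp

lemma g_le_LT {s : ℝ} (hs : 0 < s) : ENNReal.ofReal (Lval s) ≤ LT (s + 1 / 2) m := by
  unfold LT
  have e : s + 1 / 2 + 1 / 2 = 1 + s := by ring
  rw [e]
  refine le_iSup_of_le (gW m s) (le_iSup_of_le (gW_potential hs)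
    (le_iSup_of_le (intPow_gW_ne hs) ?_))
  rw [g_quot (m := m) hs]
  gcongr
  unfold negTrace
  refine le_iSup_of_le 1 (le_iSup_of_le (fun _ => -s ^ 2) (le_iSup_of_le _
    (le_iSup_of_le (g_system hs) ?_)))
  simp

end

lemma g_le_LTone {s : ℝ} (hs : 0 < s) : ENNReal.ofReal (Lval s) ≤ LTone (s + 1 / 2) := by
  unfold LTone
  have e : s + 1 / 2 + 1 / 2 = 1 + s := by ring
  rw [e]
  refine le_iSup_of_le (gW 1 s) (le_iSup_of_le (gW_potential hs)
    (le_iSup_of_le (intPow_gW_ne hs) ?_))
  rw [g_quot (m := 1) hs]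
  gcongr
  unfold negLowest
  refine le_iSup_of_le (fun _ => -s ^ 2) (le_iSup_of_le _ (le_iSup_of_le (g_system hs) ?_))
  simp

lemma Lval_eq {s : ℝ} : Lval s = 1 / Cs s := by
  unfold Lval Cs
  rw [div_mul_eq_mul_div, one_div_div]

/-- Module M11. -/
theorem lowFact : LowFact := by
  intro s hs _
  rw [← Lval_eq]
  refine ⟨fun m hm => ?_, g_le_LTone hs⟩
  have : NeZero m := ⟨by omega⟩
  exact g_le_LT (m := m) hs

/-- The lower bound: `L_γ(m) ≥ L` and `L^(1)_γ ≥ L` for `L = s^s/((1+s)^(1+s) B_s)`,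
`s = γ - 1/2`. -/
theorem low_general {γ : ℝ} (hγ : 1 / 2 < γ) :
    (∀ m : ℕ, 1 ≤ m → ENNReal.ofReal (Lval (γ - 1 / 2)) ≤ LT γ m) ∧
      ENNReal.ofReal (Lval (γ - 1 / 2)) ≤ LTone γ := by
  have hs : 0 < γ - 1 / 2 := by linarith
  have e : γ - 1 / 2 + 1 / 2 = γ := by ring
  refine ⟨fun m hm => ?_, ?_⟩
  · have : NeZero m := ⟨by omega⟩
    have := g_le_LT (m := m) hs
    rwa [e] at this
  · have := g_le_LTone hs
    rwa [e] at this

end Vale.Agent.P371.G
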