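import Vale.Agent.P371.G.Const
import Vale.Agent.P371.G.Low

open MeasureTheory Set

namespace Vale.Agent.P371.G

/-- The full Lieb-Thirring conjecture in one dimension, from the upper and the lower bound. -/
theorem sharp_of (hU : UpFact) (hL : LowFact) (γ : ℝ) (h1 : 1 / 2 < γ) (h2 : γ < 3 / 2)
    (m : ℕ) (hm : 1 ≤ m) :
    LT γ m = ENNReal.ofReal (2 * ((γ - 1 / 2) / (γ + 1 / 2)) ^ (γ - 1 / 2) * Lcl γ) ∧
      LTone γ = ENNReal.ofReal (2 * ((γ - 1 / 2) / (γ + 1 / 2)) ^ (γ - 1 / 2) * Lcl γ) := by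
  obtain ⟨s, rfl⟩ : ∃ s : ℝ, γ = s + 1 / 2 := ⟨γ - 1 / 2, by ring⟩
  have hs0 : 0 < s := by linarith
  have hs1 : s < 1 := by linarith
  rw [← constFact s hs0 hs1]
  refine ⟨le_antisymm (hU m s hs0 hs1) ((hL s hs0 hs1).1 m hm),
    le_antisymm ((LTone_le_LT _).trans (hU 1 s hs0 hs1)) (hL s hs0 hs1).2⟩

/-- the form used in the hand-in -/
theorem sharp_all_of (hU : UpFact) (hL : LowFact) (γ : ℝ) (h1 : 1 / 2 < γ) (h2 : γ < 3 / 2)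
    (m : ℕ) (hm : 1 ≤ m) :
    LT γ m = LTone γ ∧ LT γ m = LT γ 1 ∧
      LT γ m = ENNReal.ofReal (2 * ((γ - 1 / 2) / (γ + 1 / 2)) ^ (γ - 1 / 2) * Lcl γ) := by
  obtain ⟨e1, e2⟩ := sharp_of hU hL γ h1 h2 m hm
  obtain ⟨e3, _⟩ := sharp_of hU hL γ h1 h2 1 le_rfl
  exact ⟨e1.trans e2.symm, e1.trans e3.symm, e1⟩

end Vale.Agent.P371.G
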