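import Mathlib

/-!
# Matrix toolkit: quadratic forms, spectral functions, first exit lemma
-/

open Matrix Set Filter Topology
open scoped ComplexOrder

namespace P371Mat

variable {N : ℕ}

/-- real quadratic form -/
noncomputable def qf (A : Matrix (Fin N) (Fin N) ℂ) (v : Fin N → ℂ) : ℝ := (star v ⬝ᵥ A *ᵥ v).re

/-- squared length -/
noncomputable def nsq (v : Fin N → ℂ) : ℝ := ∑ i, ‖v i‖ ^ 2

lemma nsq_eq (v : Fin N → ℂ) : star v ⬝ᵥ v = (nsq v : ℂ) := by
  simp only [dotProduct, nsq, Pi.star_apply, RCLike.star_def]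
  push_cast
  refine Finset.sum_congr rfl fun i _ => ?_
  rw [← Complex.ofReal_pow, ← Complex.normSq_eq_norm_sq, Complex.normSq_eq_conj_mul_self]

lemma nsq_nonneg (v : Fin N → ℂ) : 0 ≤ nsq v := Finset.sum_nonneg fun _ _ => by positivity

lemma nsq_eq_zero {v : Fin N → ℂ} (h : nsq v = 0) : v = 0 := by
  funext i
  have := (Finset.sum_eq_zero_iff_of_nonneg (fun j _ => by positivity)).1 h i (Finset.mem_univ i)
  simpa using this

lemma nsq_smul (c : ℂ) (v : Fin N → ℂ) : nsq (c • v) = ‖c‖ ^ 2 * nsq v := by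
  simp only [nsq, Pi.smul_apply, smul_eq_mul, norm_mul, mul_pow, Finset.mul_sum]

lemma qf_add (A B : Matrix (Fin N) (Fin N) ℂ) (v : Fin N → ℂ) :
    qf (A + B) v = qf A v + qf B v := by
  simp [qf, add_mulVec, dotProduct_add]

lemma qf_sub (A B : Matrix (Fin N) (Fin N) ℂ) (v : Fin N → ℂ) :
    qf (A - B) v = qf A v - qf B v := by
  simp [qf, sub_mulVec, dotProduct_sub]

lemma qf_neg (A : Matrix (Fin N) (Fin N) ℂ) (v : Fin N → ℂ) : qf (-A) v = -qf A v := by
  simp [qf, neg_mulVec, dotProduct_neg]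

lemma qf_smul (r : ℝ) (A : Matrix (Fin N) (Fin N) ℂ) (v : Fin N → ℂ) :
    qf (r • A) v = r * qf A v := by
  simp [qf, smul_mulVec, dotProduct_smul]

lemma qf_one (v : Fin N → ℂ) : qf (1 : Matrix (Fin N) (Fin N) ℂ) v = nsq v := by
  rw [qf, one_mulVec, nsq_eq, Complex.ofReal_re]

lemma qf_zero (v : Fin N → ℂ) : qf (0 : Matrix (Fin N) (Fin N) ℂ) v = 0 := by
  simp [qf]

lemma qf_of_eigen {A : Matrix (Fin N) (Fin N) ℂ} {v : Fin N → ℂ} {μ : ℝ}
    (h : A *ᵥ v = (μ : ℂ) • v) : qf A v = μ * nsq v := by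
  rw [qf, h, dotProduct_smul, nsq_eq, smul_eq_mul, ← Complex.ofReal_mul, Complex.ofReal_re]

lemma qf_smul_vec (c : ℂ) (A : Matrix (Fin N) (Fin N) ℂ) (v : Fin N → ℂ) :
    qf A (c • v) = ‖c‖ ^ 2 * qf A v := by
  have h1 : star (c • v) ⬝ᵥ A *ᵥ (c • v) = ((‖c‖ ^ 2 : ℝ) : ℂ) * (star v ⬝ᵥ A *ᵥ v) := by
    rw [mulVec_smul, dotProduct_smul, star_smul, smul_dotProduct, smul_eq_mul, smul_eq_mul,
      ← Complex.normSq_eq_norm_sq, Complex.normSq_eq_conj_mul_self]
    simp only [RCLike.star_def]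
    ring
  rw [qf, h1, Complex.re_ofReal_mul, qf]

lemma qf_nonneg {A : Matrix (Fin N) (Fin N) ℂ} (hA : A.PosSemidef) (v : Fin N → ℂ) :
    0 ≤ qf A v := by
  have := hA.dotProduct_mulVec_nonneg v
  exact (Complex.le_def.1 this).1

lemma psd_of_qf {A : Matrix (Fin N) (Fin N) ℂ} (hA : A.IsHermitian) (h : ∀ v, 0 ≤ qf A v) :
    A.PosSemidef := by
  refine Matrix.PosSemidef.of_dotProduct_mulVec_nonneg hA fun v => ?_
  rw [Complex.le_def]
  refine ⟨h v, ?_⟩
  rw [Complex.zero_im]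
  exact (hA.im_star_dotProduct_mulVec_self v).symm

lemma psd_of_qf_unit {A : Matrix (Fin N) (Fin N) ℂ} (hA : A.IsHermitian)
    (h : ∀ v, nsq v = 1 → 0 ≤ qf A v) : A.PosSemidef := by
  refine psd_of_qf hA fun v => ?_
  by_cases hv : nsq v = 0
  · rw [nsq_eq_zero hv]
    simp [qf]
  · have hpos : 0 < nsq v := lt_of_le_of_ne (nsq_nonneg v) (Ne.symm hv)
    set c : ℝ := Real.sqrt (nsq v) with hc
    have hc0 : 0 < c := Real.sqrt_pos.2 hpos
    have h1 : nsq (((c⁻¹ : ℝ) : ℂ) • v) = 1 := by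
      rw [nsq_smul, Complex.norm_real, Real.norm_of_nonneg (by positivity), inv_pow,
        Real.sq_sqrt hpos.le, inv_mul_cancel₀ hv]
    have h2 := h _ h1
    rw [qf_smul_vec, Complex.norm_real, Real.norm_of_nonneg (by positivity)] at h2
    have h3 : 0 < (c⁻¹) ^ 2 := by positivity
    exact nonneg_of_mul_nonneg_right h2 h3

lemma psd_zero_vec {A : Matrix (Fin N) (Fin N) ℂ} (hA : A.PosSemidef) {v : Fin N → ℂ}
    (h : qf A v = 0) : A *ᵥ v = 0 := by
  rw [← hA.dotProduct_mulVec_zero_iff]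
  apply Complex.ext
  · exact h
  · exact hA.1.im_star_dotProduct_mulVec_self v

/-- `Re ⟨v, A B v⟩` symmetric: for Hermitian `A`, `B` with `B v = μ v`. -/
lemma qf_anticomm_eigen {A B : Matrix (Fin N) (Fin N) ℂ} (hB : B.IsHermitian)
    {v : Fin N → ℂ} {μ : ℝ} (h : B *ᵥ v = (μ : ℂ) • v) :
    qf (A * B + B * A) v = 2 * μ * qf A v := by
  have h1 : star v ⬝ᵥ (A * B) *ᵥ v = (μ : ℂ) * (star v ⬝ᵥ A *ᵥ v) := by
    rw [← mulVec_mulVec, h, mulVec_smul, dotProduct_smul, smul_eq_mul]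
  have h2 : star v ⬝ᵥ (B * A) *ᵥ v = (μ : ℂ) * (star v ⬝ᵥ A *ᵥ v) := by
    rw [← mulVec_mulVec, dotProduct_mulVec]
    have : star v ᵥ* B = (μ : ℂ) • star v := by
      have h3 : star (B *ᵥ v) = star v ᵥ* Bᴴ := star_mulVec _ _
      rw [hB.eq] at h3
      rw [← h3, h, star_smul]
      simp
    rw [this, smul_dotProduct, smul_eq_mul]
  rw [qf, add_mulVec, dotProduct_add, h1, h2, qf, Complex.add_re, Complex.re_ofReal_mul]
  ring

lemma continuous_qf_vec (A : Matrix (Fin N) (Fin N) ℂ) : Continuous fun v => qf A v := by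
  unfold qf
  refine Complex.continuous_re.comp ?_
  exact Continuous.dotProduct continuous_star (Continuous.matrix_mulVec continuous_const continuous_id)

lemma continuous_qf : Continuous fun p : Matrix (Fin N) (Fin N) ℂ × (Fin N → ℂ) => qf p.1 p.2 := by
  unfold qf
  refine Complex.continuous_re.comp ?_
  exact Continuous.dotProduct (continuous_star.comp continuous_snd)
    (Continuous.matrix_mulVec continuous_fst continuous_snd)

lemma continuousOn_qf {X : Type*} [TopologicalSpace X] {s : Set X}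
    {f : X → Matrix (Fin N) (Fin N) ℂ} {g : X → Fin N → ℂ} (hf : ContinuousOn f s)
    (hg : ContinuousOn g s) : ContinuousOn (fun x => qf (f x) (g x)) s := by
  unfold qf
  refine Complex.continuous_re.comp_continuousOn ?_
  simp only [dotProduct, mulVec]
  refine continuousOn_finsetSum _ fun i _ => ContinuousOn.mul ?_ ?_
  · exact continuous_star.comp_continuousOn (continuousOn_pi.1 hg i)
  · refine continuousOn_finsetSum _ fun j _ => ContinuousOn.mul ?_ (continuousOn_pi.1 hg j)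
    exact continuousOn_pi.1 (continuousOn_pi.1 hf i) j

lemma continuous_nsq : Continuous fun v : Fin N → ℂ => nsq v := by
  unfold nsq
  fun_prop

lemma isCompact_sphere : IsCompact {v : Fin N → ℂ | nsq v = 1} := by
  apply Metric.isCompact_of_isClosed_isBounded
  · exact isClosed_eq continuous_nsq continuous_const
  · refine (Metric.isBounded_closedBall (x := (0 : Fin N → ℂ)) (r := 1)).subset ?_
    intro v hv
    rw [mem_closedBall_zero_iff, pi_norm_le_iff_of_nonneg zero_le_one]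
    intro i
    have h1 : ‖v i‖ ^ 2 ≤ nsq v := Finset.single_le_sum (f := fun i => ‖v i‖ ^ 2)
      (fun j _ => by positivity) (Finset.mem_univ i)
    have h2 : nsq v = 1 := hv
    have h0 := norm_nonneg (v i)
    nlinarith

/-- entrywise derivative -/
def MDer (D : ℝ → Matrix (Fin N) (Fin N) ℂ) (D' : Matrix (Fin N) (Fin N) ℂ) (s : Set ℝ) (x : ℝ) :
    Prop := ∀ i j, HasDerivWithinAt (fun y => D y i j) (D' i j) s x

lemma MDer.continuousWithinAt {D : ℝ → Matrix (Fin N) (Fin N) ℂ} {D' : Matrix (Fin N) (Fin N) ℂ}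
    {s : Set ℝ} {x : ℝ} (h : MDer D D' s x) : ContinuousWithinAt D s x :=
  continuousWithinAt_pi.2 fun i => continuousWithinAt_pi.2 fun j => (h i j).continuousWithinAt

lemma MDer.add {D E : ℝ → Matrix (Fin N) (Fin N) ℂ} {D' E' : Matrix (Fin N) (Fin N) ℂ}
    {s : Set ℝ} {x : ℝ} (h : MDer D D' s x) (h2 : MDer E E' s x) :
    MDer (fun y => D y + E y) (D' + E') s x := fun i j => (h i j).add (h2 i j)

lemma MDer.sub {D E : ℝ → Matrix (Fin N) (Fin N) ℂ} {D' E' : Matrix (Fin N) (Fin N) ℂ}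
    {s : Set ℝ} {x : ℝ} (h : MDer D D' s x) (h2 : MDer E E' s x) :
    MDer (fun y => D y - E y) (D' - E') s x := fun i j => (h i j).sub (h2 i j)

lemma MDer.neg {D : ℝ → Matrix (Fin N) (Fin N) ℂ} {D' : Matrix (Fin N) (Fin N) ℂ}
    {s : Set ℝ} {x : ℝ} (h : MDer D D' s x) : MDer (fun y => -D y) (-D') s x :=
  fun i j => (h i j).neg

lemma MDer.const (A : Matrix (Fin N) (Fin N) ℂ) (s : Set ℝ) (x : ℝ) :
    MDer (fun _ => A) 0 s x := fun _ _ => hasDerivWithinAt_const _ _ _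

lemma MDer.smul_const {f : ℝ → ℝ} {f' : ℝ} {s : Set ℝ} {x : ℝ} (hf : HasDerivWithinAt f f' s x)
    (A : Matrix (Fin N) (Fin N) ℂ) : MDer (fun y => f y • A) (f' • A) s x :=
  fun i j => hf.smul_const (A i j)

lemma hasDerivWithinAt_qf {D : ℝ → Matrix (Fin N) (Fin N) ℂ} {D' : Matrix (Fin N) (Fin N) ℂ}
    {s : Set ℝ} {x : ℝ} (h : MDer D D' s x) (v : Fin N → ℂ) :
    HasDerivWithinAt (fun x => qf (D x) v) (qf D' v) s x := by
  have h1 : HasDerivWithinAt (fun x => star v ⬝ᵥ D x *ᵥ v) (star v ⬝ᵥ D' *ᵥ v) s x := by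
    simp only [dotProduct, mulVec]
    refine HasDerivWithinAt.fun_sum fun i _ => HasDerivWithinAt.const_mul _ ?_
    exact HasDerivWithinAt.fun_sum fun j _ => (h i j).mul_const _
  exact Complex.reCLM.hasFDerivAt.comp_hasDerivWithinAt x h1

/-- A function which is positive before `x` and vanishes at `x` has nonpositive derivative. -/
lemma deriv_nonpos_of_exit {g : ℝ → ℝ} {g' a b x : ℝ} (hax : a < x) (hxb : x ≤ b)
    (hg : HasDerivWithinAt g g' (Icc a b) x) (hpos : ∀ y ∈ Ico a x, 0 < g y) (h0 : g x = 0) :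
    g' ≤ 0 := by
  have h1 : HasDerivWithinAt g g' (Ioo a x) x :=
    hg.mono (fun y hy => ⟨hy.1.le, hy.2.le.trans hxb⟩)
  rw [hasDerivWithinAt_iff_tendsto_slope' (by simp)] at h1
  have hne : (𝓝[Ioo a x] x).NeBot := by
    rw [nhdsWithin_Ioo_eq_nhdsLT hax]
    infer_instance
  refine le_of_tendsto h1 ?_
  filter_upwards [self_mem_nhdsWithin] with y hy
  rw [slope_def_field, h0, sub_zero]
  have h2 := hpos y ⟨hy.1.le, hy.2⟩
  have h3 : y - x < 0 := by linarith [hy.2]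
  exact (div_neg_of_pos_of_neg h2 h3).le

lemma exists_first_bad {X : Type*} [TopologicalSpace X] [T2Space X] (S : Set X)
    (hS : IsCompact S) (a b : ℝ) (f : ℝ → X → ℝ)
    (hf : ContinuousOn (fun p : ℝ × X => f p.1 p.2) (Icc a b ×ˢ S))
    (hbad : ∃ x ∈ Icc a b, ∃ v ∈ S, f x v ≤ 0) :
    ∃ x ∈ Icc a b, ∃ v ∈ S, f x v ≤ 0 ∧ ∀ y ∈ Icc a b, y < x → ∀ w ∈ S, 0 < f y w := by
  have hprod : IsCompact (Icc a b ×ˢ S) := isCompact_Icc.prod hS
  have hBcl : IsClosed ((Icc a b ×ˢ S) ∩ (fun p : ℝ × X => f p.1 p.2) ⁻¹' (Iic 0)) :=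
    hf.preimage_isClosed_of_isClosed hprod.isClosed isClosed_Iic
  have hBc : IsCompact ((Icc a b ×ˢ S) ∩ (fun p : ℝ × X => f p.1 p.2) ⁻¹' (Iic 0)) :=
    hprod.of_isClosed_subset hBcl inter_subset_left
  have hBne : ((Icc a b ×ˢ S) ∩ (fun p : ℝ × X => f p.1 p.2) ⁻¹' (Iic 0)).Nonempty := by
    obtain ⟨x, hx, v, hv, hle⟩ := hbad
    exact ⟨(x, v), ⟨⟨hx, hv⟩, hle⟩⟩
  obtain ⟨⟨x, v⟩, hxv, hmin⟩ := hBc.exists_isMinOn hBne continuous_fst.continuousOn
  refine ⟨x, hxv.1.1, v, hxv.1.2, hxv.2, ?_⟩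
  intro y hy hyx w hw
  by_contra hcon2
  push Not at hcon2
  have h1 : (y, w) ∈ (Icc a b ×ˢ S) ∩ (fun p : ℝ × X => f p.1 p.2) ⁻¹' (Iic 0) :=
    ⟨⟨hy, hw⟩, hcon2⟩
  have h2 : x ≤ y := hmin h1
  linarith

lemma isHermitian_smul_one (r : ℝ) : ((r • (1 : Matrix (Fin N) (Fin N) ℂ))).IsHermitian :=
  IsSelfAdjoint.smul (star_trivial _) Matrix.isHermitian_one

lemma eigen_of_min {A : Matrix (Fin N) (Fin N) ℂ} (hA : A.IsHermitian) {m : ℝ}
    (h : ∀ w, nsq w = 1 → 0 ≤ qf A w + m) {v : Fin N → ℂ} (hv : nsq v = 1) (h0 : qf A v + m = 0) :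
    A *ᵥ v = ((-m : ℝ) : ℂ) • v := by
  have hpsd : (A + m • (1 : Matrix (Fin N) (Fin N) ℂ)).PosSemidef := by
    refine psd_of_qf_unit (hA.add (isHermitian_smul_one m)) ?_
    intro w hw
    rw [qf_add, qf_smul, qf_one, hw, mul_one]
    exact h w hw
  have hvec : (A + m • (1 : Matrix (Fin N) (Fin N) ℂ)) *ᵥ v = 0 := by
    refine psd_zero_vec hpsd ?_
    rw [qf_add, qf_smul, qf_one, hv, mul_one]
    exact h0
  rw [add_mulVec, smul_mulVec, one_mulVec] at hvec
  rw [eq_neg_of_add_eq_zero_left hvec]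
  ext i
  simp

lemma barrier {a b : ℝ} (D D' : ℝ → Matrix (Fin N) (Fin N) ℂ)
    (hD : ∀ x ∈ Icc a b, MDer D (D' x) (Icc a b) x)
    (hH : ∀ x ∈ Icc a b, (D x).IsHermitian) (c : ℝ) (ha : (D a).PosSemidef)
    (hkey : ∀ x ∈ Icc a b, ∀ m > 0, ∀ v, nsq v = 1 → D x *ᵥ v = ((-m : ℝ) : ℂ) • v →
      -c * m ≤ qf (D' x) v) (m : ℝ → ℝ) (hmpos : ∀ x, 0 < m x)
    (hmd : ∀ x, HasDerivAt m ((c + 1) * m x) x) :
    ∀ x ∈ Icc a b, ∀ v, nsq v = 1 → 0 < qf (D x) v + m x := by
  have hcont : ContinuousOn D (Icc a b) := fun x hx => (hD x hx).continuousWithinAt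
  have hmc : Continuous m := continuous_iff_continuousAt.2 fun x => (hmd x).continuousAt
  by_contra hcon
  push Not at hcon
  have hfc : ContinuousOn (fun p : ℝ × (Fin N → ℂ) => qf (D p.1) p.2 + m p.1)
      (Icc a b ×ˢ {v : Fin N → ℂ | nsq v = 1}) := by
    have h1 : ContinuousOn (fun p : ℝ × (Fin N → ℂ) => D p.1)
        (Icc a b ×ˢ {v : Fin N → ℂ | nsq v = 1}) :=
      hcont.comp continuousOn_fst (fun p hp => hp.1)
    exact ContinuousOn.add (continuousOn_qf h1 continuousOn_snd)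
      (hmc.comp continuous_fst).continuousOn
  obtain ⟨x, hx, v, hv, hle, hbefore⟩ := exists_first_bad {v : Fin N → ℂ | nsq v = 1}
    isCompact_sphere a b (fun x v => qf (D x) v + m x) hfc hcon
  have hv' : nsq v = 1 := hv
  have hax : a < x := by
    rcases hx.1.lt_or_eq with h | h
    · exact h
    · exfalso
      have h1 := qf_nonneg ha v
      have h2 := hmpos x
      rw [← h] at hle h2
      linarith
  -- at time x everything is nonnegative
  have hat : ∀ w, nsq w = 1 → 0 ≤ qf (D x) w + m x := by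
    intro w hw
    have hcw : ContinuousWithinAt (fun y => qf (D y) w + m y) (Icc a b) x :=
      ((hasDerivWithinAt_qf (hD x hx) w).continuousWithinAt).add hmc.continuousWithinAt
    have hcw' : ContinuousWithinAt (fun y => qf (D y) w + m y) (Ioo a x) x :=
      hcw.mono (fun y hy => ⟨hy.1.le, hy.2.le.trans hx.2⟩)
    have hne : (𝓝[Ioo a x] x).NeBot := by
      rw [nhdsWithin_Ioo_eq_nhdsLT hax]
      infer_instance
    refine ge_of_tendsto hcw' ?_
    filter_upwards [self_mem_nhdsWithin] with y hy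
    exact (hbefore y ⟨hy.1.le, hy.2.le.trans hx.2⟩ hy.2 w hw).le
  have hEq : qf (D x) v + m x = 0 := le_antisymm hle (hat v hv')
  have h1 := hkey x hx (m x) (hmpos x) v hv' (eigen_of_min (hH x hx) hat hv' hEq)
  have hg := (hasDerivWithinAt_qf (hD x hx) v).add (hmd x).hasDerivWithinAt
  have h2 := deriv_nonpos_of_exit hax hx.2 hg
    (fun y hy => hbefore y ⟨hy.1, hy.2.le.trans hx.2⟩ hy.2 v hv') hEq
  have h3 := hmpos x
  nlinarith

/-- First exit lemma. -/
theorem psd_forward {a b : ℝ} (D D' : ℝ → Matrix (Fin N) (Fin N) ℂ)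
    (hD : ∀ x ∈ Icc a b, MDer D (D' x) (Icc a b) x)
    (hH : ∀ x ∈ Icc a b, (D x).IsHermitian) (c : ℝ) (ha : (D a).PosSemidef)
    (hkey : ∀ x ∈ Icc a b, ∀ m > 0, ∀ v, nsq v = 1 → D x *ᵥ v = ((-m : ℝ) : ℂ) • v →
      -c * m ≤ qf (D' x) v) :
    ∀ x ∈ Icc a b, (D x).PosSemidef := by
  intro x hx
  refine psd_of_qf_unit (hH x hx) fun v hv => ?_
  refine le_of_forall_pos_lt_add fun ε hε => ?_
  have h1 := barrier D D' hD hH c ha hkey
    (fun y => (ε * Real.exp (-((c + 1) * (x - a)))) * Real.exp ((c + 1) * (y - a)))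
    (fun y => by positivity)
    (fun y => by
      have h2 : HasDerivAt (fun x => (c + 1) * (x - a)) (c + 1) y := by
        simpa using ((hasDerivAt_id y).sub_const a).const_mul (c + 1)
      have h3 := (h2.exp).const_mul (ε * Real.exp (-((c + 1) * (x - a))))
      have e : (c + 1) * (ε * Real.exp (-((c + 1) * (x - a))) * Real.exp ((c + 1) * (y - a)))
        = ε * Real.exp (-((c + 1) * (x - a))) * (Real.exp ((c + 1) * (y - a)) * (c + 1)) := by ring
      rw [e]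
      exact h3) x hx v hv
  rw [mul_assoc, ← Real.exp_add, neg_add_cancel, Real.exp_zero, mul_one] at h1
  exact h1

/-- First exit lemma, backwards in time. -/
theorem psd_backward {a b : ℝ} (D D' : ℝ → Matrix (Fin N) (Fin N) ℂ)
    (hD : ∀ x ∈ Icc a b, MDer D (D' x) (Icc a b) x)
    (hH : ∀ x ∈ Icc a b, (D x).IsHermitian) (c : ℝ) (hb : (D b).PosSemidef)
    (hkey : ∀ x ∈ Icc a b, ∀ m > 0, ∀ v, nsq v = 1 → D x *ᵥ v = ((-m : ℝ) : ℂ) • v →
      qf (D' x) v ≤ c * m) :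
    ∀ x ∈ Icc a b, (D x).PosSemidef := by
  have hrefl : ∀ x, x ∈ Icc a b → a + b - x ∈ Icc a b := fun x hx =>
    ⟨by linarith [hx.2], by linarith [hx.1]⟩
  have h := psd_forward (a := a) (b := b) (fun x => D (a + b - x)) (fun x => -D' (a + b - x))
    (fun x hx => by
      have h1 := hD _ (hrefl x hx)
      have h2 : HasDerivWithinAt (fun x => a + b - x) (-1) (Icc a b) x := by
        simpa using ((hasDerivAt_id x).const_sub (a + b)).hasDerivWithinAt
      intro i j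
      have h3 := (h1 i j).scomp x h2 (fun y hy => hrefl y hy)
      rw [neg_one_smul] at h3
      exact h3)
    (fun x hx => hH _ (hrefl x hx)) c (by simpa using hb)
    (fun x hx m hm v hv he => by
      rw [qf_neg]
      have := hkey _ (hrefl x hx) m hm v hv he
      linarith)
  intro x hx
  have := h _ (hrefl x hx)
  simpa using this

end P371Mat
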