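import Mathlib

/-!
# Global existence and continuous dependence for Lipschitz ODEs
-/

namespace P371Ode

open Set Metric Filter Topology
open scoped NNReal

section Retract

variable {V : Type*} [NormedAddCommGroup V] [NormedSpace ℝ V]

/-- radial retraction on the ball of radius `ρ` -/
noncomputable def rr (ρ : ℝ) (y : V) : V := (ρ / max ρ ‖y‖) • y

lemma rr_of_le {ρ : ℝ} (hρ : 0 < ρ) {y : V} (hy : ‖y‖ ≤ ρ) : rr ρ y = y := by
  rw [rr, max_eq_left hy, div_self hρ.ne', one_smul]

lemma norm_rr_le {ρ : ℝ} (hρ : 0 < ρ) (y : V) : ‖rr ρ y‖ ≤ ρ := by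
  have hm : 0 < max ρ ‖y‖ := lt_of_lt_of_le hρ (le_max_left _ _)
  rw [rr, norm_smul, Real.norm_of_nonneg (by positivity), div_mul_eq_mul_div, div_le_iff₀ hm]
  exact mul_le_mul_of_nonneg_left (le_max_right _ _) hρ.le

lemma norm_rr_le' {ρ : ℝ} (hρ : 0 < ρ) (y : V) : ‖rr ρ y‖ ≤ ‖y‖ := by
  have hm : 0 < max ρ ‖y‖ := lt_of_lt_of_le hρ (le_max_left _ _)
  rw [rr, norm_smul, Real.norm_of_nonneg (by positivity)]
  have : ρ / max ρ ‖y‖ ≤ 1 := (div_le_one hm).2 (le_max_left _ _)
  have h0 := norm_nonneg y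
  nlinarith

lemma rr_lipschitz {ρ : ℝ} (hρ : 0 < ρ) : LipschitzWith 2 (rr (V := V) ρ) := by
  apply LipschitzWith.of_dist_le_mul
  intro x y
  rw [dist_eq_norm, dist_eq_norm]
  set mx := max ρ ‖x‖ with hmx
  set my := max ρ ‖y‖ with hmy
  have hx : 0 < mx := lt_of_lt_of_le hρ (le_max_left _ _)
  have hy : 0 < my := lt_of_lt_of_le hρ (le_max_left _ _)
  have hxy : |mx - my| ≤ ‖x - y‖ := by
    rw [hmx, hmy, max_comm ρ, max_comm ρ]
    exact (abs_max_sub_max_le_abs _ _ _).trans (abs_norm_sub_norm_le x y)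
  have e1 : rr ρ x - rr ρ y = (ρ / mx) • (x - y) + (ρ * (my - mx) / (mx * my)) • y := by
    simp only [rr, ← hmx, ← hmy]
    have : ρ * (my - mx) / (mx * my) = ρ / mx - ρ / my := by field_simp
    rw [this, smul_sub, sub_smul]
    abel
  rw [e1]
  have h1 : ‖(ρ / mx) • (x - y)‖ ≤ ‖x - y‖ := by
    rw [norm_smul, Real.norm_of_nonneg (by positivity)]
    have : ρ / mx ≤ 1 := (div_le_one hx).2 (le_max_left _ _)
    have h0 := norm_nonneg (x - y)
    nlinarith
  have h2 : ‖(ρ * (my - mx) / (mx * my)) • y‖ ≤ ‖x - y‖ := by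
    rw [norm_smul, Real.norm_eq_abs, abs_div, abs_mul, abs_of_pos hρ, abs_of_pos (mul_pos hx hy),
      div_mul_eq_mul_div, div_le_iff₀ (mul_pos hx hy)]
    have h3 : |my - mx| ≤ ‖x - y‖ := by rw [abs_sub_comm]; exact hxy
    have h4 : ‖y‖ ≤ my := le_max_right _ _
    have h5 : ρ ≤ mx := le_max_left _ _
    calc ρ * |my - mx| * ‖y‖ ≤ mx * ‖x - y‖ * my := by gcongr
      _ = ‖x - y‖ * (mx * my) := by ring
  calc _ ≤ ‖(ρ / mx) • (x - y)‖ + ‖(ρ * (my - mx) / (mx * my)) • y‖ := norm_add_le _ _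
    _ ≤ ‖x - y‖ + ‖x - y‖ := add_le_add h1 h2
    _ = ((2 : ℝ≥0) : ℝ) * ‖x - y‖ := by norm_num; ring

end Retract

variable {V : Type*} [NormedAddCommGroup V] [NormedSpace ℝ V] [CompleteSpace V]

/-- global existence for globally Lipschitz vector fields -/
theorem exists_global (a b : ℝ) (hab : a ≤ b) (w : ℝ → V → V) (y0 : V) (K : ℝ≥0)
    (hw : Continuous (fun q : ℝ × V => w q.1 q.2)) (hK : ∀ x, LipschitzWith K (w x)) :
    ∃ y : ℝ → V, y a = y0 ∧
      ∀ x ∈ Icc a b, HasDerivWithinAt y (w x (y x)) (Icc a b) x := by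
  have hw0 : Continuous fun x => w x 0 := hw.comp (continuous_id.prodMk continuous_const)
  obtain ⟨c0, hc0⟩ := (isCompact_Icc (a := a) (b := b)).exists_bound_of_continuousOn
    hw0.continuousOn
  set c : ℝ := max c0 0 with hc
  have hc_nn : 0 ≤ c := le_max_right _ _
  have hwc : ∀ x ∈ Icc a b, ∀ y, ‖w x y‖ ≤ K * ‖y‖ + c := by
    intro x hx y
    have h1 := (hK x).dist_le_mul y 0
    rw [dist_eq_norm, dist_eq_norm, sub_zero] at h1
    have h2 := norm_le_norm_add_norm_sub' (w x y) (w x 0)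
    have h3 := (hc0 x hx).trans (le_max_left c0 0)
    linarith
  set M : ℝ := gronwallBound ‖y0‖ K c (b - a) with hM
  have hmono : Monotone (gronwallBound ‖y0‖ K c) :=
    gronwallBound_mono (norm_nonneg _) hc_nn K.coe_nonneg
  have hM0 : 0 ≤ M := by
    have h1 : gronwallBound ‖y0‖ K c 0 ≤ M := hmono (by linarith)
    rw [gronwallBound_x0] at h1
    exact (norm_nonneg _).trans h1
  set ρ : ℝ := M + 1 with hρ
  have hρ0 : 0 < ρ := by linarith
  let w' : ℝ → V → V := fun x y => w x (rr ρ y)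
  have hbd : ∀ x ∈ Icc a b, ∀ y, ‖w' x y‖ ≤ K * ρ + c := by
    intro x hx y
    refine (hwc x hx _).trans ?_
    have := norm_rr_le hρ0 y
    gcongr
  let L : ℝ≥0 := ⟨K * ρ + c, by positivity⟩
  let A : ℝ≥0 := ⟨(K * ρ + c) * (b - a), mul_nonneg (by positivity) (by linarith)⟩
  have hcont' : ∀ y, Continuous fun x => w' x y := fun y =>
    hw.comp (continuous_id.prodMk continuous_const)
  have hPL : IsPicardLindelof w' (⟨a, left_mem_Icc.2 hab⟩ : Icc a b) y0 A 0 L (K * 2) := by
    refine ⟨fun t _ => ?_, fun y _ => (hcont' y).continuousOn, fun t ht y _ => hbd t ht y, ?_⟩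
    · exact ((hK t).comp (rr_lipschitz hρ0)).lipschitzOnWith
    · simp only [L, A, NNReal.coe_zero, sub_zero, sub_self]
      rw [max_eq_left (by linarith)]
      exact le_rfl
  obtain ⟨y, hya, hy⟩ := hPL.exists_eq_forall_mem_Icc_hasDerivWithinAt₀
  refine ⟨y, hya, fun x hx => ?_⟩
  have hyc : ContinuousOn y (Icc a b) := fun x hx => (hy x hx).continuousWithinAt
  have hgr := norm_le_gronwallBound_of_norm_deriv_right_le (f := y)
    (f' := fun x => w' x (y x)) (δ := ‖y0‖) (K := K) (ε := c) (a := a) (b := b) hyc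
    (fun x hx => ((hy x (Ico_subset_Icc_self hx)).mono_of_mem_nhdsWithin
      (Icc_mem_nhdsGE_of_mem hx))) (by rw [hya])
    (fun x hx => by
      refine (hwc x (Ico_subset_Icc_self hx) _).trans ?_
      have := norm_rr_le' hρ0 (y x)
      gcongr)
  have h1 : ‖y x‖ ≤ ρ := by
    refine (hgr x hx).trans ?_
    have : gronwallBound ‖y0‖ K c (x - a) ≤ M := hmono (by linarith [hx.2])
    linarith
  have h2 : w' x (y x) = w x (y x) := by
    simp only [w']; rw [rr_of_le hρ0 h1]
  rw [← h2]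
  exact hy x hx

/-- continuous dependence on parameters -/
theorem exists_param {P : Type*} [TopologicalSpace P] (a b : ℝ) (hab : a ≤ b)
    (v : P → ℝ → V → V) (y0 : P → V) (K : ℝ≥0)
    (hv : Continuous (fun q : P × ℝ × V => v q.1 q.2.1 q.2.2))
    (hK : ∀ p x, LipschitzWith K (v p x)) (hy0 : Continuous y0) :
    ∃ y : P → ℝ → V, (∀ p, y p a = y0 p) ∧
      (∀ p, ∀ x ∈ Icc a b, HasDerivWithinAt (y p) (v p x (y p x)) (Icc a b) x) ∧
      ∀ x ∈ Icc a b, Continuous fun p => y p x := by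
  have hex : ∀ p, ∃ y : ℝ → V, y a = y0 p ∧
      ∀ x ∈ Icc a b, HasDerivWithinAt y (v p x (y x)) (Icc a b) x := by
    intro p
    exact exists_global a b hab (v p) (y0 p) K
      (hv.comp (continuous_const.prodMk (continuous_fst.prodMk continuous_snd))) (hK p)
  choose y hya hy using hex
  refine ⟨y, hya, hy, fun x hx => ?_⟩
  rw [continuous_iff_continuousAt]
  intro p0
  have hyc : ∀ p, ContinuousOn (y p) (Icc a b) := fun p x hx => (hy p x hx).continuousWithinAt
  -- uniform closeness of the vector field along the reference trajectory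
  have hunif : ∀ ε > 0, ∀ᶠ p in 𝓝 p0, ∀ t ∈ Icc a b, dist (v p t (y p0 t)) (v p0 t (y p0 t)) < ε := by
    intro ε hε
    -- extend the reference trajectory continuously
    let z : ℝ → V := fun t => y p0 (projIcc a b hab t)
    have hz : Continuous z := by
      have := (hyc p0).domRestrict
      exact this.comp continuous_projIcc
    have hzt : ∀ t ∈ Icc a b, z t = y p0 t := by
      intro t ht
      simp only [z]
      rw [projIcc_of_mem hab ht]
    let d : P × ℝ → ℝ := fun q => dist (v q.1 q.2 (z q.2)) (v p0 q.2 (z q.2))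
    have hd : Continuous d := by
      refine Continuous.dist ?_ ?_
      · exact hv.comp (continuous_fst.prodMk (continuous_snd.prodMk (hz.comp continuous_snd)))
      · exact hv.comp (continuous_const.prodMk (continuous_snd.prodMk (hz.comp continuous_snd)))
    have hopen : IsOpen (d ⁻¹' (Iio ε)) := isOpen_Iio.preimage hd
    obtain ⟨u, w, hu, _, hpu, hIw, huw⟩ := generalized_tube_lemma (s := {p0}) isCompact_singleton
      (t := Icc a b) isCompact_Icc (n := d ⁻¹' (Iio ε)) hopen (by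
        rintro ⟨p, t⟩ ⟨hp, _⟩
        have hp' : p = p0 := hp
        subst hp'
        simp [d, hε])
    filter_upwards [hu.mem_nhds (hpu rfl)] with p hp t ht
    have := huw (Set.mk_mem_prod hp (hIw ht))
    simp only [d, mem_preimage, mem_Iio] at this
    rwa [hzt t ht] at this
  rw [Metric.continuousAt_iff']
  intro η hη
  -- Grönwall
  have hg0 : Tendsto (fun ε : ℝ => gronwallBound ε K ε (b - a)) (𝓝 0) (𝓝 0) := by
    have : Continuous fun ε : ℝ => gronwallBound ε K ε (b - a) := by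
      unfold gronwallBound
      split_ifs <;> fun_prop
    have h := this.tendsto 0
    have h0 : gronwallBound 0 K 0 (b - a) = 0 := gronwallBound_ε0_δ0 _ _
    rw [h0] at h
    exact h
  have hev : ∀ᶠ ε in 𝓝[>] (0:ℝ), gronwallBound ε K ε (b - a) < η :=
    (hg0.mono_left nhdsWithin_le_nhds).eventually (gt_mem_nhds hη)
  obtain ⟨ε, hε1, hε2⟩ := (hev.and self_mem_nhdsWithin).exists
  have hε2' : 0 < ε := hε2
  have hy0' : ∀ᶠ p in 𝓝 p0, dist (y0 p) (y0 p0) < ε :=
    (Metric.continuousAt_iff'.1 hy0.continuousAt) ε hε2'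
  filter_upwards [hunif ε hε2', hy0'] with p hp1 hp2
  have key := dist_le_of_approx_trajectories_ODE_of_mem (v := v p) (s := fun _ => univ) (K := K)
    (f := y p) (g := y p0) (f' := fun t => v p t (y p t)) (g' := fun t => v p0 t (y p0 t))
    (a := a) (b := b) (εf := 0) (εg := ε) (δ := ε)
    (fun t _ => (hK p t).lipschitzOnWith) (hyc p)
    (fun t ht => (hy p t (Ico_subset_Icc_self ht)).mono_of_mem_nhdsWithin
      (Icc_mem_nhdsGE_of_mem ht))
    (fun t _ => by simp) (fun t _ => mem_univ _) (hyc p0)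
    (fun t ht => (hy p0 t (Ico_subset_Icc_self ht)).mono_of_mem_nhdsWithin
      (Icc_mem_nhdsGE_of_mem ht))
    (fun t ht => by rw [dist_comm]; exact (hp1 t (Ico_subset_Icc_self ht)).le)
    (fun t _ => mem_univ _) (by rw [hya, hya]; exact hp2.le) x hx
  rw [zero_add] at key
  refine key.trans_lt (lt_of_le_of_lt ?_ hε1)
  exact gronwallBound_mono hε2'.le hε2'.le K.coe_nonneg (by linarith [hx.2])

end P371Ode
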