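import Vale.Agent.P371.G.Mat

/-!
# Spectral functions of Hermitian matrices
-/

open Matrix Set Filter Topology
open scoped ComplexOrder

namespace P371Mat

variable {N : ℕ}

/-- the unitary matrix of eigenvectors -/
noncomputable def eU {A : Matrix (Fin N) (Fin N) ℂ} (hA : A.IsHermitian) :
    Matrix (Fin N) (Fin N) ℂ := (hA.eigenvectorUnitary : Matrix (Fin N) (Fin N) ℂ)

lemma eU_mul_star {A : Matrix (Fin N) (Fin N) ℂ} (hA : A.IsHermitian) :
    eU hA * (eU hA)ᴴ = 1 := Unitary.coe_mul_star_self _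

lemma eU_star_mul {A : Matrix (Fin N) (Fin N) ℂ} (hA : A.IsHermitian) :
    (eU hA)ᴴ * eU hA = 1 := Unitary.coe_star_mul_self _

lemma cfc_spec {A : Matrix (Fin N) (Fin N) ℂ} (hA : A.IsHermitian) (f : ℝ → ℝ) :
    cfc f A = eU hA * diagonal (fun i => (f (hA.eigenvalues i) : ℂ)) * (eU hA)ᴴ := by
  rw [hA.cfc_eq, Matrix.IsHermitian.cfc, Unitary.conjStarAlgAut_apply]
  rfl

lemma self_spec {A : Matrix (Fin N) (Fin N) ℂ} (hA : A.IsHermitian) :
    A = eU hA * diagonal (fun i => (hA.eigenvalues i : ℂ)) * (eU hA)ᴴ := by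
  have h := hA.spectral_theorem
  rw [Unitary.conjStarAlgAut_apply] at h
  exact h

lemma isHermitian_cfc {A : Matrix (Fin N) (Fin N) ℂ} (hA : A.IsHermitian) (f : ℝ → ℝ) :
    (cfc f A).IsHermitian := by
  rw [cfc_spec hA, Matrix.IsHermitian, conjTranspose_mul, conjTranspose_mul,
    conjTranspose_conjTranspose, diagonal_conjTranspose, Matrix.mul_assoc]
  congr 3
  funext i
  simp

lemma cfc_congr_eig {A : Matrix (Fin N) (Fin N) ℂ} (hA : A.IsHermitian) {f g : ℝ → ℝ}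
    (h : ∀ i, f (hA.eigenvalues i) = g (hA.eigenvalues i)) : cfc f A = cfc g A := by
  rw [cfc_spec hA, cfc_spec hA]
  simp only [h]

lemma cfc_eq_self {A : Matrix (Fin N) (Fin N) ℂ} (hA : A.IsHermitian) {f : ℝ → ℝ}
    (h : ∀ i, f (hA.eigenvalues i) = hA.eigenvalues i) : cfc f A = A := by
  rw [cfc_spec hA]
  simp only [h]
  exact (self_spec hA).symm

lemma cfc_mul_cfc {A : Matrix (Fin N) (Fin N) ℂ} (hA : A.IsHermitian) (f g : ℝ → ℝ) :
    cfc f A * cfc g A = cfc (fun t => f t * g t) A := by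
  rw [cfc_spec hA, cfc_spec hA, cfc_spec hA]
  have : eU hA * diagonal (fun i => (f (hA.eigenvalues i) : ℂ)) * (eU hA)ᴴ *
      (eU hA * diagonal (fun i => (g (hA.eigenvalues i) : ℂ)) * (eU hA)ᴴ) =
      eU hA * (diagonal (fun i => (f (hA.eigenvalues i) : ℂ)) * ((eU hA)ᴴ *
      eU hA) * diagonal (fun i => (g (hA.eigenvalues i) : ℂ))) * (eU hA)ᴴ := by
    simp only [Matrix.mul_assoc]
  rw [this, eU_star_mul, Matrix.mul_one, diagonal_mul_diagonal]
  simp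

lemma eU_isom {A : Matrix (Fin N) (Fin N) ℂ} (hA : A.IsHermitian) (v : Fin N → ℂ) :
    nsq ((eU hA)ᴴ *ᵥ v) = nsq v := by
  have h1 : star ((eU hA)ᴴ *ᵥ v) ⬝ᵥ ((eU hA)ᴴ *ᵥ v) = star v ⬝ᵥ v := by
    rw [star_mulVec, conjTranspose_conjTranspose, ← dotProduct_mulVec, mulVec_mulVec,
      eU_mul_star, one_mulVec]
  rw [nsq_eq, nsq_eq] at h1
  exact_mod_cast h1

lemma qf_cfc {A : Matrix (Fin N) (Fin N) ℂ} (hA : A.IsHermitian) (f : ℝ → ℝ) (v : Fin N → ℂ) :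
    qf (cfc f A) v = ∑ i, f (hA.eigenvalues i) * ‖((eU hA)ᴴ *ᵥ v) i‖ ^ 2 := by
  set w := (eU hA)ᴴ *ᵥ v with hw
  have h1 : star v ⬝ᵥ (cfc f A) *ᵥ v
      = star w ⬝ᵥ (diagonal (fun i => (f (hA.eigenvalues i) : ℂ))) *ᵥ w := by
    rw [cfc_spec hA, hw, star_mulVec, conjTranspose_conjTranspose, ← mulVec_mulVec,
      ← mulVec_mulVec, ← dotProduct_mulVec]
  rw [qf, h1, dotProduct, Complex.re_sum]
  refine Finset.sum_congr rfl fun i _ => ?_
  rw [mulVec_diagonal, Pi.star_apply]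
  have : star (w i) * ((f (hA.eigenvalues i) : ℂ) * w i)
      = ((f (hA.eigenvalues i) * ‖w i‖ ^ 2 : ℝ) : ℂ) := by
    rw [Complex.ofReal_mul, ← Complex.normSq_eq_norm_sq, Complex.normSq_eq_conj_mul_self]
    simp only [RCLike.star_def]
    ring
  rw [this, Complex.ofReal_re]

lemma qf_self {A : Matrix (Fin N) (Fin N) ℂ} (hA : A.IsHermitian) (v : Fin N → ℂ) :
    qf A v = ∑ i, hA.eigenvalues i * ‖((eU hA)ᴴ *ᵥ v) i‖ ^ 2 := by
  rw [← qf_cfc hA (fun t => t), cfc_eq_self hA (fun i => rfl)]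

/-- comparison of a spectral function with an affine function -/
lemma qf_cfc_le {A : Matrix (Fin N) (Fin N) ℂ} (hA : A.IsHermitian) {f : ℝ → ℝ} {α β : ℝ}
    (h : ∀ i, f (hA.eigenvalues i) ≤ α + β * hA.eigenvalues i) (v : Fin N → ℂ) :
    qf (cfc f A) v ≤ α * nsq v + β * qf A v := by
  rw [qf_cfc hA, qf_self hA, ← eU_isom hA v, nsq, Finset.mul_sum, Finset.mul_sum,
    ← Finset.sum_add_distrib]
  refine Finset.sum_le_sum fun i _ => ?_
  have h1 := h i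
  have h2 : 0 ≤ ‖((eU hA)ᴴ *ᵥ v) i‖ ^ 2 := by positivity
  nlinarith

lemma le_qf_cfc {A : Matrix (Fin N) (Fin N) ℂ} (hA : A.IsHermitian) {f : ℝ → ℝ} {α β : ℝ}
    (h : ∀ i, α + β * hA.eigenvalues i ≤ f (hA.eigenvalues i)) (v : Fin N → ℂ) :
    α * nsq v + β * qf A v ≤ qf (cfc f A) v := by
  rw [qf_cfc hA, qf_self hA, ← eU_isom hA v, nsq, Finset.mul_sum, Finset.mul_sum,
    ← Finset.sum_add_distrib]
  refine Finset.sum_le_sum fun i _ => ?_
  have h1 := h i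
  have h2 : 0 ≤ ‖((eU hA)ᴴ *ᵥ v) i‖ ^ 2 := by positivity
  nlinarith

lemma psd_cfc {A : Matrix (Fin N) (Fin N) ℂ} (hA : A.IsHermitian) {f : ℝ → ℝ}
    (h : ∀ i, 0 ≤ f (hA.eigenvalues i)) : (cfc f A).PosSemidef := by
  refine psd_of_qf (isHermitian_cfc hA f) fun v => ?_
  rw [qf_cfc hA]
  exact Finset.sum_nonneg fun i _ => mul_nonneg (h i) (by positivity)

/-- the eigenvectors -/
noncomputable def ev {A : Matrix (Fin N) (Fin N) ℂ} (hA : A.IsHermitian) (i : Fin N) :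
    Fin N → ℂ := fun k => eU hA k i

lemma ev_eq {A : Matrix (Fin N) (Fin N) ℂ} (hA : A.IsHermitian) (i : Fin N) :
    ev hA i = eU hA *ᵥ Pi.single i 1 := by
  rw [mulVec_single_one]; rfl

lemma nsq_ev {A : Matrix (Fin N) (Fin N) ℂ} (hA : A.IsHermitian) (i : Fin N) :
    nsq (ev hA i) = 1 := by
  rw [← eU_isom hA, ev_eq, mulVec_mulVec, eU_star_mul, one_mulVec, nsq,
    Finset.sum_eq_single i]
  · simp
  · intro j _ hj; simp [hj]
  · simp

lemma cfc_ev {A : Matrix (Fin N) (Fin N) ℂ} (hA : A.IsHermitian) (f : ℝ → ℝ) (i : Fin N) :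
    cfc f A *ᵥ ev hA i = (f (hA.eigenvalues i) : ℂ) • ev hA i := by
  rw [cfc_spec hA, ev_eq, mulVec_mulVec, Matrix.mul_assoc, eU_star_mul, Matrix.mul_one,
    ← mulVec_mulVec, diagonal_mulVec_single, mul_one, ← mulVec_smul]
  congr 1
  ext j
  by_cases h : j = i
  · subst h; simp
  · simp [h]

lemma self_ev {A : Matrix (Fin N) (Fin N) ℂ} (hA : A.IsHermitian) (i : Fin N) :
    A *ᵥ ev hA i = (hA.eigenvalues i : ℂ) • ev hA i := by
  have := cfc_ev hA (fun t => t) i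
  rwa [cfc_eq_self hA (fun i => rfl)] at this

lemma ext_ev {A : Matrix (Fin N) (Fin N) ℂ} (hA : A.IsHermitian) {B C : Matrix (Fin N) (Fin N) ℂ}
    (h : ∀ i, B *ᵥ ev hA i = C *ᵥ ev hA i) : B = C := by
  have h1 : B * eU hA = C * eU hA := by
    ext k i
    have := congrFun (h i) k
    exact this
  calc B = B * eU hA * (eU hA)ᴴ := by rw [Matrix.mul_assoc, eU_mul_star, Matrix.mul_one]
    _ = C * eU hA * (eU hA)ᴴ := by rw [h1]
    _ = C := by rw [Matrix.mul_assoc, eU_mul_star, Matrix.mul_one]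

/-- spectral functions act on every eigenvector -/
lemma cfc_mulVec_eigen {A : Matrix (Fin N) (Fin N) ℂ} (hA : A.IsHermitian) (f : ℝ → ℝ)
    {v : Fin N → ℂ} {μ : ℝ} (h : A *ᵥ v = (μ : ℂ) • v) :
    cfc f A *ᵥ v = (f μ : ℂ) • v := by
  set w := (eU hA)ᴴ *ᵥ v with hw
  have hv : v = eU hA *ᵥ w := by rw [hw, mulVec_mulVec, eU_mul_star, one_mulVec]
  have h1 : ∀ i, (hA.eigenvalues i : ℂ) * w i = (μ : ℂ) * w i := by
    intro i
    have h2 : (eU hA)ᴴ *ᵥ (A *ᵥ v) = (μ : ℂ) • w := by rw [h, mulVec_smul]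
    have h3 : (eU hA)ᴴ *ᵥ (A *ᵥ v) = diagonal (fun i => (hA.eigenvalues i : ℂ)) *ᵥ w := by
      have e : (eU hA)ᴴ * A = diagonal (fun i => (hA.eigenvalues i : ℂ)) * (eU hA)ᴴ := by
        calc (eU hA)ᴴ * A = (eU hA)ᴴ *
            (eU hA * diagonal (fun i => (hA.eigenvalues i : ℂ)) * (eU hA)ᴴ) := by
              rw [← self_spec hA]
          _ = _ := by
            rw [← Matrix.mul_assoc, ← Matrix.mul_assoc, eU_star_mul, Matrix.one_mul]
      rw [mulVec_mulVec, e, hw, mulVec_mulVec]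
    rw [h3] at h2
    have := congrFun h2 i
    rwa [mulVec_diagonal, Pi.smul_apply, smul_eq_mul] at this
  have h4 : diagonal (fun i => (f (hA.eigenvalues i) : ℂ)) *ᵥ w = (f μ : ℂ) • w := by
    funext i
    rw [mulVec_diagonal, Pi.smul_apply, smul_eq_mul]
    by_cases hwi : w i = 0
    · rw [hwi, mul_zero, mul_zero]
    · have h5 := mul_right_cancel₀ hwi (h1 i)
      have h6 : hA.eigenvalues i = μ := by exact_mod_cast h5
      rw [h6]
  calc cfc f A *ᵥ v = eU hA *ᵥ (diagonal (fun i => (f (hA.eigenvalues i) : ℂ)) *ᵥ w) := by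
        rw [cfc_spec hA, hw, mulVec_mulVec, mulVec_mulVec, Matrix.mul_assoc]
    _ = (f μ : ℂ) • v := by rw [h4, mulVec_smul, ← hv]

lemma eig_le {A : Matrix (Fin N) (Fin N) ℂ} (hA : A.IsHermitian) {r : ℝ}
    (h : ∀ v, nsq v = 1 → qf A v ≤ r) (i : Fin N) : hA.eigenvalues i ≤ r := by
  have h1 := h (ev hA i) (nsq_ev hA i)
  rwa [qf_of_eigen (self_ev hA i), nsq_ev, mul_one] at h1

lemma le_eig {A : Matrix (Fin N) (Fin N) ℂ} (hA : A.IsHermitian) {r : ℝ}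
    (h : ∀ v, nsq v = 1 → r ≤ qf A v) (i : Fin N) : r ≤ hA.eigenvalues i := by
  have h1 := h (ev hA i) (nsq_ev hA i)
  rwa [qf_of_eigen (self_ev hA i), nsq_ev, mul_one] at h1

section Frobenius

open scoped Matrix.Norms.Frobenius

lemma frob_sq (A : Matrix (Fin N) (Fin N) ℂ) : ‖A‖ ^ 2 = ∑ i, ∑ j, ‖A i j‖ ^ 2 := by
  rw [frobenius_norm_def, ← Real.sqrt_eq_rpow, Real.sq_sqrt]
  · simp only [Real.rpow_two]
  · exact Finset.sum_nonneg fun i _ => Finset.sum_nonneg fun j _ => by positivity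

lemma frob_sq_trace (A : Matrix (Fin N) (Fin N) ℂ) : ‖A‖ ^ 2 = ((Aᴴ * A).trace).re := by
  rw [frob_sq, Finset.sum_comm, trace, Complex.re_sum]
  refine Finset.sum_congr rfl fun l _ => ?_
  rw [diag_apply, Matrix.mul_apply, Complex.re_sum]
  refine Finset.sum_congr rfl fun k _ => ?_
  rw [conjTranspose_apply, ← Complex.ofReal_re (‖A k l‖ ^ 2), ← Complex.normSq_eq_norm_sq,
    Complex.normSq_eq_conj_mul_self]
  simp

lemma frob_unitary {U V A : Matrix (Fin N) (Fin N) ℂ} (hU : U * Uᴴ = 1) (hV : V * Vᴴ = 1) :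
    ‖Uᴴ * A * V‖ = ‖A‖ := by
  have h : ‖Uᴴ * A * V‖ ^ 2 = ‖A‖ ^ 2 := by
    rw [frob_sq_trace, frob_sq_trace]
    congr 1
    have : (Uᴴ * A * V)ᴴ * (Uᴴ * A * V) = Vᴴ * (Aᴴ * A * V) := by
      rw [conjTranspose_mul, conjTranspose_mul, conjTranspose_conjTranspose]
      simp only [Matrix.mul_assoc]
      rw [← Matrix.mul_assoc U Uᴴ, hU, Matrix.one_mul]
    rw [this, trace_mul_comm, Matrix.mul_assoc, hV, Matrix.mul_one]
  have h0 := norm_nonneg (Uᴴ * A * V)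
  have h1 := norm_nonneg A
  exact (sq_eq_sq₀ h0 h1).1 h

/-- Lipschitz functions are Lipschitz for the Frobenius norm. -/
theorem norm_cfc_sub_le {A B : Matrix (Fin N) (Fin N) ℂ} (hA : A.IsHermitian)
    (hB : B.IsHermitian) {f : ℝ → ℝ} {L : ℝ} (hL : 0 ≤ L)
    (hf : ∀ a b, |f a - f b| ≤ L * |a - b|) : ‖cfc f A - cfc f B‖ ≤ L * ‖A - B‖ := by
  have key : ∀ g : ℝ → ℝ, ‖cfc g A - cfc g B‖ ^ 2 =
      ∑ i, ∑ j, (g (hA.eigenvalues i) - g (hB.eigenvalues j)) ^ 2 *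
        ‖((eU hA)ᴴ * eU hB) i j‖ ^ 2 := by
    intro g
    rw [← frob_unitary (eU_mul_star hA) (eU_mul_star hB) (A := cfc g A - cfc g B), frob_sq]
    refine Finset.sum_congr rfl fun i _ => Finset.sum_congr rfl fun j _ => ?_
    have h1 : (eU hA)ᴴ * (cfc g A - cfc g B) * eU hB =
        diagonal (fun i => (g (hA.eigenvalues i) : ℂ)) * ((eU hA)ᴴ * eU hB) -
        ((eU hA)ᴴ * eU hB) * diagonal (fun i => (g (hB.eigenvalues i) : ℂ)) := by
      rw [cfc_spec hA, cfc_spec hB, Matrix.mul_sub, Matrix.sub_mul]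
      congr 1
      · rw [← Matrix.mul_assoc, ← Matrix.mul_assoc, eU_star_mul, Matrix.one_mul,
          Matrix.mul_assoc]
      · simp only [Matrix.mul_assoc]
        rw [eU_star_mul, Matrix.mul_one]
    rw [h1, Matrix.sub_apply, diagonal_mul, mul_diagonal]
    have h2 : (g (hA.eigenvalues i) : ℂ) * ((eU hA)ᴴ * eU hB) i j -
        ((eU hA)ᴴ * eU hB) i j * (g (hB.eigenvalues j) : ℂ) =
        ((g (hA.eigenvalues i) - g (hB.eigenvalues j) : ℝ) : ℂ) * ((eU hA)ᴴ * eU hB) i j := by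
      push_cast; ring
    rw [h2, norm_mul, Complex.norm_real, mul_pow, Real.norm_eq_abs, sq_abs]
  have h2 : ‖cfc f A - cfc f B‖ ^ 2 ≤ (L * ‖A - B‖) ^ 2 := by
    have h3 := key (fun t => t)
    rw [cfc_eq_self hA (fun i => rfl), cfc_eq_self hB (fun i => rfl)] at h3
    rw [key f, mul_pow, h3, Finset.mul_sum]
    refine Finset.sum_le_sum fun i _ => ?_
    rw [Finset.mul_sum]
    refine Finset.sum_le_sum fun j _ => ?_
    rw [← mul_assoc]
    refine mul_le_mul_of_nonneg_right ?_ (by positivity)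
    rw [← sq_abs, ← sq_abs (hA.eigenvalues i - hB.eigenvalues j), ← mul_pow]
    exact pow_le_pow_left₀ (abs_nonneg _) (hf _ _) 2
  exact (sq_le_sq₀ (norm_nonneg _) (by positivity)).1 h2

end Frobenius

end P371Mat
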