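import Vale.Agent.P371.G.OdeStmt
import Vale.Agent.P371.G.Ode
import Vale.Agent.P371.G.Spec

/-!
# M7: the cut-off Riccati flow
-/

open Matrix Set Filter Topology
open scoped ComplexOrder

namespace Vale.Agent.P371.G

open P371Mat

variable {N : ℕ}

/-- Hermitian part -/
noncomputable def hp (A : Matrix (Fin N) (Fin N) ℂ) : Matrix (Fin N) (Fin N) ℂ :=
  (1 / 2 : ℂ) • (A + Aᴴ)

lemma hp_herm (A : Matrix (Fin N) (Fin N) ℂ) : (hp A).IsHermitian := by
  rw [Matrix.IsHermitian, hp, conjTranspose_smul, conjTranspose_add, conjTranspose_conjTranspose,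
    add_comm]
  simp

lemma hp_self {A : Matrix (Fin N) (Fin N) ℂ} (hA : A.IsHermitian) : hp A = A := by
  rw [hp, hA.eq, ← two_smul ℂ A, smul_smul]
  norm_num

lemma hp_entry (A B : Matrix (Fin N) (Fin N) ℂ) {c : ℝ} (h : ∀ i j, ‖A i j - B i j‖ ≤ c)
    (i j : Fin N) : ‖hp A i j - hp B i j‖ ≤ c := by
  have h1 : hp A i j - hp B i j = (1 / 2 : ℂ) * ((A i j - B i j) + star (A j i - B j i)) := by
    simp only [hp, Matrix.smul_apply, Matrix.add_apply, conjTranspose_apply, smul_eq_mul, star_sub]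
    ring
  rw [h1, norm_mul]
  have h2 := norm_add_le (A i j - B i j) (star (A j i - B j i))
  rw [norm_star] at h2
  have h3 := h i j
  have h4 := h j i
  have h5 : ‖(1 / 2 : ℂ)‖ = 1 / 2 := by norm_num
  rw [h5]
  linarith

section

open scoped Matrix.Norms.Frobenius

lemma entry_le_frob (A : Matrix (Fin N) (Fin N) ℂ) (i j : Fin N) : ‖A i j‖ ≤ ‖A‖ := by
  have h1 := frob_sq A
  have h2 : ‖A i j‖ ^ 2 ≤ ∑ i, ∑ j, ‖A i j‖ ^ 2 := by
    calc ‖A i j‖ ^ 2 ≤ ∑ j, ‖A i j‖ ^ 2 :=
          Finset.single_le_sum (f := fun j => ‖A i j‖ ^ 2) (fun k _ => by positivity)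
            (Finset.mem_univ j)
      _ ≤ ∑ i, ∑ j, ‖A i j‖ ^ 2 :=
          Finset.single_le_sum (f := fun i => ∑ j, ‖A i j‖ ^ 2)
            (fun k _ => Finset.sum_nonneg fun _ _ => by positivity) (Finset.mem_univ i)
  rw [← h1] at h2
  exact (sq_le_sq₀ (norm_nonneg _) (norm_nonneg _)).1 h2

lemma frob_le_of_entry (A : Matrix (Fin N) (Fin N) ℂ) {c : ℝ} (hc : 0 ≤ c)
    (h : ∀ i j, ‖A i j‖ ≤ c) : ‖A‖ ≤ N * c := by
  have h1 := frob_sq A
  have h2 : ∑ i, ∑ j, ‖A i j‖ ^ 2 ≤ ∑ _i : Fin N, ∑ _j : Fin N, c ^ 2 :=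
    Finset.sum_le_sum fun i _ => Finset.sum_le_sum fun j _ =>
      pow_le_pow_left₀ (norm_nonneg _) (h i j) 2
  simp only [Finset.sum_const, Finset.card_univ, Fintype.card_fin, nsmul_eq_mul] at h2
  rw [← h1] at h2
  have h3 : ‖A‖ ^ 2 ≤ (N * c) ^ 2 := by nlinarith
  exact (sq_le_sq₀ (norm_nonneg _) (by positivity)).1 h3

lemma cfc_entry {A B : Matrix (Fin N) (Fin N) ℂ} (hA : A.IsHermitian) (hB : B.IsHermitian)
    {f : ℝ → ℝ} {L : ℝ} (hL : 0 ≤ L) (hf : ∀ a b, |f a - f b| ≤ L * |a - b|) {c : ℝ} (hc : 0 ≤ c)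
    (h : ∀ i j, ‖A i j - B i j‖ ≤ c) (i j : Fin N) :
    ‖cfc f A i j - cfc f B i j‖ ≤ L * (N * c) := by
  have h1 := norm_cfc_sub_le hA hB hL hf
  have h2 : ‖A - B‖ ≤ N * c := frob_le_of_entry _ hc (fun i j => by
    rw [Matrix.sub_apply]; exact h i j)
  have h3 := entry_le_frob (cfc f A - cfc f B) i j
  rw [Matrix.sub_apply] at h3
  exact h3.trans (h1.trans (mul_le_mul_of_nonneg_left h2 hL))

lemma cfc_bound {A : Matrix (Fin N) (Fin N) ℂ} (hA : A.IsHermitian)
    {f : ℝ → ℝ} {b : ℝ} (hb : 0 ≤ b) (hf : ∀ a, |f a| ≤ b) (i j : Fin N) :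
    ‖cfc f A i j‖ ≤ N * b := by
  refine (entry_le_frob _ i j).trans ?_
  have h1 : ‖cfc f A‖ = ‖diagonal (fun i => (f (hA.eigenvalues i) : ℂ))‖ := by
    rw [← frob_unitary (eU_mul_star hA) (eU_mul_star hA) (A := cfc f A)]
    congr 1
    rw [P371Mat.cfc_spec hA, ← Matrix.mul_assoc, ← Matrix.mul_assoc, eU_star_mul, Matrix.one_mul,
      Matrix.mul_assoc, eU_star_mul, Matrix.mul_one]
  rw [h1]
  refine frob_le_of_entry _ hb fun i j => ?_
  by_cases h : i = j
  · subst h
    rw [diagonal_apply_eq, Complex.norm_real]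
    exact hf _
  · rw [diagonal_apply_ne _ h, norm_zero]
    exact hb

end

lemma mul_entry {K D : Matrix (Fin N) (Fin N) ℂ} {k c : ℝ} (hk0 : 0 ≤ k)
    (hK : ∀ i j, ‖K i j‖ ≤ k) (hD : ∀ i j, ‖D i j‖ ≤ c) (i j : Fin N) :
    ‖(K * D) i j‖ ≤ N * (k * c) := by
  rw [Matrix.mul_apply]
  refine (norm_sum_le _ _).trans ?_
  have : ∑ l, ‖K i l * D l j‖ ≤ ∑ _l : Fin N, k * c :=
    Finset.sum_le_sum fun l _ => by
      rw [norm_mul]
      exact mul_le_mul (hK i l) (hD l j) (norm_nonneg _) hk0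
  simpa using this

lemma mul_entry' {K D : Matrix (Fin N) (Fin N) ℂ} {k c : ℝ} (hk0 : 0 ≤ k)
    (hK : ∀ i j, ‖K i j‖ ≤ k) (hD : ∀ i j, ‖D i j‖ ≤ c) (i j : Fin N) :
    ‖(D * K) i j‖ ≤ N * (k * c) := by
  rw [Matrix.mul_apply]
  refine (norm_sum_le _ _).trans ?_
  have : ∑ l, ‖D i l * K l j‖ ≤ ∑ _l : Fin N, k * c :=
    Finset.sum_le_sum fun l _ => by
      rw [norm_mul, mul_comm]
      exact mul_le_mul (hK l j) (hD i l) (norm_nonneg _) hk0
  simpa using this

/-- continuity of Lipschitz spectral functions -/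
lemma continuous_cfc_hp {f : ℝ → ℝ} {L : ℝ} (hL : 0 ≤ L)
    (hf : ∀ a b, |f a - f b| ≤ L * |a - b|) :
    Continuous fun A : Matrix (Fin N) (Fin N) ℂ => cfc f (hp A) := by
  have h1 : LipschitzWith (Real.toNNReal (L * N))
      (fun (A : Fin N → Fin N → ℂ) (i j : Fin N) => cfc f (hp (of A)) i j) := by
    refine LipschitzWith.of_dist_le_mul fun A B => ?_
    rw [Real.coe_toNNReal _ (by positivity)]
    rw [dist_pi_le_iff (by positivity)]
    intro i
    rw [dist_pi_le_iff (by positivity)]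
    intro j
    rw [dist_eq_norm, mul_assoc]
    refine cfc_entry (hp_herm _) (hp_herm _) hL hf dist_nonneg (hp_entry _ _ fun i j => ?_) i j
    rw [of_apply, of_apply, ← dist_eq_norm]
    exact (dist_le_pi_dist (A i) (B i) j).trans (dist_le_pi_dist A B i)
  exact h1.continuous

/-- the truncated energies -/
noncomputable def clipf (a b t : ℝ) : ℝ := min (max t a) b

lemma clipf_lip (a b s t : ℝ) : |clipf a b s - clipf a b t| ≤ |s - t| := by
  unfold clipf
  refine (abs_min_sub_min_le_max _ _ _ _).trans ?_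
  rw [sub_self, abs_zero, max_eq_left (abs_nonneg _)]
  exact abs_max_sub_max_le_abs _ _ _

lemma sqrt_clipf_lip {a b : ℝ} (ha : 0 < a) (hab : a ≤ b) (s t : ℝ) :
    |√(clipf a b s) - √(clipf a b t)| ≤ (1 / √a) * |s - t| := by
  have h1 : ∀ t, a ≤ clipf a b t := fun t => le_min (le_max_right _ _) hab
  have ha' : 0 < √a := Real.sqrt_pos.2 ha
  have h2 : ∀ t, √a ≤ √(clipf a b t) := fun t => Real.sqrt_le_sqrt (h1 t)
  have h3 : ∀ t, √(clipf a b t) ^ 2 = clipf a b t := fun t =>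
    Real.sq_sqrt (ha.le.trans (h1 t))
  set x := √(clipf a b s)
  set y := √(clipf a b t)
  have hx : √a ≤ x := h2 s
  have hy : √a ≤ y := h2 t
  have h4 : |x - y| * (x + y) ≤ |s - t| := by
    have h5 : |x - y| * (x + y) = |clipf a b s - clipf a b t| := by
      rw [← h3 s, ← h3 t, ← abs_of_pos (show 0 < x + y by linarith), ← abs_mul]
      congr 1
      ring
    rw [h5]
    exact clipf_lip a b s t
  rw [div_mul_eq_mul_div, one_mul, le_div_iff₀ ha']
  have h6 := abs_nonneg (x - y)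
  nlinarith

lemma hq_lip {R : ℝ} (hR : 0 < R) (s t : ℝ) :
    |max s 0 * min (max s 0) (2 * R) - max t 0 * min (max t 0) (2 * R)| ≤ 4 * R * |s - t| := by
  have hst : |max s 0 - max t 0| ≤ |s - t| := abs_max_sub_max_le_abs _ _ _
  have hu : 0 ≤ max s 0 := le_max_right _ _
  have hv : 0 ≤ max t 0 := le_max_right _ _
  generalize max s 0 = u at *
  generalize max t 0 = v at *
  have key : ∀ u v : ℝ, 0 ≤ u → u ≤ v →
      |u * min u (2 * R) - v * min v (2 * R)| ≤ 4 * R * |u - v| := by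
    intro u v hu huv
    have h1 : min u (2 * R) ≤ min v (2 * R) := min_le_min_right _ huv
    have h2 : 0 ≤ min u (2 * R) := le_min hu (by linarith)
    have h3 : min v (2 * R) ≤ 2 * R := min_le_right _ _
    have h4 : u * min u (2 * R) ≤ v * min v (2 * R) := by nlinarith
    rw [abs_sub_comm, abs_of_nonneg (by linarith), abs_sub_comm, abs_of_nonneg (by linarith)]
    rcases le_total v (2 * R) with h | h
    · rw [min_eq_left h, min_eq_left (huv.trans h)]
      nlinarith
    · rw [min_eq_right h]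
      rcases le_total u (2 * R) with h' | h'
      · rw [min_eq_left h']
        nlinarith
      · rw [min_eq_right h']
        nlinarith
  have h5 : |u * min u (2 * R) - v * min v (2 * R)| ≤ 4 * R * |u - v| := by
    rcases le_total u v with h | h
    · exact key u v hu h
    · rw [abs_sub_comm, abs_sub_comm u v]
      exact key v u hv h
  refine h5.trans ?_
  exact mul_le_mul_of_nonneg_left hst (by linarith)

section field

variable (a R x₀ x₁ : ℝ) (hx : x₀ ≤ x₁) (V : Mat N → ℝ → Mat N)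

/-- the projection on the box -/
noncomputable def boxp (a R : ℝ) (E : Mat N) : Mat N := cfc (clipf a (R ^ 2)) (hp E)

/-- the square root of the projection on the box -/
noncomputable def boxs (a R : ℝ) (E : Mat N) : Mat N :=
  cfc (fun t => √(clipf a (R ^ 2) t)) (hp E)

/-- the vector field, matrix valued -/
noncomputable def fieldM (E : Mat N) (x : ℝ) (Y : Mat N) : Mat N :=
  -V (boxp a R E) (projIcc x₀ x₁ hx x) + boxs a R E * hp Y + hp Y * boxs a R E - Hq R (hp Y)

lemma boxp_mem {a R : ℝ} (haR : a ≤ R ^ 2) (E : Mat N) : boxp a R E ∈ box2 N a (R ^ 2) := by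
  have hE := hp_herm E
  have h1 : ∀ t, a ≤ clipf a (R ^ 2) t := fun t => le_min (le_max_right _ _) haR
  have h2 : ∀ t, clipf a (R ^ 2) t ≤ R ^ 2 := fun t => min_le_right _ _
  have h3 : ∀ r : ℝ, (((r : ℝ) : ℂ) • (1 : Mat N)).IsHermitian := by
    intro r
    rw [Matrix.IsHermitian, conjTranspose_smul, conjTranspose_one]
    simp
  have h4 : ∀ (r : ℝ) (v : Fin N → ℂ), qf (((r : ℝ) : ℂ) • (1 : Mat N)) v = r * nsq v := by
    intro r v
    apply qf_of_eigen
    rw [smul_mulVec, one_mulVec]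
  refine ⟨isHermitian_cfc hE _, ?_, ?_⟩
  · refine psd_of_qf ((isHermitian_cfc hE _).sub (h3 a)) fun v => ?_
    rw [qf_sub, h4]
    have := le_qf_cfc hE (f := clipf a (R ^ 2)) (α := a) (β := 0)
      (fun i => by rw [zero_mul, add_zero]; exact h1 _) v
    simp only [boxp]
    linarith
  · refine psd_of_qf ((h3 _).sub (isHermitian_cfc hE _)) fun v => ?_
    rw [qf_sub, h4]
    have := qf_cfc_le hE (f := clipf a (R ^ 2)) (α := R ^ 2) (β := 0)
      (fun i => by rw [zero_mul, add_zero]; exact h2 _) v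
    simp only [boxp]
    linarith

lemma box_eig {a b : ℝ} {E : Mat N} (hE : E ∈ box2 N a b) (i : Fin N) :
    a ≤ hE.1.eigenvalues i ∧ hE.1.eigenvalues i ≤ b := by
  have h4 : ∀ (r : ℝ) (v : Fin N → ℂ), qf (((r : ℝ) : ℂ) • (1 : Mat N)) v = r * nsq v := by
    intro r v
    apply qf_of_eigen
    rw [smul_mulVec, one_mulVec]
  constructor
  · refine le_eig hE.1 (fun v hv => ?_) i
    have := qf_nonneg hE.2.1 v
    rw [qf_sub, h4, hv] at this
    linarith
  · refine eig_le hE.1 (fun v hv => ?_) i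
    have := qf_nonneg hE.2.2 v
    rw [qf_sub, h4, hv] at this
    linarith

lemma boxp_self {a R : ℝ} {E : Mat N} (hE : E ∈ box2 N a (R ^ 2)) : boxp a R E = E := by
  rw [boxp, hp_self hE.1]
  refine cfc_eq_self hE.1 fun i => ?_
  obtain ⟨h1, h2⟩ := box_eig hE i
  rw [clipf, max_eq_left h1, min_eq_left h2]

lemma boxs_self {a R : ℝ} {E : Mat N} (hE : E ∈ box2 N a (R ^ 2)) :
    boxs a R E = cfc Real.sqrt E := by
  rw [boxs, hp_self hE.1]
  refine cfc_congr_eig hE.1 fun i => ?_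
  obtain ⟨h1, h2⟩ := box_eig hE i
  rw [clipf, max_eq_left h1, min_eq_left h2]

lemma continuous_boxp (a R : ℝ) : Continuous (boxp (N := N) a R) :=
  continuous_cfc_hp zero_le_one fun s t => by rw [one_mul]; exact clipf_lip _ _ s t

lemma continuous_boxs {a R : ℝ} (ha : 0 < a) (haR : a ≤ R ^ 2) :
    Continuous (boxs (N := N) a R) :=
  continuous_cfc_hp (by positivity) (sqrt_clipf_lip ha haR)

lemma continuous_hp : Continuous (hp (N := N)) := by
  unfold hp
  have h1 : Continuous fun A : Matrix (Fin N) (Fin N) ℂ => Aᴴ :=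
    continuous_id.matrix_conjTranspose
  exact (continuous_id.add h1).const_smul (1 / 2 : ℂ)

lemma continuous_Hq_hp {R : ℝ} (hR : 0 < R) : Continuous fun Y : Mat N => Hq R (hp Y) :=
  continuous_cfc_hp (by positivity) (hq_lip hR)

lemma continuous_fieldM {a R : ℝ} (ha : 0 < a) (haR : a ≤ R ^ 2) (hR : 0 < R)
    (hV : ContinuousOn (fun q : Mat N × ℝ => V q.1 q.2) (box2 N a (R ^ 2) ×ˢ Icc x₀ x₁)) :
    Continuous fun q : Mat N × ℝ × Mat N => fieldM a R x₀ x₁ hx V q.1 q.2.1 q.2.2 := by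
  have h1 : Continuous fun q : Mat N × ℝ × Mat N =>
      V (boxp a R q.1) (projIcc x₀ x₁ hx q.2.1) := by
    have h2 : Continuous fun q : Mat N × ℝ × Mat N =>
        ((boxp a R q.1, ((projIcc x₀ x₁ hx q.2.1 : Icc x₀ x₁) : ℝ)) : Mat N × ℝ) :=
      ((continuous_boxp a R).comp continuous_fst).prodMk
        (continuous_subtype_val.comp (continuous_projIcc.comp
          (continuous_fst.comp continuous_snd)))
    have h3 := hV.comp h2.continuousOn (s := univ)
      (fun q _ => ⟨boxp_mem haR q.1, (projIcc x₀ x₁ hx q.2.1).2⟩)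
    exact continuousOn_univ.1 h3
  have h4 : Continuous fun q : Mat N × ℝ × Mat N => boxs a R q.1 :=
    (continuous_boxs ha haR).comp continuous_fst
  have h5 : Continuous fun q : Mat N × ℝ × Mat N => hp q.2.2 :=
    continuous_hp.comp (continuous_snd.comp continuous_snd)
  have h6 : Continuous fun q : Mat N × ℝ × Mat N => Hq R (hp q.2.2) :=
    (continuous_Hq_hp hR).comp (continuous_snd.comp continuous_snd)
  unfold fieldM
  exact ((h1.neg.add (h4.matrix_mul h5)).add (h5.matrix_mul h4)).sub h6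

lemma fieldM_lip {a R : ℝ} (hR : 0 < R) (E : Mat N) (x : ℝ)
    (Y Y' : Mat N) {c : ℝ} (hc : 0 ≤ c) (h : ∀ i j, ‖Y i j - Y' i j‖ ≤ c) (i j : Fin N) :
    ‖fieldM a R x₀ x₁ hx V E x Y i j - fieldM a R x₀ x₁ hx V E x Y' i j‖ ≤
      (2 * (N * (N * R)) + 4 * R * N) * c := by
  have hK : ∀ i j, ‖boxs a R E i j‖ ≤ N * R := by
    refine cfc_bound (hp_herm E) hR.le fun t => ?_
    rw [abs_of_nonneg (Real.sqrt_nonneg _)]
    calc √(clipf a (R ^ 2) t) ≤ √(R ^ 2) := Real.sqrt_le_sqrt (min_le_right _ _)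
      _ = R := Real.sqrt_sq hR.le
  have hD : ∀ i j, ‖(hp Y - hp Y') i j‖ ≤ c := fun i j => by
    rw [Matrix.sub_apply]; exact hp_entry _ _ h i j
  have h1 := mul_entry (by positivity) hK hD i j
  have h2 := mul_entry' (by positivity) hK hD i j
  have h3 := cfc_entry (hp_herm Y) (hp_herm Y') (by positivity) (hq_lip hR) hc
    (hp_entry _ _ h) i j
  have e : fieldM a R x₀ x₁ hx V E x Y i j - fieldM a R x₀ x₁ hx V E x Y' i j =
      (boxs a R E * (hp Y - hp Y')) i j + ((hp Y - hp Y') * boxs a R E) i j -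
        (Hq R (hp Y) i j - Hq R (hp Y') i j) := by
    simp only [fieldM, Matrix.mul_sub, Matrix.sub_mul, Matrix.sub_apply, Matrix.add_apply,
      Matrix.neg_apply]
    ring
  rw [e]
  refine (norm_sub_le _ _).trans ?_
  have h4 := norm_add_le ((boxs a R E * (hp Y - hp Y')) i j) (((hp Y - hp Y') * boxs a R E) i j)
  have h5 : ‖Hq R (hp Y) i j - Hq R (hp Y') i j‖ ≤ 4 * R * (N * c) := h3
  nlinarith

lemma fieldM_herm {a R : ℝ} (haR : a ≤ R ^ 2)
    (hVh : ∀ E ∈ box2 N a (R ^ 2), ∀ x ∈ Icc x₀ x₁, (V E x).IsHermitian) (E : Mat N) (x : ℝ)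
    (Y : Mat N) : (fieldM a R x₀ x₁ hx V E x Y).IsHermitian := by
  have h1 := hVh _ (boxp_mem haR E) _ (projIcc x₀ x₁ hx x).2
  have h2 : (boxs a R E).IsHermitian := isHermitian_cfc (hp_herm E) _
  have h3 := hp_herm Y
  have h4 : (Hq R (hp Y)).IsHermitian := isHermitian_cfc h3 _
  have h5 : (boxs a R E * hp Y + hp Y * boxs a R E).IsHermitian := by
    rw [Matrix.IsHermitian, conjTranspose_add, conjTranspose_mul, conjTranspose_mul, h2.eq, h3.eq,
      add_comm]
  unfold fieldM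
  rw [add_assoc]
  exact (h1.neg.add h5).sub h4

end field

/-- **M7**. -/
theorem odeFact : OdeFact := by
  intro N x₀ x₁ a R hx ha haR hR V hV hVh
  have hx' : x₀ ≤ x₁ := hx.le
  let v : Mat N → ℝ → (Fin N → Fin N → ℂ) → (Fin N → Fin N → ℂ) :=
    fun E x Y i j => fieldM a R x₀ x₁ hx' V E x (of Y) i j
  let Kc : ℝ := 2 * (N * (N * R)) + 4 * R * N
  have hKc : 0 ≤ Kc := by positivity
  have hv : Continuous fun q : Mat N × ℝ × (Fin N → Fin N → ℂ) => v q.1 q.2.1 q.2.2 := by
    have h1 := continuous_fieldM x₀ x₁ hx' V ha haR.le hR hV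
    exact h1
  have hK : ∀ E x, LipschitzWith (Real.toNNReal Kc) (v E x) := by
    intro E x
    refine LipschitzWith.of_dist_le_mul fun A B => ?_
    rw [Real.coe_toNNReal _ hKc]
    rw [dist_pi_le_iff (by positivity)]
    intro i
    rw [dist_pi_le_iff (by positivity)]
    intro j
    rw [dist_eq_norm]
    refine fieldM_lip x₀ x₁ hx' V hR E x (of A) (of B) dist_nonneg (fun i j => ?_) i j
    rw [of_apply, of_apply, ← dist_eq_norm]
    exact (dist_le_pi_dist (A i) (B i) j).trans (dist_le_pi_dist A B i)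
  obtain ⟨y, hy0, hyd, hyc⟩ := P371Ode.exists_param x₀ x₁ hx' v
    (fun E i j => ((2 : ℂ) • boxs a R E) i j) (Real.toNNReal Kc) hv hK
    ((continuous_boxs ha haR.le).const_smul (2 : ℂ))
  refine ⟨fun E x => hp (of (y E x)), ?_, ?_⟩
  · intro E hE
    refine ⟨?_, fun x _ => hp_herm _, ?_⟩
    · have h1 : of (y E x₀) = (2 : ℂ) • boxs a R E := by rw [hy0]; rfl
      show hp (of (y E x₀)) = _
      rw [h1, boxs_self hE]
      apply hp_self
      rw [Matrix.IsHermitian, conjTranspose_smul, (isHermitian_cfc hE.1 _).eq]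
      simp
    · intro x hxm i j
      have h1 : ∀ i j, HasDerivWithinAt (fun t => y E t i j)
          (fieldM a R x₀ x₁ hx' V E x (of (y E x)) i j) (Icc x₀ x₁) x := by
        intro i j
        have h2 := hyd E x hxm
        rw [hasDerivWithinAt_pi] at h2
        have h3 := h2 i
        rw [hasDerivWithinAt_pi] at h3
        exact h3 j
      have h4 : HasDerivWithinAt (fun t => hp (of (y E t)) i j)
          ((1 / 2 : ℂ) * (fieldM a R x₀ x₁ hx' V E x (of (y E x)) i j
            + star (fieldM a R x₀ x₁ hx' V E x (of (y E x)) j i))) (Icc x₀ x₁) x := by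
        have h5 := ((h1 i j).add (h1 j i).star).const_mul (1 / 2 : ℂ)
        exact h5
      have h6 : (1 / 2 : ℂ) * (fieldM a R x₀ x₁ hx' V E x (of (y E x)) i j
            + star (fieldM a R x₀ x₁ hx' V E x (of (y E x)) j i))
          = (-V E x + cfc Real.sqrt E * hp (of (y E x)) + hp (of (y E x)) * cfc Real.sqrt E
            - Hq R (hp (of (y E x)))) i j := by
        have h7 := (fieldM_herm x₀ x₁ hx' V haR.le hVh E x (of (y E x))).apply i j
        rw [h7, fieldM, boxp_self hE, boxs_self hE, projIcc_of_mem hx' hxm]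
        ring
      rw [h6] at h4
      exact h4
  · have h1 := hyc x₁ (right_mem_Icc.2 hx')
    have h2 : Continuous fun E : Mat N => hp (of (y E x₁)) := continuous_hp.comp h1
    exact h2.continuousOn

end Vale.Agent.P371.G
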