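import Vale.Agent.P371.G.Iface2

/-!
# M7: statement of the cut-off Riccati flow

`Y' = -V + K Y + Y K - h(Y)`, `K = √E`, `h(y) = y_+ min(y_+, 2R)` (globally Lipschitz, equal to
`y_+²` for `y ≤ 2R`, equal to `2 R y` for `y ≥ 2R`).
-/

open Matrix Set
open scoped ComplexOrder

namespace Vale.Agent.P371.G

/-- the cut-off square `h(Y)` -/
noncomputable def Hq {N : ℕ} (R : ℝ) (Y : Mat N) : Mat N :=
  cfc (fun x : ℝ => max x 0 * min (max x 0) (2 * R)) Y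

/-- the box `a ≤ E ≤ b` -/
def box2 (N : ℕ) (a b : ℝ) : Set (Mat N) :=
  {E | E.IsHermitian ∧ (E - ((a : ℝ) : ℂ) • 1).PosSemidef ∧
    (((b : ℝ) : ℂ) • 1 - E).PosSemidef}

/-- M7: existence and continuous dependence of the cut-off flow. -/
def OdeFact : Prop :=
  ∀ (N : ℕ) (x₀ x₁ a R : ℝ), x₀ < x₁ → 0 < a → a < R ^ 2 → 0 < R → ∀ V : Mat N → ℝ → Mat N,
    ContinuousOn (fun q : Mat N × ℝ => V q.1 q.2) (box2 N a (R ^ 2) ×ˢ Icc x₀ x₁) →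
    (∀ E ∈ box2 N a (R ^ 2), ∀ x ∈ Icc x₀ x₁, (V E x).IsHermitian) →
    ∃ Y : Mat N → ℝ → Mat N,
      (∀ E ∈ box2 N a (R ^ 2), Y E x₀ = (2 : ℂ) • cfc Real.sqrt E ∧
        (∀ x ∈ Icc x₀ x₁, (Y E x).IsHermitian) ∧
        ∀ x ∈ Icc x₀ x₁, ∀ i j, HasDerivWithinAt (fun y => Y E y i j)
          ((-V E x + cfc Real.sqrt E * Y E x + Y E x * cfc Real.sqrt E - Hq R (Y E x)) i j)
          (Icc x₀ x₁) x) ∧
      ContinuousOn (fun E => Y E x₁) (box2 N a (R ^ 2))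

end Vale.Agent.P371.G
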