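import Vale.Agent.P371.G.Iface

/-!
# P371: the scalar integral of `ζ_k(t)`
-/

open MeasureTheory Set

namespace Vale.Agent.P371.G

theorem hasDerivAt_fent {r : ℝ} (hr : 0 < r) : HasDerivAt fent (Real.log r) r := by
  have h := ((hasDerivAt_id r).mul (Real.hasDerivAt_log hr.ne')).sub (hasDerivAt_id r)
  have e : (1 : ℝ) * Real.log r + id r * r⁻¹ - 1 = Real.log r := by
    simp only [id]
    rw [one_mul, mul_inv_cancel₀ hr.ne']
    ring
  rw [e] at h
  exact h

theorem zeta_eq {k t : ℝ} (hk : 0 < k) (ht : 0 < t) :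
    2 * (fent (√(k ^ 2 + t) + k) - fent (√(k ^ 2 + t) - k) - k * Real.log t) = zeta k t := by
  set a := √(k ^ 2 + t) with ha
  have ha2 : a ^ 2 = k ^ 2 + t := Real.sq_sqrt (by positivity)
  have hak : k < a := by
    rw [ha]
    exact Real.lt_sqrt_of_sq_lt (by linarith)
  have hlog : ∀ z ∈ uIcc (-k) k, Real.log (1 + (k ^ 2 - z ^ 2) / t) =
      Real.log (a + z) + Real.log (a - z) - Real.log t := by
    intro z hz
    rw [uIcc_of_le (by linarith), mem_Icc] at hz
    have h1 : 0 < a + z := by linarith [hz.1]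
    have h2 : 0 < a - z := by linarith [hz.2]
    rw [← Real.log_mul h1.ne' h2.ne', ← Real.log_div (mul_pos h1 h2).ne' ht.ne']
    congr 1
    field_simp
    nlinarith
  have hd1 : ∀ z ∈ uIcc (-k) k, HasDerivAt (fun z => fent (a + z)) (Real.log (a + z)) z := by
    intro z hz
    rw [uIcc_of_le (by linarith), mem_Icc] at hz
    have h1 : 0 < a + z := by linarith [hz.1]
    have h := (hasDerivAt_fent h1).comp z ((hasDerivAt_id z).const_add a)
    rw [mul_one] at h
    exact h
  have hd2 : ∀ z ∈ uIcc (-k) k, HasDerivAt (fun z => -fent (a - z)) (Real.log (a - z)) z := by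
    intro z hz
    rw [uIcc_of_le (by linarith), mem_Icc] at hz
    have h1 : 0 < a - z := by linarith [hz.2]
    have h := ((hasDerivAt_fent h1).comp z ((hasDerivAt_id z).const_sub a)).neg
    rw [mul_neg, mul_one, neg_neg] at h
    exact h
  have hc1 : ContinuousOn (fun z => Real.log (a + z)) (uIcc (-k) k) := by
    rw [uIcc_of_le (by linarith)]
    refine ContinuousOn.log (by fun_prop) fun z hz => ?_
    have := hz.1
    linarith
  have hc2 : ContinuousOn (fun z => Real.log (a - z)) (uIcc (-k) k) := by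
    rw [uIcc_of_le (by linarith)]
    refine ContinuousOn.log (by fun_prop) fun z hz => ?_
    have := hz.2
    linarith
  have hi1 := hc1.intervalIntegrable (μ := volume)
  have hi2 := hc2.intervalIntegrable (μ := volume)
  unfold zeta
  rw [intervalIntegral.integral_congr hlog,
    intervalIntegral.integral_sub (hi1.add hi2) (by simp),
    intervalIntegral.integral_add hi1 hi2,
    intervalIntegral.integral_eq_sub_of_hasDerivAt hd1 hi1,
    intervalIntegral.integral_eq_sub_of_hasDerivAt hd2 hi2, intervalIntegral.integral_const]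
  simp only [smul_eq_mul, sub_neg_eq_add]
  ring_nf

theorem zeta_part {s : ℝ} (hs0 : 0 < s)
    (h1 : ∀ g : ℝ, 0 ≤ g → IntegrableOn (fun t => t ^ (s - 1) * Real.log (1 + g / t)) (Ioi 0))
    (h2 : ∀ g : ℝ, 0 ≤ g → ∫ t in Ioi (0 : ℝ), t ^ (s - 1) * Real.log (1 + g / t) = c0 s * g ^ s)
    {k : ℝ} (hk : 0 < k) :
    IntegrableOn (fun t => t ^ (s - 1) * zeta k t) (Ioi 0) ∧
      ∫ t in Ioi (0 : ℝ), t ^ (s - 1) * zeta k t = c0 s * k ^ (2 * s + 1) * Bs s := by
  set F : ℝ × ℝ → ℝ := fun q => q.2 ^ (s - 1) * Real.log (1 + (k ^ 2 - q.1 ^ 2) / q.2) with hF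
  have hmeas : Measurable F := by
    rw [hF]
    fun_prop
  have hg : ∀ z ∈ Ioc (-k) k, 0 ≤ k ^ 2 - z ^ 2 := by
    intro z hz
    nlinarith [hz.1, hz.2]
  have hnn : ∀ z ∈ Ioc (-k) k, ∀ t ∈ Ioi (0 : ℝ), 0 ≤ F (z, t) := by
    intro z hz t ht
    have ht' : 0 < t := ht
    have h3 := hg z hz
    exact mul_nonneg (Real.rpow_nonneg ht'.le _)
      (Real.log_nonneg (by have := div_nonneg h3 ht'.le; linarith))
  have hint : Integrable F ((volume.restrict (Ioc (-k) k)).prod (volume.restrict (Ioi 0))) := by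
    rw [integrable_prod_iff hmeas.aestronglyMeasurable]
    refine ⟨?_, ?_⟩
    · refine (ae_restrict_iff' measurableSet_Ioc).2 (Filter.Eventually.of_forall fun z hz => ?_)
      exact h1 _ (hg z hz)
    · have h3 : ∀ z ∈ Ioc (-k) k, ∫ t in Ioi (0 : ℝ), ‖F (z, t)‖ = c0 s * (k ^ 2 - z ^ 2) ^ s := by
        intro z hz
        rw [← h2 _ (hg z hz)]
        refine setIntegral_congr_fun measurableSet_Ioi fun t ht => ?_
        exact Real.norm_of_nonneg (hnn z hz t ht)
      have h4 : IntegrableOn (fun z => c0 s * (k ^ 2 - z ^ 2) ^ s) (Ioc (-k) k) := by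
        have h5 : Continuous fun z : ℝ => c0 s * (k ^ 2 - z ^ 2) ^ s := by
          refine continuous_const.mul (Continuous.rpow_const (by fun_prop) fun z => Or.inr hs0.le)
        exact (h5.integrableOn_Icc (a := -k) (b := k)).mono_set Ioc_subset_Icc_self
      exact (integrableOn_congr_fun h3 measurableSet_Ioc).2 h4
  have hz : ∀ t, t ^ (s - 1) * zeta k t = ∫ z in Ioc (-k) k, F (z, t) := by
    intro t
    unfold zeta
    rw [intervalIntegral.integral_of_le (by linarith), ← integral_const_mul]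
  have hBs : ∫ z in Ioc (-k) k, (k ^ 2 - z ^ 2) ^ s = k ^ (2 * s + 1) * Bs s := by
    rw [← intervalIntegral.integral_of_le (by linarith)]
    have h5 := intervalIntegral.mul_integral_comp_mul_left (f := fun z : ℝ => (k ^ 2 - z ^ 2) ^ s)
      (a := -1) (b := 1) k
    rw [mul_neg, mul_one] at h5
    rw [← h5]
    have h6 : ∀ z ∈ uIcc (-1 : ℝ) 1, (k ^ 2 - (k * z) ^ 2) ^ s = k ^ (2 * s) * (1 - z ^ 2) ^ s := by
      intro z hz
      rw [uIcc_of_le (by norm_num), mem_Icc] at hz
      rw [show k ^ 2 - (k * z) ^ 2 = k ^ 2 * (1 - z ^ 2) by ring,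
        Real.mul_rpow (by positivity) (by nlinarith [hz.1, hz.2]), ← Real.rpow_natCast k 2,
        ← Real.rpow_mul hk.le]
      norm_num
    rw [intervalIntegral.integral_congr h6, intervalIntegral.integral_const_mul,
      Real.rpow_add hk, Real.rpow_one]
    unfold Bs
    ring
  simp only [hz]
  refine ⟨hint.integral_prod_right, ?_⟩
  have hsw := integral_integral_swap (f := fun z t => F (z, t)) (μ := volume.restrict (Ioc (-k) k))
    (ν := volume.restrict (Ioi 0)) hint
  rw [← hsw]
  have h7 : ∫ z in Ioc (-k) k, ∫ t in Ioi (0 : ℝ), F (z, t) =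
      ∫ z in Ioc (-k) k, c0 s * (k ^ 2 - z ^ 2) ^ s :=
    setIntegral_congr_fun measurableSet_Ioc fun z hz => h2 _ (hg z hz)
  rw [h7, integral_const_mul, hBs]
  ring

end Vale.Agent.P371.G
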