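import Vale.Agent.P371.KinIneq
import Vale.Agent.P371.G.Iface

/-!
# P371, general exponent: the test inequality

For a Riccati path `Z' = K² - Z² - W` from `K` to `-K` on `[-ρ, ρ]` and a matrix valued `H¹`
function `F` (an `m × N` matrix), with `P = F^* F`,
`∫_{-ρ}^ρ tr (P W) ≤ ∫ tr (F'^* F') + ∫ tr (P K²)`.
-/

open MeasureTheory Matrix Filter Topology Set
open scoped ENNReal ComplexOrder

namespace Vale.Agent.P371.G

open Vale.Agent.P371 Vale.Agent.P371.Kin

/-- matrix valued `H¹` functions -/
structure HM {m N : ℕ} (F V : ℝ → Matrix (Fin m) (Fin N) ℂ) : Prop where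
  hV : ∀ i j, LocallyIntegrable (fun x => V x i j) volume
  hV2 : Integrable (fun x => ((V x)ᴴ * V x).trace.re)
  hUV : ∀ i j x y, F y i j - F x i j = ∫ t in x..y, V t i j
  hP : ∀ j k, Integrable (fun x => ((F x)ᴴ * F x) j k)

namespace HM

variable {m N : ℕ} {F V : ℝ → Matrix (Fin m) (Fin N) ℂ}

lemma ii (h : HM F V) (i j) (a b : ℝ) :
    IntervalIntegrable (fun x => V x i j) volume a b :=
  intervalIntegrable_iff.mpr
    (((h.hV i j).integrableOn_isCompact isCompact_uIcc).mono_set Set.uIoc_subset_uIcc)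

lemma cont (h : HM F V) (i j) : Continuous fun x => F x i j := by
  have h1 : (fun x => F x i j) = fun x => F 0 i j + ∫ t in (0 : ℝ)..x, V t i j := by
    funext x
    rw [← h.hUV i j 0 x]
    ring
  rw [h1]
  exact continuous_const.add (intervalIntegral.continuous_primitive (fun a b => h.ii i j a b) 0)

lemma contP (h : HM F V) (j k) : Continuous fun x => Pm F x j k := by
  simp only [Pm, mul_apply, conjTranspose_apply]
  exact continuous_finsetSum _ fun i _ => (h.cont i j).star.mul (h.cont i k)

lemma contMat (h : HM F V) : Continuous F := continuous_matrix h.cont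

lemma contPM (h : HM F V) : Continuous (Pm F) := continuous_matrix h.contP

lemma intP (h : HM F V) (j k) : Integrable (fun x => Pm F x j k) := h.hP j k

lemma ae_deriv (h : HM F V) : ∀ᵐ x, MD F (V x) x := by
  have h1 : ∀ i j, ∀ᵐ x, HasDerivAt (fun y => F y i j) (V x i j) x := by
    intro i j
    filter_upwards [_root_.LocallyIntegrable.ae_hasDerivAt_integral (h.hV i j)] with x hx
    have h1 : (fun x => F x i j) = fun x => F 0 i j + ∫ t in (0 : ℝ)..x, V t i j := by
      funext x
      rw [← h.hUV i j 0 x]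
      ring
    rw [h1]
    exact (hx 0).const_add _
  filter_upwards [ae_all_iff.mpr fun i => ae_all_iff.mpr fun j => h1 i j] with x hx
  exact hx

lemma macU (h : HM F V) (a b : ℝ) : MAC F a b :=
  fun i j => ac_primitive (fun a b => h.ii i j a b) (h.hUV i j) a b

lemma macP (h : HM F V) (a b : ℝ) : MAC (Pm F) a b :=
  (h.macU a b).conjTranspose.mul (h.macU a b)

lemma trP_int (h : HM F V) : Integrable fun t => (Pm F t).trace.re := by
  simp only [trace, diag_apply]
  exact (integrable_finsetSum _ fun k _ => h.intP k k).re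

lemma trPM_int (h : HM F V) (M : Matrix (Fin N) (Fin N) ℂ) :
    Integrable fun t => (Pm F t * M).trace.re := by
  simp only [trace, diag_apply, mul_apply]
  exact (integrable_finsetSum _ fun k _ => integrable_finsetSum _ fun l _ =>
    (h.intP k l).mul_const _).re

/-- points far out where `tr P` is small -/
lemma exists_small (h : HM F V) {δ : ℝ} (hδ : 0 < δ) (M : ℝ) :
    (∃ x, M ≤ x ∧ (Pm F x).trace.re < δ) ∧ ∃ x, x ≤ M ∧ (Pm F x).trace.re < δ := by
  constructor
  · by_contra hcon
    push Not at hcon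
    have h1 : IntegrableOn (fun _ : ℝ => δ) (Set.Ici M) := by
      refine (h.trP_int).integrableOn.mono' aestronglyMeasurable_const ?_
      rw [ae_restrict_iff' measurableSet_Ici]
      exact Eventually.of_forall fun x hx => by
        rw [Real.norm_eq_abs, abs_of_pos hδ]
        exact hcon x hx
    rw [integrableOn_const_iff] at h1
    rcases h1 with h1 | h1
    · exact hδ.ne' (by simpa using h1)
    · simp at h1
  · by_contra hcon
    push Not at hcon
    have h1 : IntegrableOn (fun _ : ℝ => δ) (Set.Iic M) := by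
      refine (h.trP_int).integrableOn.mono' aestronglyMeasurable_const ?_
      rw [ae_restrict_iff' measurableSet_Iic]
      exact Eventually.of_forall fun x hx => by
        rw [Real.norm_eq_abs, abs_of_pos hδ]
        exact hcon x hx
    rw [integrableOn_const_iff] at h1
    rcases h1 with h1 | h1
    · exact hδ.ne' (by simpa using h1)
    · simp at h1

end HM

variable {m N : ℕ} {F V : ℝ → Matrix (Fin m) (Fin N) ℂ}

/-- a path with continuous derivative is absolutely continuous -/
lemma mac_of_deriv {n k : ℕ} {Z Z' : ℝ → Matrix (Fin n) (Fin k) ℂ} {a b : ℝ} (hab : a ≤ b)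
    (hd : ∀ x ∈ Icc a b, ∀ i j, HasDerivWithinAt (fun y => Z y i j) (Z' x i j) (Icc a b) x)
    (hc : ∀ i j, ContinuousOn (fun x => Z' x i j) (Icc a b)) : MAC Z a b := by
  intro i j
  obtain ⟨C, hC⟩ := isCompact_Icc.exists_bound_of_continuousOn (hc i j)
  have hC0 : ∀ x ∈ Icc a b, ‖Z' x i j‖ ≤ |C| := fun x hx => (hC x hx).trans (le_abs_self C)
  have h1 : LipschitzOnWith ⟨|C|, abs_nonneg C⟩ (fun y => Z y i j) (Icc a b) :=
    (convex_Icc a b).lipschitzOnWith_of_nnnorm_hasDerivWithin_le (fun x hx => hd x hx i j)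
      (fun x hx => by
        have := hC0 x hx
        exact_mod_cast this)
  rw [← uIcc_of_le hab] at h1
  exact h1.absolutelyContinuousOnInterval

lemma contOn_trace {n : ℕ} {G : ℝ → Matrix (Fin n) (Fin n) ℂ} {S : Set ℝ}
    (hG : ∀ i j, ContinuousOn (fun x => G x i j) S) : ContinuousOn (fun x => (G x).trace.re) S := by
  simp only [trace, diag_apply]
  exact Complex.continuous_re.comp_continuousOn (continuousOn_finsetSum _ fun i _ => hG i i)

lemma contOn_mul {l n k : ℕ} {G : ℝ → Matrix (Fin l) (Fin n) ℂ} {H : ℝ → Matrix (Fin n) (Fin k) ℂ}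
    {S : Set ℝ} (hG : ∀ i j, ContinuousOn (fun x => G x i j) S)
    (hH : ∀ i j, ContinuousOn (fun x => H x i j) S) :
    ∀ i j, ContinuousOn (fun x => (G x * H x) i j) S := by
  intro i j
  simp only [mul_apply]
  exact continuousOn_finsetSum _ fun k _ => (hG i k).mul (hH k j)

/-- the test inequality on a bounded interval -/
lemma interval_test (h : HM F V) {a b : ℝ} (hab : a ≤ b) {K : Mat N} {W Z : ℝ → Mat N}
    (hZh : ∀ x ∈ Icc a b, (Z x).IsHermitian)
    (hZd : ∀ x ∈ Icc a b, ∀ i j,
      HasDerivWithinAt (fun y => Z y i j) ((K * K - Z x * Z x - W x) i j) (Icc a b) x)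
    (hWc : ∀ i j, ContinuousOn (fun x => W x i j) (Icc a b)) :
    (∫ x in a..b, (Pm F x * W x).trace.re) +
        ((Pm F b * Z b).trace.re - (Pm F a * Z a).trace.re) ≤
      (∫ x in a..b, ((V x)ᴴ * V x).trace.re) + ∫ x in a..b, (Pm F x * (K * K)).trace.re := by
  have hZc : ∀ i j, ContinuousOn (fun x => Z x i j) (Icc a b) := fun i j x hx =>
    (hZd x hx i j).continuousWithinAt
  have hPc : ∀ i j, ContinuousOn (fun x => Pm F x i j) (Icc a b) := fun i j =>
    (h.contP i j).continuousOn
  have hZ'c : ∀ i j, ContinuousOn (fun x => (K * K - Z x * Z x - W x) i j) (Icc a b) := by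
    intro i j
    have h1 := contOn_mul hZc hZc i j
    exact (continuousOn_const.sub h1).sub (hWc i j)
  have hZa : MAC Z a b := mac_of_deriv hab hZd hZ'c
  have hac := ((h.macP a b).mul hZa).trace_re
  have c1 : IntervalIntegrable (fun x => ((V x)ᴴ * V x).trace.re) volume a b :=
    h.hV2.intervalIntegrable
  have c2 : IntervalIntegrable (fun x => (Pm F x * (K * K)).trace.re) volume a b :=
    (h.trPM_int (K * K)).intervalIntegrable
  have c3 : IntervalIntegrable (fun x => (Pm F x * W x).trace.re) volume a b := by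
    apply ContinuousOn.intervalIntegrable
    rw [uIcc_of_le hab]
    exact contOn_trace (contOn_mul hPc hWc)
  rw [← hac.integral_deriv_eq_sub]
  have h1 : ∫ x in a..b, deriv (fun y => (Pm F y * Z y).trace.re) x ≤
      ∫ x in a..b, ((((V x)ᴴ * V x).trace.re + (Pm F x * (K * K)).trace.re) -
        (Pm F x * W x).trace.re) := by
    refine intervalIntegral.integral_mono_ae_restrict hab hac.intervalIntegrable_deriv
      ((c1.add c2).sub c3) ?_
    filter_upwards [ae_restrict_mem measurableSet_Icc, ae_restrict_of_ae h.ae_deriv,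
      ae_restrict_of_ae (compl_mem_ae_iff.mpr (measure_singleton a)),
      ae_restrict_of_ae (compl_mem_ae_iff.mpr (measure_singleton b))] with x hx hF hxa hxb
    have hxo : Icc a b ∈ 𝓝 x := Icc_mem_nhds (lt_of_le_of_ne hx.1 (Ne.symm hxa))
      (lt_of_le_of_ne hx.2 hxb)
    have hZx : MD Z (K * K - Z x * Z x - W x) x := fun i j => (hZd x hx i j).hasDerivAt hxo
    have hPd : MD (Pm F) ((V x)ᴴ * F x + (F x)ᴴ * V x) x := hF.conjTranspose.mul hF
    have hd := (hPd.mul hZx).trace_re
    have hd2 : deriv (fun y => (Pm F y * Z y).trace.re) x = _ := hd.deriv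
    rw [hd2]
    have e1 := square_ge (F x) (V x) (Z x) (hZh x hx) (-(1 / 2))
    have e2 : (Z x * ((F x)ᴴ * F x) * Z x).trace = (Pm F x * (Z x * Z x)).trace := by
      rw [Matrix.mul_assoc, trace_mul_comm, Matrix.mul_assoc, Pm]
    rw [e2] at e1
    rw [trace_add, Complex.add_re, Matrix.mul_sub, Matrix.mul_sub, trace_sub, trace_sub,
      Complex.sub_re, Complex.sub_re]
    linarith
  rw [intervalIntegral.integral_sub (c1.add c2) c3, intervalIntegral.integral_add c1 c2] at h1
  linarith

lemma trace_mul_bound {P : Mat N} (hP : P.PosSemidef) (K : Mat N) :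
    |(P * K).trace.re| ≤ (∑ i, ∑ j, ‖K i j‖) * P.trace.re := by
  refine (Complex.abs_re_le_norm _).trans ?_
  rw [trace, Finset.sum_mul]
  simp only [diag_apply, mul_apply]
  rw [Finset.sum_comm]
  refine (norm_sum_le _ _).trans (Finset.sum_le_sum fun i _ => ?_)
  rw [Finset.sum_mul]
  refine (norm_sum_le _ _).trans (Finset.sum_le_sum fun j _ => ?_)
  rw [norm_mul, mul_comm]
  exact mul_le_mul_of_nonneg_left (norm_entry_le hP j i) (norm_nonneg _)

/-- **The test inequality.** -/
theorem test_ineq (h : HM F V) {ρ : ℝ} {K : Mat N} {W Z : ℝ → Mat N} (hρ : 0 ≤ ρ)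
    (hR : Ric (-ρ) ρ K W Z) (hWc : ∀ i j, ContinuousOn (fun x => W x i j) (Icc (-ρ) ρ)) :
    ∫ x in (-ρ)..ρ, (Pm F x * W x).trace.re ≤
      (∫ x, ((V x)ᴴ * V x).trace.re) + ∫ x, (Pm F x * (K * K)).trace.re := by
  set C := ∑ i, ∑ j, ‖K i j‖ with hC
  have hC0 : 0 ≤ C := Finset.sum_nonneg fun i _ => Finset.sum_nonneg fun j _ => norm_nonneg _
  have hK : K.IsHermitian := hR.posDef.isHermitian
  have hKK : ∀ x, 0 ≤ (Pm F x * (K * K)).trace.re := by
    intro x
    have h1 : (Pm F x * (K * K)).trace = ((F x * K)ᴴ * (F x * K)).trace := by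
      rw [conjTranspose_mul, hK.eq, Matrix.mul_assoc, ← Matrix.mul_assoc (F x)ᴴ, trace_mul_comm K,
        Pm, Matrix.mul_assoc, Matrix.mul_assoc, Matrix.mul_assoc]
    rw [h1]
    exact trace_nonneg (posSemidef_conjTranspose_mul_self (F x * K))
  have hVV : ∀ x, 0 ≤ ((V x)ᴴ * V x).trace.re := fun x =>
    trace_nonneg (posSemidef_conjTranspose_mul_self (V x))
  refine le_of_forall_pos_le_add fun ε hε => ?_
  have hδ : 0 < ε / (2 * (C + 1)) := by positivity
  obtain ⟨b, hb, hPb⟩ := (h.exists_small hδ ρ).1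
  obtain ⟨a, ha, hPa⟩ := (h.exists_small hδ (-ρ)).2
  have i1 := interval_test h (neg_le_self hρ) hR.herm hR.deriv hWc
  have i2 := interval_test h (K := K) (Z := fun _ => -K) (W := fun _ => 0) hb
    (fun _ _ => hK.neg) (fun x _ i j => by
      have : (K * K - (-K) * (-K) - 0 : Mat N) i j = 0 := by simp
      rw [this]
      exact hasDerivWithinAt_const _ _ _) (fun i j => continuousOn_const)
  have i3 := interval_test h (K := K) (Z := fun _ => K) (W := fun _ => 0) ha
    (fun _ _ => hK) (fun x _ i j => by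
      have : (K * K - K * K - 0 : Mat N) i j = 0 := by simp
      rw [this]
      exact hasDerivWithinAt_const _ _ _) (fun i j => continuousOn_const)
  simp only [Matrix.mul_zero, trace_zero, Complex.zero_re, intervalIntegral.integral_zero,
    zero_add, Matrix.mul_neg, trace_neg, Complex.neg_re] at i2 i3
  rw [hR.left, hR.right] at i1
  simp only [Matrix.mul_neg, trace_neg, Complex.neg_re] at i1
  have b1 := trace_mul_bound (Pm_psd (U := F) b) K
  have b2 := trace_mul_bound (Pm_psd (U := F) a) K
  rw [← hC] at b1 b2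
  have b3 : ∀ x, (Pm F x).trace.re < ε / (2 * (C + 1)) → C * (Pm F x).trace.re ≤ ε / 2 := by
    intro x hx
    have h0 := trace_nonneg (Pm_psd (U := F) x)
    have h1 : (C + 1) * (Pm F x).trace.re ≤ (C + 1) * (ε / (2 * (C + 1))) := by gcongr
    have h2 : (C + 1) * (ε / (2 * (C + 1))) = ε / 2 := by field_simp
    nlinarith
  have b4 := b3 b hPb
  have b5 := b3 a hPa
  have j1 : (∫ x in a..(-ρ), ((V x)ᴴ * V x).trace.re) + (∫ x in (-ρ)..ρ, ((V x)ᴴ * V x).trace.re) +
      (∫ x in ρ..b, ((V x)ᴴ * V x).trace.re) = ∫ x in a..b, ((V x)ᴴ * V x).trace.re := by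
    rw [intervalIntegral.integral_add_adjacent_intervals h.hV2.intervalIntegrable
      h.hV2.intervalIntegrable, intervalIntegral.integral_add_adjacent_intervals
      h.hV2.intervalIntegrable h.hV2.intervalIntegrable]
  have j2 : (∫ x in a..(-ρ), (Pm F x * (K * K)).trace.re) +
      (∫ x in (-ρ)..ρ, (Pm F x * (K * K)).trace.re) +
      (∫ x in ρ..b, (Pm F x * (K * K)).trace.re) = ∫ x in a..b, (Pm F x * (K * K)).trace.re := by
    rw [intervalIntegral.integral_add_adjacent_intervals (h.trPM_int _).intervalIntegrable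
      (h.trPM_int _).intervalIntegrable, intervalIntegral.integral_add_adjacent_intervals
      (h.trPM_int _).intervalIntegrable (h.trPM_int _).intervalIntegrable]
  have hab : a ≤ b := by linarith
  have k1 : ∫ x in a..b, ((V x)ᴴ * V x).trace.re ≤ ∫ x, ((V x)ᴴ * V x).trace.re := by
    rw [intervalIntegral.integral_of_le hab]
    exact setIntegral_le_integral h.hV2 (Eventually.of_forall hVV)
  have k2 : ∫ x in a..b, (Pm F x * (K * K)).trace.re ≤ ∫ x, (Pm F x * (K * K)).trace.re := by
    rw [intervalIntegral.integral_of_le hab]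
    exact setIntegral_le_integral (h.trPM_int _) (Eventually.of_forall hKK)
  have b6 := (abs_le.mp b1).2
  have b7 := (abs_le.mp b2).2
  linarith

end Vale.Agent.P371.G
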