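import Vale.Agent.P371.G.OdeStmt
import Vale.Agent.P371.G.Spec
import Vale.Agent.P371.G.Topo

/-!
# M8: the topological step

`top2Fact : OdeFact → Top2Fact`. Brouwer's theorem for `E ↦ clip (clip E - Y (x₁; clip E))`
(`clip` = spectral truncation to `[a, R²]`); at a fixed point `F = E - Y₁` satisfies
`E = clip F`, and two barrier arguments exclude eigenvalues of `F` outside `[a, R²]`.
-/

open Matrix Set
open scoped ComplexOrder
open P371Mat

namespace Vale.Agent.P371.G.TopB

variable {N : ℕ}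

/-- truncation to `[a, b]` -/
noncomputable def clip (a b : ℝ) (t : ℝ) : ℝ := min (max t a) b

theorem clip_lo {a b t : ℝ} (hab : a ≤ b) : a ≤ clip a b t := le_min (le_max_right _ _) hab

theorem clip_hi {a b t : ℝ} : clip a b t ≤ b := min_le_right _ _

theorem clip_self {a b t : ℝ} (h1 : a ≤ t) (h2 : t ≤ b) : clip a b t = t := by
  rw [clip, max_eq_left h1, min_eq_left h2]

theorem clip_lt {a b t : ℝ} (hab : a ≤ b) (h : t ≤ a) : clip a b t = a := by
  rw [clip, max_eq_right h, min_eq_left hab]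

theorem clip_gt {a b t : ℝ} (h : b ≤ t) : clip a b t = b := by
  rw [clip, min_eq_right (h.trans (le_max_left _ _))]

theorem clip_lip (a b s t : ℝ) : |clip a b s - clip a b t| ≤ 1 * |s - t| := by
  rw [one_mul, clip, clip]
  refine (abs_min_sub_min_le_max _ _ _ _).trans ?_
  rw [sub_self, abs_zero, max_eq_left (abs_nonneg _)]
  refine (abs_max_sub_max_le_max _ _ _ _).trans ?_
  rw [sub_self, abs_zero, max_eq_left (abs_nonneg _)]

/-- Hermitian part -/
noncomputable def hm (E : Mat N) : Mat N := (2⁻¹ : ℝ) • (E + Eᴴ)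

theorem hm_herm (E : Mat N) : (hm E).IsHermitian := by
  rw [hm, IsHermitian, conjTranspose_smul, conjTranspose_add, conjTranspose_conjTranspose,
    add_comm Eᴴ E, star_trivial]

theorem hm_self {E : Mat N} (hE : E.IsHermitian) : hm E = E := by
  rw [hm, hE.eq, ← two_smul ℝ E, smul_smul, inv_mul_cancel₀ two_ne_zero, one_smul]

/-- spectral truncation of the Hermitian part -/
noncomputable def pr (a b : ℝ) (E : Mat N) : Mat N := cfc (clip a b) (hm E)

theorem box2_iff {a b : ℝ} {E : Mat N} (hE : E.IsHermitian) :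
    E ∈ box2 N a b ↔ (∀ v, nsq v = 1 → a ≤ qf E v ∧ qf E v ≤ b) := by
  have h1 : ∀ c : ℝ, ((c : ℂ) • (1 : Mat N)) = c • (1 : Mat N) := fun c => by
    ext i j
    simp
  constructor
  · rintro ⟨_, h2, h3⟩ v hv
    have h4 := qf_nonneg h2 v
    have h5 := qf_nonneg h3 v
    rw [qf_sub, h1, qf_smul, qf_one, hv] at h4 h5
    exact ⟨by linarith, by linarith⟩
  · intro h
    refine ⟨hE, ?_, ?_⟩
    · rw [h1]
      refine psd_of_qf_unit (hE.sub (isHermitian_smul_one a)) fun v hv => ?_
      rw [qf_sub, qf_smul, qf_one, hv]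
      linarith [(h v hv).1]
    · rw [h1]
      refine psd_of_qf_unit ((isHermitian_smul_one b).sub hE) fun v hv => ?_
      rw [qf_sub, qf_smul, qf_one, hv]
      linarith [(h v hv).2]

theorem box2_eig {a b : ℝ} {E : Mat N} (h : E ∈ box2 N a b) (i : Fin N) :
    a ≤ h.1.eigenvalues i ∧ h.1.eigenvalues i ≤ b :=
  ⟨le_eig h.1 (fun v hv => ((box2_iff h.1).1 h v hv).1) i,
    eig_le h.1 (fun v hv => ((box2_iff h.1).1 h v hv).2) i⟩

theorem pr_mem {a b : ℝ} (hab : a ≤ b) (E : Mat N) : pr a b E ∈ box2 N a b := by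
  have hH := isHermitian_cfc (hm_herm E) (clip a b)
  refine (box2_iff hH).2 fun v hv => ⟨?_, ?_⟩
  · have := le_qf_cfc (hm_herm E) (f := clip a b) (α := a) (β := 0)
      (fun i => by rw [zero_mul, add_zero]; exact clip_lo hab) v
    rw [hv] at this
    change a ≤ qf (cfc (clip a b) (hm E)) v
    linarith
  · have := qf_cfc_le (hm_herm E) (f := clip a b) (α := b) (β := 0)
      (fun i => by rw [zero_mul, add_zero]; exact clip_hi) v
    rw [hv] at this
    change qf (cfc (clip a b) (hm E)) v ≤ b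
    linarith

theorem pr_self {a b : ℝ} {E : Mat N} (h : E ∈ box2 N a b) : pr a b E = E := by
  rw [pr, hm_self h.1]
  exact cfc_eq_self h.1 fun i => clip_self (box2_eig h i).1 (box2_eig h i).2

section Frob

open scoped Matrix.Norms.Frobenius

theorem pr_cont (a b : ℝ) : Continuous (pr a b : Mat N → Mat N) := by
  have hc : Continuous (hm : Mat N → Mat N) := by
    have h1 : Continuous fun E : Mat N => E + Eᴴ :=
      continuous_id.add (continuous_id.matrix_conjTranspose)
    exact h1.const_smul (2⁻¹ : ℝ)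
  have hl : Continuous fun E : {E : Mat N // E.IsHermitian} => cfc (clip a b) E.1 := by
    have : LipschitzWith 1 fun E : {E : Mat N // E.IsHermitian} => cfc (clip a b) E.1 :=
      LipschitzWith.of_dist_le_mul fun A B => by
        rw [dist_eq_norm, NNReal.coe_one]
        have := norm_cfc_sub_le A.2 B.2 zero_le_one (clip_lip a b)
        rwa [← dist_eq_norm A.1 B.1] at this
    exact this.continuous
  exact hl.comp (hc.subtype_mk hm_herm)

theorem pr_bdd {a b : ℝ} (hab : a ≤ b) (ha : 0 ≤ a) (E : Mat N) :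
    ‖pr a b E‖ ≤ √(∑ _i : Fin N, ∑ _j : Fin N, b ^ 2) := by
  refine Real.le_sqrt_of_sq_le ?_
  have hb : 0 ≤ b := ha.trans hab
  have hU := eU_mul_star (hm_herm E)
  have hU' := eU_star_mul (hm_herm E)
  have h1 : ‖pr a b E‖ = ‖(diagonal (fun i => (clip a b ((hm_herm E).eigenvalues i) : ℂ)) : Mat N)‖ := by
    rw [pr, cfc_spec (hm_herm E), ← frob_unitary hU hU (A := eU (hm_herm E) * _ * _)]
    congr 1
    simp only [Matrix.mul_assoc]
    rw [hU', Matrix.mul_one, ← Matrix.mul_assoc, hU', Matrix.one_mul]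
  rw [h1, frob_sq]
  refine Finset.sum_le_sum fun i _ => Finset.sum_le_sum fun j _ => ?_
  rw [diagonal_apply]
  split_ifs with hij
  · rw [Complex.norm_real, Real.norm_of_nonneg (ha.trans (clip_lo hab))]
    exact pow_le_pow_left₀ (ha.trans (clip_lo hab)) clip_hi 2
  · rw [norm_zero]
    nlinarith

/-- the fixed point -/
theorem exists_fixed {a b : ℝ} (hab : a ≤ b) (ha : 0 ≤ a) (Y : Mat N → Mat N)
    (hY : ContinuousOn Y (box2 N a b)) :
    ∃ E ∈ box2 N a b, pr a b (E - Y E) = E := by
  have hYp : Continuous fun E : Mat N => Y (pr a b E) := by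
    have := hY.comp (s := univ) (pr_cont a b).continuousOn (fun E _ => pr_mem hab E)
    exact continuousOn_univ.1 this
  obtain ⟨E, hE⟩ := P371Topo.fixed_of_bounded
    (fun E : Mat N => pr a b (pr a b E - Y (pr a b E)))
    ((pr_cont a b).comp ((pr_cont a b).sub hYp)) _ (fun E => pr_bdd hab ha _)
  have hmem : E ∈ box2 N a b := by
    rw [← hE]
    exact pr_mem hab _
  refine ⟨E, hmem, ?_⟩
  have h1 := hE
  simp only [pr_self hmem] at h1
  exact h1

end Frob

end Vale.Agent.P371.G.TopB
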