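import Vale.Agent.P371.G.TopB

/-!
# M8, part C: the barrier arguments
-/

open Matrix Set
open scoped ComplexOrder
open P371Mat

namespace Vale.Agent.P371.G.TopB

variable {N : ℕ}

/-- the scalar cut-off square -/
noncomputable def hs (R t : ℝ) : ℝ := max t 0 * min (max t 0) (2 * R)

theorem hs_nonneg {R : ℝ} (hR : 0 ≤ R) (t : ℝ) : 0 ≤ hs R t :=
  mul_nonneg (le_max_right _ _) (le_min (le_max_right _ _) (by linarith))

theorem hs_neg {R t : ℝ} (ht : t ≤ 0) : hs R t = 0 := by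
  rw [hs, max_eq_right ht, zero_mul]

theorem hs_mid {R t : ℝ} (ht : 0 ≤ t) (ht2 : t ≤ 2 * R) : hs R t = t ^ 2 := by
  rw [hs, max_eq_left ht, min_eq_left ht2, sq]

theorem hs_big {R t : ℝ} (hR : 0 ≤ R) (ht2 : 2 * R ≤ t) : hs R t = 2 * R * t := by
  rw [hs, max_eq_left (by linarith), min_eq_right ht2]
  ring

theorem hs_ge {R k : ℝ} (hk : 0 ≤ k) (hkR : k ≤ R) (t : ℝ) : -k ^ 2 + 2 * k * t ≤ hs R t := by
  rcases le_total t 0 with h | h
  · rw [hs_neg h]
    nlinarith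
  · rcases le_total t (2 * R) with h2 | h2
    · rw [hs_mid h h2]
      nlinarith [sq_nonneg (t - k)]
    · rw [hs_big (hk.trans hkR) h2]
      nlinarith [mul_nonneg (sub_nonneg.2 hkR) h, sq_nonneg k]

theorem hs_le {R b t : ℝ} (hR : 0 ≤ R) (hb : 0 ≤ b) (ht : -b ≤ t) :
    hs R t ≤ 2 * R * b + 2 * R * t := by
  rcases le_total t 0 with h | h
  · rw [hs_neg h]
    nlinarith
  · rcases le_total t (2 * R) with h2 | h2
    · rw [hs_mid h h2]
      nlinarith [mul_nonneg hR hb, mul_nonneg h (sub_nonneg.2 h2)]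
    · rw [hs_big hR h2]
      nlinarith [mul_nonneg hR hb]

theorem Hq_eq (R : ℝ) (Y : Mat N) : Hq R Y = cfc (hs R) Y := rfl

/-- the data: a path of the cut-off flow -/
structure Flow (x₀ x₁ R δ ω : ℝ) (K : Mat N) (V Y : ℝ → Mat N) : Prop where
  hx : x₀ < x₁
  hR : 0 < R
  hK : K.PosSemidef
  hKR : ∀ v, nsq v = 1 → qf K v ≤ R
  hVl : ∀ x ∈ Icc x₀ x₁, ∀ v, nsq v = 1 → δ ≤ qf (V x) v
  hVu : ∀ x ∈ Icc x₀ x₁, ∀ v, nsq v = 1 → qf (V x) v ≤ ω
  hδ : 0 < δ
  h0 : Y x₀ = (2 : ℝ) • K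
  hY : ∀ x ∈ Icc x₀ x₁, (Y x).IsHermitian
  hd : ∀ x ∈ Icc x₀ x₁, MDer Y (-V x + K * Y x + Y x * K - Hq R (Y x)) (Icc x₀ x₁) x

variable {x₀ x₁ R δ ω : ℝ} {K : Mat N} {V Y : ℝ → Mat N}

theorem Flow.left (F : Flow x₀ x₁ R δ ω K V Y) : x₀ ∈ Icc x₀ x₁ := left_mem_Icc.2 F.hx.le

theorem Flow.right (F : Flow x₀ x₁ R δ ω K V Y) : x₁ ∈ Icc x₀ x₁ := right_mem_Icc.2 F.hx.le

/-- derivative along a common eigenvector of `K` -/
theorem Flow.qd (F : Flow x₀ x₁ R δ ω K V Y) {u : Fin N → ℂ} {k : ℝ}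
    (hu : K *ᵥ u = (k : ℂ) • u) {x : ℝ} (hx : x ∈ Icc x₀ x₁) :
    HasDerivWithinAt (fun y => qf (Y y) u)
      (-qf (V x) u + 2 * k * qf (Y x) u - qf (Hq R (Y x)) u) (Icc x₀ x₁) x := by
  have h1 := hasDerivWithinAt_qf (F.hd x hx) u
  have h2 : qf (-V x + K * Y x + Y x * K - Hq R (Y x)) u =
      -qf (V x) u + 2 * k * qf (Y x) u - qf (Hq R (Y x)) u := by
    have h3 : -V x + K * Y x + Y x * K - Hq R (Y x) =
        -V x + (Y x * K + K * Y x) - Hq R (Y x) := by abel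
    rw [h3, qf_sub, qf_add, qf_neg, qf_anticomm_eigen F.hK.1 hu]
  rw [h2] at h1
  exact h1

theorem der_lin (R x₁ x : ℝ) :
    HasDerivAt (fun x : ℝ => -(2 * R * (x₁ - x))) (2 * R) x := by
  have h1 := (((hasDerivAt_id x).const_sub x₁).const_mul (2 * R)).fun_neg
  have h2 : -(2 * R * -1) = 2 * R := by ring
  rw [h2] at h1
  exact h1

/-- one dimensional comparison -/
theorem mono_of {g g' : ℝ → ℝ} {a b : ℝ} (hab : a ≤ b)
    (hg : ∀ x ∈ Icc a b, HasDerivWithinAt g (g' x) (Icc a b) x)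
    (h0 : ∀ x ∈ Icc a b, 0 ≤ g' x) : g a ≤ g b := by
  have h1 : MonotoneOn g (Icc a b) :=
    monotoneOn_of_hasDerivWithinAt_nonneg (convex_Icc a b)
      (fun x hx => (hg x hx).continuousWithinAt)
      (fun x hx => (hg x (interior_subset hx)).mono interior_subset)
      (fun x hx => h0 x (interior_subset hx))
  exact h1 (left_mem_Icc.2 hab) (right_mem_Icc.2 hab) hab

/-- (a): an eigenvector of `K` with a small eigenvalue is in the negative space of `Y x₁`. -/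
theorem Flow.small (F : Flow x₀ x₁ R δ ω K V Y) {u : Fin N → ℂ} {k : ℝ} (hu1 : nsq u = 1)
    (hu : K *ᵥ u = (k : ℂ) • u) (hk : 0 ≤ k) (hkR : k ≤ R)
    (hsm : 2 * k + (k ^ 2 - δ) * (x₁ - x₀) < 0) : qf (Y x₁) u < 0 := by
  have h1 := mono_of (g := fun x => -qf (Y x) u + (k ^ 2 - δ) * x)
    (g' := fun x => -(-qf (V x) u + 2 * k * qf (Y x) u - qf (Hq R (Y x)) u) + (k ^ 2 - δ) * 1)
    F.hx.le (fun x hx => ((F.qd hu hx).neg).add
      (((hasDerivAt_id x).hasDerivWithinAt).const_mul (k ^ 2 - δ)))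
    (fun x hx => by
      have h2 := F.hVl x hx u hu1
      have h3 := le_qf_cfc (F.hY x hx) (f := hs R) (α := -k ^ 2) (β := 2 * k)
        (fun i => hs_ge hk hkR _) u
      rw [hu1, ← Hq_eq] at h3
      linarith)
  have h2 : qf (Y x₀) u = 2 * k := by
    rw [F.h0, qf_smul, qf_of_eigen hu, hu1]
    ring
  rw [h2] at h1
  linarith

/-- the backward barrier -/
theorem Flow.back (F : Flow x₀ x₁ R δ ω K V Y) {P : Mat N} (hP : P.PosSemidef) {β : ℝ}
    (hKP : K * P = R • P) (hPK : P * K = R • P) (h1 : (Y x₁ + β • P).PosSemidef) :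
    ∀ x ∈ Icc x₀ x₁, (Y x + (β * Real.exp (-(2 * R * (x₁ - x)))) • P).PosSemidef := by
  refine psd_backward (fun x => Y x + (β * Real.exp (-(2 * R * (x₁ - x)))) • P)
    (fun x => (-V x + K * Y x + Y x * K - Hq R (Y x)) +
      (β * (Real.exp (-(2 * R * (x₁ - x))) * (2 * R))) • P)
    (fun x hx => (F.hd x hx).add (MDer.smul_const ?_ P)) (fun x hx => ?_) 0 ?_ ?_
  · exact ((der_lin R x₁ x).exp.const_mul β).hasDerivWithinAt
  · refine (F.hY x hx).add ?_
    exact IsSelfAdjoint.smul (star_trivial _) hP.1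
  · rw [sub_self, mul_zero, neg_zero, Real.exp_zero, mul_one]
    exact h1
  · intro x hx m hm v hv he
    have h2 : (-V x + K * Y x + Y x * K - Hq R (Y x)) +
        (β * (Real.exp (-(2 * R * (x₁ - x))) * (2 * R))) • P =
        -V x + (K * (Y x + (β * Real.exp (-(2 * R * (x₁ - x)))) • P) +
          (Y x + (β * Real.exp (-(2 * R * (x₁ - x)))) • P) * K) - Hq R (Y x) := by
      rw [Matrix.mul_add, Matrix.add_mul, Matrix.mul_smul, Matrix.smul_mul, hKP, hPK, smul_smul]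
      have h3 : (β * (Real.exp (-(2 * R * (x₁ - x))) * (2 * R))) • P =
          (β * Real.exp (-(2 * R * (x₁ - x))) * R) • P +
          (β * Real.exp (-(2 * R * (x₁ - x))) * R) • P := by
        rw [← add_smul]
        congr 1
        ring
      rw [h3]
      abel
    have hDh : (Y x + (β * Real.exp (-(2 * R * (x₁ - x)))) • P).IsHermitian :=
      (F.hY x hx).add (IsSelfAdjoint.smul (star_trivial _) hP.1)
    have h4 := qf_nonneg F.hK v
    have h5 := (F.hδ.le.trans (F.hVl x hx v hv))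
    have h6 : 0 ≤ qf (Hq R (Y x)) v :=
      qf_nonneg (psd_cfc (F.hY x hx) (fun i => hs_nonneg F.hR.le _)) v
    rw [h2, qf_sub, qf_add, qf_neg, qf_anticomm_eigen hDh he]
    nlinarith

/-- (b): no defect at the top. -/
theorem Flow.top (F : Flow x₀ x₁ R δ ω K V Y) {P : Mat N} (hP : P.PosSemidef)
    (hP1 : ∀ v, nsq v = 1 → qf P v ≤ 1) {β : ℝ} (hβ : 0 < β)
    (hKP : K * P = R • P) (hPK : P * K = R • P) (h1 : (Y x₁ + β • P).PosSemidef)
    {u : Fin N → ℂ} (hu1 : nsq u = 1) (hu : K *ᵥ u = (R : ℂ) • u) (hR : ω * (x₁ - x₀) ≤ 2 * R) :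
    qf (Y x₁) u ≠ -β := by
  intro hcon
  set b : ℝ → ℝ := fun x => β * Real.exp (-(2 * R * (x₁ - x))) with hb
  have hb0 : ∀ x, 0 < b x := fun x => by positivity
  have hlow : ∀ x ∈ Icc x₀ x₁, ∀ v, nsq v = 1 → -b x ≤ qf (Y x) v := by
    intro x hx v hv
    have h2 := qf_nonneg (F.back hP hKP hPK h1 x hx) v
    rw [qf_add, qf_smul] at h2
    have h3 := hP1 v hv
    have h4 := hb0 x
    have h5 : b x * qf P v ≤ b x * 1 := mul_le_mul_of_nonneg_left h3 h4.le
    simp only [hb] at h5 ⊢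
    linarith
  have h2 := mono_of (g := fun x => qf (Y x) u + (ω * x + b x))
    (g' := fun x => (-qf (V x) u + 2 * R * qf (Y x) u - qf (Hq R (Y x)) u) +
      (ω * 1 + β * (Real.exp (-(2 * R * (x₁ - x))) * (2 * R))))
    F.hx.le (fun x hx => (F.qd hu hx).add (((hasDerivAt_id x).hasDerivWithinAt.const_mul ω).add
      ((der_lin R x₁ x).exp.const_mul β).hasDerivWithinAt))
    (fun x hx => by
      have h3 := F.hVu x hx u hu1
      have h4 := qf_cfc_le (F.hY x hx) (f := hs R) (α := 2 * R * b x) (β := 2 * R)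
        (fun i => hs_le F.hR.le (hb0 x).le (le_eig (F.hY x hx) (hlow x hx) i)) u
      rw [hu1, ← Hq_eq] at h4
      simp only [hb] at h4
      linarith)
  have h3 : qf (Y x₀) u = 2 * R := by
    rw [F.h0, qf_smul, qf_of_eigen hu, hu1]
    ring
  have h4 : b x₁ = β := by
    simp only [hb]
    rw [sub_self, mul_zero, neg_zero, Real.exp_zero, mul_one]
  have h5 := hb0 x₀
  rw [h3, h4, hcon] at h2
  linarith

/-- upper bound `Y ≤ 2R` -/
theorem Flow.le2R (F : Flow x₀ x₁ R δ ω K V Y) :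
    ∀ x ∈ Icc x₀ x₁, ((2 * R) • (1 : Mat N) - Y x).PosSemidef := by
  refine psd_forward (fun x => (2 * R) • (1 : Mat N) - Y x)
    (fun x => 0 - (-V x + K * Y x + Y x * K - Hq R (Y x)))
    (fun x hx => (MDer.const _ _ _).sub (F.hd x hx))
    (fun x hx => (isHermitian_smul_one _).sub (F.hY x hx)) 0 ?_ ?_
  · refine psd_of_qf_unit ((isHermitian_smul_one _).sub (F.hY _ F.left)) fun v hv => ?_
    rw [qf_sub, qf_smul, qf_one, hv, F.h0, qf_smul]
    linarith [F.hKR v hv]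
  · intro x hx m hm v hv he
    have h1 : Y x *ᵥ v = ((2 * R + m : ℝ) : ℂ) • v := by
      rw [sub_mulVec, smul_mulVec, one_mulVec] at he
      have h2 : Y x *ᵥ v = (2 * R) • v - ((-m : ℝ) : ℂ) • v := by
        rw [← he]
        abel
      rw [h2]
      ext i
      simp only [Pi.sub_apply, Pi.smul_apply, smul_eq_mul, Complex.real_smul]
      push_cast
      ring
    have h3 : Hq R (Y x) *ᵥ v = ((hs R (2 * R + m) : ℝ) : ℂ) • v :=
      cfc_mulVec_eigen (F.hY x hx) (hs R) h1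
    rw [hs_big F.hR.le (by linarith)] at h3
    have h4 : 0 - (-V x + K * Y x + Y x * K - Hq R (Y x)) =
        V x - (K * Y x + Y x * K) + Hq R (Y x) := by abel
    have h5 := F.hVl x hx v hv
    have h6 := F.hKR v hv
    have h7 := F.hR
    have h8 := F.hδ
    rw [h4, qf_add, qf_sub, qf_anticomm_eigen (F.hY x hx) h1, qf_of_eigen h3, hv]
    nlinarith [mul_nonneg (show (0 : ℝ) ≤ 2 * R + m by positivity) (sub_nonneg.2 h6)]

/-- the Riccati equation without cut-off -/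
theorem Flow.hq (F : Flow x₀ x₁ R δ ω K V Y) (h1 : Y x₁ = 0) :
    ∀ x ∈ Icc x₀ x₁, (Y x).PosSemidef ∧ Hq R (Y x) = Y x * Y x := by
  intro x hx
  have h2 := F.back (P := 0) (β := 0) PosSemidef.zero (by rw [Matrix.mul_zero, smul_zero])
    (by rw [Matrix.zero_mul, smul_zero]) (by
      rw [h1, smul_zero, add_zero]
      exact PosSemidef.zero) x hx
  rw [smul_zero, add_zero] at h2
  refine ⟨h2, ?_⟩
  have h3 := F.le2R x hx
  have h4 : ∀ i, 0 ≤ (F.hY x hx).eigenvalues i := le_eig _ (fun v _ => qf_nonneg h2 v)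
  have h5 : ∀ i, (F.hY x hx).eigenvalues i ≤ 2 * R := eig_le _ (fun v hv => by
    have := qf_nonneg h3 v
    rw [qf_sub, qf_smul, qf_one, hv] at this
    linarith)
  have h6 : cfc (fun t : ℝ => t) (Y x) = Y x := cfc_eq_self (F.hY x hx) fun i => rfl
  calc Hq R (Y x) = cfc (fun t : ℝ => t * t) (Y x) :=
        cfc_congr_eig (F.hY x hx) fun i => by
          change hs R _ = _
          rw [hs_mid (h4 i) (h5 i), sq]
    _ = cfc (fun t : ℝ => t) (Y x) * cfc (fun t : ℝ => t) (Y x) :=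
        (cfc_mul_cfc (F.hY x hx) _ _).symm
    _ = Y x * Y x := by rw [h6]

/-- upper bound `Y ≤ 2K` -/
theorem Flow.le2K (F : Flow x₀ x₁ R δ ω K V Y) (h1 : Y x₁ = 0) :
    ∀ x ∈ Icc x₀ x₁, ((2 : ℝ) • K - Y x).PosSemidef := by
  have hH : ∀ x ∈ Icc x₀ x₁, ((2 : ℝ) • K - Y x).IsHermitian := fun x hx =>
    (IsSelfAdjoint.smul (star_trivial _) F.hK.1).sub (F.hY x hx)
  refine psd_forward (fun x => (2 : ℝ) • K - Y x)
    (fun x => 0 - (-V x + K * Y x + Y x * K - Hq R (Y x)))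
    (fun x hx => (MDer.const _ _ _).sub (F.hd x hx)) hH 0 ?_ ?_
  · rw [F.h0, sub_self]
    exact PosSemidef.zero
  · intro x hx m hm v hv he
    have h2 : 0 - (-V x + K * Y x + Y x * K - Hq R (Y x)) =
        V x - (K * ((2 : ℝ) • K - Y x) + ((2 : ℝ) • K - Y x) * K) +
          ((2 : ℝ) • K - Y x) * ((2 : ℝ) • K - Y x) := by
      rw [(F.hq h1 x hx).2]
      simp only [two_smul, Matrix.mul_add, Matrix.add_mul, Matrix.mul_sub, Matrix.sub_mul]
      abel
    have h3 : (((2 : ℝ) • K - Y x) * ((2 : ℝ) • K - Y x)) *ᵥ v = ((m ^ 2 : ℝ) : ℂ) • v := by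
      rw [← mulVec_mulVec, he, mulVec_smul, he, smul_smul]
      congr 1
      push_cast
      ring
    have h5 := F.hVl x hx v hv
    have h6 := qf_nonneg F.hK v
    have h8 := F.hδ
    rw [h2, qf_add, qf_sub, qf_anticomm_eigen (hH x hx) he, qf_of_eigen h3, hv]
    nlinarith [mul_nonneg hm.le h6, sq_nonneg m]

end Vale.Agent.P371.G.TopB
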