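import Vale.Agent.P371.G.TopC

/-!
# M8, part D: conclusion
-/

open Matrix Set
open scoped ComplexOrder
open P371Mat

namespace Vale.Agent.P371.G.TopB

variable {N : ℕ}

theorem psd_smul_one {c : ℝ} (hc : 0 ≤ c) : ((c : ℂ) • (1 : Mat N)).PosSemidef := by
  have h1 : ((c : ℂ) • (1 : Mat N)) = c • (1 : Mat N) := by
    ext i j
    simp
  rw [h1]
  refine psd_of_qf_unit (isHermitian_smul_one c) fun v hv => ?_
  rw [qf_smul, qf_one, hv, mul_one]
  exact hc

theorem box2_pd {a b : ℝ} (ha : 0 < a) {E : Mat N} (h : E ∈ box2 N a b) : E.PosDef := by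
  have h1 : (((a : ℝ) : ℂ) • (1 : Mat N)).PosDef := by
    refine PosDef.smul PosDef.one ?_
    exact_mod_cast ha
  have h2 := h1.add_posSemidef h.2.1
  rwa [add_sub_cancel] at h2

/-- the square root of `E ∈ box2 a R²` -/
theorem sqrt_box {a R : ℝ} (ha : 0 < a) (hR : 0 < R) {E : Mat N} (h : E ∈ box2 N a (R ^ 2)) :
    (cfc Real.sqrt E).PosDef ∧ cfc Real.sqrt E * cfc Real.sqrt E = E ∧
      ∀ v, nsq v = 1 → qf (cfc Real.sqrt E) v ≤ R := by
  have he := box2_eig h
  have hsq : cfc Real.sqrt E * cfc Real.sqrt E = E := by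
    rw [cfc_mul_cfc h.1]
    exact cfc_eq_self h.1 fun i => Real.mul_self_sqrt (ha.le.trans (he i).1)
  refine ⟨?_, hsq, ?_⟩
  · have h1 : (((√a : ℝ) : ℂ) • (1 : Mat N)).PosDef := by
      refine PosDef.smul PosDef.one ?_
      exact_mod_cast Real.sqrt_pos.2 ha
    have h2 : (cfc Real.sqrt E - ((√a : ℝ) : ℂ) • (1 : Mat N)).PosSemidef := by
      have h3 : (((√a : ℝ) : ℂ) • (1 : Mat N)) = √a • (1 : Mat N) := by
        ext i j
        simp
      rw [h3]
      refine psd_of_qf_unit ((isHermitian_cfc h.1 _).sub (isHermitian_smul_one _)) fun v hv => ?_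
      have h4 := le_qf_cfc h.1 (f := Real.sqrt) (α := √a) (β := 0)
        (fun i => by rw [zero_mul, add_zero]; exact Real.sqrt_le_sqrt (he i).1) v
      rw [qf_sub, qf_smul, qf_one, hv]
      rw [hv] at h4
      linarith
    have h5 := h1.add_posSemidef h2
    rwa [add_sub_cancel] at h5
  · intro v hv
    have h4 := qf_cfc_le h.1 (f := Real.sqrt) (α := R) (β := 0)
      (fun i => by
        rw [zero_mul, add_zero]
        exact (Real.sqrt_le_sqrt (he i).2).trans_eq (Real.sqrt_sq hR.le)) v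
    rw [hv] at h4
    linarith

/-- **M8.** -/
theorem top2Fact : OdeFact → Top2Fact := by
  intro hode N x₀ x₁ ω δ hx hδ Wf hWc hWb
  have hℓ : 0 < x₁ - x₀ := sub_pos.2 hx
  -- the parameters
  obtain ⟨k, hk0, hk1, hk2⟩ : ∃ k : ℝ, 0 < k ∧ k ≤ 1 ∧
      2 * k + (k ^ 2 - δ) * (x₁ - x₀) < 0 := by
    refine ⟨min 1 (δ * (x₁ - x₀) / (2 * (2 + (x₁ - x₀)))), lt_min one_pos (by positivity),
      min_le_left _ _, ?_⟩
    set k := min 1 (δ * (x₁ - x₀) / (2 * (2 + (x₁ - x₀)))) with hk
    have h0 : 0 < k := lt_min one_pos (by positivity)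
    have h1 : k ≤ 1 := min_le_left _ _
    have h2 : k ≤ δ * (x₁ - x₀) / (2 * (2 + (x₁ - x₀))) := min_le_right _ _
    rw [le_div_iff₀ (by positivity)] at h2
    have h3 : k ^ 2 ≤ k := by nlinarith
    have h4 : k ^ 2 * (x₁ - x₀) ≤ k * (x₁ - x₀) := mul_le_mul_of_nonneg_right h3 hℓ.le
    have h5 : 0 < δ * (x₁ - x₀) := by positivity
    nlinarith
  obtain ⟨R, hR2, hRω⟩ : ∃ R : ℝ, 2 ≤ R ∧ (ω + δ) * (x₁ - x₀) ≤ 2 * R :=
    ⟨max 2 ((ω + δ) * (x₁ - x₀)), le_max_left _ _, by
      have h1 := le_max_left 2 ((ω + δ) * (x₁ - x₀))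
      have h2 := le_max_right 2 ((ω + δ) * (x₁ - x₀))
      linarith⟩
  have hR : 0 < R := by linarith
  have hkR : k ≤ R := by linarith
  set a := k ^ 2 with ha
  have ha0 : 0 < a := by positivity
  have haR : a < R ^ 2 := by nlinarith
  -- the flow
  set V : Mat N → ℝ → Mat N := fun E x => Wf E x + (δ : ℂ) • 1 with hV
  have hsub : box2 N a (R ^ 2) ⊆ {E | E.PosDef} := fun E hE => box2_pd ha0 hE
  obtain ⟨Y, hY, hYc⟩ := hode N x₀ x₁ a R hx ha0 haR hR V
    ((hWc.mono (Set.prod_mono hsub subset_rfl)).add continuousOn_const)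
    (fun E hE x hx' => ((hWb E (hsub hE) x hx').1.1).add (psd_smul_one hδ.le).1)
  -- the fixed point
  obtain ⟨E, hE, hfix⟩ := exists_fixed haR.le ha0.le (fun E => Y E x₁) hYc
  have hEpd : E.PosDef := hsub hE
  obtain ⟨hY0, hYh, hYd⟩ := hY E hE
  obtain ⟨hKpd, hKK, hKR⟩ := sqrt_box ha0 hR hE
  set K := cfc Real.sqrt E with hK
  have hsm : ∀ c : ℝ, ((c : ℂ) • (1 : Mat N)) = c • (1 : Mat N) := fun c => by
    ext i j
    simp
  have F : Flow x₀ x₁ R δ (ω + δ) K (V E) (Y E) :=
    { hx := hx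
      hR := hR
      hK := hKpd.posSemidef
      hKR := hKR
      hVl := fun x hx' v hv => by
        have h1 := qf_nonneg (hWb E hEpd x hx').1 v
        simp only [hV]
        rw [qf_add, hsm, qf_smul, qf_one, hv]
        linarith
      hVu := fun x hx' v hv => by
        have h1 := qf_nonneg (hWb E hEpd x hx').2 v
        rw [qf_sub, hsm, qf_smul, qf_one, hv] at h1
        simp only [hV]
        rw [qf_add, hsm, qf_smul, qf_one, hv]
        linarith
      hδ := hδ
      h0 := by
        rw [hY0]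
        ext i j
        simp
      hY := hYh
      hd := fun x hx' i j => hYd x hx' i j }
  -- the spectral decomposition of `E - Y₁`
  have hFh : (E - Y E x₁).IsHermitian := hE.1.sub (hYh x₁ F.right)
  set FF := E - Y E x₁ with hFF
  have hEc : cfc (clip a (R ^ 2)) FF = E := by
    have := hfix
    simp only [pr] at this
    rwa [hm_self hFh] at this
  have hEu : ∀ i, E *ᵥ ev hFh i = ((clip a (R ^ 2) (hFh.eigenvalues i) : ℝ) : ℂ) • ev hFh i := by
    intro i
    conv_lhs => rw [← hEc]
    exact cfc_ev hFh _ i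
  have hKu : ∀ i, K *ᵥ ev hFh i =
      ((√(clip a (R ^ 2) (hFh.eigenvalues i)) : ℝ) : ℂ) • ev hFh i := fun i =>
    cfc_mulVec_eigen hE.1 Real.sqrt (hEu i)
  have hYu : ∀ i, Y E x₁ *ᵥ ev hFh i =
      ((clip a (R ^ 2) (hFh.eigenvalues i) - hFh.eigenvalues i : ℝ) : ℂ) • ev hFh i := by
    intro i
    have h1 : Y E x₁ = E - FF := by rw [hFF]; abel
    rw [h1, sub_mulVec, hEu, self_ev hFh i, ← sub_smul]
    push_cast
    rfl
  -- lower bound of the eigenvalues
  have hlow : ∀ i, a ≤ hFh.eigenvalues i := by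
    intro i
    by_contra hcon
    push Not at hcon
    have h1 := hKu i
    have h2 := hYu i
    rw [clip_lt haR.le hcon.le] at h1 h2
    rw [ha, Real.sqrt_sq hk0.le] at h1
    have h3 := F.small (nsq_ev hFh i) h1 hk0.le hkR hk2
    rw [qf_of_eigen h2, nsq_ev hFh i, mul_one] at h3
    linarith
  -- upper bound of the eigenvalues
  have hup : ∀ i, hFh.eigenvalues i ≤ R ^ 2 := by
    intro i
    by_contra hcon
    push Not at hcon
    obtain ⟨i₀, hi₀⟩ : ∃ i₀, ∀ j, hFh.eigenvalues j ≤ hFh.eigenvalues i₀ := by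
      have : Nonempty (Fin N) := ⟨i⟩
      exact Finite.exists_max _
    have hbig : R ^ 2 < hFh.eigenvalues i₀ := lt_of_lt_of_le hcon (hi₀ i)
    set β := hFh.eigenvalues i₀ - R ^ 2 with hβ
    have hβ0 : 0 < β := sub_pos.2 hbig
    set ind : ℝ → ℝ := fun t => if R ^ 2 ≤ t then 1 else 0 with hind
    set P := cfc ind FF with hP
    have hPu : ∀ i, P *ᵥ ev hFh i = ((ind (hFh.eigenvalues i) : ℝ) : ℂ) • ev hFh i := cfc_ev hFh _
    have hind0 : ∀ t, 0 ≤ ind t := fun t => by
      simp only [hind]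
      split_ifs <;> norm_num
    have hind1 : ∀ t, ind t ≤ 1 := fun t => by
      simp only [hind]
      split_ifs <;> norm_num
    have hPpsd : P.PosSemidef := psd_cfc hFh fun i => hind0 _
    have hP1 : ∀ v, nsq v = 1 → qf P v ≤ 1 := fun v hv => by
      have := qf_cfc_le hFh (f := ind) (α := 1) (β := 0)
        (fun i => by rw [zero_mul, add_zero]; exact hind1 _) v
      rw [hv] at this
      rw [hP]
      linarith
    have hkey : ∀ t, ((√(clip a (R ^ 2) t) : ℝ) : ℂ) * ((ind t : ℝ) : ℂ) =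
        (R : ℂ) * ((ind t : ℝ) : ℂ) := by
      intro t
      simp only [hind]
      split_ifs with ht
      · rw [clip_gt ht, Real.sqrt_sq hR.le]
      · simp
    have hKP : K * P = R • P := by
      refine ext_ev hFh fun i => ?_
      rw [← mulVec_mulVec, hPu, mulVec_smul, hKu, smul_mulVec, hPu, smul_smul, mul_comm, hkey]
      ext j
      simp only [Pi.smul_apply, smul_eq_mul, Complex.real_smul]
      ring
    have hPK : P * K = R • P := by
      refine ext_ev hFh fun i => ?_
      rw [← mulVec_mulVec, hKu, mulVec_smul, hPu, smul_mulVec, hPu, smul_smul, hkey]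
      ext j
      simp only [Pi.smul_apply, smul_eq_mul, Complex.real_smul]
      ring
    have hYP : (Y E x₁ + β • P).PosSemidef := by
      have h1 : Y E x₁ + β • P =
          cfc (fun t => clip a (R ^ 2) t - t + β * ind t) FF := by
        refine ext_ev hFh fun i => ?_
        rw [cfc_ev hFh, add_mulVec, hYu, smul_mulVec, hPu]
        ext j
        simp only [Pi.add_apply, Pi.smul_apply, smul_eq_mul, Complex.real_smul]
        push_cast
        ring
      rw [h1]
      refine psd_cfc hFh fun i => ?_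
      simp only [hind]
      split_ifs with ht
      · rw [clip_gt ht]
        have := hi₀ i
        linarith
      · rw [clip_self (hlow i) (not_le.1 ht).le]
        simp
    have hKu0 : K *ᵥ ev hFh i₀ = (R : ℂ) • ev hFh i₀ := by
      have := hKu i₀
      rwa [clip_gt hbig.le, Real.sqrt_sq hR.le] at this
    have hq : qf (Y E x₁) (ev hFh i₀) = -β := by
      rw [qf_of_eigen (hYu i₀), nsq_ev hFh i₀, mul_one, clip_gt hbig.le, hβ]
      ring
    exact F.top hPpsd hP1 hβ0 hKP hPK hYP (nsq_ev hFh i₀) hKu0 hRω hq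
  -- hence `Y₁ = 0`
  have hY1 : Y E x₁ = 0 := by
    refine ext_ev hFh fun i => ?_
    rw [hYu i, clip_self (hlow i) (hup i), sub_self, zero_mulVec]
    simp
  refine ⟨K, fun x => Y E x - K, ?_⟩
  rw [hKK]
  exact
    { le := hx.le
      posDef := hKpd
      herm := fun x hx' => (hYh x hx').sub hKpd.1
      deriv := fun x hx' i j => by
        have h1 := (hYd x hx' i j).sub (hasDerivWithinAt_const x (Icc x₀ x₁) (K i j))
        have h2 : (K * K - (Y E x - K) * (Y E x - K) - (Wf E x + (δ : ℂ) • 1)) =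
            -V E x + K * Y E x + Y E x * K - Hq R (Y E x) := by
          rw [(F.hq hY1 x hx').2]
          simp only [hV, Matrix.mul_sub, Matrix.sub_mul]
          abel
        rw [h2]
        rw [sub_zero] at h1
        exact h1
      left := by
        rw [F.h0, two_smul]
        abel
      right := by
        rw [hY1, zero_sub]
      lower := fun x hx' => by
        have h1 : K + (Y E x - K) = Y E x := by abel
        rw [h1]
        exact (F.hq hY1 x hx').1
      upper := fun x hx' => by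
        have h1 : K - (Y E x - K) = (2 : ℝ) • K - Y E x := by
          rw [two_smul]
          abel
        rw [h1]
        exact F.le2K hY1 x hx' }

end Vale.Agent.P371.G.TopB
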