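import Vale.Agent.P371.G.OdeF

/-!
# Pieces of the topological step: bounds for the cut-off Riccati flow
-/

open Matrix Set Filter Topology
open scoped ComplexOrder

namespace Vale.Agent.P371.G

open P371Mat

variable {N : ℕ}

/-- a path of the cut-off flow -/
structure Flow {N : ℕ} (x₀ x₁ R b : ℝ) (S : Mat N) (V Y : ℝ → Mat N) : Prop where
  lt : x₀ < x₁
  R0 : 0 < R
  sH : S.IsHermitian
  s0 : ∀ v, 0 ≤ qf S v
  sR : ∀ v, qf S v ≤ R * nsq v
  yH : ∀ x ∈ Icc x₀ x₁, (Y x).IsHermitian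
  deriv : ∀ x ∈ Icc x₀ x₁, MDer Y (-V x + S * Y x + Y x * S - Hq R (Y x)) (Icc x₀ x₁) x
  left : Y x₀ = (2 : ℂ) • S
  vH : ∀ x ∈ Icc x₀ x₁, (V x).IsHermitian
  v0 : ∀ x ∈ Icc x₀ x₁, ∀ v, 0 ≤ qf (V x) v
  vb : ∀ x ∈ Icc x₀ x₁, ∀ v, qf (V x) v ≤ b * nsq v

namespace Flow

variable {x₀ x₁ R b : ℝ} {S : Mat N} {V Y : ℝ → Mat N}

lemma qf_csmul (r : ℝ) (A : Mat N) (v : Fin N → ℂ) : qf (((r : ℝ) : ℂ) • A) v = r * qf A v := by
  have : ((r : ℝ) : ℂ) • A = r • A := by
    ext i j; simp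
  rw [this, qf_smul]

lemma herm_csmul (r : ℝ) {A : Mat N} (hA : A.IsHermitian) : (((r : ℝ) : ℂ) • A).IsHermitian := by
  rw [Matrix.IsHermitian, conjTranspose_smul, hA.eq]
  simp

lemma eigen_neg {A B : Mat N} {v : Fin N → ℂ} {m r : ℝ}
    (h : (A - B) *ᵥ v = ((-m : ℝ) : ℂ) • v) (hA : A *ᵥ v = (r : ℂ) • v) :
    B *ᵥ v = ((r + m : ℝ) : ℂ) • v := by
  rw [sub_mulVec, hA] at h
  have h1 : B *ᵥ v = (r : ℂ) • v - ((-m : ℝ) : ℂ) • v := by rw [← h]; abel
  rw [h1, ← sub_smul]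
  congr 1
  push_cast; ring

lemma one_eigen (r : ℝ) (v : Fin N → ℂ) : (((r : ℝ) : ℂ) • (1 : Mat N)) *ᵥ v = (r : ℂ) • v := by
  rw [smul_mulVec, one_mulVec]

/-- (U) upper bound `Y ≤ 2R`. -/
lemma upper (h : Flow x₀ x₁ R b S V Y) :
    ∀ x ∈ Icc x₀ x₁, ((((2 * R : ℝ) : ℝ) : ℂ) • (1 : Mat N) - Y x).PosSemidef := by
  have h1H : ((((2 * R : ℝ) : ℝ) : ℂ) • (1 : Mat N)).IsHermitian := herm_csmul _ isHermitian_one
  refine psd_forward (fun x => (((2 * R : ℝ) : ℝ) : ℂ) • (1 : Mat N) - Y x)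
    (fun x => 0 - (-V x + S * Y x + Y x * S - Hq R (Y x)))
    (fun x hx => (MDer.const _ _ _).sub (h.deriv x hx)) (fun x hx => h1H.sub (h.yH x hx)) 0 ?_ ?_
  · refine psd_of_qf (h1H.sub (h.yH x₀ (left_mem_Icc.2 h.lt.le))) fun v => ?_
    have e : qf ((2 : ℂ) • S) v = 2 * qf S v := by
      have := qf_csmul 2 S v
      push_cast at this
      exact this
    rw [qf_sub, qf_csmul, qf_one, h.left, e]
    have := h.sR v
    linarith
  · intro x hx m hm v hv he
    have hYv : Y x *ᵥ v = ((2 * R + m : ℝ) : ℂ) • v := eigen_neg he (one_eigen _ v)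
    have hq : Hq R (Y x) *ᵥ v = (((2 * R + m) * (2 * R) : ℝ) : ℂ) • v := by
      have := cfc_mulVec_eigen (h.yH x hx) (fun t : ℝ => max t 0 * min (max t 0) (2 * R)) hYv
      have e : max (2 * R + m) 0 * min (max (2 * R + m) 0) (2 * R) = (2 * R + m) * (2 * R) := by
        have := h.R0
        rw [max_eq_left (by linarith), min_eq_right (by linarith)]
      rw [e] at this
      exact this
    have h3 : qf (S * Y x + Y x * S) v = 2 * (2 * R + m) * qf S v :=
      qf_anticomm_eigen (h.yH x hx) hYv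
    rw [zero_sub, qf_neg, qf_sub, add_assoc, qf_add, qf_neg, h3, qf_of_eigen hq, hv]
    have h4 := h.sR v
    have h5 := h.v0 x hx v
    have h6 := h.s0 v
    rw [hv] at h4
    have h7 := h.R0
    nlinarith

/-- eigenvalues of `Y` are at most `2R` -/
lemma eig_upper (h : Flow x₀ x₁ R b S V Y) {x : ℝ} (hx : x ∈ Icc x₀ x₁) (i : Fin N) :
    (h.yH x hx).eigenvalues i ≤ 2 * R := by
  refine eig_le (h.yH x hx) (fun v hv => ?_) i
  have := qf_nonneg (h.upper x hx) v
  rw [qf_sub, qf_csmul, qf_one, hv] at this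
  linarith

lemma Hq_psd (h : Flow x₀ x₁ R b S V Y) {x : ℝ} (hx : x ∈ Icc x₀ x₁) :
    (Hq R (Y x)).PosSemidef := by
  refine psd_cfc (h.yH x hx) fun i => ?_
  have := h.R0
  exact mul_nonneg (le_max_right _ _) (le_min (le_max_right _ _) (by linarith))

/-- backward barrier: if `Y x₁ + β P ≥ 0` with `S P = R P`, then
`Y x + β e^{-2R(x₁-x)} P ≥ 0`. -/
lemma lower (h : Flow x₀ x₁ R b S V Y) {P : Mat N} (hP : P.IsHermitian)
    (hSP : S * P = ((R : ℝ) : ℂ) • P) {β : ℝ} (hβ : (Y x₁ + ((β : ℝ) : ℂ) • P).PosSemidef) :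
    ∀ x ∈ Icc x₀ x₁, (Y x + ((β * Real.exp (-(2 * R) * (x₁ - x)) : ℝ) : ℂ) • P).PosSemidef := by
  have hPS : P * S = ((R : ℝ) : ℂ) • P := by
    have := congrArg conjTranspose hSP
    rw [conjTranspose_mul, conjTranspose_smul, hP.eq, h.sH.eq] at this
    simpa using this
  have hder : ∀ x, HasDerivWithinAt (fun x => β * Real.exp (-(2 * R) * (x₁ - x)))
      (2 * R * (β * Real.exp (-(2 * R) * (x₁ - x)))) (Icc x₀ x₁) x := by
    intro x
    have h1 : HasDerivAt (fun x => -(2 * R) * (x₁ - x)) (2 * R) x := by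
      have := ((hasDerivAt_id x).const_sub x₁).const_mul (-(2 * R))
      simpa using this
    have h2 := (h1.exp).const_mul β
    have e : β * (Real.exp (-(2 * R) * (x₁ - x)) * (2 * R))
      = 2 * R * (β * Real.exp (-(2 * R) * (x₁ - x))) := by ring
    rw [e] at h2
    exact h2.hasDerivWithinAt
  have hcoe : ∀ r : ℝ, ((r : ℝ) : ℂ) • P = r • P := by
    intro r; ext i j; simp
  refine psd_backward (fun x => Y x + ((β * Real.exp (-(2 * R) * (x₁ - x)) : ℝ) : ℂ) • P)
    (fun x => (-V x + S * Y x + Y x * S - Hq R (Y x)) +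
      ((2 * R * (β * Real.exp (-(2 * R) * (x₁ - x))) : ℝ)) • P)
    (fun x hx => ?_) (fun x hx => (h.yH x hx).add (herm_csmul _ hP)) 0 ?_ ?_
  · simp only [hcoe]
    exact (h.deriv x hx).add (MDer.smul_const (hder x) P)
  · simpa using hβ
  · intro x hx m hm v hv he
    set ℓ : ℝ := β * Real.exp (-(2 * R) * (x₁ - x)) with hℓ
    have hYD : Y x = (Y x + ((ℓ : ℝ) : ℂ) • P) - ((ℓ : ℝ) : ℂ) • P := by abel
    have e1 : S * Y x + Y x * S = (S * (Y x + ((ℓ : ℝ) : ℂ) • P) +
        (Y x + ((ℓ : ℝ) : ℂ) • P) * S) - ((2 * R * ℓ : ℝ)) • P := by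
      rw [Matrix.mul_add, Matrix.add_mul, Matrix.mul_smul, Matrix.smul_mul, hSP, hPS, ← hcoe]
      rw [smul_smul]
      have : ((ℓ : ℝ) : ℂ) * ((R : ℝ) : ℂ) = ((ℓ * R : ℝ) : ℂ) := by push_cast; ring
      rw [this]
      have e3 : ((2 * R * ℓ : ℝ) : ℂ) • P = ((ℓ * R : ℝ) : ℂ) • P + ((ℓ * R : ℝ) : ℂ) • P := by
        rw [← add_smul]; congr 1; push_cast; ring
      rw [e3]
      abel
    have h3 : qf (S * (Y x + ((ℓ : ℝ) : ℂ) • P) + (Y x + ((ℓ : ℝ) : ℂ) • P) * S) v
        = 2 * (-m) * qf S v :=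
      qf_anticomm_eigen ((h.yH x hx).add (herm_csmul _ hP)) he
    rw [qf_add, qf_sub, add_assoc, qf_add, qf_neg, e1, qf_sub, h3]
    have h4 := h.v0 x hx v
    have h5 := h.s0 v
    have h6 := qf_nonneg (h.Hq_psd hx) v
    have h7 := h.R0
    nlinarith

/-- derivative of the quadratic form -/
lemma qf_deriv (h : Flow x₀ x₁ R b S V Y) {x : ℝ} (hx : x ∈ Icc x₀ x₁) (v : Fin N → ℂ) :
    HasDerivWithinAt (fun x => qf (Y x) v)
      (-qf (V x) v + qf (S * Y x + Y x * S) v - qf (Hq R (Y x)) v) (Icc x₀ x₁) x := by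
  have := hasDerivWithinAt_qf (h.deriv x hx) v
  rw [qf_sub, add_assoc, qf_add, qf_neg] at this
  exact this

/-- comparison for scalar functions -/
lemma scalar_le {g g' f f' : ℝ → ℝ} {a b : ℝ} (hab : a ≤ b)
    (hg : ∀ x ∈ Icc a b, HasDerivWithinAt g (g' x) (Icc a b) x)
    (hf : ∀ x ∈ Icc a b, HasDerivWithinAt f (f' x) (Icc a b) x)
    (hle : ∀ x ∈ Icc a b, g' x ≤ f' x) : g b - g a ≤ f b - f a := by
  have hanti : AntitoneOn (fun x => g x - f x) (Icc a b) := by
    apply antitoneOn_of_hasDerivWithinAt_nonpos (convex_Icc a b)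
      (f' := fun x => g' x - f' x)
    · intro x hx
      exact ((hg x hx).sub (hf x hx)).continuousWithinAt
    · intro x hx
      have hx' : x ∈ Icc a b := interior_subset hx
      exact ((hg x hx').sub (hf x hx')).mono interior_subset
    · intro x hx
      have := hle x (interior_subset hx)
      linarith
  have := hanti (left_mem_Icc.2 hab) (right_mem_Icc.2 hab) hab
  simp only at this
  linarith

/-- (A) the bottom side. -/
lemma sideA (h : Flow x₀ x₁ R b S V Y) {k δ : ℝ} {v : Fin N → ℂ} (hv : nsq v = 1)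
    (hk : 0 ≤ k) (hSv : S *ᵥ v = ((k : ℝ) : ℂ) • v)
    (hδ : ∀ x ∈ Icc x₀ x₁, δ ≤ qf (V x) v) :
    qf (Y x₁) v ≤ 2 * k + (k ^ 2 - δ) * (x₁ - x₀) := by
  have h1 := scalar_le h.lt.le (fun x hx => h.qf_deriv hx v)
    (f := fun x => (k ^ 2 - δ) * x) (f' := fun _ => k ^ 2 - δ)
    (fun x _ => by simpa using ((hasDerivAt_id x).const_mul (k ^ 2 - δ)).hasDerivWithinAt) ?_
  · have h2 : qf (Y x₀) v = 2 * k := by
      rw [h.left]
      have e : qf ((2 : ℂ) • S) v = 2 * qf S v := by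
        have := qf_csmul 2 S v
        push_cast at this
        exact this
      rw [e, qf_of_eigen hSv, hv]
      ring
    rw [h2] at h1
    linarith
  · intro x hx
    have h3 : qf (Y x * S + S * Y x) v = 2 * k * qf (Y x) v := qf_anticomm_eigen h.sH hSv
    rw [add_comm] at h3
    rw [h3]
    have h4 := hδ x hx
    have h5 := le_qf_cfc (h.yH x hx) (f := fun t : ℝ => max t 0 * min (max t 0) (2 * R))
      (α := -k ^ 2) (β := 2 * k) (fun i => by
        have h6 := h.eig_upper hx i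
        generalize (h.yH x hx).eigenvalues i = t at *
        have hR := h.R0
        rcases le_total t 0 with h7 | h7
        · rw [max_eq_right h7, zero_mul]
          nlinarith
        · rw [max_eq_left h7, min_eq_left h6]
          nlinarith [sq_nonneg (t - k)]) v
    rw [hv] at h5
    have h6 : qf (Hq R (Y x)) v = qf (cfc (fun t : ℝ => max t 0 * min (max t 0) (2 * R)) (Y x)) v :=
      rfl
    rw [h6]
    linarith

/-- (B) the top side. -/
lemma sideB (h : Flow x₀ x₁ R b S V Y) {P : Mat N} (hP : P.IsHermitian)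
    (hP1 : ∀ w, qf P w ≤ nsq w)
    (hSP : S * P = ((R : ℝ) : ℂ) • P) {β : ℝ} (hβ0 : 0 ≤ β)
    (hβ : (Y x₁ + ((β : ℝ) : ℂ) • P).PosSemidef) {v : Fin N → ℂ} (hv : nsq v = 1)
    (hSv : S *ᵥ v = ((R : ℝ) : ℂ) • v) (hYv : qf (Y x₁) v = -β)
    (hb : b * (x₁ - x₀) ≤ 2 * R) : β = 0 := by
  have hlow := h.lower hP hSP hβ
  have hder : ∀ x ∈ Icc x₀ x₁, HasDerivWithinAt (fun x => -b * x - β * Real.exp (-(2 * R) * (x₁ - x)))
      (-b - 2 * R * (β * Real.exp (-(2 * R) * (x₁ - x)))) (Icc x₀ x₁) x := by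
    intro x _
    have h1 : HasDerivAt (fun x => -(2 * R) * (x₁ - x)) (2 * R) x := by
      have := ((hasDerivAt_id x).const_sub x₁).const_mul (-(2 * R))
      simpa using this
    have h2 := (h1.exp).const_mul β
    have h3 : HasDerivAt (fun x : ℝ => -b * x) (-b) x := by
      simpa using (hasDerivAt_id x).const_mul (-b)
    have h4 := h3.sub h2
    have e : β * (Real.exp (-(2 * R) * (x₁ - x)) * (2 * R))
      = 2 * R * (β * Real.exp (-(2 * R) * (x₁ - x))) := by ring
    rw [e] at h4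
    exact h4.hasDerivWithinAt
  have h1 := scalar_le h.lt.le hder (fun x hx => h.qf_deriv hx v) ?_
  · have h2 : qf (Y x₀) v = 2 * R := by
      rw [h.left]
      have e : qf ((2 : ℂ) • S) v = 2 * qf S v := by
        have := qf_csmul 2 S v
        push_cast at this
        exact this
      rw [e, qf_of_eigen hSv, hv]
      ring
    rw [h2, hYv, sub_self, mul_zero, Real.exp_zero, mul_one] at h1
    have h3 : 0 < Real.exp (-(2 * R) * (x₁ - x₀)) := Real.exp_pos _
    by_contra hne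
    have h4 : 0 < β := lt_of_le_of_ne hβ0 (Ne.symm hne)
    have h5 : 0 < β * Real.exp (-(2 * R) * (x₁ - x₀)) := mul_pos h4 h3
    linarith
  · intro x hx
    have h3 : qf (Y x * S + S * Y x) v = 2 * R * qf (Y x) v := qf_anticomm_eigen h.sH hSv
    rw [add_comm] at h3
    rw [h3]
    have h4 := h.vb x hx v
    rw [hv, mul_one] at h4
    set ℓ : ℝ := β * Real.exp (-(2 * R) * (x₁ - x)) with hℓ
    have hℓ0 : 0 ≤ ℓ := by positivity
    have hR := h.R0
    have h5 := qf_cfc_le (h.yH x hx) (f := fun t : ℝ => max t 0 * min (max t 0) (2 * R))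
      (α := 2 * R * ℓ) (β := 2 * R) (fun i => by
        have h6 : -ℓ ≤ (h.yH x hx).eigenvalues i := by
          refine le_eig (h.yH x hx) (fun w hw => ?_) i
          have h7 := qf_nonneg (hlow x hx) w
          rw [qf_add, qf_csmul] at h7
          have h8 := hP1 w
          rw [hw] at h8
          nlinarith
        generalize (h.yH x hx).eigenvalues i = t at *
        have h9 : min (max t 0) (2 * R) ≤ 2 * R := min_le_right _ _
        have h10 : 0 ≤ max t 0 := le_max_right _ _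
        have h11 : max t 0 ≤ t + ℓ := max_le (by linarith) (by linarith)
        calc max t 0 * min (max t 0) (2 * R) ≤ max t 0 * (2 * R) :=
              mul_le_mul_of_nonneg_left h9 h10
          _ ≤ (t + ℓ) * (2 * R) := mul_le_mul_of_nonneg_right h11 (by linarith)
          _ = 2 * R * ℓ + 2 * R * t := by ring) v
    rw [hv, mul_one] at h5
    have h6 : qf (Hq R (Y x)) v = qf (cfc (fun t : ℝ => max t 0 * min (max t 0) (2 * R)) (Y x)) v :=
      rfl
    rw [h6]
    linarith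

lemma nonneg (h : Flow x₀ x₁ R b S V Y) (h1 : Y x₁ = 0) :
    ∀ x ∈ Icc x₀ x₁, (Y x).PosSemidef := by
  intro x hx
  have := h.lower (P := 0) isHermitian_zero (by simp) (β := 0)
    (by rw [h1]; simpa using PosSemidef.zero) x hx
  simpa using this

lemma Hq_eq (h : Flow x₀ x₁ R b S V Y) (h1 : Y x₁ = 0) {x : ℝ} (hx : x ∈ Icc x₀ x₁) :
    Hq R (Y x) = Y x * Y x := by
  have hH := h.yH x hx
  have h2 : Y x = cfc (fun t : ℝ => t) (Y x) := (cfc_eq_self hH fun i => rfl).symm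
  conv_rhs => rw [h2]
  rw [cfc_mul_cfc hH, Hq]
  refine cfc_congr_eig hH fun i => ?_
  have h3 := h.eig_upper hx i
  have h4 : 0 ≤ hH.eigenvalues i := le_eig hH (fun v _ => qf_nonneg (h.nonneg h1 x hx) v) i
  rw [max_eq_left h4, min_eq_left h3]

lemma le_two (h : Flow x₀ x₁ R b S V Y) (h1 : Y x₁ = 0) :
    ∀ x ∈ Icc x₀ x₁, ((2 : ℂ) • S - Y x).PosSemidef := by
  have h2H : ((2 : ℂ) • S).IsHermitian := by
    have := herm_csmul 2 h.sH
    push_cast at this
    exact this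
  refine psd_forward (fun x => (2 : ℂ) • S - Y x)
    (fun x => 0 - (-V x + S * Y x + Y x * S - Hq R (Y x)))
    (fun x hx => (MDer.const _ _ _).sub (h.deriv x hx)) (fun x hx => h2H.sub (h.yH x hx)) 0 ?_ ?_
  · simp only [h.left, sub_self]
    exact PosSemidef.zero
  · intro x hx m hm v hv he
    have h3 : qf (Y x * ((2 : ℂ) • S - Y x) + ((2 : ℂ) • S - Y x) * Y x) v
        = 2 * (-m) * qf (Y x) v := qf_anticomm_eigen (h2H.sub (h.yH x hx)) he
    have h4 : Y x * ((2 : ℂ) • S - Y x) + ((2 : ℂ) • S - Y x) * Y x =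
        (2 : ℝ) • (S * Y x + Y x * S) - (2 : ℝ) • (Y x * Y x) := by
      have e : ∀ A : Mat N, (2 : ℂ) • A = (2 : ℝ) • A := fun A => by ext i j; simp
      rw [e, Matrix.mul_sub, Matrix.sub_mul, Matrix.mul_smul, Matrix.smul_mul, smul_add,
        two_smul ℝ (Y x * Y x)]
      abel
    rw [h4, qf_sub, qf_smul, qf_smul] at h3
    rw [zero_sub, qf_neg, qf_sub, add_assoc, qf_add, qf_neg, h.Hq_eq h1 hx]
    have h5 := h.v0 x hx v
    have h6 := qf_nonneg (h.nonneg h1 x hx) v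
    nlinarith

/-- (Z) a zero of the flow gives a Riccati path -/
theorem ric (h : Flow x₀ x₁ R b S V Y) (hS : S.PosDef) (h1 : Y x₁ = 0) :
    Ric x₀ x₁ S V (fun x => Y x - S) where
  le := h.lt.le
  posDef := hS
  herm x hx := (h.yH x hx).sub h.sH
  deriv x hx i j := by
    have h2 := (h.deriv x hx).sub (MDer.const S (Icc x₀ x₁) x) i j
    have e : S * S - (Y x - S) * (Y x - S) - V x
        = (-V x + S * Y x + Y x * S - Hq R (Y x)) - 0 := by
      rw [h.Hq_eq h1 hx, Matrix.mul_sub, Matrix.sub_mul, Matrix.sub_mul]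
      abel
    rw [e]
    exact h2
  left := by
    simp only [h.left, two_smul]
    abel
  right := by simp only [h1, zero_sub]
  lower x hx := by
    have : S + (Y x - S) = Y x := by abel
    rw [this]
    exact h.nonneg h1 x hx
  upper x hx := by
    have : S - (Y x - S) = (2 : ℂ) • S - Y x := by rw [two_smul]; abel
    rw [this]
    exact h.le_two h1 x hx

end Flow

end Vale.Agent.P371.G
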