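import Vale.Agent.P371.G.Iface
import Vale.Agent.Lib.Brouwer

/-! M6: the variational inequality, from Brouwer's fixed point theorem. -/

open Set

namespace Vale.Agent.P371.G

theorem viFact : VIFact := fun _ _ _ hS hc hne hF => BrouwerFP.variational hS hc hne hF

end Vale.Agent.P371.G
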